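import Crest.Agent.GenII1.Compare

/-! Matrix units, the expectation onto their commutant, relative commutants. -/

set_option autoImplicit false
set_option linter.unusedSectionVars false
set_option linter.unusedVariables false
set_option linter.style.haveILetI false

namespace Crest.Agent.GenII1

open Filter Topology

variable {A : Type*} [CStarAlgebra A] [FinVN A]
variable {ι κ : Type*} [Fintype ι] [DecidableEq ι] [Fintype κ] [DecidableEq κ]

section EE
variable {P : StarSubalgebra ℂ A} {e : ι → ι → A}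

theorem MU.mono {P M : StarSubalgebra ℂ A} (h : P ≤ M) (he : MU P e) : MU M e :=
  ⟨fun i j => h (he.mem i j), he.mul, he.st, he.sum⟩

theorem mu_zero_ne_one : (0 : A) ≠ 1 := by
  intro h
  have h1 := (τ_one : τ (1 : A) = 1)
  rw [← h, map_zero] at h1
  exact zero_ne_one h1

theorem MU.nonempty (he : MU P e) : Nonempty ι := by
  by_contra h
  rw [not_nonempty_iff] at h
  have h1 := he.sum
  rw [Finset.univ_eq_empty, Finset.sum_empty] at h1
  exact mu_zero_ne_one h1

theorem MU.card_ne (he : MU P e) : (Fintype.card ι : ℂ) ≠ 0 := by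
  haveI := he.nonempty
  exact Nat.cast_ne_zero.2 Fintype.card_ne_zero

theorem MU.mul_same (he : MU P e) (i j l : ι) : e i j * e j l = e i l := by
  rw [he.mul, if_pos rfl]

theorem MU.mul_ne (he : MU P e) {i j k l : ι} (h : j ≠ k) : e i j * e k l = 0 := by
  rw [he.mul, if_neg h]

theorem MU.τ_diag_eq (he : MU P e) (i j : ι) : τ (e i i) = τ (e j j) := by
  rw [← he.mul_same i j i, τ_comm, he.mul_same]

theorem MU.τ_diag (he : MU P e) (i : ι) : τ (e i i) = (Fintype.card ι : ℂ)⁻¹ := by
  have h1 : ∑ j, τ (e j j) = 1 := by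
    rw [← map_sum, he.sum, τ_one]
  rw [Finset.sum_congr rfl (fun j _ => he.τ_diag_eq j i), Finset.sum_const, Finset.card_univ,
    nsmul_eq_mul] at h1
  exact eq_inv_of_mul_eq_one_right h1

theorem MU.tr_diag (he : MU P e) (i : ι) : tr (e i i) = (Fintype.card ι : ℝ)⁻¹ := by
  rw [tr, he.τ_diag i]
  rw [← Complex.ofReal_natCast, ← Complex.ofReal_inv, Complex.ofReal_re]

theorem MU.proj (he : MU P e) (i : ι) : IsStarProjection (e i i) :=
  ⟨he.mul_same i i i, he.st i i⟩

/-- sub-sums of the diagonal are projections -/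
theorem MU.proj_sum (he : MU P e) (s : Finset ι) : IsStarProjection (∑ i ∈ s, e i i) := by
  refine ⟨?_, ?_⟩
  · rw [IsIdempotentElem, Finset.sum_mul_sum]
    refine Finset.sum_congr rfl (fun i hi => ?_)
    rw [Finset.sum_eq_single i (fun j _ hj => he.mul_ne (Ne.symm hj)) (fun h => (h hi).elim)]
    exact he.mul_same i i i
  · rw [IsSelfAdjoint, star_sum]
    exact Finset.sum_congr rfl (fun i _ => he.st i i)

theorem mu_mul_EE (he : MU P e) (x : A) (i j : ι) :
    e i j * EE e x = ((Fintype.card ι : ℂ)⁻¹) • ∑ l, e i l * x * e l j := by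
  rw [EE, mul_smul_comm, Finset.mul_sum]
  congr 1
  rw [Finset.sum_eq_single j]
  · rw [Finset.mul_sum]
    refine Finset.sum_congr rfl (fun l _ => ?_)
    rw [← mul_assoc, ← mul_assoc, he.mul_same]
  · intro k _ hk
    rw [Finset.mul_sum]
    refine Finset.sum_eq_zero (fun l _ => ?_)
    rw [← mul_assoc, ← mul_assoc, he.mul_ne (Ne.symm hk), zero_mul, zero_mul]
  · intro h; exact (h (Finset.mem_univ _)).elim

theorem mu_EE_mul (he : MU P e) (x : A) (i j : ι) :
    EE e x * e i j = ((Fintype.card ι : ℂ)⁻¹) • ∑ l, e i l * x * e l j := by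
  rw [EE, smul_mul_assoc, Finset.sum_mul]
  congr 1
  rw [Finset.sum_eq_single i]
  · rw [Finset.sum_mul]
    refine Finset.sum_congr rfl (fun l _ => ?_)
    rw [mul_assoc, he.mul_same]
  · intro k _ hk
    rw [Finset.sum_mul]
    refine Finset.sum_eq_zero (fun l _ => ?_)
    rw [mul_assoc, he.mul_ne hk, mul_zero]
  · intro h; exact (h (Finset.mem_univ _)).elim

theorem EE_comm (he : MU P e) (x : A) (i j : ι) : e i j * EE e x = EE e x * e i j := by
  rw [mu_mul_EE he, mu_EE_mul he]

omit [DecidableEq ι] in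
theorem mem_relComm' {P : StarSubalgebra ℂ A} {e : ι → ι → A} (hst : ∀ i j, star (e i j) = e j i)
    {x : A} : x ∈ relComm P e ↔ x ∈ P ∧ ∀ i j, e i j * x = x * e i j := by
  rw [relComm, StarSubalgebra.mem_inf, StarSubalgebra.mem_centralizer_iff]
  constructor
  · rintro ⟨h1, h2⟩
    exact ⟨h1, fun i j => (h2 (e i j) ⟨(i, j), rfl⟩).1⟩
  · rintro ⟨h1, h2⟩
    refine ⟨h1, ?_⟩
    rintro _ ⟨⟨i, j⟩, rfl⟩
    refine ⟨h2 i j, ?_⟩
    simp only [hst]
    exact h2 j i

theorem EE_mem {M : StarSubalgebra ℂ A} (he : MU M e) {x : A} (hx : x ∈ M) :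
    EE e x ∈ relComm M e := by
  rw [mem_relComm' he.st]
  refine ⟨?_, EE_comm he x⟩
  refine M.smul_mem (sum_mem fun i _ => sum_mem fun j _ => ?_) _
  exact mul_mem (mul_mem (he.mem i j) hx) (he.mem j i)

theorem EE_of_comm (he : MU P e) {x : A} (hx : ∀ i j, e i j * x = x * e i j) : EE e x = x := by
  have h1 : ∀ i j, e i j * x * e j i = x * e i i := by
    intro i j
    rw [hx, mul_assoc, he.mul_same]
  rw [EE]
  simp only [h1, Finset.sum_const, Finset.card_univ]
  rw [← Finset.smul_sum, ← Finset.mul_sum, he.sum, mul_one, ← Nat.cast_smul_eq_nsmul ℂ, smul_smul,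
    inv_mul_cancel₀ he.card_ne, one_smul]

theorem τ_EE (he : MU P e) (x : A) : τ (EE e x) = τ x := by
  have h1 : ∀ i j, τ (e i j * x * e j i) = τ (x * e j j) := by
    intro i j
    rw [τ_comm, ← mul_assoc, he.mul_same, τ_comm]
  rw [EE, map_smul, map_sum]
  simp only [map_sum, h1]
  rw [Finset.sum_const, ← map_sum, ← Finset.mul_sum, he.sum, mul_one, Finset.card_univ,
    nsmul_eq_mul, smul_eq_mul, ← mul_assoc, inv_mul_cancel₀ he.card_ne, one_mul]

theorem EE_add (e : ι → ι → A) (x y : A) : EE e (x + y) = EE e x + EE e y := by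
  simp only [EE, mul_add, add_mul, Finset.sum_add_distrib, smul_add]

theorem EE_sub (e : ι → ι → A) (x y : A) : EE e (x - y) = EE e x - EE e y := by
  simp only [EE, mul_sub, sub_mul, Finset.sum_sub_distrib, smul_sub]

theorem EE_smul_one (he : MU P e) (c : ℂ) : EE e (c • (1 : A)) = c • (1 : A) := by
  apply EE_of_comm he
  intro i j
  rw [mul_smul_comm, smul_mul_assoc, mul_one, one_mul]

/-- bimodularity over the commutant of `e` -/
theorem EE_mul_of_comm (he : MU P e) {x : A} (hx : ∀ i j, e i j * x = x * e i j) (y : A) :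
    EE e (x * y) = x * EE e y := by
  rw [EE, EE, mul_smul_comm, Finset.mul_sum]
  congr 1
  refine Finset.sum_congr rfl (fun i _ => ?_)
  rw [Finset.mul_sum]
  refine Finset.sum_congr rfl (fun j _ => ?_)
  rw [← mul_assoc, hx]
  simp only [mul_assoc]

/-- Pythagoras -/
theorem n2_sq_EE (he : MU P e) (x : A) : n2 x ^ 2 = n2 (EE e x) ^ 2 + n2 (x - EE e x) ^ 2 := by
  have hc : ∀ i j, e i j * star (EE e x) = star (EE e x) * e i j := by
    intro i j
    have := congrArg star (EE_comm he x j i)
    rw [star_mul, star_mul, he.st] at this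
    exact this.symm
  have h1 : τ (star (EE e x) * x) = τ (star (EE e x) * EE e x) := by
    rw [← τ_EE he (star (EE e x) * x), EE_mul_of_comm he hc]
  have h2 : inner ℂ (toL2 (EE e x) : L2 A) (toL2 (x - EE e x)) = 0 := by
    rw [inner_toL2, mul_sub, map_sub, h1, sub_self]
  have h3 := norm_add_sq_eq_norm_sq_add_norm_sq_of_inner_eq_zero (𝕜 := ℂ) _ _ h2
  rw [← map_add, add_sub_cancel] at h3
  simp only [n2, sq]
  exact h3

theorem n2_EE_le (he : MU P e) (x : A) : n2 (EE e x) ≤ n2 x := by
  have h := n2_sq_EE he x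
  have h1 := n2_nonneg x
  have h2 := n2_nonneg (EE e x)
  nlinarith [sq_nonneg (n2 (x - EE e x))]

section order
attribute [local instance] CStarAlgebra.spectralOrder CStarAlgebra.spectralOrderedRing

theorem mu_norm_block_le (he : MU P e) (x : A) (j : ι) : ‖∑ i, e i j * x * e j i‖ ≤ ‖x‖ := by
  set y := ∑ i, e i j * x * e j i with hy
  have hs : star y * y = ∑ i, e i j * (star x * e j j * x) * e j i := by
    rw [hy, star_sum, Finset.sum_mul_sum]
    refine Finset.sum_congr rfl (fun i _ => ?_)
    rw [Finset.sum_eq_single i]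
    · rw [star_mul, star_mul, he.st, he.st]
      have : e i j * (star x * e j i) * (e i j * x * e j i)
          = e i j * (star x * (e j i * e i j) * x) * e j i := by
        simp only [mul_assoc]
      rw [this, he.mul_same]
    · intro k _ hk
      rw [star_mul, star_mul, he.st, he.st]
      have : e i j * (star x * e j i) * (e k j * x * e j k)
          = e i j * (star x * (e j i * e k j) * x) * e j k := by
        simp only [mul_assoc]
      rw [this, he.mul_ne (Ne.symm hk), mul_zero, zero_mul, mul_zero, zero_mul]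
    · intro h; exact (h (Finset.mem_univ _)).elim
  have hproj : e j j ≤ 1 := by
    have h := (he.proj j).one_sub
    have h2 : 0 ≤ 1 - e j j := by
      have := star_mul_self_nonneg (1 - e j j)
      rwa [h.isSelfAdjoint.star_eq, h.isIdempotentElem.eq] at this
    exact sub_nonneg.1 h2
  have h1 : star x * e j j * x ≤ algebraMap ℝ A (‖x‖ ^ 2) := by
    have := star_left_conjugate_le_conjugate hproj x
    rw [mul_one] at this
    exact this.trans CStarAlgebra.star_mul_le_algebraMap_norm_sq
  have h2 : star y * y ≤ algebraMap ℝ A (‖x‖ ^ 2) := by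
    rw [hs]
    calc ∑ i, e i j * (star x * e j j * x) * e j i
        ≤ ∑ i, e i j * (algebraMap ℝ A (‖x‖ ^ 2)) * e j i := by
          refine Finset.sum_le_sum (fun i _ => ?_)
          have := star_left_conjugate_le_conjugate h1 (e j i)
          rwa [he.st] at this
      _ = algebraMap ℝ A (‖x‖ ^ 2) := by
          have : ∀ i, e i j * (algebraMap ℝ A (‖x‖ ^ 2)) * e j i
              = (algebraMap ℝ A (‖x‖ ^ 2)) * e i i := by
            intro i
            rw [← Algebra.commutes, mul_assoc, he.mul_same]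
          rw [Finset.sum_congr rfl (fun i _ => this i), ← Finset.mul_sum, he.sum, mul_one]
  have h3 : ‖star y * y‖ ≤ ‖x‖ ^ 2 :=
    (CStarAlgebra.norm_le_iff_le_algebraMap _ (sq_nonneg _) (star_mul_self_nonneg y)).2 h2
  rw [CStarRing.norm_star_mul_self, ← sq] at h3
  exact (abs_le_of_sq_le_sq' h3 (norm_nonneg _)).2

end order

theorem norm_EE_le (he : MU P e) (x : A) : ‖EE e x‖ ≤ ‖x‖ := by
  have hc : (0 : ℝ) < Fintype.card ι := by
    haveI := he.nonempty
    exact_mod_cast Fintype.card_pos
  rw [EE, Finset.sum_comm, norm_smul, norm_inv, Complex.norm_natCast]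
  rw [inv_mul_le_iff₀ hc]
  refine (norm_sum_le _ _).trans ?_
  refine (Finset.sum_le_sum (fun j _ => mu_norm_block_le he x j)).trans ?_
  rw [Finset.sum_const, Finset.card_univ, nsmul_eq_mul]

/-- `τ (e i j * y) = δ_{ij} τ y / n` for `y` commuting with `e`. -/
theorem τ_MU_mul (he : MU P e) {y : A} (hy : ∀ i j, e i j * y = y * e i j) (i j : ι) :
    τ (e i j * y) = if i = j then (Fintype.card ι : ℂ)⁻¹ * τ y else 0 := by
  split_ifs with h
  · subst h
    have h1 : ∀ k, τ (e k k * y) = τ (e i i * y) := by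
      intro k
      rw [← he.mul_same k i k, mul_assoc, τ_comm, mul_assoc, ← hy, ← mul_assoc, he.mul_same]
    have h2 : ∑ k, τ (e k k * y) = τ y := by
      rw [← map_sum, ← Finset.sum_mul, he.sum, one_mul]
    rw [Finset.sum_congr rfl (fun k _ => h1 k), Finset.sum_const, Finset.card_univ,
      nsmul_eq_mul] at h2
    rw [← h2, ← mul_assoc, inv_mul_cancel₀ he.card_ne, one_mul]
  · rw [← he.mul_same i i j, mul_assoc, τ_comm, mul_assoc, ← hy, ← mul_assoc,
      he.mul_ne (Ne.symm h), zero_mul, map_zero]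

end EE

/-- partial isometry identity -/
theorem mu_pi_mul {v p : A} (hp : IsStarProjection p) (hv : star v * v = p) : v * p = v := by
  have h1 : star (v - v * p) * (v - v * p) = 0 := by
    rw [star_sub, star_mul, hp.isSelfAdjoint.star_eq, sub_mul, mul_sub, mul_sub, hv]
    have e1 : star v * (v * p) = p * p := by rw [← mul_assoc, hv]
    have e2 : p * star v * v = p * p := by rw [mul_assoc, hv]
    have e3 : p * star v * (v * p) = p * (p * p) := by rw [mul_assoc, e1]
    rw [e1, e2, e3, hp.isIdempotentElem.eq, hp.isIdempotentElem.eq]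
    simp
  have h2 : v - v * p = 0 := by
    have := CStarRing.norm_star_mul_self (x := v - v * p)
    rw [h1, norm_zero] at this
    exact norm_eq_zero.1 (mul_self_eq_zero.1 this.symm)
  exact (sub_eq_zero.1 h2).symm

/-- equivalent orthogonal projections of sum `1` give matrix units -/
theorem exists_MU_of_partition {P : StarSubalgebra ℂ A} (hP : IsFac P) (N : ℕ) (q : Fin N → A)
    (hq : ∀ i, q i ∈ P) (hpq : ∀ i, IsStarProjection (q i)) (hN : 0 < N)
    (ho : ∀ i j, i ≠ j → q i * q j = 0) (hs : ∑ i, q i = 1) (ht : ∀ i, tr (q i) = (N : ℝ)⁻¹) :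
    ∃ e : Fin N → Fin N → A, MU P e ∧ ∀ i, e i i = q i := by
  let z : Fin N := ⟨0, hN⟩
  have H : ∀ i, ∃ v ∈ P, star v * v = q z ∧ v * star v = q i := fun i =>
    exists_equiv hP (hq z) (hq i) (hpq z) (hpq i) (by rw [ht, ht])
  choose v hvP hv1 hv2 using H
  have hv3 : ∀ i, v i * q z = v i := fun i => mu_pi_mul (hpq z) (hv1 i)
  have hv4 : ∀ i, q i * v i = v i := fun i => by
    rw [← hv2 i, mul_assoc, hv1, hv3]
  have hv5 : ∀ i, star (v i) * q i = star (v i) := fun i => by
    have := congrArg star (hv4 i)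
    rwa [star_mul, (hpq i).isSelfAdjoint.star_eq] at this
  have hv6 : ∀ j k, star (v j) * v k = if j = k then q z else 0 := by
    intro j k
    split_ifs with h
    · subst h; exact hv1 j
    · rw [← hv5 j, ← hv4 k, mul_assoc, ← mul_assoc (q j), ho j k h, zero_mul, mul_zero]
  refine ⟨fun i j => v i * star (v j), ⟨fun i j => ?_, fun i j k l => ?_, fun i j => ?_, ?_⟩,
    fun i => hv2 i⟩
  · exact mul_mem (hvP i) (star_mem (hvP j))
  · have : v i * star (v j) * (v k * star (v l)) = v i * (star (v j) * v k) * star (v l) := by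
      simp only [mul_assoc]
    rw [this, hv6]
    split_ifs with h
    · rw [hv3]
    · simp
  · rw [star_mul, star_star]
  · simp only [hv2]; exact hs

theorem mu_tr_add (x y : A) : tr (x + y) = tr x + tr y := by simp [tr]
theorem mu_tr_sub (x y : A) : tr (x - y) = tr x - tr y := by simp [tr]
theorem mu_tr_one : tr (1 : A) = 1 := by simp [tr, τ_one]
theorem mu_tr_proj_nonneg {p : A} (hp : IsStarProjection p) : 0 ≤ tr p := by
  rw [← n2_sq_proj hp]; positivity

/-- A projection of rational trace sits in a matrix algebra as a partial diagonal sum. -/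
theorem exists_MU_of_proj {P : StarSubalgebra ℂ A} (hP : IsFac P) {p : A} (hp : p ∈ P)
    (hpp : IsStarProjection p) (r N : ℕ) (hN : 0 < N) (htr : tr p = (r : ℝ) / N) :
    ∃ e : Fin N → Fin N → A, MU P e ∧ p = ∑ i ∈ Finset.univ.filter (fun i : Fin N => i.val < r), e i i := by
  have hN' : (0 : ℝ) < N := by exact_mod_cast hN
  have hpp' : IsStarProjection (1 - p) := hpp.one_sub
  have hp' : 1 - p ∈ P := sub_mem (one_mem _) hp
  have h1 : tr (1 - p) = 1 - (r : ℝ) / N := by rw [mu_tr_sub, mu_tr_one, htr]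
  have hrN : r ≤ N := by
    have := mu_tr_proj_nonneg hpp'
    rw [h1, sub_nonneg, div_le_one hN'] at this
    exact_mod_cast this
  obtain ⟨s, rfl⟩ := Nat.exists_eq_add_of_le hrN
  -- the two partitions
  have hA : ∃ q : Fin r → A, (∀ i, q i ∈ P) ∧ (∀ i, IsStarProjection (q i)) ∧
      (∀ i j, i ≠ j → q i * q j = 0) ∧ ∑ i, q i = p ∧ ∀ i, tr (q i) = ((r + s : ℕ) : ℝ)⁻¹ := by
    rcases Nat.eq_zero_or_pos r with h | h
    · subst h
      have hp0 : p = 0 := by
        have h2 : n2 p ^ 2 = 0 := by
          rw [n2_sq_proj hpp, htr]; simp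
        exact eq_zero_of_n2 (pow_eq_zero_iff (two_ne_zero) |>.1 h2)
      refine ⟨fun i => 0, fun i => i.elim0, fun i => i.elim0, fun i => i.elim0, ?_, fun i => i.elim0⟩
      rw [hp0]; simp
    · obtain ⟨q, h2, h3, h4, h5, h6⟩ := exists_partition hP hp hpp r h
      refine ⟨q, h2, h3, h4, h5, fun i => ?_⟩
      rw [h6, htr]
      have : (r : ℝ) ≠ 0 := by exact_mod_cast h.ne'
      field_simp
  have hB : ∃ q : Fin s → A, (∀ i, q i ∈ P) ∧ (∀ i, IsStarProjection (q i)) ∧
      (∀ i j, i ≠ j → q i * q j = 0) ∧ ∑ i, q i = 1 - p ∧ ∀ i, tr (q i) = ((r + s : ℕ) : ℝ)⁻¹ := by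
    rcases Nat.eq_zero_or_pos s with h | h
    · subst h
      have hp0 : 1 - p = 0 := by
        have h2 : n2 (1 - p) ^ 2 = 0 := by
          rw [n2_sq_proj hpp', h1, add_zero, div_self, sub_self]
          rw [add_zero] at hN'
          exact hN'.ne'
        exact eq_zero_of_n2 (pow_eq_zero_iff (two_ne_zero) |>.1 h2)
      refine ⟨fun i => 0, fun i => i.elim0, fun i => i.elim0, fun i => i.elim0, ?_, fun i => i.elim0⟩
      rw [hp0]; simp
    · obtain ⟨q, h2, h3, h4, h5, h6⟩ := exists_partition hP hp' hpp' s h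
      refine ⟨q, h2, h3, h4, h5, fun i => ?_⟩
      rw [h6, h1]
      have : (s : ℝ) ≠ 0 := by exact_mod_cast h.ne'
      have h8 : ((r : ℝ) + s) ≠ 0 := by
        have := hN'.ne'
        push_cast at this
        exact this
      push_cast
      field_simp
      ring
  obtain ⟨q1, a1, a2, a3, a4, a5⟩ := hA
  obtain ⟨q2, b1, b2, b3, b4, b5⟩ := hB
  -- orthogonality of the pieces across
  have hsub1 : ∀ i, q1 i * p = q1 i := by
    intro i
    rw [← a4, Finset.mul_sum, Finset.sum_eq_single i (fun j _ hj => a3 i j (Ne.symm hj))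
      (fun h => (h (Finset.mem_univ _)).elim)]
    exact (a2 i).isIdempotentElem.eq
  have hsub1' : ∀ i, p * q1 i = q1 i := by
    intro i
    have := congrArg star (hsub1 i)
    rwa [star_mul, hpp.isSelfAdjoint.star_eq, (a2 i).isSelfAdjoint.star_eq] at this
  have hsub2 : ∀ i, (1 - p) * q2 i = q2 i := by
    intro i
    rw [← b4, Finset.sum_mul, Finset.sum_eq_single i (fun j _ hj => b3 j i hj)
      (fun h => (h (Finset.mem_univ _)).elim)]
    exact (b2 i).isIdempotentElem.eq
  have hsub2' : ∀ i, q2 i * (1 - p) = q2 i := by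
    intro i
    have := congrArg star (hsub2 i)
    rwa [star_mul, hpp'.isSelfAdjoint.star_eq, (b2 i).isSelfAdjoint.star_eq] at this
  have h12 : ∀ i j, q1 i * q2 j = 0 := by
    intro i j
    rw [← hsub1 i, ← hsub2 j, mul_assoc, ← mul_assoc p, hpp.mul_one_sub_self, zero_mul, mul_zero]
  have h21 : ∀ i j, q2 i * q1 j = 0 := by
    intro i j
    rw [← hsub2' i, ← hsub1' j, mul_assoc, ← mul_assoc (1 - p), hpp.one_sub_mul_self, zero_mul,
      mul_zero]
  obtain ⟨e, he, hee⟩ := exists_MU_of_partition hP (r + s) (Fin.append q1 q2)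
    (fun i => by
      refine Fin.addCases (fun i => ?_) (fun i => ?_) i
      · rw [Fin.append_left]; exact a1 i
      · rw [Fin.append_right]; exact b1 i)
    (fun i => by
      refine Fin.addCases (fun i => ?_) (fun i => ?_) i
      · rw [Fin.append_left]; exact a2 i
      · rw [Fin.append_right]; exact b2 i) hN
    (fun i j => by
      refine Fin.addCases (fun i => ?_) (fun i => ?_) i <;>
        refine Fin.addCases (fun j => ?_) (fun j => ?_) j
      · rw [Fin.append_left, Fin.append_left]
        intro h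
        exact a3 i j (fun h' => h (by rw [h']))
      · rw [Fin.append_left, Fin.append_right]
        intro _; exact h12 i j
      · rw [Fin.append_left, Fin.append_right]
        intro _; exact h21 i j
      · rw [Fin.append_right, Fin.append_right]
        intro h
        exact b3 i j (fun h' => h (by rw [h'])))
    (by rw [Fin.sum_univ_add]; simp only [Fin.append_left, Fin.append_right]; rw [a4, b4]; abel)
    (fun i => by
      refine Fin.addCases (fun i => ?_) (fun i => ?_) i
      · rw [Fin.append_left]; exact a5 i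
      · rw [Fin.append_right]; exact b5 i)
  refine ⟨e, he, ?_⟩
  rw [Finset.sum_filter, Fin.sum_univ_add]
  simp only [hee, Fin.append_left, Fin.append_right, Fin.val_castAdd, Fin.val_natAdd]
  have e1 : ∑ x : Fin r, (if (x : ℕ) < r then q1 x else 0) = p := by
    rw [← a4]
    exact Finset.sum_congr rfl (fun x _ => if_pos x.2)
  have e2 : ∑ x : Fin s, (if r + (x : ℕ) < r then q2 x else 0) = 0 := by
    refine Finset.sum_eq_zero (fun x _ => if_neg (by omega))
  rw [e1, e2, add_zero]

/-- matrix units of any size exist -/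
theorem exists_MU {P : StarSubalgebra ℂ A} (hP : IsFac P) (N : ℕ) (hN : 0 < N) :
    ∃ e : Fin N → Fin N → A, MU P e := by
  obtain ⟨e, he, -⟩ := exists_MU_of_proj hP (zero_mem P) (IsStarProjection.zero A) 0 N hN (by
    simp [tr])
  exact ⟨e, he⟩

theorem relComm_le (P : StarSubalgebra ℂ A) (e : ι → ι → A) : relComm P e ≤ P := inf_le_left

theorem mem_relComm {P : StarSubalgebra ℂ A} {e : ι → ι → A} (he : MU P e) {x : A} :
    x ∈ relComm P e ↔ x ∈ P ∧ ∀ i j, e i j * x = x * e i j :=
  mem_relComm' he.st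

theorem relComm_closed {P : StarSubalgebra ℂ A} (hP : TClosed P) {e : ι → ι → A} (he : MU P e) :
    TClosed (relComm P e) := by
  intro f g C hf hC hlim
  rw [mem_relComm he]
  refine ⟨hP f g C (fun n => relComm_le P e (hf n)) hC hlim, fun i j => ?_⟩
  have h0 : Tendsto (fun n => ‖e i j‖ * n2 (f n - g) + n2 (f n - g) * ‖e i j‖) atTop (𝓝 0) := by
    have := (hlim.const_mul ‖e i j‖).add (hlim.mul_const ‖e i j‖)
    simpa using this
  have h1 : ∀ n, n2 (e i j * g - g * e i j) ≤ ‖e i j‖ * n2 (f n - g) + n2 (f n - g) * ‖e i j‖ := by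
    intro n
    have hc := ((mem_relComm he).1 (hf n)).2 i j
    have : e i j * g - g * e i j = (f n - g) * e i j - e i j * (f n - g) := by
      rw [sub_mul, mul_sub, ← hc]; abel
    rw [this]
    refine (n2_sub_le _ _).trans ?_
    rw [add_comm]
    exact add_le_add (n2_mul_le_left _ _) (n2_mul_le_right _ _)
  have h2 : n2 (e i j * g - g * e i j) ≤ 0 := ge_of_tendsto' h0 h1
  have h3 := eq_zero_of_n2 (le_antisymm h2 (n2_nonneg _))
  exact sub_eq_zero.1 h3

/-- matrix coefficients of `y` with respect to the matrix units -/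
def muCoef (e : ι → ι → A) (y : A) (i j : ι) : A := ∑ k, e k i * y * e j k

theorem muCoef_mem {P : StarSubalgebra ℂ A} {e : ι → ι → A} (he : MU P e) {y : A} (hy : y ∈ P)
    (i j : ι) : muCoef e y i j ∈ relComm P e := by
  rw [mem_relComm he]
  refine ⟨sum_mem fun k _ => mul_mem (mul_mem (he.mem _ _) hy) (he.mem _ _), fun a b => ?_⟩
  rw [muCoef, Finset.mul_sum, Finset.sum_mul, Finset.sum_eq_single b, Finset.sum_eq_single a]
  · rw [← mul_assoc, ← mul_assoc, he.mul_same, mul_assoc (e a i * y), he.mul_same]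
  · intro k _ hk
    rw [mul_assoc, he.mul_ne hk, mul_zero]
  · intro h; exact (h (Finset.mem_univ _)).elim
  · intro k _ hk
    rw [← mul_assoc, ← mul_assoc, he.mul_ne (Ne.symm hk), zero_mul, zero_mul]
  · intro h; exact (h (Finset.mem_univ _)).elim

theorem sum_muCoef {P : StarSubalgebra ℂ A} {e : ι → ι → A} (he : MU P e) (y : A) :
    ∑ i, ∑ j, muCoef e y i j * e i j = y := by
  have h1 : ∀ i j, muCoef e y i j * e i j = e i i * y * e j j := by
    intro i j
    rw [muCoef, Finset.sum_mul, Finset.sum_eq_single i]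
    · rw [mul_assoc, he.mul_same]
    · intro k _ hk
      rw [mul_assoc, he.mul_ne hk, mul_zero]
    · intro h; exact (h (Finset.mem_univ _)).elim
  simp only [h1]
  rw [← Finset.sum_congr rfl (fun i _ => Finset.mul_sum Finset.univ (fun j => e j j) (e i i * y))]
  rw [he.sum]
  simp only [mul_one]
  rw [← Finset.sum_mul, he.sum, one_mul]

/-- relative commutants of matrix units in an irreducible inclusion form an irreducible inclusion -/
theorem IsIrr.relComm {P M : StarSubalgebra ℂ A} (h : IsIrr P M) {e : ι → ι → A} (he : MU P e) :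
    IsIrr (relComm P e) (relComm M e) := by
  refine ⟨?_, relComm_closed h.closedP he, relComm_closed h.closedM (he.mono h.le), ?_, ?_⟩
  · exact inf_le_inf_right _ h.le
  · intro x hx hcomm
    have hxM := (mem_relComm (he.mono h.le)).1 hx
    refine h.irr x hxM.1 (fun y hy => ?_)
    rw [← sum_muCoef he y, Finset.mul_sum, Finset.sum_mul]
    refine Finset.sum_congr rfl (fun i _ => ?_)
    rw [Finset.mul_sum, Finset.sum_mul]
    refine Finset.sum_congr rfl (fun j _ => ?_)
    rw [← mul_assoc, hcomm _ (muCoef_mem he hy i j), mul_assoc, ← hxM.2 i j, mul_assoc]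
  · intro hfin
    apply h.inf
    -- the map `(ι × ι → relComm) → P` is surjective
    let φ : ((ι × ι) → (GenII1.relComm P e)) →ₗ[ℂ] P :=
      { toFun := fun g => ⟨∑ i, ∑ j, (g (i, j) : A) * e i j, sum_mem fun i _ => sum_mem fun j _ =>
          mul_mem (relComm_le P e (g (i, j)).2) (he.mem i j)⟩
        map_add' := by
          intro a b
          apply Subtype.ext
          simp only [Pi.add_apply, AddMemClass.coe_add, add_mul, Finset.sum_add_distrib]
        map_smul' := by
          intro c a
          apply Subtype.ext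
          simp only [Pi.smul_apply, SetLike.val_smul, smul_mul_assoc, RingHom.id_apply,
            Finset.smul_sum] }
    have hsurj : Function.Surjective φ := by
      intro y
      refine ⟨fun ij => ⟨muCoef e y ij.1 ij.2, muCoef_mem he y.2 _ _⟩, ?_⟩
      apply Subtype.ext
      exact sum_muCoef he (y : A)
    haveI : FiniteDimensional ℂ (GenII1.relComm P e) := hfin
    exact Module.Finite.of_surjective φ hsurj

/-- product of commuting matrix unit systems -/
def prodMU (e : ι → ι → A) (f : κ → κ → A) : ι × κ → ι × κ → A :=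
  fun a b => e a.1 b.1 * f a.2 b.2

theorem MU.prod {P : StarSubalgebra ℂ A} {e : ι → ι → A} {f : κ → κ → A} (he : MU P e)
    (hf : MU (GenII1.relComm P e) f) : MU P (prodMU e f) := by
  have hc : ∀ i j k l, e i j * f k l = f k l * e i j := fun i j k l =>
    ((mem_relComm he).1 (hf.mem k l)).2 i j
  refine ⟨fun a b => mul_mem (he.mem _ _) (relComm_le P e (hf.mem _ _)), fun a b c d => ?_,
    fun a b => ?_, ?_⟩
  · have h1 : prodMU e f a b * prodMU e f c d
        = (e a.1 b.1 * e c.1 d.1) * (f a.2 b.2 * f c.2 d.2) := by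
      simp only [prodMU]
      rw [mul_assoc, ← mul_assoc (f a.2 b.2), ← hc, mul_assoc, mul_assoc]
    rw [h1, he.mul, hf.mul]
    by_cases h : b = c
    · subst h; simp [prodMU]
    · rw [if_neg h]
      by_cases h2 : b.1 = c.1
      · have h3 : b.2 ≠ c.2 := fun h4 => h (Prod.ext h2 h4)
        rw [if_neg h3, mul_zero]
      · rw [if_neg h2, zero_mul]
  · simp only [prodMU]
    rw [star_mul, he.st, hf.st, hc]
  · simp only [prodMU]
    rw [Fintype.sum_prod_type]
    simp only [← Finset.mul_sum, hf.sum, mul_one, he.sum]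

theorem EE_prod {P : StarSubalgebra ℂ A} {e : ι → ι → A} {f : κ → κ → A} (he : MU P e)
    (hf : MU (GenII1.relComm P e) f) (x : A) : EE (prodMU e f) x = EE f (EE e x) := by
  have hc : ∀ i j k l, e i j * f k l = f k l * e i j := fun i j k l =>
    ((mem_relComm he).1 (hf.mem k l)).2 i j
  have h1 : ∀ (i j : ι) (k l : κ), prodMU e f (i, k) (j, l) * x * prodMU e f (j, l) (i, k)
      = f k l * (e i j * x * e j i) * f l k := by
    intro i j k l
    simp only [prodMU]
    rw [hc i j k l]
    simp only [mul_assoc]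
  have h2 : ∀ k l, f k l * (EE e x) * f l k
      = ((Fintype.card ι : ℂ)⁻¹) • ∑ i, ∑ j, f k l * (e i j * x * e j i) * f l k := by
    intro k l
    rw [EE, mul_smul_comm, smul_mul_assoc, Finset.mul_sum, Finset.sum_mul]
    congr 1
    refine Finset.sum_congr rfl (fun i _ => ?_)
    rw [Finset.mul_sum, Finset.sum_mul]
  rw [EE, EE]
  simp only [h2, Fintype.sum_prod_type, h1]
  simp only [← Finset.smul_sum, smul_smul]
  congr 1
  · rw [Fintype.card_prod, Nat.cast_mul, mul_inv, mul_comm]
  · rw [Finset.sum_comm]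
    refine Finset.sum_congr rfl (fun k _ => ?_)
    rw [Finset.sum_comm (s := (Finset.univ : Finset κ))]
    refine Finset.sum_congr rfl (fun i _ => ?_)
    rw [Finset.sum_comm]

end Crest.Agent.GenII1
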