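import Crest.Agent.GenII1.Words

/-! Algebra of freeness: span of reduced words, swap lemma, conjugation lemma, families. -/

set_option autoImplicit false

namespace Crest.Agent.GenII1

open Filter Topology

variable {A : Type*} [CStarAlgebra A] [TracialC A]

theorem fr_RW_mono {B B' : Subalgebra ℂ A} {c : A} (h : B' ≤ B) {ε : Bool} {y : A}
    (hy : RW B' c ε y) : RW B c ε y := by
  induction hy with
  | base ε b hb => exact RW.base ε b (h hb)
  | same ε y b _ hb ih => exact RW.same ε y b ih (h hb)
  | flip ε y b _ hb h0 ih => exact RW.flip ε y b ih (h hb) h0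

theorem IsFree.mono {B B' : Subalgebra ℂ A} {c : A} (h : B' ≤ B) (hc : IsFree B c) :
    IsFree B' c :=
  ⟨hc.hu, fun ε y b hy hb => hc.zero ε y b (fr_RW_mono h hy) (h hb)⟩

/-- a subspace stable under right multiplication by generators is stable under right
multiplication by the generated algebra -/
theorem fr_adjoin_stable (S : Submodule ℂ A) (G : Set A)
    (hG : ∀ g ∈ G, ∀ s ∈ S, s * g ∈ S) {z : A} (hz : z ∈ Algebra.adjoin ℂ G) :
    ∀ s ∈ S, s * z ∈ S := by
  induction hz using Algebra.adjoin_induction with
  | mem x hx => exact hG x hx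
  | algebraMap r =>
    intro s hs
    rw [Algebra.algebraMap_eq_smul_one, mul_smul_comm, mul_one]
    exact S.smul_mem r hs
  | add x y _ _ hx hy =>
    intro s hs
    rw [mul_add]
    exact S.add_mem (hx s hs) (hy s hs)
  | mul x y _ _ hx hy =>
    intro s hs
    rw [← mul_assoc]
    exact hy _ (hx s hs)

theorem fr_pw_mul {g : A} (hg : g ∈ unitary A) (ε : Bool) : pw g ε * pw g (!ε) = 1 := by
  cases ε
  · simp only [pw_false, Bool.not_false, pw_true]; exact Unitary.star_mul_self_of_mem hg
  · simp only [pw_false, Bool.not_true, pw_true]; exact Unitary.mul_star_self_of_mem hg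

theorem fr_center_mem (B : Subalgebra ℂ A) {b : A} (hb : b ∈ B) : b - (τ b) • (1 : A) ∈ B :=
  B.sub_mem hb (B.smul_mem B.one_mem _)

theorem fr_center_τ (b : A) : τ (b - (τ b) • (1 : A)) = 0 := by
  rw [map_sub, map_smul, τ_one, smul_eq_mul, mul_one, sub_self]

/-- every element of `adj B h` is `b +` a combination of `y * b'` with `y` a reduced `h`-word -/
theorem adj_span (B : Subalgebra ℂ A) {g : A} (hg : g ∈ unitary A) {z : A} (hz : z ∈ adj B g) :
    ∃ b ∈ B, ∃ z' ∈ Submodule.span ℂ {w : A | ∃ (ε : Bool) (y b : A), RW B g ε y ∧ b ∈ B ∧ w = y * b},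
      z = b + z' := by
  set W : Set A := {w : A | ∃ (ε : Bool) (y b : A), RW B g ε y ∧ b ∈ B ∧ w = y * b} with hW
  set S : Submodule ℂ A := Subalgebra.toSubmodule B ⊔ Submodule.span ℂ W with hS
  have hB : ∀ b ∈ B, b ∈ S := fun b hb => Submodule.mem_sup_left hb
  have hWS : ∀ w ∈ W, w ∈ S := fun w hw => Submodule.mem_sup_right (Submodule.subset_span hw)
  -- last letter cancellation
  have hcan : ∀ ε y, RW B g ε y → y * pw g (!ε) ∈ S := by
    intro ε y hy
    cases hy with
    | base _ b hb =>
      rw [mul_assoc, fr_pw_mul hg, mul_one]; exact hB b hb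
    | same _ y b hy hb =>
      rw [mul_assoc, fr_pw_mul hg, mul_one]
      exact hWS _ ⟨ε, y, b, hy, hb, rfl⟩
    | flip ε y b hy hb h0 =>
      rw [mul_assoc, fr_pw_mul hg, mul_one]
      exact hWS _ ⟨ε, y, b, hy, hb, rfl⟩
  have hlet : ∀ ε, ∀ s ∈ S, s * pw g ε ∈ S := by
    intro ε s hs
    obtain ⟨b, hb, w, hw, rfl⟩ := Submodule.mem_sup.1 hs
    rw [add_mul]
    refine S.add_mem (hWS _ ⟨ε, b * pw g ε, 1, RW.base ε b hb, B.one_mem, by rw [mul_one]⟩) ?_
    induction hw using Submodule.span_induction with
    | mem w hw =>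
      obtain ⟨δ, y, b', hy, hb', rfl⟩ := hw
      by_cases hδ : ε = δ
      · subst hδ
        exact hWS _ ⟨ε, y * b' * pw g ε, 1, RW.same ε y b' hy hb', B.one_mem, by rw [mul_one]⟩
      · have hδ' : ε = !δ := by cases ε <;> cases δ <;> simp_all
        subst hδ'
        have e : y * b' * pw g (!δ) = y * (b' - (τ b') • (1 : A)) * pw g (!δ)
            + (τ b') • (y * pw g (!δ)) := by
          rw [mul_sub, sub_mul, mul_smul_comm, mul_one, smul_mul_assoc, sub_add_cancel]
        rw [e]
        refine S.add_mem (hWS _ ⟨!δ, _, 1, RW.flip δ y _ hy (fr_center_mem B hb')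
          (fr_center_τ b'), B.one_mem, by rw [mul_one]⟩) (S.smul_mem _ (hcan δ y hy))
    | zero => rw [zero_mul]; exact S.zero_mem
    | add x y _ _ hx hy =>
      rw [add_mul]
      refine S.add_mem (hx ?_) (hy ?_)
      · exact Submodule.mem_sup.2 ⟨b, hb, x, by assumption, rfl⟩
      · exact Submodule.mem_sup.2 ⟨b, hb, y, by assumption, rfl⟩
    | smul r x _ hx =>
      rw [smul_mul_assoc]
      refine S.smul_mem _ (hx ?_)
      exact Submodule.mem_sup.2 ⟨b, hb, x, by assumption, rfl⟩
  have hBr : ∀ b ∈ B, ∀ s ∈ S, s * b ∈ S := by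
    intro b hb s hs
    obtain ⟨b0, hb0, w, hw, rfl⟩ := Submodule.mem_sup.1 hs
    rw [add_mul]
    refine S.add_mem (hB _ (B.mul_mem hb0 hb)) ?_
    clear hs
    induction hw using Submodule.span_induction with
    | mem w hw =>
      obtain ⟨δ, y, b', hy, hb', rfl⟩ := hw
      rw [mul_assoc]
      exact hWS _ ⟨δ, y, b' * b, hy, B.mul_mem hb' hb, rfl⟩
    | zero => rw [zero_mul]; exact S.zero_mem
    | add x y _ _ hx hy => rw [add_mul]; exact S.add_mem hx hy
    | smul r x _ hx => rw [smul_mul_assoc]; exact S.smul_mem _ hx
  have hz' : (1 : A) * z ∈ S := by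
    refine fr_adjoin_stable S _ ?_ hz 1 (hB 1 B.one_mem)
    intro x hx s hs
    rcases hx with hx | hx
    · exact hBr x hx s hs
    · rcases hx with rfl | hx
      · exact hlet true s hs
      · rw [Set.mem_singleton_iff] at hx
        subst hx
        exact hlet false s hs
  rw [one_mul] at hz'
  obtain ⟨b, hb, w, hw, h⟩ := Submodule.mem_sup.1 hz'
  exact ⟨b, hb, w, hw, h.symm⟩

/-- mixed reduced words in `g` (`true`) and `h` (`false`) with coefficients in `B` -/
inductive FrMW (B : Subalgebra ℂ A) (g h : A) : Bool → Bool → A → Prop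
  | base (k ε : Bool) (b : A) (hb : b ∈ B) : FrMW B g h k ε (b * pw (cond k g h) ε)
  | step (k ε k' ε' : Bool) (y b : A) (hy : FrMW B g h k ε y) (hb : b ∈ B)
      (h0 : k' = k → ε' = !ε → τ b = 0) : FrMW B g h k' ε' (y * b * pw (cond k' g h) ε')

theorem fr_MW_of_RW {B : Subalgebra ℂ A} {g h : A} {ε : Bool} {y : A} (hy : RW B h ε y) :
    FrMW B g h false ε y := by
  induction hy with
  | base ε b hb => exact FrMW.base false ε b hb
  | same ε y b _ hb ih =>
    exact FrMW.step false ε false ε y b ih hb (fun _ h => by cases ε <;> simp at h)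
  | flip ε y b _ hb h0 ih => exact FrMW.step false ε false (!ε) y b ih hb (fun _ _ => h0)

theorem fr_MW_append {B : Subalgebra ℂ A} {g h : A} {δ : Bool} {w : A}
    (hw : FrMW B g h true δ w) {ε : Bool} {y : A} (hy : RW B h ε y) :
    FrMW B g h false ε (w * y) := by
  induction hy with
  | base ε b hb =>
    rw [← mul_assoc]
    exact FrMW.step true δ false ε w b hw hb (fun h => by simp at h)
  | same ε y b _ hb ih =>
    have := FrMW.step false ε false ε (w * y) b ih hb (fun _ h => by cases ε <;> simp at h)
    simpa only [mul_assoc, cond_false] using this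
  | flip ε y b _ hb h0 ih =>
    have := FrMW.step false ε false (!ε) (w * y) b ih hb (fun _ _ => h0)
    simpa only [mul_assoc, cond_false] using this

/-- structure of mixed reduced words -/
theorem fr_MW_struct {B : Subalgebra ℂ A} {g h : A} (hg : IsFree B g) {k ε : Bool} {w : A}
    (hw : FrMW B g h k ε w) :
    (k = true → (RW B g ε w ∨ ∃ (δ : Bool) (y s : A), RW (adj B g) h δ y ∧ RW B g ε s ∧ w = y * s)) ∧
    (k = false → RW (adj B g) h ε w) := by
  have hBad : ∀ b ∈ B, b ∈ adj B g := fun b hb => Algebra.subset_adjoin (Or.inl hb)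
  have hpad : ∀ ε, pw g ε ∈ adj B g := by
    intro ε
    cases ε
    · exact Algebra.subset_adjoin (Or.inr (Or.inr rfl))
    · exact Algebra.subset_adjoin (Or.inr (Or.inl rfl))
  have hRWad : ∀ ε y, RW B g ε y → y ∈ adj B g := by
    intro ε y hy
    induction hy with
    | base ε b hb => exact (adj B g).mul_mem (hBad b hb) (hpad ε)
    | same ε y b _ hb ih => exact (adj B g).mul_mem ((adj B g).mul_mem ih (hBad b hb)) (hpad ε)
    | flip ε y b _ hb h0 ih => exact (adj B g).mul_mem ((adj B g).mul_mem ih (hBad b hb)) (hpad _)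
  induction hw with
  | base k ε b hb =>
    refine ⟨fun hk => ?_, fun hk => ?_⟩
    · subst hk; exact Or.inl (RW.base ε b hb)
    · subst hk; exact RW.base ε b (hBad b hb)
  | step k ε k' ε' y b _ hb h0 ih =>
    refine ⟨fun hk' => ?_, fun hk' => ?_⟩
    · subst hk'
      cases k with
      | true =>
        have key : ∀ s, RW B g ε s → RW B g ε' (s * b * pw g ε') := by
          intro s hs
          by_cases hε : ε' = ε
          · subst hε; exact RW.same _ s b hs hb
          · have hε' : ε' = !ε := by cases ε <;> cases ε' <;> simp_all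
            have h0' := h0 rfl hε'
            subst hε'
            exact RW.flip _ s b hs hb h0'
        rcases ih.1 rfl with hy | ⟨δ, y', s, hy', hs, rfl⟩
        · exact Or.inl (key y hy)
        · refine Or.inr ⟨δ, y', s * b * pw g ε', hy', key s hs, ?_⟩
          simp only [cond_true, mul_assoc]
      | false =>
        refine Or.inr ⟨ε, y, b * pw g ε', ih.2 rfl, RW.base ε' b hb, ?_⟩
        simp only [cond_true, mul_assoc]
    · subst hk'
      cases k with
      | true =>
        rcases ih.1 rfl with hy | ⟨δ, y', s, hy', hs, rfl⟩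
        · exact RW.base ε' (y * b) ((adj B g).mul_mem (hRWad _ _ hy) (hBad b hb))
        · have hsb : s * b ∈ adj B g := (adj B g).mul_mem (hRWad _ _ hs) (hBad b hb)
          rw [mul_assoc y' s b]
          by_cases hε : ε' = δ
          · subst hε; exact RW.same _ y' (s * b) hy' hsb
          · have hε' : ε' = !δ := by cases δ <;> cases ε' <;> simp_all
            subst hε'
            exact RW.flip _ y' (s * b) hy' hsb (hg.zero ε s b hs hb)
      | false =>
        by_cases hε : ε' = ε
        · subst hε; exact RW.same _ y b (ih.2 rfl) (hBad b hb)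
        · have hε' : ε' = !ε := by cases ε <;> cases ε' <;> simp_all
          have h0' := h0 rfl hε'
          subst hε'
          exact RW.flip _ y b (ih.2 rfl) (hBad b hb) h0'

theorem fr_MW_zero {B : Subalgebra ℂ A} {g h : A} (hg : IsFree B g) (hh : IsFree (adj B g) h)
    {k ε : Bool} {w : A} (hw : FrMW B g h k ε w) {b : A} (hb : b ∈ B) : τ (w * b) = 0 := by
  have hBad : ∀ b ∈ B, b ∈ adj B g := fun b hb => Algebra.subset_adjoin (Or.inl hb)
  have hpad : ∀ ε, pw g ε ∈ adj B g := by
    intro ε
    cases ε
    · exact Algebra.subset_adjoin (Or.inr (Or.inr rfl))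
    · exact Algebra.subset_adjoin (Or.inr (Or.inl rfl))
  have hRWad : ∀ ε y, RW B g ε y → y ∈ adj B g := by
    intro ε y hy
    induction hy with
    | base ε b hb => exact (adj B g).mul_mem (hBad b hb) (hpad ε)
    | same ε y b _ hb ih => exact (adj B g).mul_mem ((adj B g).mul_mem ih (hBad b hb)) (hpad ε)
    | flip ε y b _ hb h0 ih => exact (adj B g).mul_mem ((adj B g).mul_mem ih (hBad b hb)) (hpad _)
  have hs := fr_MW_struct hg hw
  cases k with
  | true =>
    rcases hs.1 rfl with hy | ⟨δ, y', s, hy', hs', rfl⟩
    · exact hg.zero ε w b hy hb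
    · rw [mul_assoc]
      exact hh.zero δ y' (s * b) hy' ((adj B g).mul_mem (hRWad _ _ hs') (hBad b hb))
  | false => exact hh.zero ε w b (hs.2 rfl) (hBad b hb)

/-- reduced `g`-words over `adj B h` are combinations of mixed words ending with `g` -/
theorem fr_RW_span {B : Subalgebra ℂ A} {g h : A} (hg : IsFree B g) (hh : IsFree (adj B g) h)
    {ε : Bool} {y : A} (hy : RW (adj B h) g ε y) :
    y ∈ Submodule.span ℂ {w : A | FrMW B g h true ε w} := by
  have hBad : B ≤ adj B g := fun b hb => Algebra.subset_adjoin (Or.inl hb)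
  have hhB : IsFree B h := hh.mono hBad
  -- a general multiplication statement
  have key : ∀ (ε ε' : Bool) (y : A), y ∈ Submodule.span ℂ {w : A | FrMW B g h true ε w} →
      ∀ b ∈ adj B h, (ε' = !ε → τ b = 0) →
      y * b * pw g ε' ∈ Submodule.span ℂ {w : A | FrMW B g h true ε' w} := by
    intro ε ε' y hy b hb hb0
    obtain ⟨b0, hb0B, z, hz, rfl⟩ := adj_span B hhB.hu hb
    have hτz : τ z = 0 := by
      clear hb0 hb
      induction hz using Submodule.span_induction with
      | mem w hw => obtain ⟨δ, y', b', hy', hb', rfl⟩ := hw; exact hhB.zero δ y' b' hy' hb'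
      | zero => exact map_zero _
      | add x y _ _ hx hy => rw [map_add, hx, hy, add_zero]
      | smul r x _ hx => rw [map_smul, hx, smul_zero]
    have hb0' : ε' = !ε → τ b0 = 0 := by
      intro h1
      have := hb0 h1
      rwa [map_add, hτz, add_zero] at this
    have h1 : ∀ y ∈ Submodule.span ℂ {w : A | FrMW B g h true ε w},
        y * b0 * pw g ε' ∈ Submodule.span ℂ {w : A | FrMW B g h true ε' w} := by
      intro y hy
      induction hy using Submodule.span_induction with
      | mem w hw =>
        exact Submodule.subset_span (FrMW.step true ε true ε' w b0 hw hb0B (fun _ h => hb0' h))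
      | zero => rw [zero_mul, zero_mul]; exact Submodule.zero_mem _
      | add x y _ _ hx hy => rw [add_mul, add_mul]; exact Submodule.add_mem _ hx hy
      | smul r x _ hx =>
        rw [smul_mul_assoc, smul_mul_assoc]; exact Submodule.smul_mem _ _ hx
    have h2 : ∀ y ∈ Submodule.span ℂ {w : A | FrMW B g h true ε w},
        ∀ z ∈ Submodule.span ℂ {w : A | ∃ (ε : Bool) (y b : A), RW B h ε y ∧ b ∈ B ∧ w = y * b},
        y * z * pw g ε' ∈ Submodule.span ℂ {w : A | FrMW B g h true ε' w} := by
      intro y hy z hz
      induction hz using Submodule.span_induction with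
      | mem w hw =>
        obtain ⟨δ, y', b', hy', hb', rfl⟩ := hw
        induction hy using Submodule.span_induction with
        | mem v hv =>
          have h3 := fr_MW_append hv hy'
          have h4 := FrMW.step false δ true ε' _ b' h3 hb' (fun h => by simp at h)
          refine Submodule.subset_span ?_
          have e : v * (y' * b') * pw g ε' = v * y' * b' * pw (cond true g h) ε' := by
            simp only [cond_true, mul_assoc]
          rw [e]; exact h4
        | zero => rw [zero_mul, zero_mul]; exact Submodule.zero_mem _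
        | add x y _ _ hx hy => rw [add_mul, add_mul]; exact Submodule.add_mem _ hx hy
        | smul r x _ hx =>
          rw [smul_mul_assoc, smul_mul_assoc]; exact Submodule.smul_mem _ _ hx
      | zero => rw [mul_zero, zero_mul]; exact Submodule.zero_mem _
      | add x y _ _ hx hy => rw [mul_add, add_mul]; exact Submodule.add_mem _ hx hy
      | smul r x _ hx =>
        rw [mul_smul_comm, smul_mul_assoc]; exact Submodule.smul_mem _ _ hx
    rw [mul_add, add_mul]
    exact Submodule.add_mem _ (h1 y hy) (h2 y hy z hz)
  induction hy with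
  | base ε b hb =>
    obtain ⟨b0, hb0B, z, hz, rfl⟩ := adj_span B hhB.hu hb
    rw [add_mul]
    refine Submodule.add_mem _ (Submodule.subset_span (FrMW.base true ε b0 hb0B)) ?_
    clear hb
    induction hz using Submodule.span_induction with
    | mem w hw =>
      obtain ⟨δ, y', b', hy', hb', rfl⟩ := hw
      exact Submodule.subset_span
        (FrMW.step false δ true ε y' b' (fr_MW_of_RW hy') hb' (fun h => by simp at h))
    | zero => rw [zero_mul]; exact Submodule.zero_mem _
    | add x y _ _ hx hy => rw [add_mul]; exact Submodule.add_mem _ hx hy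
    | smul r x _ hx => rw [smul_mul_assoc]; exact Submodule.smul_mem _ _ hx
  | same ε y b _ hb ih => exact key ε ε y ih b hb (fun h => by cases ε <;> simp at h)
  | flip ε y b _ hb h0 ih => exact key ε (!ε) y ih b hb (fun _ => h0)

/-- swap lemma. Proof: mixed reduced words in `g` and `h` over `B`. (i) reduced `g`-words over
`adj B h` are combinations of mixed reduced words ending with `g`; (ii) a mixed reduced word `y`
is either a reduced `g`-word over `B`, or a reduced `h`-word over `adj B g`, or
`y' * s` with `y'` a reduced `h`-word over `adj B g` and `s` a reduced `g`-word over `B`;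
so `τ (y * b) = 0`. -/
theorem IsFree.swap {B : Subalgebra ℂ A} {g h : A} (hg : IsFree B g) (hh : IsFree (adj B g) h) :
    IsFree (adj B h) g := by
  refine ⟨hg.hu, fun ε y b hy hb => ?_⟩
  have hy' := fr_RW_span hg hh hy
  obtain ⟨b0, hb0B, z, hz, rfl⟩ := adj_span B hh.hu hb
  clear hy hb
  induction hy' using Submodule.span_induction with
  | mem w hw =>
    rw [mul_add, map_add, fr_MW_zero hg hh hw hb0B, zero_add]
    induction hz using Submodule.span_induction with
    | mem v hv =>
      obtain ⟨δ, y', b', hy', hb', rfl⟩ := hv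
      rw [← mul_assoc]
      exact fr_MW_zero hg hh (fr_MW_append hw hy') hb'
    | zero => rw [mul_zero, map_zero]
    | add x y _ _ hx hy => rw [mul_add, map_add, hx, hy, add_zero]
    | smul r x _ hx => rw [mul_smul_comm, map_smul, hx, smul_zero]
  | zero => rw [zero_mul, map_zero]
  | add x y _ _ hx hy => rw [add_mul, map_add, hx, hy, add_zero]
  | smul r x _ hx => rw [smul_mul_assoc, map_smul, hx, smul_zero]

/-- words for the conjugation lemma -/
inductive FrK (B : Subalgebra ℂ A) (c a : A) : Bool → A → Prop
  | base : FrK B c a false (c * a * star c)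
  | st (ε : Bool) (y b γ : A) (hy : FrK B c a ε y) (hb : b ∈ B) (hb0 : ε = true → τ b = 0)
      (hγ : γ ∈ B) (hγ0 : τ γ = 0) : FrK B c a true (y * b * star c * γ * c)

theorem fr_K_RW {B : Subalgebra ℂ A} {c a : A} (ha : a ∈ B) (ha0 : τ a = 0) {ε : Bool} {y : A}
    (hy : FrK B c a ε y) : RW B c ε y := by
  induction hy with
  | base =>
    have h1 : RW B c true (1 * pw c true) := RW.base true 1 B.one_mem
    have h2 := RW.flip true _ a h1 ha ha0
    simpa only [one_mul, pw_true, Bool.not_true, pw_false] using h2
  | st ε y b γ _ hb hb0 hγ hγ0 ih =>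
    have h1 : RW B c false (y * b * pw c false) := by
      cases ε with
      | true => exact RW.flip true y b ih hb (hb0 rfl)
      | false => exact RW.same false y b ih hb
    have h2 := RW.flip false _ γ h1 hγ hγ0
    simpa only [pw_true, Bool.not_false, pw_false] using h2

/-- `c B c⋆` is free from `B ∨ c⋆ B c` (the part we need). Proof: the span of `c a c⋆ b` and of the
words `prev * b * c⋆ γ c * b'` (`γ` centered, `prev = c a c⋆` with any `b`, or `prev` of the same
kind with `b` centered) is stable under right multiplication by `B` and `c⋆ B c`. -/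
theorem IsFree.conj_zero {B : Subalgebra ℂ A} {c : A} (hc : IsFree B c) {a : A} (ha : a ∈ B)
    (ha0 : τ a = 0) {Y : A}
    (hY : Y ∈ Algebra.adjoin ℂ ((B : Set A) ∪ {z | ∃ b ∈ B, z = star c * b * c})) :
    τ (c * a * star c * Y) = 0 := by
  have hcc : c * star c = 1 := Unitary.mul_star_self_of_mem hc.hu
  have hcc' : star c * c = 1 := Unitary.star_mul_self_of_mem hc.hu
  set S : Submodule ℂ A := Submodule.span ℂ {w : A | ∃ (ε : Bool) (y b : A), FrK B c a ε y ∧ b ∈ B ∧
    w = y * b} with hS
  have hin : ∀ ε y b, FrK B c a ε y → b ∈ B → y * b ∈ S :=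
    fun ε y b hy hb => Submodule.subset_span ⟨ε, y, b, hy, hb, rfl⟩
  -- multiplication by `c⋆ γ c` after an admissible `y * b`
  have hmul : ∀ ε y b γ, FrK B c a ε y → b ∈ B → (ε = true → τ b = 0) → γ ∈ B →
      y * b * star c * γ * c ∈ S := by
    intro ε y b γ hy hb hb0 hγ
    have e : y * b * star c * γ * c =
        y * b * star c * (γ - (τ γ) • (1 : A)) * c * 1 + (τ γ) • (y * b) := by
      have e1 : y * b * star c * ((τ γ) • (1 : A)) * c = (τ γ) • (y * b) := by
        rw [mul_smul_comm, mul_one, smul_mul_assoc, mul_assoc (y * b), hcc', mul_one]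
      rw [mul_one, mul_sub, sub_mul, e1, sub_add_cancel]
    rw [e]
    exact S.add_mem (hin true _ 1 (FrK.st ε y b _ hy hb hb0 (fr_center_mem B hγ) (fr_center_τ γ))
      B.one_mem) (S.smul_mem _ (hin ε y b hy hb))
  have hYS : ∀ s ∈ S, s * Y ∈ S := by
    refine fr_adjoin_stable S _ ?_ hY
    intro x hx s hs
    rcases hx with hx | ⟨b2, hb2, rfl⟩
    · induction hs using Submodule.span_induction with
      | mem w hw =>
        obtain ⟨ε, y, b, hy, hb, rfl⟩ := hw
        rw [mul_assoc]; exact hin ε y _ hy (B.mul_mem hb hx)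
      | zero => rw [zero_mul]; exact S.zero_mem
      | add x y _ _ hx hy => rw [add_mul]; exact S.add_mem hx hy
      | smul r x _ hx => rw [smul_mul_assoc]; exact S.smul_mem _ hx
    · induction hs using Submodule.span_induction with
      | mem w hw =>
        obtain ⟨ε, y, b1, hy, hb1, rfl⟩ := hw
        have e0 : y * b1 * (star c * b2 * c) = y * b1 * star c * b2 * c := by
          simp only [mul_assoc]
        rw [e0]
        cases ε with
        | false => exact hmul false y b1 b2 hy hb1 (fun h => by simp at h) hb2
        | true =>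
          have e : y * b1 * star c * b2 * c = y * (b1 - (τ b1) • (1 : A)) * star c * b2 * c
              + (τ b1) • (y * star c * b2 * c) := by
            have e1 : y * ((τ b1) • (1 : A)) * star c * b2 * c = (τ b1) • (y * star c * b2 * c) := by
              rw [mul_smul_comm, mul_one]; simp only [smul_mul_assoc]
            rw [← e1, ← add_mul, ← add_mul, ← add_mul, ← mul_add, sub_add_cancel]
          rw [e]
          refine S.add_mem (hmul true y _ b2 hy (fr_center_mem B hb1) (fun _ => fr_center_τ b1) hb2)
            (S.smul_mem _ ?_)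
          cases hy with
          | st ε0 y0 b0 γ hy0 hb0 hb00 hγ hγ0 =>
            have e2 : y0 * b0 * star c * γ * c * star c * b2 * c
                = y0 * b0 * star c * (γ * b2) * c := by
              rw [mul_assoc _ c (star c), hcc, mul_one]
              simp only [mul_assoc]
            rw [e2]
            exact hmul ε0 y0 b0 (γ * b2) hy0 hb0 hb00 (B.mul_mem hγ hb2)
      | zero => rw [zero_mul]; exact S.zero_mem
      | add x y _ _ hx hy => rw [add_mul]; exact S.add_mem hx hy
      | smul r x _ hx => rw [smul_mul_assoc]; exact S.smul_mem _ hx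
  have h1 : c * a * star c * Y ∈ S := by
    refine hYS _ ?_
    have := hin false _ 1 FrK.base B.one_mem
    rwa [mul_one] at this
  have h2 : ∀ s ∈ S, τ s = 0 := by
    intro s hs
    induction hs using Submodule.span_induction with
    | mem w hw =>
      obtain ⟨ε, y, b, hy, hb, rfl⟩ := hw
      exact hc.zero ε y b (fr_K_RW ha ha0 hy) hb
    | zero => exact map_zero _
    | add x y _ _ hx hy => rw [map_add, hx, hy, add_zero]
    | smul r x _ hx => rw [map_smul, hx, smul_zero]
  exact h2 _ h1

/-- right multiplication by a unitary of `B` -/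
theorem IsFree.mul_right {B : Subalgebra ℂ A} {c u : A} (hc : IsFree B c) (hu : u ∈ unitary A)
    (huB : u ∈ B) (huB' : star u ∈ B) : IsFree B (c * u) := by
  have key : ∀ ε y, RW B (c * u) ε y →
      (ε = true → ∃ y', RW B c true y' ∧ y = y' * u) ∧ (ε = false → RW B c false y) := by
    intro ε y hy
    induction hy with
    | base ε b hb =>
      refine ⟨fun h => ?_, fun h => ?_⟩
      · subst h
        exact ⟨b * pw c true, RW.base true b hb, by simp only [pw_true, mul_assoc]⟩
      · subst h
        have := RW.base (c := c) false (b * star u) (B.mul_mem hb huB')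
        simpa only [pw_false, star_mul, mul_assoc] using this
    | same ε y b _ hb ih =>
      refine ⟨fun h => ?_, fun h => ?_⟩
      · subst h
        obtain ⟨y', hy', rfl⟩ := ih.1 rfl
        refine ⟨y' * (u * b) * pw c true, RW.same true y' _ hy' (B.mul_mem huB hb), ?_⟩
        simp only [pw_true, mul_assoc]
      · subst h
        have := RW.same (c := c) false y (b * star u) (ih.2 rfl) (B.mul_mem hb huB')
        simpa only [pw_false, star_mul, mul_assoc] using this
    | flip ε y b _ hb h0 ih =>
      refine ⟨fun h => ?_, fun h => ?_⟩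
      · have hε : ε = false := by cases ε <;> simp_all
        subst hε
        refine ⟨y * b * pw c true, RW.flip false y b (ih.2 rfl) hb h0, ?_⟩
        simp only [Bool.not_false, pw_true, mul_assoc]
      · have hε : ε = true := by cases ε <;> simp_all
        subst hε
        obtain ⟨y', hy', rfl⟩ := ih.1 rfl
        have h0' : τ (u * b * star u) = 0 := by
          rw [τ_comm, ← mul_assoc, Unitary.star_mul_self_of_mem hu, one_mul, h0]
        have := RW.flip (c := c) true y' (u * b * star u) hy'
          (B.mul_mem (B.mul_mem huB hb) huB') h0'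
        simpa only [Bool.not_true, pw_false, star_mul, mul_assoc] using this
  refine ⟨(unitary A).mul_mem hc.hu hu, fun ε y b hy hb => ?_⟩
  cases ε with
  | true =>
    obtain ⟨y', hy', rfl⟩ := (key true y hy).1 rfl
    rw [mul_assoc]
    exact hc.zero true y' (u * b) hy' (B.mul_mem huB hb)
  | false => exact hc.zero false y b ((key false y hy).2 rfl) hb

/-- sequentially free families: each member is free from the algebra generated by the others
(repeated use of the swap lemma). -/
theorem free_family {B : Subalgebra ℂ A} {n : ℕ} {g : ℕ → A}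
    (h : ∀ j, j < n → IsFree (adjS B g {i | i < j}) (g j)) :
    ∀ i, i < n → IsFree (adjS B g {j | j < n ∧ j ≠ i}) (g i) := by
  intro i hi
  have main : ∀ m, i + 1 ≤ m → m ≤ n → IsFree (adjS B g {j | j < m ∧ j ≠ i}) (g i) := by
    intro m hm
    induction m, hm using Nat.le_induction with
    | base =>
      intro _
      refine (h i hi).mono ?_
      refine Algebra.adjoin_mono (Set.union_subset_union_right _ ?_)
      rintro z ⟨j, ⟨hj1, hj2⟩, hz⟩
      exact ⟨j, by simp only [Set.mem_setOf_eq]; omega, hz⟩
    | succ m hm ih =>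
      intro hmn
      have h1 := ih (by omega)
      have h2 : IsFree (adj (adjS B g {j | j < m ∧ j ≠ i}) (g i)) (g m) := by
        refine (h m (by omega)).mono ?_
        refine Algebra.adjoin_le ?_
        rintro z (hz | hz)
        · refine (Algebra.adjoin_mono ?_ : adjS B g {j | j < m ∧ j ≠ i} ≤ adjS B g {i | i < m}) hz
          refine Set.union_subset_union_right _ ?_
          rintro z ⟨j, ⟨hj1, hj2⟩, hz⟩
          exact ⟨j, hj1, hz⟩
        · refine Algebra.subset_adjoin (Or.inr ⟨i, by simp only [Set.mem_setOf_eq]; omega, ?_⟩)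
          rcases hz with rfl | hz
          · exact Or.inl rfl
          · exact Or.inr hz
      refine (h1.swap h2).mono ?_
      refine Algebra.adjoin_le ?_
      rintro z (hz | ⟨j, ⟨hj1, hj2⟩, hz⟩)
      · exact Algebra.subset_adjoin (Or.inl (Algebra.subset_adjoin (Or.inl hz)))
      · by_cases hjm : j = m
        · subst hjm
          refine Algebra.subset_adjoin (Or.inr ?_)
          rcases hz with rfl | hz
          · exact Or.inl rfl
          · exact Or.inr hz
        · refine Algebra.subset_adjoin (Or.inl (Algebra.subset_adjoin (Or.inr ⟨j, ⟨by omega, hj2⟩, hz⟩)))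
  exact main n (by omega) le_rfl

end Crest.Agent.GenII1
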