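import Crest.Agent.GenII1.Basic

/-! 2-norm limits, projections, partial isometries, exhaustion. -/

set_option autoImplicit false

namespace Crest.Agent.GenII1

open Filter Topology

section tracial

variable {A : Type*} [CStarAlgebra A] [TracialC A]

/-- 2-norm convergence -/
def TL (f : ℕ → A) (a : A) : Prop := Tendsto (fun n => n2 (f n - a)) atTop (𝓝 0)

theorem TL.const (a : A) : TL (fun _ => a) a := by simp [TL]

theorem TL.add {f g : ℕ → A} {a b : A} (hf : TL f a) (hg : TL g b) :
    TL (fun n => f n + g n) (a + b) := by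
  refine squeeze_zero (fun n => n2_nonneg _) (fun n => ?_) (by simpa using Tendsto.add hf hg)
  have : f n + g n - (a + b) = (f n - a) + (g n - b) := by abel
  rw [this]; exact n2_add_le _ _

theorem TL.neg {f : ℕ → A} {a : A} (hf : TL f a) : TL (fun n => - f n) (-a) := by
  refine hf.congr (fun n => ?_)
  have : - f n - -a = -(f n - a) := by abel
  rw [this, n2_neg]

theorem TL.sub {f g : ℕ → A} {a b : A} (hf : TL f a) (hg : TL g b) :
    TL (fun n => f n - g n) (a - b) := by
  have := hf.add hg.neg
  simpa [sub_eq_add_neg] using this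

theorem TL.star {f : ℕ → A} {a : A} (hf : TL f a) : TL (fun n => star (f n)) (star a) := by
  refine hf.congr (fun n => ?_)
  rw [← star_sub, n2_star]

theorem TL.mul {f g : ℕ → A} {a b : A} {C : ℝ} (hf : TL f a) (hg : TL g b) (hC : ∀ n, ‖f n‖ ≤ C) :
    TL (fun n => f n * g n) (a * b) := by
  have h1 : Tendsto (fun n => C * n2 (g n - b) + n2 (f n - a) * ‖b‖) atTop (𝓝 0) := by
    have h2 := (Tendsto.const_mul C hg).add (Tendsto.mul_const ‖b‖ hf)
    simpa using h2
  refine squeeze_zero (fun n => n2_nonneg _) (fun n => ?_) h1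
  have : f n * g n - a * b = f n * (g n - b) + (f n - a) * b := by noncomm_ring
  rw [this]
  refine (n2_add_le _ _).trans (add_le_add ?_ (n2_mul_le_right _ _))
  exact (n2_mul_le_left _ _).trans (mul_le_mul_of_nonneg_right (hC n) (n2_nonneg _))

theorem TL.const_mul {f : ℕ → A} {a : A} (b : A) (hf : TL f a) : TL (fun n => b * f n) (b * a) :=
  (TL.const b).mul hf (fun _ => le_rfl)

theorem TL.mul_const {f : ℕ → A} {a : A} (b : A) (hf : TL f a) : TL (fun n => f n * b) (a * b) := by
  have := (TL.const_mul (Star.star b) hf.star).star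
  simpa using this

theorem TL.τ {f : ℕ → A} {a : A} (hf : TL f a) : Tendsto (fun n => τ (f n)) atTop (𝓝 (τ a)) := by
  rw [tendsto_iff_norm_sub_tendsto_zero]
  refine squeeze_zero (fun n => norm_nonneg _) (fun n => ?_) hf
  rw [← map_sub]
  exact norm_τ_le_n2 _

theorem TL.tr {f : ℕ → A} {a : A} (hf : TL f a) : Tendsto (fun n => tr (f n)) atTop (𝓝 (tr a)) :=
  (Complex.continuous_re.tendsto _).comp hf.τ

theorem TL.congr' {f g : ℕ → A} {a : A} (hf : TL f a) (h : ∀ᶠ n in atTop, f n = g n) : TL g a :=
  Tendsto.congr' (h.mono fun n hn => by rw [hn]) hf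

/-! ### trace of projections -/

theorem lm_tr_add (x y : A) : tr (x + y) = tr x + tr y := by simp [GenII1.tr]
theorem lm_tr_sub (x y : A) : tr (x - y) = tr x - tr y := by simp [GenII1.tr]
theorem tr_one' : tr (1 : A) = 1 := by simp [GenII1.tr, τ_one]
@[simp] theorem tr_zero : tr (0 : A) = 0 := by simp [GenII1.tr]

theorem tr_comm (x y : A) : tr (x * y) = tr (y * x) := by rw [GenII1.tr, τ_comm]; rfl

theorem lm_tr_proj_nonneg {p : A} (hp : IsStarProjection p) : 0 ≤ tr p := by
  rw [← n2_sq_proj hp]; exact sq_nonneg _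

theorem tr_proj_le_one {p : A} (hp : IsStarProjection p) : tr p ≤ 1 := by
  have := lm_tr_proj_nonneg hp.one_sub
  rw [lm_tr_sub, tr_one'] at this
  linarith

theorem tr_star_mul_self (x : A) : tr (Star.star x * x) = n2 x ^ 2 := (n2_sq x).symm

end tracial

section proj

variable {A : Type*} [CStarAlgebra A]

theorem proj_norm_le {p : A} (hp : IsStarProjection p) : ‖p‖ ≤ 1 := by
  have h := CStarRing.norm_star_mul_self (x := p)
  rw [hp.isSelfAdjoint.star_eq, hp.isIdempotentElem.eq] at h
  nlinarith [norm_nonneg p]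

/-- `p q = q` means `q ≤ p` -/
theorem proj_sub {p q : A} (hp : IsStarProjection p) (hq : IsStarProjection q) (h : p * q = q) :
    IsStarProjection (p - q) := by
  have h' : q * p = q := by
    have := congrArg star h
    rwa [star_mul, hp.isSelfAdjoint.star_eq, hq.isSelfAdjoint.star_eq] at this
  refine ⟨?_, hp.isSelfAdjoint.sub hq.isSelfAdjoint⟩
  rw [IsIdempotentElem]
  have : (p - q) * (p - q) = p * p - p * q - q * p + q * q := by noncomm_ring
  rw [this, h, h', hp.isIdempotentElem.eq, hq.isIdempotentElem.eq]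
  abel

theorem proj_comm {p q : A} (hp : IsStarProjection p) (hq : IsStarProjection q) (h : p * q = q) :
    q * p = q := by
  have := congrArg star h
  rwa [star_mul, hp.isSelfAdjoint.star_eq, hq.isSelfAdjoint.star_eq] at this

theorem proj_add {p q : A} (hp : IsStarProjection p) (hq : IsStarProjection q) (h : p * q = 0) :
    IsStarProjection (p + q) := by
  have h' : q * p = 0 := by
    have := congrArg star h
    rwa [star_mul, hp.isSelfAdjoint.star_eq, hq.isSelfAdjoint.star_eq, star_zero] at this
  refine ⟨?_, hp.isSelfAdjoint.add hq.isSelfAdjoint⟩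
  rw [IsIdempotentElem]
  have : (p + q) * (p + q) = p * p + p * q + q * p + q * q := by noncomm_ring
  rw [this, h, h', hp.isIdempotentElem.eq, hq.isIdempotentElem.eq]
  abel

theorem proj_zero : IsStarProjection (0 : A) := ⟨by simp [IsIdempotentElem], by simp [IsSelfAdjoint]⟩

theorem eq_zero_of_star_mul_self {x : A} (h : star x * x = 0) : x = 0 := by
  rwa [CStarRing.star_mul_self_eq_zero_iff] at h

/-- if `v⋆v` is a projection then `v (v⋆v) = v` -/
theorem pi_of_proj {v : A} (h : IsStarProjection (star v * v)) : v * (star v * v) = v := by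
  have h1 : star (v - v * (star v * v)) * (v - v * (star v * v)) = 0 := by
    have e : star (v - v * (star v * v)) * (v - v * (star v * v)) =
        star v * v - (star v * v) * (star v * v) - (star v * v) * (star v * v) +
        (star v * v) * (star v * v) * (star v * v) := by
      rw [star_sub, star_mul, star_mul, star_star]; noncomm_ring
    rw [e, h.isIdempotentElem.eq, h.isIdempotentElem.eq]; abel
  exact (sub_eq_zero.1 (eq_zero_of_star_mul_self h1)).symm

/-- partial isometries -/
def PI (v : A) : Prop := v * (star v * v) = v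

theorem PI.proj {v : A} (h : PI v) : IsStarProjection (star v * v) := by
  refine ⟨?_, IsSelfAdjoint.star_mul_self v⟩
  rw [IsIdempotentElem, mul_assoc, h]

theorem PI.star_eq {v : A} (h : PI v) : star v * v * star v = star v := by
  have := congrArg star h
  rwa [star_mul, star_mul, star_star] at this

theorem PI.proj' {v : A} (h : PI v) : IsStarProjection (v * star v) := by
  refine ⟨?_, IsSelfAdjoint.mul_star_self v⟩
  rw [IsIdempotentElem, mul_assoc, ← mul_assoc (star v), h.star_eq]

theorem PI.left {v : A} (h : PI v) : v * star v * v = v := by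
  rw [mul_assoc]; exact h

theorem PI.star {v : A} (h : PI v) : PI (star v) := by
  rw [PI, star_star, ← mul_assoc]; exact h.star_eq

theorem PI.norm_le {v : A} (h : PI v) : ‖v‖ ≤ 1 := by
  have h1 := CStarRing.norm_star_mul_self (x := v)
  have h2 := proj_norm_le h.proj
  rw [h1] at h2
  nlinarith [norm_nonneg v]

theorem PI.of_proj {p : A} (h : IsStarProjection p) : PI p := by
  rw [PI, h.isSelfAdjoint.star_eq, h.isIdempotentElem.eq, h.isIdempotentElem.eq]

theorem PI.zero : PI (0 : A) := by simp [PI]

/-- `w` extends `v` -/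
def Ext (v w : A) : Prop := w * (star v * v) = v ∧ v * star v * w = v

theorem Ext.refl {v : A} (h : PI v) : Ext v v := ⟨h, h.left⟩

theorem proj_le_of {e f : A} (he : IsStarProjection e) (hf : IsStarProjection f)
    (h : e * f * e = e) : f * e = e := by
  have h1 : star ((1 - f) * e) * ((1 - f) * e) = 0 := by
    rw [star_mul, star_sub, star_one, hf.isSelfAdjoint.star_eq, he.isSelfAdjoint.star_eq]
    have e1 : e * (1 - f) * ((1 - f) * e) = e * e - e * f * e - e * f * e + e * (f * f) * e := by
      noncomm_ring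
    rw [e1, hf.isIdempotentElem.eq, he.isIdempotentElem.eq, h]; abel
  have h2 := eq_zero_of_star_mul_self h1
  rw [sub_mul, one_mul, sub_eq_zero] at h2
  exact h2.symm

theorem Ext.le {v w : A} (hv : PI v) (hw : PI w) (h : Ext v w) :
    (star w * w) * (star v * v) = star v * v := by
  apply proj_le_of hv.proj hw.proj
  have h1 : star v = star v * v * star w := by
    have := congrArg Star.star h.1
    rw [star_mul, star_mul, star_star] at this
    exact this.symm
  calc star v * v * (star w * w) * (star v * v)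
      = (star v * v * star w) * (w * (star v * v)) := by noncomm_ring
    _ = star v * v := by rw [← h1, h.1]

theorem Ext.le' {v w : A} (hv : PI v) (hw : PI w) (h : Ext v w) :
    (w * star w) * (v * star v) = v * star v := by
  apply proj_le_of hv.proj' hw.proj'
  have h1 : star v = star w * (v * star v) := by
    have := congrArg Star.star h.2
    rw [star_mul, star_mul, star_star] at this
    exact this.symm
  calc v * star v * (w * star w) * (v * star v)
      = (v * star v * w) * (star w * (v * star v)) := by noncomm_ring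
    _ = v * star v := by rw [← h1, h.2]

theorem Ext.trans {u v w : A} (hu : PI u) (hv : PI v) (h1 : Ext u v) (h2 : Ext v w) :
    Ext u w := by
  constructor
  · have h3 := h1.le hu hv
    rw [← h3, ← mul_assoc, h2.1, h1.1]
  · have h3 := h1.le' hu hv
    have h4 : u * star u * (v * star v) = u * star u := by
      have := congrArg Star.star h3
      rwa [star_mul, hu.proj'.isSelfAdjoint.star_eq, hv.proj'.isSelfAdjoint.star_eq] at this
    rw [← h4, mul_assoc, h2.2, h1.2]

end proj

section fin

variable {A : Type*} [CStarAlgebra A] [FinVN A]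

theorem TL.unique {f : ℕ → A} {a b : A} (ha : TL f a) (hb : TL f b) : a = b := by
  have h1 : Tendsto (fun _ : ℕ => n2 (a - b)) atTop (𝓝 0) := by
    have h2 := Tendsto.add ha hb
    rw [add_zero] at h2
    refine squeeze_zero (fun n => n2_nonneg _) (fun n => ?_) h2
    refine (n2_triangle a (f n) b).trans ?_
    rw [n2_sub_comm a (f n)]
  have h2 := tendsto_nhds_unique h1 tendsto_const_nhds
  exact sub_eq_zero.1 (eq_zero_of_n2 h2.symm)

theorem proj_eq_zero {p : A} (hp : IsStarProjection p) (h : GenII1.tr p = 0) : p = 0 := by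
  apply eq_zero_of_n2
  have := n2_sq_proj hp
  rw [h] at this
  exact pow_eq_zero_iff (two_ne_zero) |>.1 this

theorem tr_proj_pos {p : A} (hp : IsStarProjection p) (h : p ≠ 0) : 0 < GenII1.tr p :=
  lt_of_le_of_ne (lm_tr_proj_nonneg hp) (fun h' => h (proj_eq_zero hp h'.symm))

theorem tr_proj_mono {p q : A} (hp : IsStarProjection p) (hq : IsStarProjection q)
    (h : p * q = q) : GenII1.tr q ≤ GenII1.tr p := by
  have := lm_tr_proj_nonneg (proj_sub hp hq h)
  rw [lm_tr_sub] at this; linarith

theorem Ext.n2_sq {v w : A} (hv : PI v) (hvw : Ext v w) :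
    n2 (w - v) ^ 2 = GenII1.tr (star w * w) - GenII1.tr (star v * v) := by
  have h1 : GenII1.tr (star w * v) = GenII1.tr (star v * v) := by
    have e1 : star w * v = (star w * w * (star v * v)) * (star v * v) := by
      calc star w * v = star w * (w * (star v * v)) := by rw [hvw.1]
        _ = star w * w * (star v * v) := by rw [mul_assoc]
        _ = star w * w * ((star v * v) * (star v * v)) := by rw [hv.proj.isIdempotentElem.eq]
        _ = _ := by rw [mul_assoc (star w * w)]
    have h2 : star v = star v * v * star w := by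
      have := congrArg Star.star hvw.1
      rw [star_mul, star_mul, star_star] at this
      exact this.symm
    rw [e1, tr_comm]
    congr 1
    calc star v * v * (star w * w * (star v * v))
        = (star v * v * star w) * (w * (star v * v)) := by noncomm_ring
      _ = star v * v := by rw [← h2, hvw.1]
  have h2 : GenII1.tr (star v * w) = GenII1.tr (star v * v) := by
    rw [← h1, GenII1.tr, GenII1.tr]
    have := τ_star (star v * w)
    rw [star_mul, star_star] at this
    rw [this, Complex.conj_re]
  rw [GenII1.n2_sq]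
  have e2 : star (w - v) * (w - v) = star w * w - star w * v - star v * w + star v * v := by
    rw [star_sub]; noncomm_ring
  change GenII1.tr _ = _
  rw [e2, lm_tr_add, lm_tr_sub, lm_tr_sub, h1, h2]
  ring

/-- an increasing sequence of partial isometries converges -/
theorem exists_lim_ext {f : ℕ → A} (hf : ∀ n, PI (f n)) (hmono : ∀ n, Ext (f n) (f (n + 1))) :
    ∃ g, PI g ∧ TL f g ∧ ∀ n, Ext (f n) g := by
  have hE : ∀ n k, Ext (f n) (f (n + k)) := by
    intro n k
    induction k with
    | zero => exact Ext.refl (hf n)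
    | succ k ih => exact ih.trans (hf n) (hf _) (hmono (n + k))
  have hE' : ∀ n m, n ≤ m → Ext (f n) (f m) := by
    intro n m hnm
    obtain ⟨k, rfl⟩ := Nat.exists_eq_add_of_le hnm
    exact hE n k
  let s : ℕ → ℝ := fun n => GenII1.tr (star (f n) * f n)
  have hs1 : ∀ n m, n ≤ m → s n ≤ s m := by
    intro n m hnm
    have := (hE' n m hnm).n2_sq (hf n)
    have h2 := sq_nonneg (n2 (f m - f n))
    simp only [s]; linarith
  have hsb : ∀ n, s n ≤ 1 := fun n => tr_proj_le_one (hf n).proj
  have hconv : ∃ l, Tendsto s atTop (𝓝 l) :=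
    ⟨_, tendsto_atTop_ciSup (fun n m h => hs1 n m h) ⟨1, by rintro _ ⟨n, rfl⟩; exact hsb n⟩⟩
  obtain ⟨l, hl⟩ := hconv
  have hc : CauchySeq s := hl.cauchySeq
  obtain ⟨g, hg, hlim⟩ := exists_lim f 1 (fun n => (hf n).norm_le) (by
    intro ε hε
    rw [Metric.cauchySeq_iff] at hc
    obtain ⟨N, hN⟩ := hc (ε ^ 2) (by positivity)
    refine ⟨N, fun m hm n hn => ?_⟩
    have key : ∀ m n, N ≤ m → N ≤ n → n ≤ m → n2 (f m - f n) < ε := by
      intro m n hm hn hnm
      have h1 := (hE' n m hnm).n2_sq (hf n)
      have h2 := hN m hm n hn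
      rw [Real.dist_eq] at h2
      have h3 : n2 (f m - f n) ^ 2 < ε ^ 2 := by
        rw [h1]; exact lt_of_le_of_lt (le_abs_self _) h2
      exact lt_of_pow_lt_pow_left₀ 2 hε.le h3
    rcases le_total n m with h | h
    · exact key m n hm hn h
    · rw [n2_sub_comm]; exact key n m hn hm h)
  have hlim' : TL f g := hlim
  refine ⟨g, ?_, hlim', fun n => ⟨?_, ?_⟩⟩
  · have h1 : TL (fun n => star (f n) * f n) (star g * g) :=
      hlim'.star.mul hlim' (C := 1) (fun n => by rw [norm_star]; exact (hf n).norm_le)
    have h2 : TL (fun n => f n * (star (f n) * f n)) (g * (star g * g)) :=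
      hlim'.mul h1 (fun n => (hf n).norm_le)
    have h3 : TL (fun n => f n * (star (f n) * f n)) g := by
      refine hlim'.congr' (Eventually.of_forall fun n => ?_)
      exact (hf n).symm
    exact h2.unique h3
  · refine (hlim'.mul_const (star (f n) * f n)).unique ((TL.const (f n)).congr' ?_)
    filter_upwards [eventually_ge_atTop n] with m hm
    exact (hE' n m hm).1.symm
  · refine (hlim'.const_mul (f n * star (f n))).unique ((TL.const (f n)).congr' ?_)
    filter_upwards [eventually_ge_atTop n] with m hm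
    exact (hE' n m hm).2.symm

/-- Exhaustion: a set `X` of partial isometries stable under increasing 2-norm limits has
maximal elements. -/
theorem exhaust {X : A → Prop} (hX : ∀ v, X v → PI v)
    (hlim : ∀ f : ℕ → A, ∀ g, (∀ n, X (f n)) → (∀ n, Ext (f n) (f (n + 1))) → TL f g → PI g → X g)
    {v0 : A} (h0 : X v0) :
    ∃ v, X v ∧ Ext v0 v ∧ ∀ w, X w → Ext v w →
      GenII1.tr (star w * w) ≤ GenII1.tr (star v * v) := by
  let S : A → Set ℝ := fun v => {r | ∃ w, X w ∧ Ext v w ∧ r = GenII1.tr (star w * w)}
  have hbd : ∀ v, BddAbove (S v) := fun v =>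
    ⟨1, by rintro r ⟨w, hw, -, rfl⟩; exact tr_proj_le_one (hX w hw).proj⟩
  have step : ∀ v : {v // X v}, ∀ n : ℕ, ∃ w : {w // X w}, Ext v.1 w.1 ∧
      sSup (S v.1) - 1 / (n + 1 : ℝ) < GenII1.tr (star w.1 * w.1) := by
    intro v n
    have hne : (S v.1).Nonempty := ⟨_, v.1, v.2, Ext.refl (hX _ v.2), rfl⟩
    have hpos : (0 : ℝ) < 1 / (n + 1 : ℝ) := by positivity
    obtain ⟨r, ⟨w, hw, hvw, rfl⟩, hr⟩ := exists_lt_of_lt_csSup hne (sub_lt_self (sSup (S v.1)) hpos)
    exact ⟨⟨w, hw⟩, hvw, hr⟩
  choose nx hnx1 hnx2 using step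
  let F : ℕ → {v // X v} := fun n => Nat.rec ⟨v0, h0⟩ (fun k v => nx v k) n
  have hF0 : F 0 = ⟨v0, h0⟩ := rfl
  have hFs : ∀ n, F (n + 1) = nx (F n) n := fun n => rfl
  have hmono : ∀ n, Ext (F n).1 (F (n + 1)).1 := fun n => by rw [hFs]; exact hnx1 _ _
  obtain ⟨g, hgPI, hg, hFg⟩ := exists_lim_ext (f := fun n => (F n).1) (fun n => hX _ (F n).2) hmono
  refine ⟨g, hlim _ g (fun n => (F n).2) hmono hg hgPI, hFg 0, fun w hw hgw => ?_⟩
  have hle : ∀ n : ℕ, GenII1.tr (star w * w) ≤ GenII1.tr (star g * g) + 1 / (n + 1 : ℝ) := by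
    intro n
    have h1 : Ext (F n).1 w := (hFg n).trans (hX _ (F n).2) hgPI hgw
    have h2 : GenII1.tr (star w * w) ≤ sSup (S (F n).1) := le_csSup (hbd _) ⟨w, hw, h1, rfl⟩
    have h3 := hnx2 (F n) n
    rw [← hFs] at h3
    have h4 := (hFg (n + 1)).n2_sq (hX _ (F (n + 1)).2)
    have h5 := sq_nonneg (n2 (g - (F (n + 1)).1))
    linarith
  refine le_of_forall_pos_le_add fun ε hε => ?_
  obtain ⟨n, hn⟩ := exists_nat_one_div_lt hε
  exact (hle n).trans (by linarith)

end fin

end Crest.Agent.GenII1
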