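import Crest.Agent.GenII1.Basic

/-! Taylor bounds for exponentials under the trace. -/

set_option autoImplicit false

namespace Crest.Agent.GenII1

open Filter Topology Set

variable {A : Type*} [CStarAlgebra A] [TracialC A]

/-- `τ` as a continuous linear map -/
noncomputable def τL (A : Type*) [CStarAlgebra A] [TracialC A] : A →L[ℂ] ℂ :=
  LinearMap.mkContinuous τ 1 (fun x => by rw [one_mul]; exact norm_τ_le x)

@[simp] theorem τL_apply (x : A) : τL A x = τ x := rfl

theorem exp_unitary {Y : A} (hY : IsSelfAdjoint Y) (s : ℝ) :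
    NormedSpace.exp (s • (Complex.I • Y)) ∈ unitary A := by
  have h1 : IsSelfAdjoint (s • Y) := by
    rw [IsSelfAdjoint, star_smul, hY.star_eq]; simp
  have h2 := (selfAdjoint.expUnitary ⟨s • Y, h1⟩).2
  rw [selfAdjoint.expUnitary_coe] at h2
  rwa [smul_comm] at h2

theorem norm_unitary_le {u : A} (hu : u ∈ unitary A) : ‖u‖ ≤ 1 := by
  have h := CStarRing.norm_star_mul_self (x := u)
  rw [Unitary.star_mul_self_of_mem hu] at h
  have h1 : ‖(1 : A)‖ ≤ 1 := by
    have := CStarRing.norm_star_mul_self (x := (1 : A))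
    rw [star_one, one_mul] at this
    nlinarith [norm_nonneg (1 : A)]
  nlinarith [norm_nonneg u]

theorem n2_I_smul (Y : A) : n2 (Complex.I • Y) = n2 Y := by
  rw [n2_smul, Complex.norm_I, one_mul]

theorem exp_taylor {Y : A} (hY : IsSelfAdjoint Y) {s : ℝ} (hs : 0 ≤ s) (a b : A) :
    ‖τ (a * (NormedSpace.exp (s • (Complex.I • Y)) - 1 - s • (Complex.I • Y)) * b)‖ ≤
      s ^ 2 / 2 * (‖a‖ * ‖b‖ * n2 Y ^ 2) := by
  set X : A := Complex.I • Y with hX
  set C : ℝ := ‖a‖ * ‖b‖ * n2 Y ^ 2 with hC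
  have hC0 : 0 ≤ C := by positivity
  -- first derivative function
  have hexp : ∀ θ : ℝ, HasDerivAt (fun u : ℝ => NormedSpace.exp (u • X))
      (NormedSpace.exp (θ • X) * X) θ := fun θ => hasDerivAt_exp_smul_const (𝕂 := ℝ) X θ
  have hexp' : ∀ θ : ℝ, HasDerivAt (fun u : ℝ => NormedSpace.exp (u • X))
      (X * NormedSpace.exp (θ • X)) θ := fun θ => hasDerivAt_exp_smul_const' (𝕂 := ℝ) X θ
  let Tc : A →L[ℝ] ℂ := (τL A).restrictScalars ℝ
  let φ : ℝ → ℂ := fun θ => τ (a * (NormedSpace.exp (θ • X) - 1 - θ • X) * b)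
  let ψ : ℝ → ℂ := fun θ => τ (a * (X * NormedSpace.exp (θ • X) - X) * b)
  have hφ : ∀ θ : ℝ, HasDerivAt φ (ψ θ) θ := by
    intro θ
    have h1 : HasDerivAt (fun u : ℝ => NormedSpace.exp (u • X) - 1 - u • X)
        (X * NormedSpace.exp (θ • X) - X) θ := by
      have h2 : HasDerivAt (fun u : ℝ => u • X) X θ := by
        simpa using (hasDerivAt_id θ).smul_const X
      exact ((hexp' θ).sub_const 1).sub h2
    have h3 := (h1.const_mul a).mul_const b
    exact Tc.hasFDerivAt.comp_hasDerivAt θ h3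
  have hψ : ∀ θ : ℝ, HasDerivAt ψ (τ (a * (X * (NormedSpace.exp (θ • X) * X)) * b)) θ := by
    intro θ
    have h1 : HasDerivAt (fun u : ℝ => X * NormedSpace.exp (u • X) - X)
        (X * (NormedSpace.exp (θ • X) * X)) θ := ((hexp θ).const_mul X).sub_const X
    have h3 := (h1.const_mul a).mul_const b
    exact Tc.hasFDerivAt.comp_hasDerivAt θ h3
  have hbd : ∀ θ : ℝ, ‖τ (a * (X * (NormedSpace.exp (θ • X) * X)) * b)‖ ≤ C := by
    intro θ
    have hE := norm_unitary_le (exp_unitary hY θ)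
    have e1 : a * (X * (NormedSpace.exp (θ • X) * X)) * b
        = (a * X) * (NormedSpace.exp (θ • X) * (X * b)) := by noncomm_ring
    rw [e1]
    refine (norm_τ_mul_le _ _).trans ?_
    have h1 : n2 (a * X) ≤ ‖a‖ * n2 Y := by
      have := n2_mul_le_left a X
      rwa [hX, n2_I_smul] at this
    have h2 : n2 (NormedSpace.exp (θ • X) * (X * b)) ≤ n2 Y * ‖b‖ := by
      refine (n2_mul_le_left _ _).trans ?_
      have h3 := n2_mul_le_right X b
      rw [hX, n2_I_smul] at h3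
      calc ‖NormedSpace.exp (θ • X)‖ * n2 (X * b) ≤ 1 * n2 (X * b) :=
            mul_le_mul_of_nonneg_right hE (n2_nonneg _)
        _ ≤ n2 Y * ‖b‖ := by rw [one_mul]; exact h3
    calc n2 (a * X) * n2 (NormedSpace.exp (θ • X) * (X * b)) ≤ (‖a‖ * n2 Y) * (n2 Y * ‖b‖) :=
          mul_le_mul h1 h2 (n2_nonneg _) (mul_nonneg (norm_nonneg _) (n2_nonneg _))
      _ = C := by rw [hC]; ring
  have hψ0 : ψ 0 = 0 := by simp [ψ]
  have hφ0 : φ 0 = 0 := by simp [φ]
  have hψb : ∀ θ ∈ Icc (0 : ℝ) s, ‖ψ θ‖ ≤ C * θ := by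
    intro θ hθ
    have := norm_image_sub_le_of_norm_deriv_le_segment' (f := ψ) (a := 0) (b := s) (C := C)
      (fun x _ => (hψ x).hasDerivWithinAt) (fun x _ => hbd x) θ hθ
    simpa [hψ0] using this
  have key := image_norm_le_of_norm_deriv_right_le_deriv_boundary (f := φ) (a := 0) (b := s)
    (f' := ψ) (B := fun θ => C / 2 * θ ^ 2) (B' := fun θ => C * θ)
    (fun x _ => (hφ x).continuousAt.continuousWithinAt) (fun x _ => (hφ x).hasDerivWithinAt)
    (by simp [hφ0]) (fun x => by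
      have := (hasDerivAt_pow 2 x).const_mul (C / 2)
      refine this.congr_deriv ?_
      simp; ring)
    (fun x hx => hψb x (Ico_subset_Icc_self hx)) (right_mem_Icc.2 hs)
  calc ‖φ s‖ ≤ C / 2 * s ^ 2 := key
    _ = s ^ 2 / 2 * C := by ring

theorem n2_exp_sub_one {Y : A} (hY : IsSelfAdjoint Y) {s : ℝ} (hs : 0 ≤ s) :
    n2 (NormedSpace.exp (s • (Complex.I • Y)) - 1) ≤ s * n2 Y := by
  set E := NormedSpace.exp (s • (Complex.I • Y)) with hE
  have hEu : E ∈ unitary A := exp_unitary hY s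
  have h1 : n2 (E - 1) ^ 2 = - 2 * (τ (E - 1)).re := by
    rw [n2_sq]
    have e1 : star (E - 1) * (E - 1) = 1 - E - star E + 1 := by
      rw [star_sub, star_one, sub_mul, mul_sub, Unitary.star_mul_self_of_mem hEu]
      noncomm_ring
    rw [e1]
    simp only [map_add, map_sub, τ_one, Complex.add_re, Complex.sub_re, Complex.one_re, τ_star,
      Complex.conj_re]
    ring
  have h2 : (τ (E - 1)).re = (τ (1 * (E - 1 - s • (Complex.I • Y)) * 1)).re := by
    rw [one_mul, mul_one, map_sub τ (E - 1)]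
    have e2 : τ (s • (Complex.I • Y)) = (s : ℂ) * (Complex.I * τ Y) := by
      rw [show s • (Complex.I • Y) = (s : ℂ) • (Complex.I • Y) from (Complex.coe_smul _ _).symm,
        map_smul, map_smul]; rfl
    rw [e2, Complex.sub_re, Complex.re_ofReal_mul, Complex.mul_re, τ_sa_im hY]
    simp
  have h3 := exp_taylor hY hs (1 : A) 1
  rw [← hE] at h3
  have h1' : ‖(1 : A)‖ ≤ 1 := norm_unitary_le (one_mem _)
  have h4 : ‖τ (1 * (E - 1 - s • (Complex.I • Y)) * 1)‖ ≤ s ^ 2 / 2 * n2 Y ^ 2 := by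
    refine h3.trans ?_
    have : ‖(1 : A)‖ * ‖(1 : A)‖ ≤ 1 := by nlinarith [norm_nonneg (1 : A)]
    have h5 : ‖(1 : A)‖ * ‖(1 : A)‖ * n2 Y ^ 2 ≤ 1 * n2 Y ^ 2 :=
      mul_le_mul_of_nonneg_right this (sq_nonneg _)
    rw [one_mul] at h5
    exact mul_le_mul_of_nonneg_left h5 (by positivity)
  have h5 : n2 (E - 1) ^ 2 ≤ (s * n2 Y) ^ 2 := by
    rw [h1, h2]
    have := (abs_le.1 ((Complex.abs_re_le_norm _).trans h4)).1
    nlinarith
  exact (abs_le_of_sq_le_sq' h5 (mul_nonneg hs (n2_nonneg _))).2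

end Crest.Agent.GenII1
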