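import Crest.Agent.GenII1.Spectral

/-! Averaging over the unitary group of an irreducible subalgebra. -/

set_option autoImplicit false
set_option linter.unusedSectionVars false
set_option linter.style.haveILetI false
set_option linter.unusedVariables false

namespace Crest.Agent.GenII1

open Filter Topology

variable {A : Type*} [CStarAlgebra A] [FinVN A]

theorem av_parallelogram (u v : A) :
    n2 (u + v) ^ 2 + n2 (u - v) ^ 2 = 2 * (n2 u ^ 2 + n2 v ^ 2) := by
  have := parallelogram_law_with_norm ℂ (toL2 u : L2 A) (toL2 v)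
  simp only [n2, map_add, map_sub]
  nlinarith [this]

/-- real and imaginary parts of an element of `P` -/
theorem av_re_mem {P : StarSubalgebra ℂ A} {x : A} (hx : x ∈ P) :
    (1 / 2 : ℂ) • (x + star x) ∈ P := P.smul_mem (add_mem hx (star_mem hx)) _

theorem av_im_mem {P : StarSubalgebra ℂ A} {x : A} (hx : x ∈ P) :
    (-(Complex.I / 2) : ℂ) • (x - star x) ∈ P := P.smul_mem (sub_mem hx (star_mem hx)) _

theorem av_re_sa (a : A) : IsSelfAdjoint ((1 / 2 : ℂ) • (a + star a)) := by
  rw [IsSelfAdjoint, star_smul, star_add, star_star, add_comm (star a) a]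
  congr 1
  simp

theorem av_im_sa (a : A) : IsSelfAdjoint ((-(Complex.I / 2) : ℂ) • (a - star a)) := by
  rw [IsSelfAdjoint, star_smul, star_sub, star_star, ← neg_sub a (star a), smul_neg, ← neg_smul]
  congr 1
  simp [Complex.conj_I]
  ring

theorem av_decomp (a : A) : a = (1 / 2 : ℂ) • (a + star a) +
    Complex.I • ((-(Complex.I / 2) : ℂ) • (a - star a)) := by
  rw [smul_smul]
  have : Complex.I * -(Complex.I / 2) = 1 / 2 := by
    rw [mul_neg, mul_div_assoc', Complex.I_mul_I]; ring
  rw [this, ← smul_add, add_add_sub_cancel, ← two_smul ℂ a, smul_smul]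
  norm_num

theorem av_re_norm (a : A) : ‖(1 / 2 : ℂ) • (a + star a)‖ ≤ ‖a‖ := by
  rw [norm_smul]
  have h1 := norm_add_le a (star a)
  rw [norm_star] at h1
  have h2 : ‖(1 / 2 : ℂ)‖ = 1 / 2 := by simp
  rw [h2]; linarith

theorem av_im_norm (a : A) : ‖(-(Complex.I / 2) : ℂ) • (a - star a)‖ ≤ ‖a‖ := by
  rw [norm_smul]
  have h1 := norm_sub_le a (star a)
  rw [norm_star] at h1
  have h2 : ‖(-(Complex.I / 2) : ℂ)‖ = 1 / 2 := by simp
  rw [h2]; linarith

/-- a self-adjoint contraction of `P` is the real part of a unitary of `P` -/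
theorem av_unitary {P : StarSubalgebra ℂ A} (hP : TClosed P) {a : A} (ha : a ∈ P)
    (hsa : IsSelfAdjoint a) (hn : ‖a‖ ≤ 1) :
    ∃ v ∈ P, v ∈ unitary A ∧ a = (1 / 2 : ℂ) • (v + star v) := by
  haveI : Nontrivial A := ⟨⟨0, 1, fun h => by
    have h1 := (τ_one : τ (1 : A) = 1)
    rw [← h, map_zero] at h1
    exact zero_ne_one h1⟩⟩
  set w : A := cfc (fun s : ℝ => √(1 - s ^ 2)) a with hw
  have hwsa : IsSelfAdjoint w := cfc_predicate _ a
  have hwP : w ∈ P := cfc_mem hP ha _
  have hcomm : a * w = w * a := by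
    have : Commute w a := Commute.cfc_real (Commute.refl a) _
    exact this.eq.symm
  have hww : w * w = 1 - a * a := by
    have h1 : a * a = cfc (fun s : ℝ => s * s) a := by
      rw [cfc_mul _ _ a (by fun_prop) (by fun_prop), cfc_id' ℝ a]
    rw [h1, ← cfc_const_one ℝ a, hw, ← cfc_mul _ _ a (by fun_prop) (by fun_prop),
      ← cfc_sub _ _ a (by fun_prop) (by fun_prop)]
    apply cfc_congr
    intro s hs
    have h2 : |s| ≤ 1 := by
      have := spectrum.norm_le_norm_of_mem hs
      rw [Real.norm_eq_abs] at this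
      exact this.trans hn
    have h3 : s ^ 2 ≤ 1 := by
      rw [← sq_abs]
      nlinarith [abs_nonneg s]
    simp only
    rw [Real.mul_self_sqrt (by linarith)]
    ring
  refine ⟨a + Complex.I • w, add_mem ha (P.smul_mem hwP _), ?_, ?_⟩
  · have hstar : star (a + Complex.I • w) = a - Complex.I • w := by
      rw [star_add, star_smul, hsa.star_eq, hwsa.star_eq]
      simp [sub_eq_add_neg]
    have h1 : (a - Complex.I • w) * (a + Complex.I • w) = 1 := by
      rw [sub_mul, mul_add, mul_add, smul_mul_assoc, mul_smul_comm, smul_mul_smul_comm,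
        Complex.I_mul_I, hww, hcomm, neg_smul, one_smul]
      abel
    have h2 : (a + Complex.I • w) * (a - Complex.I • w) = 1 := by
      rw [add_mul, mul_sub, mul_sub, smul_mul_assoc, mul_smul_comm, smul_mul_smul_comm,
        Complex.I_mul_I, hww, hcomm, neg_smul, one_smul]
      abel
    rw [Unitary.mem_iff, hstar]
    exact ⟨h1, h2⟩
  · rw [star_add, star_smul, hsa.star_eq, hwsa.star_eq]
    have h3 : a + Complex.I • w + (a + star Complex.I • w) = (2 : ℂ) • a := by
      rw [two_smul]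
      simp
      abel
    rw [h3, smul_smul]
    norm_num

/-- an element commuting with all unitaries of `P` commutes with `P` -/
theorem av_comm {P : StarSubalgebra ℂ A} (hP : TClosed P) {g : A}
    (hg : ∀ v ∈ P, v ∈ unitary A → v * g = g * v) : ∀ y ∈ P, g * y = y * g := by
  have hsa : ∀ a ∈ P, IsSelfAdjoint a → ‖a‖ ≤ 1 → g * a = a * g := by
    intro a ha hsa hn
    obtain ⟨v, hv, hvu, hav⟩ := av_unitary hP ha hsa hn
    have h1 := hg v hv hvu
    have h2 := hg (star v) (star_mem hv) (Unitary.star_mem hvu)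
    rw [hav, mul_smul_comm, smul_mul_assoc, mul_add, add_mul, h1, h2]
  have hsa' : ∀ a ∈ P, IsSelfAdjoint a → g * a = a * g := by
    intro a ha hs
    set r : ℝ := ‖a‖ + 1 with hr
    have hr0 : 0 < r := by positivity
    have h1 := hsa (((r : ℂ)⁻¹) • a) (P.smul_mem ha _) (by
        rw [IsSelfAdjoint, star_smul, hs.star_eq]
        congr 1
        simp) (by
        rw [norm_smul, norm_inv, Complex.norm_real, Real.norm_eq_abs, abs_of_pos hr0,
          inv_mul_le_one₀ hr0]
        linarith)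
    rw [mul_smul_comm, smul_mul_assoc] at h1
    have h2 : (r : ℂ) ≠ 0 := by exact_mod_cast hr0.ne'
    have h3 := congrArg (fun z => (r : ℂ) • z) h1
    simpa only [smul_smul, mul_inv_cancel₀ h2, one_smul] using h3
  intro y hy
  have h1 := hsa' _ (av_re_mem hy) (av_re_sa y)
  have h2 := hsa' _ (av_im_mem hy) (av_im_sa y)
  have h3 : ∀ r s : A, g * r = r * g → g * s = s * g →
      g * (r + Complex.I • s) = (r + Complex.I • s) * g := by
    intro r s hr hs
    rw [mul_add, add_mul, mul_smul_comm, smul_mul_assoc, hr, hs]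
  rw [av_decomp y]
  exact h3 _ _ h1 h2

/-- Core averaging lemma: `τ(c)` is a 2-norm limit of convex combinations of conjugates `v c v⋆`
with `v` a unitary of `P`. -/
theorem exists_average {P M : StarSubalgebra ℂ A} (h : IsIrr P M) {c : A} (hc : c ∈ M)
    {ε : ℝ} (hε : 0 < ε) :
    ∃ x ∈ convexHull ℝ {x : A | ∃ v ∈ P, v ∈ unitary A ∧ x = v * c * star v},
      n2 (x - τ c • (1 : A)) < ε := by
  -- the convex hull of the conjugates
  set S : Set A := {x | ∃ v ∈ P, v ∈ unitary A ∧ x = v * c * star v} with hS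
  set K : Set A := convexHull ℝ S with hK
  have hKconv : Convex ℝ K := convex_convexHull ℝ S
  have hcS : c ∈ S := ⟨1, one_mem P, one_mem _, by simp⟩
  have hSK : S ⊆ K := subset_convexHull ℝ S
  have hcK : c ∈ K := hSK hcS
  -- properties of the elements of K
  have hprop : ∀ x ∈ K, x ∈ M ∧ ‖x‖ ≤ ‖c‖ ∧ τ x = τ c := by
    have hconv : Convex ℝ {x : A | x ∈ M ∧ ‖x‖ ≤ ‖c‖ ∧ τ x = τ c} := by
      intro x hx y hy a b ha hb hab
      obtain ⟨x1, x2, x3⟩ := hx
      obtain ⟨y1, y2, y3⟩ := hy
      refine ⟨?_, ?_, ?_⟩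
      · rw [← Complex.coe_smul a x, ← Complex.coe_smul b y]
        exact add_mem (M.smul_mem x1 _) (M.smul_mem y1 _)
      · refine (norm_add_le _ _).trans ?_
        rw [norm_smul, norm_smul, Real.norm_eq_abs, Real.norm_eq_abs, abs_of_nonneg ha,
          abs_of_nonneg hb]
        calc a * ‖x‖ + b * ‖y‖ ≤ a * ‖c‖ + b * ‖c‖ := by gcongr
          _ = ‖c‖ := by rw [← add_mul, hab, one_mul]
      · rw [← Complex.coe_smul a x, ← Complex.coe_smul b y, map_add, map_smul, map_smul, x3, y3,
          ← add_smul, ← Complex.ofReal_add, hab, Complex.ofReal_one, one_smul]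
    have hsub : S ⊆ {x : A | x ∈ M ∧ ‖x‖ ≤ ‖c‖ ∧ τ x = τ c} := by
      rintro x ⟨v, hv, hvu, rfl⟩
      refine ⟨mul_mem (mul_mem (h.le hv) hc) (star_mem (h.le hv)), ?_, ?_⟩
      · have h1 : ‖v * c * star v‖ = ‖c‖ := by
          rw [CStarRing.norm_mul_mem_unitary _ (Unitary.star_mem hvu),
            CStarRing.norm_mem_unitary_mul _ hvu]
        exact h1.le
      · rw [τ_comm, ← mul_assoc, Unitary.star_mul_self_of_mem hvu, one_mul]
    exact fun x hx => convexHull_min hsub hconv hx
  have hconj : ∀ v ∈ P, v ∈ unitary A → ∀ x ∈ K, v * x * star v ∈ K := by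
    intro v hv hvu x hx
    have hconv : Convex ℝ {x : A | v * x * star v ∈ K} := by
      intro x hx y hy a b ha hb hab
      have : v * (a • x + b • y) * star v = a • (v * x * star v) + b • (v * y * star v) := by
        simp only [mul_add, add_mul, mul_smul_comm, smul_mul_assoc]
      show v * (a • x + b • y) * star v ∈ K
      rw [this]
      exact hKconv hx hy ha hb hab
    have hsub : S ⊆ {x : A | v * x * star v ∈ K} := by
      rintro x ⟨w, hw, hwu, rfl⟩
      refine hSK ⟨v * w, mul_mem hv hw, mul_mem hvu hwu, ?_⟩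
      rw [star_mul]; simp only [mul_assoc]
    exact convexHull_min hsub hconv hx
  -- the infimum of the 2-norm
  set d : ℝ := sInf (n2 '' K) with hd
  have hbdd : BddBelow (n2 '' K) := ⟨0, by rintro _ ⟨x, _, rfl⟩; exact n2_nonneg x⟩
  have hne : (n2 '' K).Nonempty := ⟨_, c, hcK, rfl⟩
  have hd0 : 0 ≤ d := Real.sInf_nonneg (by rintro _ ⟨x, _, rfl⟩; exact n2_nonneg x)
  have hdle : ∀ x ∈ K, d ≤ n2 x := fun x hx => csInf_le hbdd ⟨x, hx, rfl⟩
  have hex : ∀ n : ℕ, ∃ x ∈ K, n2 x ^ 2 < d ^ 2 + 1 / ((n : ℝ) + 1) := by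
    intro n
    have hε : 0 < 1 / ((n : ℝ) + 1) := by positivity
    have h1 : d < √(d ^ 2 + 1 / ((n : ℝ) + 1)) := by
      apply Real.lt_sqrt_of_sq_lt
      linarith
    obtain ⟨_, ⟨x, hx, rfl⟩, hlt⟩ := exists_lt_of_csInf_lt hne h1
    refine ⟨x, hx, ?_⟩
    have := pow_lt_pow_left₀ hlt (n2_nonneg x) (two_ne_zero)
    rwa [Real.sq_sqrt (by positivity)] at this
  choose f hfK hf using hex
  have hmid : ∀ x ∈ K, ∀ y ∈ K, 4 * d ^ 2 ≤ n2 (x + y) ^ 2 := by
    intro x hx y hy
    have h1 : (1 / 2 : ℝ) • x + (1 / 2 : ℝ) • y ∈ K := hKconv hx hy (by norm_num) (by norm_num)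
      (by norm_num)
    have h2 := hdle _ h1
    rw [← smul_add, ← Complex.coe_smul, n2_smul, Complex.norm_real] at h2
    norm_num at h2
    nlinarith [n2_nonneg (x + y)]
  have hdist : ∀ x ∈ K, ∀ y ∈ K, n2 (x - y) ^ 2 ≤ 2 * (n2 x ^ 2 - d ^ 2) + 2 * (n2 y ^ 2 - d ^ 2) := by
    intro x hx y hy
    have h1 := av_parallelogram x y
    have h2 := hmid x hx y hy
    linarith
  have hfC : ∀ n, ‖f n‖ ≤ ‖c‖ := fun n => (hprop _ (hfK n)).2.1
  obtain ⟨g, hgC, hg⟩ := exists_lim f ‖c‖ hfC (by
    intro ε hε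
    obtain ⟨N, hN⟩ := exists_nat_one_div_lt (show 0 < ε ^ 2 / 4 by positivity)
    refine ⟨N, fun m hm n hn => ?_⟩
    have h1 := hdist _ (hfK m) _ (hfK n)
    have h2 := hf m
    have h3 := hf n
    have h4 : 1 / ((m : ℝ) + 1) ≤ 1 / ((N : ℝ) + 1) := by
      have : (N : ℝ) ≤ m := by exact_mod_cast hm
      gcongr
    have h5 : 1 / ((n : ℝ) + 1) ≤ 1 / ((N : ℝ) + 1) := by
      have : (N : ℝ) ≤ n := by exact_mod_cast hn
      gcongr
    exact lt_of_pow_lt_pow_left₀ 2 hε.le (by linarith))
  have hgM : g ∈ M := h.closedM f g ‖c‖ (fun n => (hprop _ (hfK n)).1) hfC hg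
  -- g commutes with the unitaries of P
  have hinv : Tendsto (fun n : ℕ => 4 / ((n : ℝ) + 1)) atTop (𝓝 0) := by
    have h1 := (tendsto_one_div_add_atTop_nhds_zero_nat (𝕜 := ℝ)).const_mul 4
    rw [mul_zero] at h1
    exact h1.congr (fun n => by ring)
  have hgcomm : ∀ v ∈ P, v ∈ unitary A → v * g = g * v := by
    intro v hv hvu
    have h1 : ∀ n : ℕ, n2 (v * f n * star v - f n) ^ 2 ≤ 4 / ((n : ℝ) + 1) := by
      intro n
      have h2 := hdist _ (hconj v hv hvu _ (hfK n)) _ (hfK n)
      have h3 : n2 (v * f n * star v) = n2 (f n) := by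
        rw [n2_mul_unitary _ (Unitary.star_mem hvu), n2_unitary_mul hvu]
      rw [h3] at h2
      have h4 := hf n
      have h5 : 4 / ((n : ℝ) + 1) = 4 * (1 / ((n : ℝ) + 1)) := by ring
      rw [h5]; linarith
    have h2 : Tendsto (fun n => n2 (v * f n * star v - f n)) atTop (𝓝 0) := by
      have h4 : Tendsto (fun n => n2 (v * f n * star v - f n) ^ 2) atTop (𝓝 0) :=
        squeeze_zero (fun n => sq_nonneg _) h1 hinv
      have h5 := h4.sqrt
      rw [Real.sqrt_zero] at h5
      exact h5.congr (fun n => Real.sqrt_sq (n2_nonneg _))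
    have h3 : ∀ n, n2 (v * g * star v - g) ≤ n2 (v * f n * star v - f n) + 2 * n2 (f n - g) := by
      intro n
      have e1 : v * g * star v - g = (v * f n * star v - f n) - v * (f n - g) * star v + (f n - g) := by
        noncomm_ring
      rw [e1]
      refine (n2_add_le _ _).trans ?_
      have h5 := n2_sub_le (v * f n * star v - f n) (v * (f n - g) * star v)
      have h6 : n2 (v * (f n - g) * star v) = n2 (f n - g) := by
        rw [n2_mul_unitary _ (Unitary.star_mem hvu), n2_unitary_mul hvu]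
      rw [h6] at h5
      linarith
    have h4 : Tendsto (fun n => n2 (v * f n * star v - f n) + 2 * n2 (f n - g)) atTop (𝓝 0) := by
      have := h2.add (hg.const_mul 2)
      simpa using this
    have h5 : n2 (v * g * star v - g) ≤ 0 := ge_of_tendsto' h4 h3
    have h6 := sub_eq_zero.1 (eq_zero_of_n2 (le_antisymm h5 (n2_nonneg _)))
    have h7 : v * g * star v * v = g * v := by rw [h6]
    rwa [mul_assoc (v * g), Unitary.star_mul_self_of_mem hvu, mul_one] at h7
  obtain ⟨c', hc'⟩ := h.irr g hgM (av_comm h.closedP hgcomm)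
  -- g = τ c
  have hτ : τ g = τ c := by
    have h1 : ∀ n, ‖τ g - τ c‖ ≤ n2 (f n - g) := by
      intro n
      rw [← (hprop _ (hfK n)).2.2, ← map_sub, n2_sub_comm]
      exact norm_τ_le_n2 _
    have h2 : ‖τ g - τ c‖ ≤ 0 := ge_of_tendsto' hg h1
    exact sub_eq_zero.1 (norm_eq_zero.1 (le_antisymm h2 (norm_nonneg _)))
  have hc'' : c' = τ c := by
    rw [← hτ, hc', map_smul, τ_one, smul_eq_mul, mul_one]
  have hgeq : g = τ c • (1 : A) := by rw [hc', hc'']
  rw [← hgeq]
  obtain ⟨n, hn⟩ := (hg.eventually (gt_mem_nhds hε)).exists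
  exact ⟨f n, hfK n, hn⟩

/-- If all conjugates `v c v⋆` (`v` unitary of `P`) are within `κ` of `c` in 2-norm then `c` is within
`κ` of `τ(c)`. Proof: minimal 2-norm element (Hilbert projection theorem
`exists_norm_eq_iInf_of_complete_convex`, or parallelogram law by hand) of the 2-norm closed convex
hull of the conjugates is fixed by all `Ad v`, so commutes with `P` (unitaries span `P`), so is a
scalar, equal to `τ(c)`. -/
theorem n2_sub_τ_le_of_conj {P M : StarSubalgebra ℂ A} (h : IsIrr P M) {c : A} (hc : c ∈ M)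
    (κ : ℝ) (hκ : ∀ v ∈ P, v ∈ unitary A → n2 (v * c * star v - c) ≤ κ) :
    n2 (c - τ c • (1 : A)) ≤ κ := by
  refine le_of_forall_pos_lt_add (fun ε hε => ?_)
  obtain ⟨x, hx, hxε⟩ := exists_average h hc hε
  have hprop : n2 (x - c) ≤ κ := by
    have hconv : Convex ℝ {x : A | n2 (x - c) ≤ κ} := by
      intro x x4 y y4 a b ha hb hab
      have e1 : a • x + b • y - c = (a : ℂ) • (x - c) + (b : ℂ) • (y - c) := by
        have : c = (a : ℂ) • c + (b : ℂ) • c := by
          rw [← add_smul, ← Complex.ofReal_add, hab, Complex.ofReal_one, one_smul]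
        conv_lhs => rw [this]
        rw [← Complex.coe_smul a x, ← Complex.coe_smul b y, smul_sub, smul_sub]
        abel
      show n2 (a • x + b • y - c) ≤ κ
      rw [e1]
      refine (n2_add_le _ _).trans ?_
      rw [n2_smul, n2_smul, Complex.norm_real, Complex.norm_real, Real.norm_eq_abs,
        Real.norm_eq_abs, abs_of_nonneg ha, abs_of_nonneg hb]
      calc a * n2 (x - c) + b * n2 (y - c) ≤ a * κ + b * κ := by
            exact add_le_add (mul_le_mul_of_nonneg_left x4 ha) (mul_le_mul_of_nonneg_left y4 hb)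
        _ = κ := by rw [← add_mul, hab, one_mul]
    have hsub : {x : A | ∃ v ∈ P, v ∈ unitary A ∧ x = v * c * star v} ⊆
        {x : A | n2 (x - c) ≤ κ} := by
      rintro x ⟨v, hv, hvu, rfl⟩
      exact hκ v hv hvu
    exact convexHull_min hsub hconv hx
  have e1 : c - τ c • (1 : A) = (c - x) + (x - τ c • (1 : A)) := by abel
  rw [e1]
  refine (n2_add_le _ _).trans_lt ?_
  rw [n2_sub_comm c x]
  linarith

/-- some unitary of `P` has large commutator with `c` -/
theorem exists_unitary_comm {P M : StarSubalgebra ℂ A} (h : IsIrr P M) {c : A} (hc : c ∈ M) :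
    ∃ v ∈ P, v ∈ unitary A ∧ n2 (c - τ c • (1 : A)) / 2 ≤ n2 (v * c - c * v) := by
  by_contra hcon
  push Not at hcon
  have h1 := n2_sub_τ_le_of_conj h hc (n2 (c - τ c • (1 : A)) / 2) (fun v hv hvu => by
    have e1 : v * c * star v - c = (v * c - c * v) * star v := by
      rw [sub_mul, mul_assoc c, Unitary.mul_star_self_of_mem hvu, mul_one]
    rw [e1, n2_mul_unitary _ (Unitary.star_mem hvu)]
    exact (hcon v hv hvu).le)
  have h2 := hcon 1 (one_mem P) (one_mem _)
  have h3 := n2_nonneg ((1 : A) * c - c * 1)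
  linarith

/-- some projection of `P` has large commutator with `c` (unitary `= a + i b`, layer cake) -/
theorem exists_proj_comm {P M : StarSubalgebra ℂ A} (h : IsIrr P M) {c : A} (hc : c ∈ M) :
    ∃ p ∈ P, IsStarProjection p ∧ n2 (c - τ c • (1 : A)) / 16 ≤ n2 (p * c - c * p) := by
  by_contra hcon
  push Not at hcon
  set D : ℝ := n2 (c - τ c • (1 : A)) with hD
  have h0 := hcon 0 (zero_mem P) (IsStarProjection.zero A)
  have h0' := n2_nonneg ((0 : A) * c - c * 0)
  obtain ⟨v, hv, hvu, hvc⟩ := exists_unitary_comm h hc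
  haveI : Nontrivial A := ⟨⟨0, 1, fun h => by
    have h1 := (τ_one : τ (1 : A) = 1)
    rw [← h, map_zero] at h1
    exact zero_ne_one h1⟩⟩
  have hvn : ‖v‖ ≤ 1 := (CStarRing.norm_of_mem_unitary hvu).le
  have h1 := comm_le_of_proj h.closedP c (D / 16) (fun p hp hpp => (hcon p hp hpp).le)
    (av_re_mem hv) (av_re_sa v) ((av_re_norm v).trans hvn)
  have h2 := comm_le_of_proj h.closedP c (D / 16) (fun p hp hpp => (hcon p hp hpp).le)
    (av_im_mem hv) (av_im_sa v) ((av_im_norm v).trans hvn)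
  have h3 : v * c - c * v = ((1 / 2 : ℂ) • (v + star v) * c - c * ((1 / 2 : ℂ) • (v + star v))) +
      Complex.I • ((-(Complex.I / 2) : ℂ) • (v - star v) * c
        - c * ((-(Complex.I / 2) : ℂ) • (v - star v))) := by
    have h3 : ∀ r s : A, (r + Complex.I • s) * c - c * (r + Complex.I • s)
        = (r * c - c * r) + Complex.I • (s * c - c * s) := by
      intro r s
      rw [add_mul, mul_add, smul_mul_assoc, mul_smul_comm, smul_sub]
      abel
    rw [← h3, ← av_decomp v]
  have h4 := n2_add_le ((1 / 2 : ℂ) • (v + star v) * c - c * ((1 / 2 : ℂ) • (v + star v)))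
    (Complex.I • ((-(Complex.I / 2) : ℂ) • (v - star v) * c
        - c * ((-(Complex.I / 2) : ℂ) • (v - star v))))
  rw [← h3, n2_smul, Complex.norm_I, one_mul] at h4
  linarith

end Crest.Agent.GenII1
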