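import Crest.Agent.GenII1.Basic

/-! 2-norm closure of a star subalgebra: bounded approximation, orthogonal elements. -/

set_option autoImplicit false

namespace Crest.Agent.GenII1

open Filter Topology

variable {A : Type*} [CStarAlgebra A] [FinVN A]

theorem cl_n2_sub_sq (u v : A) :
    n2 (u - v) ^ 2 = n2 u ^ 2 - 2 * (τ (star u * v)).re + n2 v ^ 2 := by
  have := norm_sub_sq (𝕜 := ℂ) (toL2 u : L2 A) (toL2 v)
  rw [inner_toL2] at this
  exact this

theorem cl_n2_parallelogram (u v : A) :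
    n2 (u + v) ^ 2 + n2 (u - v) ^ 2 = 2 * (n2 u ^ 2 + n2 v ^ 2) := by
  have := parallelogram_law_with_norm ℂ (toL2 u : L2 A) (toL2 v)
  simp only [n2, map_add, map_sub]
  nlinarith [this]

/-- `Re τ(k k y) ≤ ‖y‖ τ(k k)` -/
theorem cl_re_τ_sq_mul_le {k : A} (hk : IsSelfAdjoint k) (y : A) :
    |(τ (k * k * y)).re| ≤ ‖y‖ * (τ (k * k)).re := by
  have e : τ (k * k * y) = τ (star k * (y * k)) := by
    rw [hk.star_eq, mul_assoc, τ_comm, mul_assoc]
  have h1 : n2 k ^ 2 = (τ (k * k)).re := by rw [n2_sq, hk.star_eq]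
  rw [e, ← h1]
  calc |(τ (star k * (y * k))).re| ≤ ‖τ (star k * (y * k))‖ := Complex.abs_re_le_norm _
    _ ≤ n2 k * n2 (y * k) := norm_τ_star_mul_le _ _
    _ ≤ n2 k * (‖y‖ * n2 k) := mul_le_mul_of_nonneg_left (n2_mul_le_left _ _) (n2_nonneg _)
    _ = ‖y‖ * n2 k ^ 2 := by ring

/-- Truncation at level `‖y‖` decreases the 2-distance to `y`. -/
theorem cl_trunc {N : StarSubalgebra ℂ A} {a y : A} (ha : a ∈ N.topologicalClosure)
    (hsa : IsSelfAdjoint a) (hy : IsSelfAdjoint y) :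
    ∃ b ∈ N.topologicalClosure, IsSelfAdjoint b ∧ ‖b‖ ≤ ‖y‖ ∧ n2 (b - y) ≤ n2 (a - y) := by
  set c : ℝ := ‖y‖ with hc
  have hc0 : 0 ≤ c := norm_nonneg _
  have hcl : IsClosed (N.topologicalClosure : Set A) := N.isClosed_topologicalClosure
  let b : A := cfc (fun t : ℝ => max (min t c) (-c)) a
  let h : A := cfc (fun t : ℝ => max (t - c) 0) a
  let g : A := cfc (fun t : ℝ => max (-t - c) 0) a
  let k : A := cfc (fun t : ℝ => √(max (t - c) 0)) a
  let l : A := cfc (fun t : ℝ => √(max (-t - c) 0)) a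
  have hb : IsSelfAdjoint b := cfc_predicate _ a
  have hk : IsSelfAdjoint k := cfc_predicate _ a
  have hl : IsSelfAdjoint l := cfc_predicate _ a
  have hkk : k * k = h := by
    simp only [k, h]
    rw [← cfc_mul _ _ a]
    apply cfc_congr
    intro t _
    exact Real.mul_self_sqrt (le_max_right _ _)
  have hll : l * l = g := by
    simp only [l, g]
    rw [← cfc_mul _ _ a]
    apply cfc_congr
    intro t _
    exact Real.mul_self_sqrt (le_max_right _ _)
  have hab : a - b = h - g := by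
    have h1 : a = cfc (fun t : ℝ => t) a := (cfc_id' ℝ a).symm
    have h2 : a - b = cfc (fun t : ℝ => t - max (min t c) (-c)) a := by
      rw [cfc_sub (fun t : ℝ => t) (fun t : ℝ => max (min t c) (-c)) a, ← h1]
    rw [h2]
    simp only [h, g]
    rw [← cfc_sub _ _ a]
    apply cfc_congr
    intro t _
    simp only
    rcases le_total t c with h3 | h3
    · rcases le_total t (-c) with h4 | h4
      · rw [min_eq_left h3, max_eq_right h4, max_eq_right (by linarith), max_eq_left (by linarith)]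
        ring
      · rw [min_eq_left h3, max_eq_left h4, max_eq_right (by linarith), max_eq_right (by linarith)]
        ring
    · rw [min_eq_right h3, max_eq_left (by linarith), max_eq_left (by linarith),
        max_eq_right (by linarith)]
      ring
  have hhb : h * b = (c : ℂ) • h := by
    have : h * b = c • h := by
      simp only [h, b]
      rw [← cfc_mul _ _ a, ← cfc_const_mul c _ a]
      apply cfc_congr
      intro t _
      simp only
      rcases le_total t c with h3 | h3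
      · rw [max_eq_right (a := t - c) (by linarith)]; ring
      · rw [min_eq_right h3, max_eq_left (a := c) (by linarith)]; ring
    rw [this]; exact (Complex.coe_smul _ _).symm
  have hgb : g * b = (-c : ℂ) • g := by
    have : g * b = (-c) • g := by
      simp only [g, b]
      rw [← cfc_mul _ _ a, ← cfc_const_mul (-c) _ a]
      apply cfc_congr
      intro t _
      simp only
      rcases le_total (-c) t with h3 | h3
      · rw [max_eq_right (a := -t - c) (by linarith)]; ring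
      · rw [min_eq_left (by linarith), max_eq_right (a := t) (by linarith)]; ring
    rw [this, ← Complex.ofReal_neg]; exact (Complex.coe_smul _ _).symm
  refine ⟨b, cfc_mem (𝕜' := ℂ) (hs := hcl) _ ha, hb, ?_, ?_⟩
  · apply norm_cfc_le hc0
    intro t _
    rw [Real.norm_eq_abs, abs_le]
    exact ⟨le_max_right _ _, max_le (min_le_right _ _) (by linarith)⟩
  · have e1 : (τ (h * (y - b))).re ≤ 0 := by
      rw [mul_sub, map_sub, hhb, map_smul, smul_eq_mul, Complex.sub_re, Complex.re_ofReal_mul, ← hkk]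
      have := cl_re_τ_sq_mul_le hk y
      linarith [(abs_le.mp this).2]
    have e2 : 0 ≤ (τ (g * (y - b))).re := by
      rw [mul_sub, map_sub, hgb, map_smul, smul_eq_mul, Complex.sub_re, ← Complex.ofReal_neg,
        Complex.re_ofReal_mul, ← hll]
      have := cl_re_τ_sq_mul_le hl y
      linarith [(abs_le.mp this).1]
    have e3 : (τ (star (a - b) * (y - b))).re ≤ 0 := by
      rw [(hsa.sub hb).star_eq, hab, sub_mul, map_sub, Complex.sub_re]
      linarith
    have e4 := cl_n2_sub_sq (a - b) (y - b)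
    rw [sub_sub_sub_cancel_right] at e4
    have e5 : n2 (b - y) ^ 2 ≤ n2 (a - y) ^ 2 := by
      rw [n2_sub_comm b y]
      nlinarith [sq_nonneg (n2 (a - b))]
    exact (abs_le_of_sq_le_sq' e5 (n2_nonneg _)).2

theorem cl_mem_re {N : StarSubalgebra ℂ A} {a : A} (ha : a ∈ N) :
    (1 / 2 : ℂ) • (a + star a) ∈ N := by
  apply N.smul_mem
  exact add_mem ha (star_mem ha)

theorem cl_sa_re (a : A) : IsSelfAdjoint ((1 / 2 : ℂ) • (a + star a)) := by
  rw [IsSelfAdjoint, star_smul, star_add, star_star, add_comm (star a) a]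
  congr 1
  simp

theorem cl_sa_im (a : A) : IsSelfAdjoint ((-(Complex.I / 2) : ℂ) • (a - star a)) := by
  rw [IsSelfAdjoint, star_smul, star_sub, star_star, ← neg_sub a (star a), smul_neg, ← neg_smul]
  congr 1
  simp [Complex.conj_I]
  ring

theorem cl_re_add_im (a : A) : a = (1 / 2 : ℂ) • (a + star a) +
    Complex.I • ((-(Complex.I / 2) : ℂ) • (a - star a)) := by
  rw [smul_smul]
  have : Complex.I * -(Complex.I / 2) = 1 / 2 := by
    rw [mul_neg, mul_div_assoc', Complex.I_mul_I]; ring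
  rw [this, ← smul_add, add_add_sub_cancel, ← two_smul ℂ a, smul_smul]
  norm_num

theorem cl_n2_re_le (a : A) : n2 ((1 / 2 : ℂ) • (a + star a)) ≤ n2 a := by
  rw [n2_smul]
  have := n2_add_le a (star a)
  rw [n2_star] at this
  have h2 : ‖(1 / 2 : ℂ)‖ = 1 / 2 := by simp
  rw [h2]; linarith

theorem cl_n2_im_le (a : A) : n2 ((-(Complex.I / 2) : ℂ) • (a - star a)) ≤ n2 a := by
  rw [n2_smul]
  have := n2_sub_le a (star a)
  rw [n2_star] at this
  have h2 : ‖(-(Complex.I / 2) : ℂ)‖ = 1 / 2 := by simp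
  rw [h2]; linarith

theorem cl_L2mem_re {N : StarSubalgebra ℂ A} {x : A} (hx : L2mem N x) :
    ∀ ε : ℝ, 0 < ε → ∃ a ∈ N, IsSelfAdjoint a ∧ n2 ((1 / 2 : ℂ) • (x + star x) - a) < ε := by
  intro ε hε
  obtain ⟨a, ha, h⟩ := hx ε hε
  refine ⟨_, cl_mem_re ha, cl_sa_re a, ?_⟩
  have : (1 / 2 : ℂ) • (x + star x) - (1 / 2 : ℂ) • (a + star a) =
      (1 / 2 : ℂ) • ((x - a) + star (x - a)) := by
    rw [star_sub]; module
  rw [this]
  exact (cl_n2_re_le _).trans_lt h

theorem cl_L2mem_im {N : StarSubalgebra ℂ A} {x : A} (hx : L2mem N x) :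
    ∀ ε : ℝ, 0 < ε → ∃ a ∈ N, IsSelfAdjoint a ∧
      n2 ((-(Complex.I / 2) : ℂ) • (x - star x) - a) < ε := by
  intro ε hε
  obtain ⟨a, ha, h⟩ := hx ε hε
  refine ⟨(-(Complex.I / 2) : ℂ) • (a - star a), N.smul_mem (sub_mem ha (star_mem ha)) _,
    cl_sa_im a, ?_⟩
  have : (-(Complex.I / 2) : ℂ) • (x - star x) - (-(Complex.I / 2) : ℂ) • (a - star a) =
      (-(Complex.I / 2) : ℂ) • ((x - a) - star (x - a)) := by
    rw [star_sub]; module
  rw [this]
  exact (cl_n2_im_le _).trans_lt h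

theorem cl_bounded_approx_sa {N : StarSubalgebra ℂ A} {y : A} (hy : IsSelfAdjoint y)
    (h : ∀ ε : ℝ, 0 < ε → ∃ a ∈ N, IsSelfAdjoint a ∧ n2 (y - a) < ε) :
    ∃ b : ℕ → A, (∀ n, b n ∈ N.topologicalClosure) ∧ (∀ n, ‖b n‖ ≤ ‖y‖) ∧
      Tendsto (fun n => n2 (b n - y)) atTop (𝓝 0) := by
  have h1 : ∀ n : ℕ, ∃ b ∈ N.topologicalClosure, ‖b‖ ≤ ‖y‖ ∧ n2 (b - y) ≤ 1 / ((n : ℝ) + 1) := by
    intro n
    obtain ⟨a, ha, hsa, hlt⟩ := h (1 / ((n : ℝ) + 1)) (by positivity)
    obtain ⟨b, hb, _, hbn, hle⟩ := cl_trunc (N.le_topologicalClosure ha) hsa hy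
    refine ⟨b, hb, hbn, hle.trans ?_⟩
    rw [n2_sub_comm]; exact hlt.le
  choose b hb1 hb2 hb3 using h1
  refine ⟨b, hb1, hb2, ?_⟩
  exact squeeze_zero (fun n => n2_nonneg _) hb3 tendsto_one_div_add_atTop_nhds_zero_nat

/-- Kaplansky type: an element of `A` in the 2-norm closure of `N` is a 2-norm limit of a bounded
sequence from the norm closure of `N`. (Truncate self-adjoint approximants at level `‖x‖`:
with `h = (a-c)₊`, `‖h‖₂² + c τ(h) = τ(h a) ≤ ‖x‖ τ(h) + ‖h‖₂ ‖a-x‖₂`.) -/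
theorem exists_bounded_approx {N : StarSubalgebra ℂ A} {x : A} (hx : L2mem N x) :
    ∃ (b : ℕ → A) (C : ℝ), (∀ n, b n ∈ N.topologicalClosure) ∧ (∀ n, ‖b n‖ ≤ C) ∧
      Tendsto (fun n => n2 (b n - x)) atTop (𝓝 0) := by
  obtain ⟨b1, h11, h12, h13⟩ := cl_bounded_approx_sa (cl_sa_re x) (cl_L2mem_re hx)
  obtain ⟨b2, h21, h22, h23⟩ := cl_bounded_approx_sa (cl_sa_im x) (cl_L2mem_im hx)
  refine ⟨fun n => b1 n + Complex.I • b2 n, ‖(1 / 2 : ℂ) • (x + star x)‖ +
    ‖(-(Complex.I / 2) : ℂ) • (x - star x)‖, ?_, ?_, ?_⟩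
  · intro n
    exact add_mem (h11 n) (N.topologicalClosure.smul_mem (h21 n) _)
  · intro n
    refine (norm_add_le _ _).trans (add_le_add (h12 n) ?_)
    rw [norm_smul, Complex.norm_I, one_mul]
    exact h22 n
  · have h := h13.add h23
    rw [add_zero] at h
    refine squeeze_zero (fun n => n2_nonneg _) (fun n => ?_) h
    conv_lhs => rw [cl_re_add_im x]
    have e : b1 n + Complex.I • b2 n - ((1 / 2 : ℂ) • (x + star x) +
        Complex.I • ((-(Complex.I / 2) : ℂ) • (x - star x))) =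
        (b1 n - (1 / 2 : ℂ) • (x + star x)) +
        Complex.I • (b2 n - (-(Complex.I / 2) : ℂ) • (x - star x)) := by
      module
    rw [e]
    refine (n2_add_le _ _).trans ?_
    rw [n2_smul, Complex.norm_I, one_mul]

theorem mem_of_L2mem {N P : StarSubalgebra ℂ A} (hP : TClosed P) (hNP : N ≤ P) {x : A}
    (hx : L2mem N x) : x ∈ P := by
  obtain ⟨b, C, h1, h2, h3⟩ := exists_bounded_approx hx
  have hle : N.topologicalClosure ≤ P := StarSubalgebra.topologicalClosure_minimal hNP hP.isClosed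
  exact hP b x C (fun n => hle (h1 n)) h2 h3

/-- elements of the norm closure are 2-norm approximable -/
theorem cl_closure_approx {N : StarSubalgebra ℂ A} {b : A} (hb : b ∈ N.topologicalClosure) (ε : ℝ)
    (hε : 0 < ε) : ∃ a ∈ N, n2 (b - a) < ε := by
  have hb' : b ∈ closure (N : Set A) := hb
  rw [Metric.mem_closure_iff] at hb'
  obtain ⟨a, ha, h⟩ := hb' ε hε
  refine ⟨a, ha, ?_⟩
  rw [dist_eq_norm] at h
  exact (n2_le_norm _).trans_lt h

theorem cl_orth_sa {N : StarSubalgebra ℂ A} {y : A} (hy : IsSelfAdjoint y) {ε : ℝ} (hε : 0 < ε)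
    (h : ∀ a ∈ N, ε ≤ n2 (y - a)) :
    ∃ x : A, x ≠ 0 ∧ ∀ a ∈ N, τ (star a * x) = 0 := by
  -- the distance
  let S : Set ℝ := {r | ∃ a ∈ N.topologicalClosure, IsSelfAdjoint a ∧ r = n2 (y - a)}
  have hSne : S.Nonempty := ⟨n2 (y - 0), 0, zero_mem _, IsSelfAdjoint.zero A, rfl⟩
  have hSb : ∀ r ∈ S, ε ≤ r := by
    rintro r ⟨a, ha, _, rfl⟩
    apply le_of_forall_pos_le_add
    intro δ hδ
    obtain ⟨a', ha', hlt⟩ := cl_closure_approx ha δ hδ
    have := h a' ha'
    have h2 := n2_triangle y a a'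
    linarith
  set D := sInf S with hD
  have hDε : ε ≤ D := le_csInf hSne hSb
  have hDpos : 0 < D := hε.trans_le hDε
  have hDle : ∀ a ∈ N.topologicalClosure, IsSelfAdjoint a → D ≤ n2 (y - a) := fun a ha hsa =>
    csInf_le ⟨ε, hSb⟩ ⟨a, ha, hsa, rfl⟩
  have hex : ∀ n : ℕ, ∃ b ∈ N.topologicalClosure, IsSelfAdjoint b ∧ ‖b‖ ≤ ‖y‖ ∧
      n2 (y - b) ^ 2 ≤ D ^ 2 + 1 / ((n : ℝ) + 1) := by
    intro n
    have h1 : D < √(D ^ 2 + 1 / ((n : ℝ) + 1)) := by
      apply Real.lt_sqrt_of_sq_lt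
      have : (0:ℝ) < 1 / ((n : ℝ) + 1) := by positivity
      linarith
    obtain ⟨r, ⟨a, ha, hsa, rfl⟩, hr⟩ := exists_lt_of_csInf_lt hSne h1
    obtain ⟨b, hb, hbs, hbn, hle⟩ := cl_trunc ha hsa hy
    refine ⟨b, hb, hbs, hbn, ?_⟩
    rw [n2_sub_comm b y, n2_sub_comm a y] at hle
    have h2 : n2 (y - b) ≤ √(D ^ 2 + 1 / ((n : ℝ) + 1)) := hle.trans hr.le
    calc n2 (y - b) ^ 2 ≤ (√(D ^ 2 + 1 / ((n : ℝ) + 1))) ^ 2 := pow_le_pow_left₀ (n2_nonneg _) h2 2
      _ = _ := Real.sq_sqrt (by positivity)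
  choose b hb hbs hbn hbD using hex
  have hcauchy : ∀ m n : ℕ, n2 (b m - b n) ^ 2 ≤ 2 * (1 / ((m : ℝ) + 1)) + 2 * (1 / ((n : ℝ) + 1)) := by
    intro m n
    have hp := cl_n2_parallelogram (y - b m) (y - b n)
    have e1 : (y - b m) - (y - b n) = b n - b m := by abel
    have e2 : (y - b m) + (y - b n) = (2 : ℂ) • (y - (1 / 2 : ℂ) • (b m + b n)) := by module
    have hsa : IsSelfAdjoint ((1 / 2 : ℂ) • (b m + b n)) := by
      rw [IsSelfAdjoint, star_smul, star_add, (hbs m).star_eq, (hbs n).star_eq]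
      congr 1
      simp
    have h1 := hDle ((1 / 2 : ℂ) • (b m + b n))
      (N.topologicalClosure.smul_mem (add_mem (hb m) (hb n)) _) hsa
    rw [e1, e2, n2_smul, n2_sub_comm (b n)] at hp
    have h2 : ‖(2 : ℂ)‖ = 2 := by simp
    rw [h2] at hp
    have h3 : D ^ 2 ≤ n2 (y - (1 / 2 : ℂ) • (b m + b n)) ^ 2 := pow_le_pow_left₀ hDpos.le h1 2
    have h4 := hbD m
    have h5 := hbD n
    nlinarith
  obtain ⟨z, hz, hlim⟩ := exists_lim b ‖y‖ hbn (by
    intro δ hδ
    obtain ⟨K, hK⟩ := exists_nat_gt (4 / δ ^ 2)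
    refine ⟨K, fun m hm n hn => ?_⟩
    have h1 := hcauchy m n
    have hm' : (K : ℝ) ≤ m := by exact_mod_cast hm
    have hn' : (K : ℝ) ≤ n := by exact_mod_cast hn
    have hK0 : (0:ℝ) < (K : ℝ) + 1 := by positivity
    have h2 : 1 / ((m : ℝ) + 1) ≤ 1 / ((K : ℝ) + 1) := one_div_le_one_div_of_le hK0 (by linarith)
    have h3 : 1 / ((n : ℝ) + 1) ≤ 1 / ((K : ℝ) + 1) := one_div_le_one_div_of_le hK0 (by linarith)
    have h4 : 4 * (1 / ((K : ℝ) + 1)) < δ ^ 2 := by
      rw [mul_one_div, div_lt_iff₀ hK0]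
      have h5 : 4 / δ ^ 2 < (K : ℝ) + 1 := by linarith
      rw [div_lt_iff₀ (by positivity)] at h5
      linarith
    have h6 : n2 (b m - b n) ^ 2 < δ ^ 2 := by linarith
    exact lt_of_pow_lt_pow_left₀ 2 hδ.le h6)
  have hzsa : IsSelfAdjoint z := by
    have h1 : ∀ n, n2 (star z - z) ≤ 2 * n2 (b n - z) := by
      intro n
      have h2 := n2_triangle (star z) (b n) z
      have h3 : n2 (star z - b n) = n2 (b n - z) := by
        rw [← n2_star, star_sub, star_star, (hbs n).star_eq, n2_sub_comm]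
      linarith
    have h4 : n2 (star z - z) ≤ 0 := by
      have h5 : Tendsto (fun n => 2 * n2 (b n - z)) atTop (𝓝 (2 * 0)) := hlim.const_mul 2
      rw [mul_zero] at h5
      exact ge_of_tendsto' h5 h1
    have h6 := eq_zero_of_n2 (le_antisymm h4 (n2_nonneg _))
    exact sub_eq_zero.mp h6
  -- x = y - z
  have hxlim : Tendsto (fun n => n2 (y - b n)) atTop (𝓝 (n2 (y - z))) := by
    rw [tendsto_iff_dist_tendsto_zero]
    refine squeeze_zero (fun n => dist_nonneg) (fun n => ?_) hlim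
    rw [Real.dist_eq, abs_le]
    have h1 := n2_triangle y (b n) z
    have h2 := n2_triangle y z (b n)
    rw [n2_sub_comm z (b n)] at h2
    constructor <;> linarith
  have hxD : n2 (y - z) ^ 2 ≤ D ^ 2 := by
    have h1 := hxlim.pow 2
    have h2 : Tendsto (fun n : ℕ => D ^ 2 + 1 / ((n : ℝ) + 1)) atTop (𝓝 (D ^ 2 + 0)) :=
      tendsto_one_div_add_atTop_nhds_zero_nat.const_add _
    rw [add_zero] at h2
    exact le_of_tendsto_of_tendsto' h1 h2 hbD
  have hDa : ∀ a ∈ N, IsSelfAdjoint a → D ≤ n2 (y - z - a) := by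
    intro a ha hsa
    have h1 : ∀ n, D ≤ n2 (y - z - a) + n2 (b n - z) := by
      intro n
      have h2 := hDle (b n + a) (add_mem (hb n) (N.le_topologicalClosure ha)) ((hbs n).add hsa)
      have h3 : y - (b n + a) = (y - z - a) - (b n - z) := by abel
      rw [h3] at h2
      exact h2.trans (n2_sub_le _ _)
    have h4 : Tendsto (fun n => n2 (y - z - a) + n2 (b n - z)) atTop (𝓝 (n2 (y - z - a) + 0)) :=
      hlim.const_add _
    rw [add_zero] at h4
    exact ge_of_tendsto' h4 h1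
  refine ⟨y - z, ?_, ?_⟩
  · intro h0
    have := hDa 0 (zero_mem _) (IsSelfAdjoint.zero A)
    rw [sub_zero, h0, n2_zero] at this
    linarith
  · -- orthogonality to self-adjoint elements
    have hxsa : IsSelfAdjoint (y - z) := hy.sub hzsa
    have horth : ∀ a ∈ N, IsSelfAdjoint a → τ (a * (y - z)) = 0 := by
      intro a ha hsa
      have him : (τ (a * (y - z))).im = 0 := by
        have h1 := τ_star (a * (y - z))
        rw [star_mul, hsa.star_eq, hxsa.star_eq, τ_comm] at h1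
        have h2 := congrArg Complex.im h1
        rw [Complex.conj_im] at h2
        linarith
      have hquad : ∀ t : ℝ, 0 ≤ n2 a ^ 2 * (t * t) + (-(2 * (τ (a * (y - z))).re)) * t + 0 := by
        intro t
        have h1 := hDa ((t : ℂ) • a) (N.smul_mem ha _) (by
          rw [IsSelfAdjoint, star_smul, hsa.star_eq]
          congr 1
          simp)
        have h2 := cl_n2_sub_sq (y - z) ((t : ℂ) • a)
        rw [mul_smul_comm, map_smul, smul_eq_mul, Complex.re_ofReal_mul, hxsa.star_eq, τ_comm,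
          n2_smul, Complex.norm_real, Real.norm_eq_abs, mul_pow, sq_abs] at h2
        have h3 : D ^ 2 ≤ n2 (y - z - (t : ℂ) • a) ^ 2 := pow_le_pow_left₀ hDpos.le h1 2
        nlinarith
      have hdisc := discrim_le_zero hquad
      rw [discrim] at hdisc
      have hre : (τ (a * (y - z))).re = 0 := by nlinarith
      exact Complex.ext hre him
    intro a ha
    have h1 := horth _ (cl_mem_re ha) (cl_sa_re a)
    have h2 := horth _ (N.smul_mem (sub_mem ha (star_mem ha)) (-(Complex.I / 2) : ℂ)) (cl_sa_im a)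
    have e : star a = (1 / 2 : ℂ) • (a + star a) -
        Complex.I • ((-(Complex.I / 2) : ℂ) • (a - star a)) := by
      rw [smul_smul]
      have : Complex.I * -(Complex.I / 2) = 1 / 2 := by
        rw [mul_neg, mul_div_assoc', Complex.I_mul_I]; ring
      rw [this]
      module
    rw [e, sub_mul, map_sub, h1, smul_mul_assoc, map_smul, h2]
    simp

/-- If `N` is not 2-norm dense there is a nonzero *bounded* element orthogonal to `N`
(`x = y - E_N(y)`; `E_N(y)` from truncated minimizing sequences for `dist₂(y, N)`, `y` s.a.). -/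
theorem exists_orth {N : StarSubalgebra ℂ A} {y : A} (hy : ¬ L2mem N y) :
    ∃ x : A, x ≠ 0 ∧ ∀ a ∈ N, τ (star a * x) = 0 := by
  by_cases h1 : ∃ ε : ℝ, 0 < ε ∧ ∀ a ∈ N, ε ≤ n2 ((1 / 2 : ℂ) • (y + star y) - a)
  · obtain ⟨ε, hε, h⟩ := h1
    exact cl_orth_sa (cl_sa_re y) hε h
  · by_cases h2 : ∃ ε : ℝ, 0 < ε ∧ ∀ a ∈ N, ε ≤ n2 ((-(Complex.I / 2) : ℂ) • (y - star y) - a)
    · obtain ⟨ε, hε, h⟩ := h2
      exact cl_orth_sa (cl_sa_im y) hε h
    · exfalso
      push Not at h1 h2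
      apply hy
      intro ε hε
      obtain ⟨a1, ha1, hl1⟩ := h1 (ε / 2) (by linarith)
      obtain ⟨a2, ha2, hl2⟩ := h2 (ε / 2) (by linarith)
      refine ⟨a1 + Complex.I • a2, add_mem ha1 (N.smul_mem ha2 _), ?_⟩
      conv_lhs => rw [cl_re_add_im y]
      have e : (1 / 2 : ℂ) • (y + star y) + Complex.I • ((-(Complex.I / 2) : ℂ) • (y - star y)) -
          (a1 + Complex.I • a2) = ((1 / 2 : ℂ) • (y + star y) - a1) +
          Complex.I • ((-(Complex.I / 2) : ℂ) • (y - star y) - a2) := by module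
      rw [e]
      refine (n2_add_le _ _).trans_lt ?_
      rw [n2_smul, Complex.norm_I, one_mul]
      linarith

end Crest.Agent.GenII1
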