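import Crest.Agent.GenII1.KeyConcrete
import Crest.Agent.GenII1.Closure

/-! Baire category argument. -/

set_option autoImplicit false

namespace Crest.Agent.GenII1

open Filter Topology

variable {A : Type*} [CStarAlgebra A] [FinVN A]

theorem ba_nontrivial : Nontrivial A := by
  by_contra h
  rw [not_nontrivial_iff_subsingleton] at h
  have h1 : (1 : A) = 0 := Subsingleton.elim _ _
  have h2 := τ_one (A := A)
  rw [h1, map_zero] at h2
  exact zero_ne_one h2

theorem ba_norm_unitary {u : A} (hu : u ∈ unitary A) : ‖u‖ ≤ 1 := by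
  have := ba_nontrivial (A := A)
  exact (CStarRing.norm_of_mem_unitary hu).le

/-- lower semicontinuity of `u ↦ P ∨ {u}` -/
theorem adjU_lsc {P : StarSubalgebra ℂ A} {u : A} (hu : u ∈ unitary A) {y : A} (hy : y ∈ adjU P u) :
    ∃ C : ℝ, ∀ ε : ℝ, 0 < ε → ∃ δ : ℝ, 0 < δ ∧ ∀ v ∈ unitary A, n2 (v - u) < δ →
      ∃ y' ∈ adjU P v, ‖y'‖ ≤ C ∧ n2 (y' - y) < ε := by
  unfold adjU at hy
  induction hy using StarAlgebra.adjoin_induction with
  | mem x hx =>
    rcases hx with hx | hx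
    · refine ⟨‖x‖, fun ε hε => ⟨1, one_pos, fun v _ _ => ⟨x, ?_, le_rfl, ?_⟩⟩⟩
      · exact StarAlgebra.subset_adjoin ℂ _ (Or.inl hx)
      · simpa using hε
    · rw [Set.mem_singleton_iff] at hx
      subst hx
      refine ⟨1, fun ε hε => ⟨ε, hε, fun v hv hlt => ⟨v, ?_, ba_norm_unitary hv, hlt⟩⟩⟩
      exact StarAlgebra.subset_adjoin ℂ _ (Or.inr rfl)
  | algebraMap r =>
    refine ⟨‖algebraMap ℂ A r‖, fun ε hε => ⟨1, one_pos, fun v _ _ =>
      ⟨algebraMap ℂ A r, algebraMap_mem _ r, le_rfl, ?_⟩⟩⟩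
    simpa using hε
  | add x y hx hy ihx ihy =>
    obtain ⟨C1, h1⟩ := ihx
    obtain ⟨C2, h2⟩ := ihy
    refine ⟨C1 + C2, fun ε hε => ?_⟩
    obtain ⟨δ1, hδ1, h1'⟩ := h1 (ε / 2) (by linarith)
    obtain ⟨δ2, hδ2, h2'⟩ := h2 (ε / 2) (by linarith)
    refine ⟨min δ1 δ2, lt_min hδ1 hδ2, fun v hv hlt => ?_⟩
    obtain ⟨x', hx', hxn, hxd⟩ := h1' v hv (hlt.trans_le (min_le_left _ _))
    obtain ⟨y', hy', hyn, hyd⟩ := h2' v hv (hlt.trans_le (min_le_right _ _))
    refine ⟨x' + y', add_mem hx' hy', (norm_add_le _ _).trans (add_le_add hxn hyn), ?_⟩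
    have e : x' + y' - (x + y) = (x' - x) + (y' - y) := by abel
    rw [e]
    exact (n2_add_le _ _).trans_lt (by linarith)
  | mul x y hx hy ihx ihy =>
    obtain ⟨C1, h1⟩ := ihx
    obtain ⟨C2, h2⟩ := ihy
    refine ⟨C1 * C2, fun ε hε => ?_⟩
    have hp1 : 0 < 2 * (|C2| + 1) := by positivity
    have hp2 : 0 < 2 * (‖x‖ + 1) := by positivity
    obtain ⟨δ1, hδ1, h1'⟩ := h1 (ε / (2 * (|C2| + 1))) (by positivity)
    obtain ⟨δ2, hδ2, h2'⟩ := h2 (ε / (2 * (‖x‖ + 1))) (by positivity)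
    refine ⟨min δ1 δ2, lt_min hδ1 hδ2, fun v hv hlt => ?_⟩
    obtain ⟨x', hx', hxn, hxd⟩ := h1' v hv (hlt.trans_le (min_le_left _ _))
    obtain ⟨y', hy', hyn, hyd⟩ := h2' v hv (hlt.trans_le (min_le_right _ _))
    have hC2 : 0 ≤ C2 := (norm_nonneg _).trans hyn
    refine ⟨x' * y', mul_mem hx' hy', (norm_mul_le _ _).trans
      (mul_le_mul hxn hyn (norm_nonneg _) ((norm_nonneg _).trans hxn)), ?_⟩
    have e : x' * y' - x * y = (x' - x) * y' + x * (y' - y) := by noncomm_ring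
    rw [e]
    have a1 := n2_mul_le_right (x' - x) y'
    have a2 := n2_mul_le_left x (y' - y)
    have a3 : n2 (x' - x) * ‖y'‖ ≤ n2 (x' - x) * (|C2| + 1) :=
      mul_le_mul_of_nonneg_left (hyn.trans ((le_abs_self _).trans (by linarith))) (n2_nonneg _)
    have a4 : n2 (x' - x) * (|C2| + 1) < ε / 2 := by
      have := mul_lt_mul_of_pos_right hxd (show 0 < |C2| + 1 by positivity)
      have e2 : ε / (2 * (|C2| + 1)) * (|C2| + 1) = ε / 2 := by field_simp
      linarith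
    have a5 : ‖x‖ * n2 (y' - y) ≤ (‖x‖ + 1) * n2 (y' - y) :=
      mul_le_mul_of_nonneg_right (by linarith) (n2_nonneg _)
    have a6 : (‖x‖ + 1) * n2 (y' - y) < ε / 2 := by
      have := mul_lt_mul_of_pos_left hyd (show 0 < ‖x‖ + 1 by positivity)
      have e2 : (‖x‖ + 1) * (ε / (2 * (‖x‖ + 1))) = ε / 2 := by field_simp
      linarith
    have a7 := n2_add_le ((x' - x) * y') (x * (y' - y))
    linarith
  | star x hx ihx =>
    obtain ⟨C1, h1⟩ := ihx
    refine ⟨C1, fun ε hε => ?_⟩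
    obtain ⟨δ1, hδ1, h1'⟩ := h1 ε hε
    refine ⟨δ1, hδ1, fun v hv hlt => ?_⟩
    obtain ⟨x', hx', hxn, hxd⟩ := h1' v hv hlt
    refine ⟨star x', star_mem hx', by rw [norm_star]; exact hxn, ?_⟩
    rw [← star_sub, n2_star]
    exact hxd

/-- the unitary group with the 2-norm metric -/
structure UU (A : Type*) [CStarAlgebra A] where
  /-- the underlying element -/
  val : A
  mem : val ∈ unitary A

noncomputable instance uuMetric : PseudoMetricSpace (UU A) where
  dist u v := n2 (u.1 - v.1)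
  dist_self u := by simp
  dist_comm u v := n2_sub_comm _ _
  dist_triangle u v w := n2_triangle _ _ _

theorem uu_dist (u v : UU A) : dist u v = n2 (u.1 - v.1) := rfl

theorem uu_complete : CompleteSpace (UU A) := by
  apply Metric.complete_of_cauchySeq_tendsto
  intro f hf
  rw [Metric.cauchySeq_iff] at hf
  obtain ⟨g, hg, hlim⟩ := exists_lim (fun n => (f n).1) 1 (fun n => ba_norm_unitary (f n).2)
    (fun ε hε => by
      obtain ⟨N, hN⟩ := hf ε hε
      exact ⟨N, fun m hm n hn => hN m hm n hn⟩)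
  have hlim' : Tendsto (fun n => 2 * n2 ((f n).1 - g)) atTop (𝓝 0) := by
    have := hlim.const_mul 2
    rwa [mul_zero] at this
  have h1 : star g * g = 1 := by
    have h2 : ∀ n, n2 (star g * g - 1) ≤ 2 * n2 ((f n).1 - g) := by
      intro n
      have e : star g * g - 1 = star g * (g - (f n).1) + star (g - (f n).1) * (f n).1 := by
        rw [star_sub, mul_sub, sub_mul, Unitary.star_mul_self_of_mem (f n).2]
        abel
      rw [e]
      have a1 := n2_add_le (star g * (g - (f n).1)) (star (g - (f n).1) * (f n).1)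
      have a2 := n2_mul_le_left (star g) (g - (f n).1)
      have a3 := n2_mul_le_right (star (g - (f n).1)) (f n).1
      rw [n2_star] at a3
      rw [norm_star] at a2
      have a4 : ‖g‖ * n2 (g - (f n).1) ≤ 1 * n2 (g - (f n).1) :=
        mul_le_mul_of_nonneg_right hg (n2_nonneg _)
      have a5 : n2 (g - (f n).1) * ‖(f n).1‖ ≤ n2 (g - (f n).1) * 1 :=
        mul_le_mul_of_nonneg_left (ba_norm_unitary (f n).2) (n2_nonneg _)
      rw [n2_sub_comm g] at *
      linarith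
    have h3 := ge_of_tendsto' hlim' h2
    exact sub_eq_zero.mp (eq_zero_of_n2 (le_antisymm h3 (n2_nonneg _)))
  have h1' : g * star g = 1 := by
    have h2 : ∀ n, n2 (g * star g - 1) ≤ 2 * n2 ((f n).1 - g) := by
      intro n
      have e : g * star g - 1 = (g - (f n).1) * star g + (f n).1 * star (g - (f n).1) := by
        rw [star_sub, mul_sub, sub_mul, Unitary.mul_star_self_of_mem (f n).2]
        abel
      rw [e]
      have a1 := n2_add_le ((g - (f n).1) * star g) ((f n).1 * star (g - (f n).1))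
      have a2 := n2_mul_le_right (g - (f n).1) (star g)
      have a3 := n2_mul_le_left (f n).1 (star (g - (f n).1))
      rw [n2_star] at a3
      rw [norm_star] at a2
      have a4 : n2 (g - (f n).1) * ‖g‖ ≤ n2 (g - (f n).1) * 1 :=
        mul_le_mul_of_nonneg_left hg (n2_nonneg _)
      have a5 : ‖(f n).1‖ * n2 (g - (f n).1) ≤ 1 * n2 (g - (f n).1) :=
        mul_le_mul_of_nonneg_right (ba_norm_unitary (f n).2) (n2_nonneg _)
      rw [n2_sub_comm g] at *
      linarith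
    have h3 := ge_of_tendsto' hlim' h2
    exact sub_eq_zero.mp (eq_zero_of_n2 (le_antisymm h3 (n2_nonneg _)))
  refine ⟨⟨g, Unitary.mem_iff.mpr ⟨h1, h1'⟩⟩, ?_⟩
  rw [tendsto_iff_dist_tendsto_zero]
  exact hlim

/-- points where `P ∨ {w}` comes `r`-close to `x` -/
def ba_L (P : StarSubalgebra ℂ A) (x : A) (r : ℝ) : Set (UU A) :=
  {w | ∃ a ∈ adjU P w.1, n2 (x - a) < r}

theorem ba_L_open (P : StarSubalgebra ℂ A) (x : A) (r : ℝ) : IsOpen (ba_L P x r) := by
  rw [Metric.isOpen_iff]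
  rintro w ⟨a, ha, hlt⟩
  obtain ⟨C, h⟩ := adjU_lsc w.2 ha
  obtain ⟨δ, hδ, h'⟩ := h (r - n2 (x - a)) (by linarith)
  refine ⟨δ, hδ, fun v hv => ?_⟩
  rw [Metric.mem_ball, uu_dist] at hv
  obtain ⟨y', hy', _, hd⟩ := h' v.1 v.2 hv
  refine ⟨y', hy', ?_⟩
  have := n2_triangle x a y'
  rw [n2_sub_comm a y'] at this
  linarith

/-- generic unitaries generate -/
theorem generic {P : StarSubalgebra ℂ A} (h : IsIrr P ⊤)
    (hsep : ∃ s : ℕ → A, ∀ x : A, ∀ ε : ℝ, 0 < ε → ∃ n, n2 (x - s n) < ε)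
    {u : A} (hu : u ∈ unitary A) (ε : ℝ) (hε : 0 < ε) :
    ∃ v ∈ unitary A, n2 (v - u) < ε ∧ ∀ x : A, L2mem (adjU P v) x := by
  obtain ⟨s, hs⟩ := hsep
  have hcomp : CompleteSpace (UU A) := uu_complete
  let G : ℕ × ℚ → Set (UU A) := fun p =>
    ba_L P (s p.1) p.2 ∪ interior (ba_L P (s p.1) p.2)ᶜ
  have hGo : ∀ p, IsOpen (G p) := fun p => (ba_L_open P _ _).union isOpen_interior
  have hGd : ∀ p, Dense (G p) := by
    intro p w
    by_cases hw : w ∈ closure (ba_L P (s p.1) p.2)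
    · exact closure_mono Set.subset_union_left hw
    · apply subset_closure
      right
      rw [interior_compl]
      exact hw
  have hdense := dense_iInter_of_isOpen hGo hGd
  obtain ⟨v, hvb, hvG⟩ : ∃ v : UU A, dist v ⟨u, hu⟩ < ε ∧ v ∈ ⋂ p, G p := by
    have := hdense.exists_mem_open (Metric.isOpen_ball (x := (⟨u, hu⟩ : UU A)) (ε := ε))
      ⟨⟨u, hu⟩, Metric.mem_ball_self hε⟩
    obtain ⟨v, hv1, hv2⟩ := this
    exact ⟨v, hv2, hv1⟩
  refine ⟨v.1, v.2, hvb, ?_⟩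
  intro x0
  by_contra hx0
  obtain ⟨x, hxne, horth⟩ := exists_orth hx0
  have hτx : τ x = 0 := by
    have := horth 1 (one_mem _)
    simpa using this
  set R0 : ℝ := n2 x with hR0
  have hR0pos : 0 < R0 := n2_pos hxne
  set c : ℝ := n2 x ^ 2 / (57 * ‖x‖) with hc
  have hnx : 0 < ‖x‖ := norm_pos_iff.mpr hxne
  have hcpos : 0 < c := by positivity
  -- the lower bound at `v`
  have hlow : ∀ a ∈ adjU P v.1, R0 ≤ n2 (x - a) := by
    intro a ha
    have h1 := cl_n2_sub_sq x a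
    have h2 : τ (star x * a) = 0 := by
      have h3 := τ_star (star a * x)
      rw [star_mul, star_star, horth a ha, map_zero] at h3
      exact h3
    rw [h2, Complex.zero_re, mul_zero, sub_zero] at h1
    have h3 : R0 ^ 2 ≤ n2 (x - a) ^ 2 := by rw [h1]; nlinarith [sq_nonneg (n2 a)]
    exact (abs_le_of_sq_le_sq' h3 (n2_nonneg _)).2
  -- the upper bound near `v`
  set R1 : ℝ := √(R0 ^ 2 - c ^ 2) with hR1
  have hR1lt : R1 < R0 := by
    rw [hR1, Real.sqrt_lt' hR0pos]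
    nlinarith [sq_pos_of_pos hcpos]
  have hup : ∀ δ : ℝ, 0 < δ → ∃ w : UU A, dist w v < δ ∧ ∃ a ∈ adjU P w.1, n2 (x - a) ≤ R1 := by
    intro δ hδ
    obtain ⟨w, hw, hwd, y, hy, hyn, hty⟩ := key h v.2 hτx hxne δ hδ
    refine ⟨⟨w, hw⟩, hwd, ((starRingEnd ℂ) (τ (star x * y))) • y, (adjU P w).smul_mem hy _, ?_⟩
    set t := τ (star x * y) with ht
    have h1 := cl_n2_sub_sq x (((starRingEnd ℂ) t) • y)
    rw [mul_smul_comm, map_smul, smul_eq_mul, ← ht, n2_smul, mul_pow] at h1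
    have h2 : ((starRingEnd ℂ) t * t).re = ‖t‖ ^ 2 := by
      rw [mul_comm, Complex.mul_conj, Complex.ofReal_re, Complex.normSq_eq_norm_sq]
    have h3 : ‖(starRingEnd ℂ) t‖ = ‖t‖ := RCLike.norm_conj t
    rw [h2, h3] at h1
    have h4 : ‖t‖ ^ 2 * n2 y ^ 2 ≤ ‖t‖ ^ 2 * 1 := by
      apply mul_le_mul_of_nonneg_left _ (sq_nonneg _)
      nlinarith [n2_nonneg y]
    have h5 : c ^ 2 ≤ ‖t‖ ^ 2 := pow_le_pow_left₀ hcpos.le hty 2
    rw [hR1]
    apply Real.le_sqrt_of_sq_le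
    rw [h1]
    linarith
  -- pick a dense element and a rational
  obtain ⟨n, hn⟩ := hs x ((R0 - R1) / 4) (by linarith)
  obtain ⟨r, hr1, hr2⟩ := exists_rat_btwn (show R1 + (R0 - R1) / 4 < R0 - (R0 - R1) / 4 by linarith)
  have hvn : v ∈ G (n, r) := Set.mem_iInter.mp hvG (n, r)
  rcases hvn with hvL | hvI
  · obtain ⟨a, ha, hlt⟩ := hvL
    have h1 := hlow a ha
    have h2 := n2_triangle x (s n) a
    simp only at hlt
    linarith
  · rw [mem_interior_iff_mem_nhds, Metric.mem_nhds_iff] at hvI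
    obtain ⟨δ, hδ, hball⟩ := hvI
    obtain ⟨w, hwd, a, ha, hle⟩ := hup δ hδ
    have hw := hball (Metric.mem_ball.mpr hwd)
    apply hw
    refine ⟨a, ha, ?_⟩
    have h2 := n2_triangle (s n) x a
    rw [n2_sub_comm (s n) x] at h2
    simp only
    linarith

end Crest.Agent.GenII1
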