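import Mathlib

/-! Basic definitions for row 95 (S0125, S0126): C*-algebras with a tracial state, the trace
2-norm `n2`, abstract finite von Neumann algebras (`FinVN`), 2-closed star subalgebras,
irreducible inclusions, matrix units. -/

set_option autoImplicit false

namespace Crest.Agent.GenII1

open Filter Topology

/-- A C*-algebra with a (not necessarily faithful) tracial state `τ`. -/
class TracialC (A : Type*) [CStarAlgebra A] where
  /-- the trace -/
  τ : A →ₗ[ℂ] ℂ
  τ_one : τ 1 = 1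
  τ_comm : ∀ x y : A, τ (x * y) = τ (y * x)
  τ_nonneg : ∀ x : A, 0 ≤ (τ (star x * x)).re
  τ_im : ∀ x : A, (τ (star x * x)).im = 0

export TracialC (τ τ_one τ_comm τ_nonneg τ_im)

section tracial

variable {A : Type*} [CStarAlgebra A] [TracialC A]

theorem τ_sa_im {a : A} (ha : IsSelfAdjoint a) : (τ a).im = 0 := by
  have h1 := τ_im (a + 1)
  have h2 := τ_im a
  have e1 : star (a + 1) * (a + 1) = star a * a + a + a + 1 := by
    rw [star_add, star_one, ha.star_eq]; noncomm_ring
  rw [e1] at h1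
  simp only [map_add, τ_one, Complex.add_im, Complex.one_im, add_zero, h2, zero_add] at h1
  linarith

theorem τ_star (x : A) : τ (star x) = (starRingEnd ℂ) (τ x) := by
  have h1 : IsSelfAdjoint (x + star x) := IsSelfAdjoint.add_star_self x
  have h2 : IsSelfAdjoint (Complex.I • (x - star x)) := by
    rw [IsSelfAdjoint, star_smul, star_sub, star_star]
    simp only [Complex.star_def, Complex.conj_I, neg_smul]
    rw [← smul_neg, neg_sub]
  have e1 := τ_sa_im h1
  have e2 := τ_sa_im h2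
  simp only [map_add, Complex.add_im] at e1
  simp only [map_smul, map_sub, smul_eq_mul, Complex.mul_im, Complex.I_re, zero_mul, Complex.I_im,
    one_mul, Complex.sub_re, zero_add] at e2
  apply Complex.ext
  · simp only [Complex.conj_re]; linarith
  · simp only [Complex.conj_im]; linarith

/-- Type synonym of `A` carrying the pre-inner product `⟪x, y⟫ = τ (x⋆ y)`. -/
def L2 (A : Type*) := A

noncomputable instance : AddCommGroup (L2 A) := inferInstanceAs (AddCommGroup A)
noncomputable instance : Module ℂ (L2 A) := inferInstanceAs (Module ℂ A)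

/-- The identity map to the synonym. -/
noncomputable def toL2 : A ≃ₗ[ℂ] L2 A := LinearEquiv.refl ℂ A

/-- the pre-inner product -/
@[reducible] noncomputable def preCore (A : Type*) [CStarAlgebra A] [TracialC A] :
    PreInnerProductSpace.Core ℂ (L2 A) where
  inner x y := τ (star (toL2.symm x) * toL2.symm y)
  conj_inner_symm x y := by
    rw [← τ_star, star_mul, star_star]
  re_inner_nonneg x := τ_nonneg _
  add_left x y z := by simp only [map_add, star_add, add_mul]
  smul_left x y r := by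
    simp only [map_smul, star_smul, smul_mul_assoc, smul_eq_mul]; rfl

noncomputable instance : SeminormedAddCommGroup (L2 A) :=
  @InnerProductSpace.Core.toSeminormedAddCommGroup ℂ (L2 A) _ _ _ (preCore A)

noncomputable instance : InnerProductSpace ℂ (L2 A) := InnerProductSpace.ofCore (preCore A)

/-- The trace 2-norm. -/
noncomputable def n2 (x : A) : ℝ := ‖(toL2 x : L2 A)‖

theorem inner_toL2 (x y : A) : inner ℂ (toL2 x : L2 A) (toL2 y) = τ (star x * y) := rfl

theorem n2_sq (x : A) : n2 x ^ 2 = (τ (star x * x)).re := by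
  rw [n2, ← inner_toL2]
  exact norm_sq_eq_re_inner (𝕜 := ℂ) (toL2 x : L2 A)

theorem τ_star_mul_self (x : A) : τ (star x * x) = ((n2 x ^ 2 : ℝ) : ℂ) := by
  apply Complex.ext
  · rw [n2_sq]; simp
  · rw [τ_im]; simp only [Complex.ofReal_im]

theorem n2_nonneg (x : A) : 0 ≤ n2 x := norm_nonneg _

@[simp] theorem n2_zero : n2 (0 : A) = 0 := by simp [n2]

theorem n2_add_le (x y : A) : n2 (x + y) ≤ n2 x + n2 y := by
  rw [n2, map_add]; exact norm_add_le _ _

theorem n2_sub_le (x y : A) : n2 (x - y) ≤ n2 x + n2 y := by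
  rw [n2, map_sub]; exact norm_sub_le _ _

theorem n2_neg (x : A) : n2 (-x) = n2 x := by rw [n2, map_neg, norm_neg]; rfl

theorem n2_sub_comm (x y : A) : n2 (x - y) = n2 (y - x) := by
  rw [← n2_neg, neg_sub]

theorem n2_smul (c : ℂ) (x : A) : n2 (c • x) = ‖c‖ * n2 x := by
  rw [n2, map_smul, norm_smul]; rfl

theorem n2_triangle (x y z : A) : n2 (x - z) ≤ n2 (x - y) + n2 (y - z) := by
  have : x - z = (x - y) + (y - z) := by abel
  rw [this]; exact n2_add_le _ _

theorem n2_sum_le {ι : Type*} (s : Finset ι) (f : ι → A) :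
    n2 (∑ i ∈ s, f i) ≤ ∑ i ∈ s, n2 (f i) := by
  rw [n2, map_sum]; exact norm_sum_le _ _

theorem norm_τ_star_mul_le (x y : A) : ‖τ (star x * y)‖ ≤ n2 x * n2 y := by
  rw [← inner_toL2]; exact norm_inner_le_norm _ _

theorem n2_star (x : A) : n2 (star x) = n2 x := by
  have : n2 (star x) ^ 2 = n2 x ^ 2 := by rw [n2_sq, n2_sq, star_star, τ_comm]
  exact (sq_eq_sq₀ (n2_nonneg _) (n2_nonneg _)).1 this

theorem norm_τ_mul_le (x y : A) : ‖τ (x * y)‖ ≤ n2 x * n2 y := by
  have := norm_τ_star_mul_le (star x) y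
  rwa [star_star, n2_star] at this

theorem n2_one : n2 (1 : A) = 1 := by
  have : n2 (1 : A) ^ 2 = 1 := by rw [n2_sq]; simp [τ_one]
  nlinarith [n2_nonneg (1 : A)]

theorem norm_τ_le_n2 (x : A) : ‖τ x‖ ≤ n2 x := by
  have := norm_τ_mul_le (1 : A) x
  rwa [one_mul, n2_one, one_mul] at this

section order
attribute [local instance] CStarAlgebra.spectralOrder CStarAlgebra.spectralOrderedRing

/-- `τ` is nonnegative on nonnegative elements (for the spectral order). -/
theorem τ_re_nonneg_of_nonneg {x : A} (hx : 0 ≤ x) : 0 ≤ (τ x).re := by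
  obtain ⟨y, rfl⟩ := (CStarAlgebra.nonneg_iff_eq_star_mul_self).1 hx
  exact τ_nonneg y

theorem τ_re_mono {x y : A} (hxy : x ≤ y) : (τ x).re ≤ (τ y).re := by
  have := τ_re_nonneg_of_nonneg (sub_nonneg.2 hxy)
  rw [map_sub, Complex.sub_re] at this
  linarith

theorem n2_mul_le_left (a x : A) : n2 (a * x) ≤ ‖a‖ * n2 x := by
  have h1 : star x * (star a * a) * x ≤ star x * (algebraMap ℝ A (‖a‖ ^ 2)) * x :=
    star_left_conjugate_le_conjugate CStarAlgebra.star_mul_le_algebraMap_norm_sq x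
  have h2 := τ_re_mono h1
  have e1 : star x * (star a * a) * x = star (a * x) * (a * x) := by
    rw [star_mul]; noncomm_ring
  have e2 : star x * (algebraMap ℝ A (‖a‖ ^ 2)) * x = ((‖a‖ ^ 2 : ℝ) : ℂ) • (star x * x) := by
    rw [Algebra.algebraMap_eq_smul_one, mul_smul_comm, mul_one, smul_mul_assoc]
    exact (Complex.coe_smul _ _).symm
  rw [e1, e2, map_smul, smul_eq_mul, Complex.re_ofReal_mul, ← n2_sq, ← n2_sq] at h2
  have h3 : n2 (a * x) ^ 2 ≤ (‖a‖ * n2 x) ^ 2 := by rw [mul_pow]; exact h2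
  exact (abs_le_of_sq_le_sq' h3 (mul_nonneg (norm_nonneg _) (n2_nonneg _))).2

end order

theorem n2_mul_le_right (x a : A) : n2 (x * a) ≤ n2 x * ‖a‖ := by
  rw [← n2_star, star_mul]
  refine (n2_mul_le_left _ _).trans ?_
  rw [norm_star, n2_star, mul_comm]

theorem n2_le_norm (x : A) : n2 x ≤ ‖x‖ := by
  have := n2_mul_le_left x (1 : A)
  rwa [mul_one, n2_one, mul_one] at this

theorem norm_τ_le (x : A) : ‖τ x‖ ≤ ‖x‖ := (norm_τ_le_n2 x).trans (n2_le_norm x)

theorem n2_mul_unitary (x : A) {u : A} (hu : u ∈ unitary A) : n2 (x * u) = n2 x := by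
  have : n2 (x * u) ^ 2 = n2 x ^ 2 := by
    rw [n2_sq, n2_sq, star_mul, mul_assoc, τ_comm, mul_assoc, mul_assoc,
      Unitary.mul_star_self_of_mem hu, mul_one]
  exact (sq_eq_sq₀ (n2_nonneg _) (n2_nonneg _)).1 this

theorem n2_unitary_mul {u : A} (hu : u ∈ unitary A) (x : A) : n2 (u * x) = n2 x := by
  have : n2 (u * x) ^ 2 = n2 x ^ 2 := by
    rw [n2_sq, n2_sq, star_mul, mul_assoc, ← mul_assoc (star u),
      Unitary.star_mul_self_of_mem hu, one_mul]
  exact (sq_eq_sq₀ (n2_nonneg _) (n2_nonneg _)).1 this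

/-- real trace -/
noncomputable def tr (x : A) : ℝ := (τ x).re

theorem n2_sq_proj {p : A} (hp : IsStarProjection p) : n2 p ^ 2 = tr p := by
  rw [n2_sq, hp.isSelfAdjoint.star_eq, hp.isIdempotentElem.eq]; rfl

end tracial

/-- An abstract finite von Neumann algebra with a faithful trace: the trace is faithful and
operator-norm balls are complete for the 2-norm. -/
class FinVN (A : Type*) [CStarAlgebra A] extends TracialC A where
  faithful : ∀ x : A, τ (star x * x) = 0 → x = 0
  complete : ∀ (f : ℕ → A) (C : ℝ), (∀ n, ‖f n‖ ≤ C) →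
    (∀ ε : ℝ, 0 < ε → ∃ N : ℕ, ∀ m, N ≤ m → ∀ n, N ≤ n →
      (τ (star (f m - f n) * (f m - f n))).re < ε) →
    ∃ g : A, ‖g‖ ≤ C ∧ Tendsto (fun n => (τ (star (f n - g) * (f n - g))).re) atTop (𝓝 0)

section finvn

variable {A : Type*} [CStarAlgebra A] [FinVN A]

theorem eq_zero_of_n2 {x : A} (h : n2 x = 0) : x = 0 := by
  apply FinVN.faithful
  rw [τ_star_mul_self, h]; simp

theorem n2_pos {x : A} (h : x ≠ 0) : 0 < n2 x :=
  lt_of_le_of_ne (n2_nonneg x) (fun h' => h (eq_zero_of_n2 h'.symm))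

/-- completeness of balls, `n2` form -/
theorem exists_lim (f : ℕ → A) (C : ℝ) (hC : ∀ n, ‖f n‖ ≤ C)
    (hf : ∀ ε : ℝ, 0 < ε → ∃ N : ℕ, ∀ m, N ≤ m → ∀ n, N ≤ n → n2 (f m - f n) < ε) :
    ∃ g : A, ‖g‖ ≤ C ∧ Tendsto (fun n => n2 (f n - g)) atTop (𝓝 0) := by
  obtain ⟨g, hg, hlim⟩ := FinVN.complete f C hC (by
    intro ε hε
    obtain ⟨N, hN⟩ := hf (Real.sqrt ε) (Real.sqrt_pos.2 hε)
    refine ⟨N, fun m hm n hn => ?_⟩
    rw [← n2_sq]
    have h1 := hN m hm n hn
    calc n2 (f m - f n) ^ 2 < (Real.sqrt ε) ^ 2 := by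
          exact pow_lt_pow_left₀ h1 (n2_nonneg _) (by norm_num)
      _ = ε := Real.sq_sqrt hε.le)
  refine ⟨g, hg, ?_⟩
  have h2 : Tendsto (fun n => Real.sqrt ((τ (star (f n - g) * (f n - g))).re)) atTop (𝓝 (Real.sqrt 0)) :=
    (Real.continuous_sqrt.tendsto 0).comp hlim
  rw [Real.sqrt_zero] at h2
  refine h2.congr (fun n => ?_)
  rw [← n2_sq, Real.sqrt_sq (n2_nonneg _)]

/-- A star subalgebra is 2-closed (on bounded sequences). -/
def TClosed (P : StarSubalgebra ℂ A) : Prop :=
  ∀ (f : ℕ → A) (g : A) (C : ℝ), (∀ n, f n ∈ P) → (∀ n, ‖f n‖ ≤ C) →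
    Tendsto (fun n => n2 (f n - g)) atTop (𝓝 0) → g ∈ P

theorem TClosed.isClosed {P : StarSubalgebra ℂ A} (hP : TClosed P) : IsClosed (P : Set A) := by
  rw [← isSeqClosed_iff_isClosed]
  intro f g hf hfg
  obtain ⟨C, hC⟩ := (hfg.norm.bddAbove_range)
  refine hP f g C hf (fun n => hC ⟨n, rfl⟩) ?_
  have h0 : Tendsto (fun n => ‖f n - g‖) atTop (𝓝 0) := by
    have := (hfg.sub_const g).norm
    simpa using this
  exact squeeze_zero (fun n => n2_nonneg _) (fun n => n2_le_norm _) h0

theorem tclosed_top : TClosed (⊤ : StarSubalgebra ℂ A) := fun _ _ _ _ _ _ => by trivial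

/-- `P ⊆ M` is an irreducible inclusion of 2-closed star subalgebras with `P` infinite
dimensional (then `P` and `M` are factors of type II₁). -/
structure IsIrr (P M : StarSubalgebra ℂ A) : Prop where
  le : P ≤ M
  closedP : TClosed P
  closedM : TClosed M
  irr : ∀ x ∈ M, (∀ y ∈ P, x * y = y * x) → ∃ c : ℂ, x = c • (1 : A)
  inf : ¬ FiniteDimensional ℂ P

/-- `P` is a II₁ factor inside `A`. -/
abbrev IsFac (P : StarSubalgebra ℂ A) : Prop := IsIrr P P

theorem IsIrr.isFac {P M : StarSubalgebra ℂ A} (h : IsIrr P M) : IsFac P :=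
  ⟨le_rfl, h.closedP, h.closedP, fun x hx hy => h.irr x (h.le hx) hy, h.inf⟩

/-- Matrix units in `P` indexed by a finite type. -/
structure MU (P : StarSubalgebra ℂ A) {ι : Type*} [Fintype ι] [DecidableEq ι] (e : ι → ι → A) :
    Prop where
  mem : ∀ i j, e i j ∈ P
  mul : ∀ i j k l, e i j * e k l = if j = k then e i l else 0
  st : ∀ i j, star (e i j) = e j i
  sum : ∑ i, e i i = 1

/-- The conditional expectation onto the commutant of the matrix units `e`. -/
noncomputable def EE {ι : Type*} [Fintype ι] (e : ι → ι → A) (x : A) : A :=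
  ((Fintype.card ι : ℂ)⁻¹) • ∑ i, ∑ j, e i j * x * e j i

/-- The relative commutant of the matrix units in `P`. -/
def relComm (P : StarSubalgebra ℂ A) {ι : Type*} (e : ι → ι → A) : StarSubalgebra ℂ A :=
  P ⊓ StarSubalgebra.centralizer ℂ (Set.range (fun ij : ι × ι => e ij.1 ij.2))

/-- `x` is in the 2-norm closure of `N` (unbounded approximation allowed). -/
def L2mem (N : StarSubalgebra ℂ A) (x : A) : Prop := ∀ ε : ℝ, 0 < ε → ∃ a ∈ N, n2 (x - a) < ε

end finvn

end Crest.Agent.GenII1
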