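import Crest.Agent.GenII1.Basic
import Crest.Prelude.Def_VNFactor

/-! Amplification to `ℓ²(ℕ, H)` and the commutant-cyclicity of a separating sequence. -/

set_option autoImplicit false
set_option linter.unusedSectionVars false

namespace Crest.Agent.GenII1

open Filter Topology Crest.OpAlg

variable {H : Type*} [NormedAddCommGroup H] [InnerProductSpace ℂ H] [CompleteSpace H]

/-- `ℓ²(ℕ, H)` -/
abbrev LH (H : Type*) [NormedAddCommGroup H] : Type _ := lp (fun _ : ℕ => H) 2

/-- the diagonal amplification of `a` to `ℓ²(ℕ, H)` -/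
noncomputable def dg (a : H →L[ℂ] H) : LH H →L[ℂ] LH H :=
  lp.mapCLM 2 (fun _ : ℕ => a) (norm_nonneg a) (fun _ => le_rfl)

@[simp] theorem dg_apply (a : H →L[ℂ] H) (v : LH H) (n : ℕ) : dg a v n = a (v n) := rfl

theorem dg_add (a b : H →L[ℂ] H) : dg (a + b) = dg a + dg b := by
  ext v n
  simp

theorem dg_sub (a b : H →L[ℂ] H) : dg (a - b) = dg a - dg b := by
  ext v n
  simp

theorem dg_smul (c : ℂ) (a : H →L[ℂ] H) : dg (c • a) = c • dg a := by
  ext v n
  simp

theorem dg_mul (a b : H →L[ℂ] H) : dg (a * b) = dg a * dg b := by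
  ext v n
  simp

theorem dg_one : dg (1 : H →L[ℂ] H) = 1 := by
  ext v n
  simp

theorem dg_star_inner (a : H →L[ℂ] H) (v w : LH H) :
    inner ℂ (dg (star a) v) w = inner ℂ v (dg a w) := by
  rw [lp.inner_eq_tsum, lp.inner_eq_tsum]
  congr 1
  funext n
  rw [dg_apply, dg_apply]
  rw [ContinuousLinearMap.star_eq_adjoint, ContinuousLinearMap.adjoint_inner_left]

theorem norm_dg_le (a : H →L[ℂ] H) : ‖dg a‖ ≤ ‖a‖ :=
  lp.norm_mapCLM_le _ _ _ _

/-- the vector `(ξ n)_n` of `ℓ²(ℕ, H)` -/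
noncomputable def Xi (ξ : ℕ → H) (h : HasSum (fun n => ‖ξ n‖ ^ 2) 1) : LH H :=
  ⟨ξ, memℓp_gen (by
    have := h.summable
    simpa using this)⟩

@[simp] theorem Xi_apply (ξ : ℕ → H) (h : HasSum (fun n => ‖ξ n‖ ^ 2) 1) (n : ℕ) :
    Xi ξ h n = ξ n := rfl

theorem norm_sq_eq_tsum (v : LH H) : ‖v‖ ^ 2 = ∑' n, ‖v n‖ ^ 2 := by
  have := lp.norm_rpow_eq_tsum (p := 2) (by norm_num) v
  simpa using this

theorem summable_norm_sq (v : LH H) : Summable fun n => ‖v n‖ ^ 2 := by
  have := (lp.memℓp v).summable (by norm_num)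
  simpa using this

theorem traceNormSq_eq (ξ : ℕ → H) (h : HasSum (fun n => ‖ξ n‖ ^ 2) 1) (a : H →L[ℂ] H) :
    traceNormSq ξ a = ‖dg a (Xi ξ h)‖ ^ 2 := by
  rw [norm_sq_eq_tsum]
  rfl

theorem vectorState_eq (ξ : ℕ → H) (h : HasSum (fun n => ‖ξ n‖ ^ 2) 1) (a : H →L[ℂ] H) :
    vectorState ξ a = inner ℂ (Xi ξ h) (dg a (Xi ξ h)) := rfl

theorem norm_Xi (ξ : ℕ → H) (h : HasSum (fun n => ‖ξ n‖ ^ 2) 1) : ‖Xi ξ h‖ = 1 := by
  have h1 : ‖Xi ξ h‖ ^ 2 = 1 := by
    rw [norm_sq_eq_tsum]
    exact h.tsum_eq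
  have h2 := norm_nonneg (Xi ξ h)
  nlinarith

theorem vectorState_star_mul (ξ : ℕ → H) (h : HasSum (fun n => ‖ξ n‖ ^ 2) 1) (a b : H →L[ℂ] H) :
    vectorState ξ (star a * b) = inner ℂ (dg a (Xi ξ h)) (dg b (Xi ξ h)) := by
  rw [vectorState_eq ξ h, dg_mul, mul_apply_eq_comp, ← dg_star_inner, star_star]

/-- every coordinate is controlled by the amplified norm -/
theorem norm_apply_xi_le (ξ : ℕ → H) (h : HasSum (fun n => ‖ξ n‖ ^ 2) 1) (a : H →L[ℂ] H) (n : ℕ) :
    ‖a (ξ n)‖ ≤ ‖dg a (Xi ξ h)‖ :=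
  lp.norm_apply_le_norm (by norm_num) (dg a (Xi ξ h)) n

/-- the projection onto a closed subspace invariant under the commutant is in the algebra -/
theorem starProjection_mem (M : VonNeumannAlgebra H) (K : Submodule ℂ H) [CompleteSpace K]
    (hinv : ∀ y ∈ M.commutant, ∀ v ∈ K, y v ∈ K) : K.starProjection ∈ M := by
  have h1 := (VonNeumannAlgebra.IsStarProjection.mem_iff
    (isStarProjection_starProjection (U := K)) M).2
  apply h1
  intro y hy
  rw [Submodule.range_starProjection]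
  intro v hv
  exact hinv y hy v hv

/-- vectors `a ξ_n` with `a` in the commutant of `M` span a dense subspace -/
theorem dense_commutant_span (M : VonNeumannAlgebra H) (ξ : ℕ → H)
    (hξ : IsFaithfulTracialVectorState M ξ) :
    Dense (Submodule.span ℂ {v : H | ∃ a ∈ M.commutant, ∃ n : ℕ, v = a (ξ n)} : Set H) := by
  set S := Submodule.span ℂ {v : H | ∃ a ∈ M.commutant, ∃ n : ℕ, v = a (ξ n)} with hS
  set K := S.topologicalClosure with hK
  have hKc : IsClosed (K : Set H) := Submodule.isClosed_topologicalClosure S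
  have : CompleteSpace K := hKc.completeSpace_coe
  -- the projection onto `K` lies in `M`
  have hinv : ∀ y ∈ M.commutant, ∀ v ∈ K, y v ∈ K := by
    intro y hy v hv
    have h1 : ∀ v ∈ S, y v ∈ S := by
      intro v hv
      induction hv using Submodule.span_induction with
      | mem v hv =>
        obtain ⟨a, ha, n, rfl⟩ := hv
        exact Submodule.subset_span ⟨y * a, mul_mem hy ha, n, rfl⟩
      | zero => simp
      | add u w _ _ hu hw => rw [map_add]; exact S.add_mem hu hw
      | smul c u _ hu => rw [map_smul]; exact S.smul_mem c hu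
    have h2 : Set.MapsTo y (closure (S : Set H)) (closure (S : Set H)) :=
      (show Set.MapsTo y (S : Set H) (S : Set H) from h1).closure y.continuous
    exact h2 hv
  have hproj : K.starProjection ∈ M := starProjection_mem M K hinv
  have h1 : (1 : H →L[ℂ] H) - K.starProjection ∈ M := sub_mem (one_mem M) hproj
  have h2 : (1 : H →L[ℂ] H) - K.starProjection = 0 := by
    apply hξ.2.2 _ h1
    intro n
    have h3 : ξ n ∈ K := by
      apply Submodule.le_topologicalClosure
      exact Submodule.subset_span ⟨1, one_mem _, n, by simp⟩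
    have h4 : K.starProjection (ξ n) = ξ n := Submodule.starProjection_eq_self_iff.2 h3
    simp [h4]
  have h5 : ∀ v : H, v ∈ K := by
    intro v
    rw [← Submodule.starProjection_eq_self_iff]
    have h6 : ((1 : H →L[ℂ] H) - K.starProjection) v = 0 := by rw [h2]; rfl
    have h7 : v - K.starProjection v = 0 := h6
    exact (sub_eq_zero.1 h7).symm
  intro v
  exact h5 v

/-- A bounded sequence which converges on the `ξ k` converges pointwise; the limit is in `M`. -/
theorem exists_strong_limit (M : VonNeumannAlgebra H) (ξ : ℕ → H)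
    (hξ : IsFaithfulTracialVectorState M ξ) (f : ℕ → H →L[ℂ] H) (hf : ∀ n, f n ∈ M) (C : ℝ)
    (hC : ∀ n, ‖f n‖ ≤ C) (hcau : ∀ k, CauchySeq (fun n => f n (ξ k))) :
    ∃ g ∈ M, ‖g‖ ≤ C ∧ ∀ v, Tendsto (fun n => f n v) atTop (𝓝 (g v)) := by
  have hC0 : 0 ≤ C := (norm_nonneg _).trans (hC 0)
  set S := Submodule.span ℂ {v : H | ∃ a ∈ M.commutant, ∃ n : ℕ, v = a (ξ n)} with hS
  have hdense : Dense (S : Set H) := dense_commutant_span M ξ hξ
  have hcS : ∀ v ∈ S, CauchySeq (fun n => f n v) := by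
    intro v hv
    induction hv using Submodule.span_induction with
    | mem v hv =>
      obtain ⟨a, ha, k, rfl⟩ := hv
      have h1 : (fun n => f n (a (ξ k))) = fun n => a (f n (ξ k)) := by
        funext n
        have := VonNeumannAlgebra.mem_commutant_iff.1 ha (f n) (hf n)
        exact DFunLike.congr_fun this (ξ k)
      rw [h1]
      exact (a.uniformContinuous.comp_cauchySeq (hcau k))
    | zero => simpa using cauchySeq_const (0 : H)
    | add u w _ _ hu hw =>
      simp only [map_add]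
      exact hu.add hw
    | smul c u _ hu =>
      simp only [map_smul]
      exact (uniformContinuous_const_smul c).comp_cauchySeq hu
  have hcH : ∀ v, CauchySeq (fun n => f n v) := by
    intro v
    rw [Metric.cauchySeq_iff]
    intro ε hε
    have hδ : 0 < ε / (3 * (C + 1)) := by positivity
    obtain ⟨s, hs, hvs⟩ := Metric.dense_iff.1 hdense v _ hδ
    rw [Metric.mem_ball, dist_comm] at hs
    obtain ⟨N, hN⟩ := Metric.cauchySeq_iff.1 (hcS s hvs) (ε / 3) (by positivity)
    refine ⟨N, fun m hm n hn => ?_⟩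
    have h1 : ∀ n, dist (f n v) (f n s) ≤ ε / 3 := by
      intro n
      rw [dist_eq_norm, ← map_sub]
      have h2 : ‖f n (v - s)‖ ≤ C * (ε / (3 * (C + 1))) := by
        refine ((f n).le_opNorm _).trans ?_
        rw [dist_eq_norm] at hs
        exact mul_le_mul (hC n) hs.le (norm_nonneg _) hC0
      refine h2.trans ?_
      rw [mul_div_assoc', div_le_div_iff₀ (by positivity) (by norm_num)]
      nlinarith
    calc dist (f m v) (f n v) ≤ dist (f m v) (f m s) + dist (f m s) (f n s) + dist (f n s) (f n v) :=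
          dist_triangle4 _ _ _ _
      _ < ε / 3 + ε / 3 + ε / 3 := by
          have h3 := h1 m
          have h4 := h1 n
          have h5 := hN m hm n hn
          rw [dist_comm (f n s)]
          linarith
      _ = ε := by ring
  choose g0 hg0 using fun v => cauchySeq_tendsto_of_complete (hcH v)
  have hg0' : ∀ v, ‖g0 v‖ ≤ C * ‖v‖ := by
    intro v
    refine le_of_tendsto (hg0 v).norm (Eventually.of_forall fun n => ?_)
    exact ((f n).le_opNorm v).trans (mul_le_mul_of_nonneg_right (hC n) (norm_nonneg _))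
  let gl : H →ₗ[ℂ] H :=
    { toFun := g0
      map_add' := fun u v => by
        refine tendsto_nhds_unique (hg0 (u + v)) ?_
        simp only [map_add]
        exact (hg0 u).add (hg0 v)
      map_smul' := fun c v => by
        refine tendsto_nhds_unique (hg0 (c • v)) ?_
        simp only [map_smul, RingHom.id_apply]
        exact (hg0 v).const_smul c }
  let g : H →L[ℂ] H := gl.mkContinuous C hg0'
  have hgv : ∀ v, g v = g0 v := fun v => rfl
  refine ⟨g, ?_, LinearMap.mkContinuous_norm_le _ hC0 _, fun v => by rw [hgv]; exact hg0 v⟩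
  rw [← VonNeumannAlgebra.commutant_commutant M, VonNeumannAlgebra.mem_commutant_iff]
  intro y hy
  ext v
  have h1 : Tendsto (fun n => f n (y v)) atTop (𝓝 (g (y v))) := hg0 (y v)
  have h2 : Tendsto (fun n => y (f n v)) atTop (𝓝 (y (g v))) :=
    (y.continuous.tendsto _).comp (hg0 v)
  have h3 : (fun n => f n (y v)) = fun n => y (f n v) := by
    funext n
    have := VonNeumannAlgebra.mem_commutant_iff.1 hy (f n) (hf n)
    exact DFunLike.congr_fun this v
  rw [h3] at h1
  exact tendsto_nhds_unique h2 h1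

theorem summable_norm_sq_apply (ξ : ℕ → H) (h : HasSum (fun n => ‖ξ n‖ ^ 2) 1) (a : H →L[ℂ] H) :
    Summable fun n => ‖a (ξ n)‖ ^ 2 := summable_norm_sq (dg a (Xi ξ h))

theorem norm_sq_apply_le (ξ : ℕ → H) (h : HasSum (fun n => ‖ξ n‖ ^ 2) 1) (a : H →L[ℂ] H) (k : ℕ) :
    ‖a (ξ k)‖ ^ 2 ≤ traceNormSq ξ a :=
  (summable_norm_sq_apply ξ h a).le_tsum k (fun j _ => by positivity)

/-- completeness of operator norm balls of `M` for the 2-norm -/
theorem complete_aux (M : VonNeumannAlgebra H) (ξ : ℕ → H)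
    (hξ : IsFaithfulTracialVectorState M ξ) (f : ℕ → H →L[ℂ] H) (hf : ∀ n, f n ∈ M) (C : ℝ)
    (hC : ∀ n, ‖f n‖ ≤ C)
    (hcau : ∀ ε : ℝ, 0 < ε → ∃ N : ℕ, ∀ m, N ≤ m → ∀ n, N ≤ n → traceNormSq ξ (f m - f n) < ε) :
    ∃ g ∈ M, ‖g‖ ≤ C ∧ Tendsto (fun n => traceNormSq ξ (f n - g)) atTop (𝓝 0) := by
  have hck : ∀ k, CauchySeq (fun n => f n (ξ k)) := by
    intro k
    rw [Metric.cauchySeq_iff]
    intro ε hε
    obtain ⟨N, hN⟩ := hcau (ε ^ 2) (by positivity)
    refine ⟨N, fun m hm n hn => ?_⟩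
    rw [dist_eq_norm]
    have h1 := norm_sq_apply_le ξ hξ.1 (f m - f n) k
    have h2 : ‖(f m - f n) (ξ k)‖ ^ 2 < ε ^ 2 := h1.trans_lt (hN m hm n hn)
    have h3 := (sq_lt_sq₀ (norm_nonneg _) hε.le).1 h2
    exact h3
  obtain ⟨g, hgM, hgC, hg⟩ := exists_strong_limit M ξ hξ f hf C hC hck
  refine ⟨g, hgM, hgC, ?_⟩
  rw [Metric.tendsto_atTop]
  intro ε hε
  obtain ⟨N, hN⟩ := hcau (ε / 2) (by positivity)
  refine ⟨N, fun n hn => ?_⟩
  have hnn : 0 ≤ traceNormSq ξ (f n - g) := tsum_nonneg fun k => by positivity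
  rw [Real.dist_eq, sub_zero, abs_of_nonneg hnn]
  have h1 : traceNormSq ξ (f n - g) ≤ ε / 2 := by
    apply Real.tsum_le_of_sum_le (fun k => by positivity)
    intro s
    have h2 : Tendsto (fun m => ∑ k ∈ s, ‖(f n - f m) (ξ k)‖ ^ 2) atTop
        (𝓝 (∑ k ∈ s, ‖(f n - g) (ξ k)‖ ^ 2)) := by
      apply tendsto_finsetSum
      intro k _
      apply Tendsto.pow
      apply Tendsto.norm
      exact tendsto_const_nhds.sub (hg (ξ k))
    refine le_of_tendsto h2 ?_
    filter_upwards [eventually_ge_atTop N] with m hm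
    have h3 := hN n hn m hm
    have h4 : ∑ k ∈ s, ‖(f n - f m) (ξ k)‖ ^ 2 ≤ traceNormSq ξ (f n - f m) :=
      (summable_norm_sq_apply ξ hξ.1 (f n - f m)).sum_le_tsum s (fun j _ => by positivity)
    linarith
  linarith

/-- the von Neumann algebra `T'` for a set `T` of operators -/
noncomputable def vnComm (T : Set (H →L[ℂ] H)) : VonNeumannAlgebra H where
  toStarSubalgebra := StarSubalgebra.centralizer ℂ T
  centralizer_centralizer' := by simp

theorem mem_vnComm {T : Set (H →L[ℂ] H)} (hT : ∀ a ∈ T, star a ∈ T) {z : H →L[ℂ] H} :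
    z ∈ vnComm T ↔ ∀ g ∈ T, g * z = z * g := by
  change z ∈ StarSubalgebra.centralizer ℂ T ↔ _
  rw [StarSubalgebra.mem_centralizer_iff]
  constructor
  · intro h g hg
    exact (h g hg).1
  · intro h g hg
    exact ⟨h g hg, h _ (hT g hg)⟩

/-- von Neumann density: elements of the bicommutant are 2-norm approximable. -/
theorem density_aux (ξ : ℕ → H) (hξ : HasSum (fun n => ‖ξ n‖ ^ 2) 1)
    (N : StarSubalgebra ℂ (H →L[ℂ] H)) (x : H →L[ℂ] H)
    (hx : ∀ y : H →L[ℂ] H, (∀ a ∈ N, a * y = y * a) → y * x = x * y) (ε : ℝ) (hε : 0 < ε) :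
    ∃ a ∈ N, traceNormSq ξ (x - a) < ε := by
  set Ξ := Xi ξ hξ with hΞ
  let L : (H →L[ℂ] H) →ₗ[ℂ] LH H :=
    { toFun := fun a => dg a Ξ
      map_add' := fun a b => by rw [dg_add]; rfl
      map_smul' := fun c a => by rw [dg_smul]; rfl }
  set V0 : Submodule ℂ (LH H) := Submodule.map L N.toSubalgebra.toSubmodule with hV0
  set V := V0.topologicalClosure with hV
  have hVc : IsClosed (V : Set (LH H)) := Submodule.isClosed_topologicalClosure V0
  have : CompleteSpace V := hVc.completeSpace_coe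
  have hV0mem : ∀ a ∈ N, dg a Ξ ∈ V0 := fun a ha => ⟨a, ha, rfl⟩
  have hinv0 : ∀ a ∈ N, ∀ v ∈ V0, dg a v ∈ V0 := by
    rintro a ha v ⟨b, hb, rfl⟩
    have hab : a * b ∈ N := mul_mem ha (show b ∈ N from hb)
    refine ⟨a * b, hab, ?_⟩
    change dg (a * b) Ξ = dg a (dg b Ξ)
    rw [dg_mul]
    rfl
  have hinv : ∀ a ∈ N, ∀ v ∈ V, dg a v ∈ V := by
    intro a ha v hv
    have h2 : Set.MapsTo (dg a) (closure (V0 : Set (LH H))) (closure (V0 : Set (LH H))) :=
      (show Set.MapsTo (dg a) (V0 : Set (LH H)) (V0 : Set (LH H)) from hinv0 a ha).closure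
        (dg a).continuous
    exact h2 hv
  set p := V.starProjection with hp
  have hpV : ∀ v, p v ∈ V := fun v => by
    rw [hp]; exact Submodule.starProjection_apply_mem V v
  have hpfix : ∀ v ∈ V, p v = v := fun v hv => Submodule.starProjection_eq_self_iff.2 hv
  have hcomm : ∀ a ∈ N, ∀ v, p (dg a v) = dg a (p v) := by
    intro a ha v
    have h1 : dg a v = dg a (p v) + dg a (v - p v) := by rw [← map_add]; congr 1; abel
    have h2 : p (dg a (v - p v)) = 0 := by
      rw [hp, Submodule.starProjection_apply_eq_zero_iff, Submodule.mem_orthogonal]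
      intro w hw
      have h3 : inner ℂ w (dg a (v - p v)) = inner ℂ (dg (star a) w) (v - p v) :=
        (dg_star_inner a w (v - p v)).symm
      rw [h3]
      have h4 := hinv (star a) (star_mem ha) w hw
      have h5 : v - p v ∈ Vᗮ := Submodule.sub_starProjection_mem_orthogonal v
      exact (Submodule.mem_orthogonal V _).1 h5 _ h4
    rw [h1, map_add, h2, add_zero]
    exact hpfix _ (hinv a ha _ (hpV v))
  -- matrix entries of `p`
  let ent : ℕ → ℕ → (H →L[ℂ] H) := fun m n =>
    (lp.evalCLM ℂ (fun _ : ℕ => H) 2 m).comp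
      (p.comp (lp.singleContinuousLinearMap ℂ (fun _ : ℕ => H) 2 n))
  have hent : ∀ m n v, ent m n v = p (lp.single 2 n v) m := fun m n v => rfl
  have hsingle : ∀ (a : H →L[ℂ] H) (n : ℕ) (v : H),
      dg a (lp.single 2 n v) = lp.single 2 n (a v) := by
    intro a n v
    ext m
    rw [dg_apply]
    by_cases hmn : m = n
    · subst hmn
      rw [lp.single_apply_self, lp.single_apply_self]
    · rw [lp.single_apply_ne _ _ _ hmn, lp.single_apply_ne _ _ _ hmn, map_zero]
  have hentN : ∀ m n, ∀ a ∈ N, a * ent m n = ent m n * a := by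
    intro m n a ha
    ext v
    change a (p (lp.single 2 n v) m) = p (lp.single 2 n (a v)) m
    rw [← hsingle, hcomm a ha, dg_apply]
  have hentx : ∀ m n, ent m n * x = x * ent m n := fun m n => hx _ (hentN m n)
  have hcx : p.comp (dg x) = (dg x).comp p := by
    apply lp.ext_continuousLinearMap (by norm_num)
    intro n
    ext v m
    change p (dg x (lp.single 2 n v)) m = dg x (p (lp.single 2 n v)) m
    rw [hsingle, dg_apply]
    exact DFunLike.congr_fun (hentx m n) v
  have hΞV : Ξ ∈ V := by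
    apply Submodule.le_topologicalClosure
    have := hV0mem 1 (one_mem N)
    rwa [dg_one] at this
  have hxV : dg x Ξ ∈ V := by
    have h1 : p (dg x Ξ) = dg x (p Ξ) := DFunLike.congr_fun hcx Ξ
    rw [hpfix Ξ hΞV] at h1
    rw [← h1]
    exact hpV _
  have hxc : dg x Ξ ∈ closure (V0 : Set (LH H)) := hxV
  rw [Metric.mem_closure_iff] at hxc
  obtain ⟨w, ⟨a, ha, rfl⟩, hw⟩ := hxc (Real.sqrt ε) (Real.sqrt_pos.2 hε)
  refine ⟨a, ha, ?_⟩
  rw [traceNormSq_eq ξ hξ, dg_sub]
  change dist (dg x Ξ) (dg a Ξ) < Real.sqrt ε at hw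
  rw [dist_eq_norm] at hw
  have h1 : ‖dg x Ξ - dg a Ξ‖ ^ 2 < (Real.sqrt ε) ^ 2 :=
    (sq_lt_sq₀ (norm_nonneg _) (Real.sqrt_nonneg _)).2 hw
  rw [Real.sq_sqrt hε.le] at h1
  exact h1

theorem traceNormSq_eq_vectorState (ξ : ℕ → H) (h : HasSum (fun n => ‖ξ n‖ ^ 2) 1)
    (a : H →L[ℂ] H) : ((traceNormSq ξ a : ℝ) : ℂ) = vectorState ξ (star a * a) := by
  rw [vectorState_star_mul ξ h, traceNormSq_eq ξ h, inner_self_eq_norm_sq_to_K]
  norm_cast

theorem traceNormSq_star (M : VonNeumannAlgebra H) (ξ : ℕ → H)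
    (hξ : IsFaithfulTracialVectorState M ξ) {a : H →L[ℂ] H} (ha : a ∈ M) :
    traceNormSq ξ (star a) = traceNormSq ξ a := by
  have h1 := traceNormSq_eq_vectorState ξ hξ.1 (star a)
  have h2 := traceNormSq_eq_vectorState ξ hξ.1 a
  rw [star_star, hξ.2.1 a ha (star a) (star_mem ha), ← h2] at h1
  exact_mod_cast h1

/-- 2-norm limits of elements of `N'` which are in `M` are in `N'`. -/
theorem mem_of_approx (M N' : VonNeumannAlgebra H) (ξ : ℕ → H)
    (hξ : IsFaithfulTracialVectorState M ξ) (N : Set (H →L[ℂ] H)) (hNM : ∀ a ∈ N, a ∈ M)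
    (hNN' : ∀ a ∈ N, a ∈ N') (x : H →L[ℂ] H) (hxM : x ∈ M)
    (hx : ∀ ε : ℝ, 0 < ε → ∃ a ∈ N, traceNormSq ξ (x - a) < ε) : x ∈ N' := by
  set S := Submodule.span ℂ {v : H | ∃ a ∈ M.commutant, ∃ n : ℕ, v = a (ξ n)} with hS
  have hdense : Dense (S : Set H) := dense_commutant_span M ξ hξ
  choose a haN ha using fun n : ℕ => hx (1 / ((n : ℝ) + 1)) (by positivity)
  have haM : ∀ n, a n ∈ M := fun n => hNM _ (haN n)
  -- convergence on the `ξ k`
  have hgen : ∀ (y : H →L[ℂ] H) (b : ℕ → H →L[ℂ] H), y ∈ M → (∀ n, b n ∈ M) →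
      (∀ n, traceNormSq ξ (y - b n) < 1 / ((n : ℝ) + 1)) →
      ∀ v ∈ S, Tendsto (fun n => b n v) atTop (𝓝 (y v)) := by
    intro y b hy hb hyb v hv
    have hk : ∀ k, Tendsto (fun n => b n (ξ k)) atTop (𝓝 (y (ξ k))) := by
      intro k
      rw [tendsto_iff_norm_sub_tendsto_zero]
      have h1 : ∀ n, ‖b n (ξ k) - y (ξ k)‖ ≤ Real.sqrt (1 / ((n : ℝ) + 1)) := by
        intro n
        apply Real.le_sqrt_of_sq_le
        have h2 := norm_sq_apply_le ξ hξ.1 (y - b n) k
        rw [sub_apply, norm_sub_rev] at h2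
        exact h2.trans (hyb n).le
      have h3 : Tendsto (fun n : ℕ => Real.sqrt (1 / ((n : ℝ) + 1))) atTop (𝓝 0) := by
        have := (Real.continuous_sqrt.tendsto 0).comp
          (tendsto_one_div_add_atTop_nhds_zero_nat (𝕜 := ℝ))
        rw [Real.sqrt_zero] at this
        exact this
      exact squeeze_zero (fun n => norm_nonneg _) h1 h3
    induction hv using Submodule.span_induction with
    | mem v hv =>
      obtain ⟨c, hc, k, rfl⟩ := hv
      have h1 : ∀ z ∈ M, z (c (ξ k)) = c (z (ξ k)) := by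
        intro z hz
        exact DFunLike.congr_fun (VonNeumannAlgebra.mem_commutant_iff.1 hc z hz) (ξ k)
      have h2 : (fun n => b n (c (ξ k))) = fun n => c (b n (ξ k)) := by
        funext n
        exact h1 _ (hb n)
      rw [h2, h1 y hy]
      exact (c.continuous.tendsto _).comp (hk k)
    | zero => simp
    | add u w _ _ hu hw =>
      simp only [map_add]
      exact hu.add hw
    | smul c u _ hu =>
      simp only [map_smul]
      exact hu.const_smul c
  have h1 := hgen x a hxM haM ha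
  have h2 := hgen (star x) (fun n => star (a n)) (star_mem hxM) (fun n => star_mem (haM n)) (by
    intro n
    rw [← star_sub, traceNormSq_star M ξ hξ (sub_mem hxM (haM n))]
    exact ha n)
  rw [← VonNeumannAlgebra.commutant_commutant N', VonNeumannAlgebra.mem_commutant_iff]
  intro T hT
  -- matrix coefficients agree on `S`
  have h3 : ∀ v ∈ S, ∀ w ∈ S, inner ℂ w (T (x v)) = inner ℂ w (x (T v)) := by
    intro v hv w hw
    have e1 : Tendsto (fun n => inner ℂ w (T (a n v))) atTop (𝓝 (inner ℂ w (T (x v)))) :=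
      Tendsto.inner tendsto_const_nhds ((T.continuous.tendsto _).comp (h1 v hv))
    have e2 : Tendsto (fun n => inner ℂ (star (a n) w) (T v)) atTop
        (𝓝 (inner ℂ (star x w) (T v))) :=
      Tendsto.inner (h2 w hw) tendsto_const_nhds
    have e3 : (fun n => inner ℂ w (T (a n v))) = fun n => inner ℂ (star (a n) w) (T v) := by
      funext n
      have h4 : T (a n v) = a n (T v) :=
        (DFunLike.congr_fun (VonNeumannAlgebra.mem_commutant_iff.1 hT (a n) (hNN' _ (haN n))) v).symm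
      rw [h4, ContinuousLinearMap.star_eq_adjoint, ContinuousLinearMap.adjoint_inner_left]
    rw [e3] at e1
    have h5 := tendsto_nhds_unique e1 e2
    rw [h5, ContinuousLinearMap.star_eq_adjoint, ContinuousLinearMap.adjoint_inner_left]
  have h4 : ∀ v ∈ S, T (x v) = x (T v) := by
    intro v hv
    have h5 : ∀ w : H, inner ℂ w (T (x v) - x (T v)) = 0 := by
      intro w
      have hcl : IsClosed {w : H | inner ℂ w (T (x v) - x (T v)) = 0} :=
        isClosed_eq (continuous_id.inner continuous_const) continuous_const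
      have : ∀ w ∈ (S : Set H), inner ℂ w (T (x v) - x (T v)) = 0 := by
        intro w hw
        rw [inner_sub_right, h3 v hv w hw, sub_self]
      exact (hcl.closure_subset_iff.2 this) (hdense w)
    have h6 := h5 (T (x v) - x (T v))
    rw [inner_self_eq_zero] at h6
    exact sub_eq_zero.1 h6
  ext v
  have hcl : IsClosed {v : H | T (x v) = x (T v)} :=
    isClosed_eq (T.continuous.comp x.continuous) (x.continuous.comp T.continuous)
  exact (hcl.closure_subset_iff.2 h4) (hdense v)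

theorem isSeparable_LH [TopologicalSpace.SeparableSpace H] :
    TopologicalSpace.IsSeparable (Set.univ : Set (LH H)) := by
  have h1 : ∀ n : ℕ, TopologicalSpace.IsSeparable
      (Set.range fun v : ℕ → H => ∑ i ∈ Finset.range n, (lp.single 2 i (v i) : LH H)) := by
    intro n
    apply TopologicalSpace.isSeparable_range
    apply continuous_finsetSum
    intro i _
    exact (lp.singleContinuousLinearMap ℂ (fun _ : ℕ => H) 2 i).continuous.comp
      (continuous_apply i)
  have h2 := TopologicalSpace.IsSeparable.iUnion h1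
  refine h2.closure.mono ?_
  intro f _
  have h3 : HasSum (fun i => (lp.single 2 i (f i) : LH H)) f := lp.hasSum_single (by norm_num) f
  have h4 := h3.tendsto_sum_nat
  refine mem_closure_of_tendsto h4 (Eventually.of_forall fun n => ?_)
  exact Set.mem_iUnion.2 ⟨n, ⟨fun i => f i, rfl⟩⟩

/-- separability of `M` for the 2-norm -/
theorem separable_aux [TopologicalSpace.SeparableSpace H] (M : Set (H →L[ℂ] H)) (hM : M.Nonempty)
    (ξ : ℕ → H) (hξ : HasSum (fun n => ‖ξ n‖ ^ 2) 1) :
    ∃ s : ℕ → H →L[ℂ] H, (∀ n, s n ∈ M) ∧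
      ∀ x ∈ M, ∀ ε : ℝ, 0 < ε → ∃ n, traceNormSq ξ (x - s n) < ε := by
  set Ξ := Xi ξ hξ with hΞ
  set E : Set (LH H) := (fun a => dg a Ξ) '' M with hE
  have hsep : TopologicalSpace.IsSeparable E := isSeparable_LH.mono (Set.subset_univ _)
  obtain ⟨t, htE, htc, htd⟩ := hsep.exists_countable_dense_subset
  have hEne : E.Nonempty := hM.image _
  have htne : t.Nonempty := by
    by_contra hcon
    rw [Set.not_nonempty_iff_eq_empty] at hcon
    rw [hcon, closure_empty] at htd
    obtain ⟨e, he⟩ := hEne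
    exact htd he
  obtain ⟨u, hu⟩ := htc.exists_eq_range htne
  have hut : ∀ n, u n ∈ E := fun n => htE (by rw [hu]; exact ⟨n, rfl⟩)
  choose s hs hsu using hut
  refine ⟨s, hs, fun x hx ε hε => ?_⟩
  have h1 : dg x Ξ ∈ closure t := htd ⟨x, hx, rfl⟩
  rw [Metric.mem_closure_iff] at h1
  obtain ⟨w, hw, hwd⟩ := h1 (Real.sqrt ε) (Real.sqrt_pos.2 hε)
  rw [hu] at hw
  obtain ⟨n, rfl⟩ := hw
  refine ⟨n, ?_⟩
  rw [traceNormSq_eq ξ hξ, dg_sub]
  rw [← hsu n, dist_eq_norm] at hwd
  have h2 : ‖dg x Ξ - dg (s n) Ξ‖ ^ 2 < (Real.sqrt ε) ^ 2 :=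
    (sq_lt_sq₀ (norm_nonneg _) (Real.sqrt_nonneg _)).2 hwd
  rw [Real.sq_sqrt hε.le] at h2
  exact h2

end Crest.Agent.GenII1
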