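import Crest.Agent.GenII1.Closure
import Crest.Agent.GenII1.BridgeA

/-! Bridge between Mathlib's concrete von Neumann algebras with a tracial vector state and `FinVN`. -/

set_option autoImplicit false
set_option linter.unusedSectionVars false

namespace Crest.Agent.GenII1

open Filter Topology Crest.OpAlg

variable {H : Type*} [NormedAddCommGroup H] [InnerProductSpace ℂ H] [CompleteSpace H]

/-- a von Neumann algebra as a type -/
abbrev MT (M : VonNeumannAlgebra H) : Type _ := ↥M.toStarSubalgebra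

theorem isClosed_vn (M : VonNeumannAlgebra H) : IsClosed (M.toStarSubalgebra : Set (H →L[ℂ] H)) := by
  have h1 : (M.toStarSubalgebra : Set (H →L[ℂ] H)) =
      Set.centralizer (Set.centralizer M.carrier) := M.centralizer_centralizer'.symm
  rw [h1]
  exact Set.isClosed_centralizer _

noncomputable instance (M : VonNeumannAlgebra H) : CStarAlgebra (MT M) :=
  StarSubalgebra.cstarAlgebra M.toStarSubalgebra (h_closed := isClosed_vn M)

theorem MT.coe_mem (M : VonNeumannAlgebra H) (x : MT M) : (x : H →L[ℂ] H) ∈ M := x.2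

theorem MT.norm_coe (M : VonNeumannAlgebra H) (x : MT M) : ‖x‖ = ‖(x : H →L[ℂ] H)‖ := rfl

/-- the trace as a linear map -/
noncomputable def trLin (M : VonNeumannAlgebra H) (ξ : ℕ → H)
    (h : HasSum (fun n => ‖ξ n‖ ^ 2) 1) : MT M →ₗ[ℂ] ℂ where
  toFun x := vectorState ξ (x : H →L[ℂ] H)
  map_add' x y := by
    rw [vectorState_eq ξ h, vectorState_eq ξ h, vectorState_eq ξ h]
    change inner ℂ (Xi ξ h) (dg ((x : H →L[ℂ] H) + (y : H →L[ℂ] H)) (Xi ξ h)) = _
    rw [dg_add, ← inner_add_right]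
    rfl
  map_smul' c x := by
    rw [vectorState_eq ξ h, vectorState_eq ξ h]
    change inner ℂ (Xi ξ h) (dg (c • (x : H →L[ℂ] H)) (Xi ξ h)) = _
    rw [dg_smul, RingHom.id_apply, smul_eq_mul, ← inner_smul_right]
    rfl

theorem trLin_apply (M : VonNeumannAlgebra H) (ξ : ℕ → H)
    (h : HasSum (fun n => ‖ξ n‖ ^ 2) 1) (x : MT M) :
    trLin M ξ h x = vectorState ξ (x : H →L[ℂ] H) := rfl

theorem trLin_star_mul_self (M : VonNeumannAlgebra H) (ξ : ℕ → H)
    (h : HasSum (fun n => ‖ξ n‖ ^ 2) 1) (x : MT M) :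
    trLin M ξ h (star x * x) = ((traceNormSq ξ (x : H →L[ℂ] H) : ℝ) : ℂ) := by
  rw [traceNormSq_eq_vectorState ξ h]
  rfl

theorem traceNormSq_nonneg (ξ : ℕ → H) (a : H →L[ℂ] H) : 0 ≤ traceNormSq ξ a :=
  tsum_nonneg fun _ => by positivity

/-- the `FinVN` structure given by a faithful tracial vector state -/
@[reducible] noncomputable def finVN (M : VonNeumannAlgebra H) (ξ : ℕ → H)
    (hξ : IsFaithfulTracialVectorState M ξ) : FinVN (MT M) where
  τ := trLin M ξ hξ.1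
  τ_one := by
    have h1 := trLin_star_mul_self M ξ hξ.1 1
    rw [star_one, mul_one] at h1
    rw [h1, traceNormSq_eq ξ hξ.1]
    have h2 : dg ((1 : MT M) : H →L[ℂ] H) (Xi ξ hξ.1) = Xi ξ hξ.1 := by
      change dg (1 : H →L[ℂ] H) (Xi ξ hξ.1) = Xi ξ hξ.1
      rw [dg_one]
      rfl
    rw [h2, norm_Xi]
    norm_num
  τ_comm x y := hξ.2.1 _ x.2 _ y.2
  τ_nonneg x := by
    rw [trLin_star_mul_self, Complex.ofReal_re]
    exact traceNormSq_nonneg _ _
  τ_im x := by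
    rw [trLin_star_mul_self, Complex.ofReal_im]
  faithful x hx := by
    rw [trLin_star_mul_self] at hx
    have h1 : traceNormSq ξ (x : H →L[ℂ] H) = 0 := by exact_mod_cast hx
    apply Subtype.ext
    apply hξ.2.2 _ x.2
    intro n
    have h2 := norm_sq_apply_le ξ hξ.1 (x : H →L[ℂ] H) n
    rw [h1] at h2
    have h3 : ‖(x : H →L[ℂ] H) (ξ n)‖ = 0 := by nlinarith [norm_nonneg ((x : H →L[ℂ] H) (ξ n))]
    exact norm_eq_zero.1 h3
  complete f C hC hcau := by
    obtain ⟨g, hgM, hgC, hg⟩ := complete_aux M ξ hξ (fun n => (f n : H →L[ℂ] H))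
      (fun n => (f n).2) C hC (by
        intro ε hε
        obtain ⟨N, hN⟩ := hcau ε hε
        refine ⟨N, fun m hm n hn => ?_⟩
        have h1 := hN m hm n hn
        rw [trLin_star_mul_self, Complex.ofReal_re] at h1
        exact h1)
    refine ⟨⟨g, hgM⟩, hgC, ?_⟩
    refine hg.congr fun n => ?_
    rw [trLin_star_mul_self, Complex.ofReal_re]
    rfl

theorem finVN_τ (M : VonNeumannAlgebra H) (ξ : ℕ → H) (hξ : IsFaithfulTracialVectorState M ξ)
    (x : MT M) : (finVN M ξ hξ).τ x = vectorState ξ (x : H →L[ℂ] H) := rfl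

theorem n2_sq_eq (M : VonNeumannAlgebra H) (ξ : ℕ → H) (hξ : IsFaithfulTracialVectorState M ξ)
    (x : MT M) : letI := finVN M ξ hξ
      n2 x ^ 2 = traceNormSq ξ (x : H →L[ℂ] H) := by
  letI := finVN M ξ hξ
  rw [n2_sq]
  change (trLin M ξ hξ.1 (star x * x)).re = _
  rw [trLin_star_mul_self, Complex.ofReal_re]

/-- a von Neumann algebra viewed inside `MT M` -/
noncomputable def subVN (M P : VonNeumannAlgebra H) : StarSubalgebra ℂ (MT M) :=
  P.toStarSubalgebra.comap M.toStarSubalgebra.subtype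

theorem mem_subVN {M P : VonNeumannAlgebra H} {x : MT M} :
    x ∈ subVN M P ↔ (x : H →L[ℂ] H) ∈ P := Iff.rfl

theorem n2_lt_of_traceNormSq (M : VonNeumannAlgebra H) (ξ : ℕ → H)
    (hξ : IsFaithfulTracialVectorState M ξ) (x : MT M) {ε : ℝ} (hε : 0 < ε) :
    letI := finVN M ξ hξ
    n2 x < ε ↔ traceNormSq ξ (x : H →L[ℂ] H) < ε ^ 2 := by
  letI := finVN M ξ hξ
  have h1 : n2 x ^ 2 = traceNormSq ξ (x : H →L[ℂ] H) := n2_sq_eq M ξ hξ x
  change n2 x < ε ↔ _
  rw [← h1]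
  exact (sq_lt_sq₀ (n2_nonneg x) hε.le).symm

theorem tclosed_subVN (M P : VonNeumannAlgebra H) (ξ : ℕ → H)
    (hξ : IsFaithfulTracialVectorState M ξ) :
    letI := finVN M ξ hξ
    TClosed (subVN M P) := by
  letI := finVN M ξ hξ
  intro f g C hf _ hlim
  rw [mem_subVN]
  apply mem_of_approx M P ξ hξ (Set.range fun n => (f n : H →L[ℂ] H))
  · rintro a ⟨n, rfl⟩
    exact (f n).2
  · rintro a ⟨n, rfl⟩
    exact mem_subVN.1 (hf n)
  · exact g.2
  · intro ε hε
    have h1 := (Metric.tendsto_atTop.1 hlim) (Real.sqrt ε) (Real.sqrt_pos.2 hε)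
    obtain ⟨N, hN⟩ := h1
    refine ⟨_, ⟨N, rfl⟩, ?_⟩
    have h2 := hN N le_rfl
    rw [Real.dist_eq, sub_zero, abs_of_nonneg (n2_nonneg _), n2_sub_comm] at h2
    have h3 := (n2_lt_of_traceNormSq M ξ hξ (g - f N) (Real.sqrt_pos.2 hε)).1 h2
    rw [Real.sq_sqrt hε.le] at h3
    exact h3

/-- 2-norm closure = double commutant (inside M): von Neumann density and its converse. -/
theorem L2mem_iff (M : VonNeumannAlgebra H) (ξ : ℕ → H) (hξ : IsFaithfulTracialVectorState M ξ)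
    (N : StarSubalgebra ℂ (MT M)) (x : MT M) :
    letI := finVN M ξ hξ
    L2mem N x ↔ ∀ N' : VonNeumannAlgebra H, (∀ a ∈ N, (a : H →L[ℂ] H) ∈ N') →
      (x : H →L[ℂ] H) ∈ N' := by
  letI := finVN M ξ hξ
  constructor
  · intro hx N' hN'
    apply mem_of_approx M N' ξ hξ ((fun a : MT M => (a : H →L[ℂ] H)) '' N)
    · rintro a ⟨b, _, rfl⟩
      exact b.2
    · rintro a ⟨b, hb, rfl⟩
      exact hN' b hb
    · exact x.2
    · intro ε hε
      obtain ⟨a, ha, hxa⟩ := hx (Real.sqrt ε) (Real.sqrt_pos.2 hε)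
      refine ⟨_, ⟨a, ha, rfl⟩, ?_⟩
      have h3 := (n2_lt_of_traceNormSq M ξ hξ (x - a) (Real.sqrt_pos.2 hε)).1 hxa
      rw [Real.sq_sqrt hε.le] at h3
      exact h3
  · intro hx ε hε
    set N1 : StarSubalgebra ℂ (H →L[ℂ] H) := N.map M.toStarSubalgebra.subtype with hN1
    have hstar : ∀ a ∈ (N1 : Set (H →L[ℂ] H)), star a ∈ (N1 : Set (H →L[ℂ] H)) :=
      fun a ha => star_mem (S := StarSubalgebra ℂ (H →L[ℂ] H)) ha
    have h1 : (x : H →L[ℂ] H) ∈ (vnComm (N1 : Set (H →L[ℂ] H))).commutant := by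
      apply hx
      intro a ha
      rw [VonNeumannAlgebra.mem_commutant_iff]
      intro y hy
      exact ((mem_vnComm hstar).1 hy (a : H →L[ℂ] H) ⟨a, ha, rfl⟩).symm
    have h2 : ∀ y : H →L[ℂ] H, (∀ a ∈ N1, a * y = y * a) →
        y * (x : H →L[ℂ] H) = (x : H →L[ℂ] H) * y := by
      intro y hy
      exact VonNeumannAlgebra.mem_commutant_iff.1 h1 y ((mem_vnComm hstar).2 hy)
    obtain ⟨a, ha, hxa⟩ := density_aux ξ hξ.1 N1 (x : H →L[ℂ] H) h2 (ε ^ 2) (by positivity)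
    obtain ⟨b, hb, rfl⟩ := ha
    refine ⟨b, hb, ?_⟩
    exact (n2_lt_of_traceNormSq M ξ hξ (x - b) hε).2 hxa

theorem n2_separable [TopologicalSpace.SeparableSpace H] (M : VonNeumannAlgebra H) (ξ : ℕ → H)
    (hξ : IsFaithfulTracialVectorState M ξ) :
    letI := finVN M ξ hξ
    ∃ s : ℕ → MT M, ∀ x : MT M, ∀ ε : ℝ, 0 < ε → ∃ n, n2 (x - s n) < ε := by
  letI := finVN M ξ hξ
  obtain ⟨s, hs, hsd⟩ := separable_aux (M : Set (H →L[ℂ] H)) ⟨1, one_mem M⟩ ξ hξ.1
  refine ⟨fun n => ⟨s n, hs n⟩, fun x ε hε => ?_⟩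
  obtain ⟨n, hn⟩ := hsd (x : H →L[ℂ] H) x.2 (ε ^ 2) (by positivity)
  exact ⟨n, (n2_lt_of_traceNormSq M ξ hξ _ hε).2 hn⟩

theorem isIrr_subVN {P M : VonNeumannAlgebra H} (hPM : P ≤ M) (ξ : ℕ → H)
    (hξ : IsFaithfulTracialVectorState M ξ) (hP : ¬ FiniteDimensional ℂ P.toStarSubalgebra)
    (hPM' : ∀ x ∈ M, (∀ y ∈ P, x * y = y * x) → ∃ c : ℂ, x = c • (1 : H →L[ℂ] H)) :
    letI := finVN M ξ hξ
    IsIrr (subVN M P) ⊤ := by
  letI := finVN M ξ hξ
  refine ⟨le_top, tclosed_subVN M P ξ hξ, tclosed_top, ?_, ?_⟩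
  · intro x _ hx
    obtain ⟨c, hc⟩ := hPM' (x : H →L[ℂ] H) x.2 (by
      intro y hy
      have := hx ⟨y, hPM hy⟩ hy
      exact congrArg Subtype.val this)
    exact ⟨c, Subtype.ext hc⟩
  · intro hfin
    apply hP
    let φ : P.toStarSubalgebra →ₗ[ℂ] subVN M P :=
      { toFun := fun y => ⟨⟨(y : H →L[ℂ] H), hPM y.2⟩, y.2⟩
        map_add' := fun _ _ => rfl
        map_smul' := fun _ _ => rfl }
    have hφ : Function.Injective φ := by
      intro a b hab
      have h1 := congrArg (fun z : subVN M P => ((z : MT M) : H →L[ℂ] H)) hab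
      exact Subtype.ext h1
    exact FiniteDimensional.of_injective φ hφ

end Crest.Agent.GenII1
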