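import Crest.Agent.GenII1.Averaging
import Crest.Agent.GenII1.Lim
import Crest.Agent.GenII1.Closure

/-! Comparison theory of projections in a II₁ factor `P` (given as `IsFac P`). -/

set_option autoImplicit false

namespace Crest.Agent.GenII1

open Filter Topology

variable {A : Type*} [CStarAlgebra A] [FinVN A]

/-- `s ↦ (max s r)^{-1/2}` -/
noncomputable def cmf (r : ℝ) : ℝ → ℝ := fun s => (Real.sqrt (max s r))⁻¹

theorem cmf_cont {r : ℝ} (hr : 0 < r) : Continuous (cmf r) := by
  refine Continuous.inv₀ (by fun_prop) (fun s => ?_)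
  exact (Real.sqrt_pos.2 (lt_of_lt_of_le hr (le_max_right _ _))).ne'

omit [FinVN A] in
theorem cm_cfc {a : A} (hsa : IsSelfAdjoint a) {r : ℝ} (hr : 0 < r) :
    cfc (cmf r) a * a * cfc (cmf r) a = 1 - (r⁻¹ : ℝ) • cfc (fun s : ℝ => max (r - s) 0) a := by
  have c1 : ContinuousOn (cmf r) (spectrum ℝ a) := (cmf_cont hr).continuousOn
  have c2 : ContinuousOn (fun s : ℝ => s) (spectrum ℝ a) := continuousOn_id
  have c3 : ContinuousOn (fun s : ℝ => max (r - s) 0) (spectrum ℝ a) := by fun_prop
  have c4 : ContinuousOn (fun s : ℝ => cmf r s * s) (spectrum ℝ a) := c1.mul c2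
  have e3 : cfc (cmf r) a * a * cfc (cmf r) a = cfc (fun s => cmf r s * s * cmf r s) a := by
    conv_lhs => rw [show cfc (cmf r) a * a = cfc (fun s => cmf r s * s) a by
      rw [cfc_mul (cmf r) (fun s => s) a c1 c2, cfc_id' ℝ a]]
    rw [← cfc_mul _ (cmf r) a c4 c1]
  have e4 : (r⁻¹ : ℝ) • cfc (fun s : ℝ => max (r - s) 0) a =
      cfc (fun s : ℝ => r⁻¹ • max (r - s) 0) a := (cfc_smul r⁻¹ _ a c3).symm
  have e5 : (1 : A) = cfc (fun _ : ℝ => (1 : ℝ)) a := (cfc_const_one ℝ a).symm
  have c5 : ContinuousOn (fun s : ℝ => r⁻¹ • max (r - s) 0) (spectrum ℝ a) := by fun_prop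
  rw [e3, e4, e5, ← cfc_sub (fun _ : ℝ => (1 : ℝ)) (fun s : ℝ => r⁻¹ • max (r - s) 0) a
    continuousOn_const c5]
  refine cfc_congr fun s _ => ?_
  have hm : 0 < max s r := lt_of_lt_of_le hr (le_max_right _ _)
  have hs : Real.sqrt (max s r) * Real.sqrt (max s r) = max s r := Real.mul_self_sqrt hm.le
  have hs0 : Real.sqrt (max s r) ≠ 0 := (Real.sqrt_pos.2 hm).ne'
  have e4 : cmf r s * s * cmf r s = s / max s r := by
    calc cmf r s * s * cmf r s = s / (Real.sqrt (max s r) * Real.sqrt (max s r)) := by
          simp only [cmf]; field_simp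
      _ = s / max s r := by rw [hs]
  simp only [smul_eq_mul]
  rw [e4]
  rcases le_total s r with hsr | hsr
  · rw [max_eq_right hsr, max_eq_left (by linarith)]
    field_simp
    ring
  · rw [max_eq_left hsr, max_eq_right (by linarith)]
    have : s ≠ 0 := by linarith
    field_simp
    ring

theorem cm_aux {P : StarSubalgebra ℂ A} (hP : TClosed P) {x : A}
    (hx : x ∈ P) (hx0 : x ≠ 0) :
    ∃ b ∈ P, (∀ p : A, Commute (star x * x) p → Commute b p) ∧ x * b ≠ 0 ∧
      IsStarProjection (star (x * b) * (x * b)) := by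
  set a : A := star x * x with ha
  have hsa : IsSelfAdjoint a := IsSelfAdjoint.star_mul_self x
  have haP : a ∈ P := mul_mem (star_mem hx) hx
  have ha0 : a ≠ 0 := fun h => hx0 (eq_zero_of_star_mul_self h)
  have hn : 0 < ‖a‖ := norm_pos_iff.2 ha0
  set r : ℝ := ‖a‖ / 2 with hr
  have hr0 : 0 < r := by positivity
  obtain ⟨e', he'P, he', hcomm, h1, h2⟩ := exists_spectral_proj hP haP hsa r
  set e : A := 1 - e' with he
  have hep : IsStarProjection e := he'.one_sub
  have hcsa : IsSelfAdjoint (cfc (cmf r) a) := cfc_predicate (cmf r) a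
  have hkey : star (x * (cfc (cmf r) a * e)) * (x * (cfc (cmf r) a * e)) = e := by
    have e1 : star (x * (cfc (cmf r) a * e)) * (x * (cfc (cmf r) a * e)) =
        e * (cfc (cmf r) a * a * cfc (cmf r) a) * e := by
      rw [star_mul, star_mul, hcsa.star_eq, hep.isSelfAdjoint.star_eq, ha]
      noncomm_ring
    rw [e1, cm_cfc hsa hr0]
    have e5 : e * (1 - (r⁻¹ : ℝ) • cfc (fun s : ℝ => max (r - s) 0) a) * e =
        e * e - (r⁻¹ : ℝ) • (e * (cfc (fun s : ℝ => max (r - s) 0) a * e)) := by
      simp only [mul_sub, sub_mul, mul_one, mul_smul_comm, smul_mul_assoc, mul_assoc]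
    rw [e5, h2, mul_zero, smul_zero, sub_zero, hep.isIdempotentElem.eq]
  refine ⟨cfc (cmf r) a * e, mul_mem (cfc_mem hP haP _) (sub_mem (one_mem _) he'P), ?_, ?_, ?_⟩
  · intro p hp
    have h3 : Commute p (cfc (cmf r) a) := (hsa.commute_cfc hp (cmf r)).symm
    have h4 : Commute p e := (Commute.one_right p).sub_right (hcomm p hp).symm
    exact (h3.mul_right h4).symm
  · intro h0
    rw [h0, star_zero, zero_mul] at hkey
    have h3 : e' = 1 := by
      have : (1 : A) - e' = 0 := hkey.symm
      exact (sub_eq_zero.1 this).symm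
    rw [h3, mul_one] at h1
    have h4 : ‖cfc (fun s : ℝ => s) a‖ ≤ r := by
      refine norm_cfc_le hr0.le fun s hs => ?_
      have hs0 : 0 ≤ s := spectrum_star_mul_self_nonneg s hs
      rw [Real.norm_eq_abs, abs_of_nonneg hs0]
      have h5 : cfc (fun s : ℝ => max (s - r) 0) a = cfc (fun _ : ℝ => (0 : ℝ)) a := by
        rw [h1, cfc_const_zero]
      have h6 := eqOn_of_cfc_eq_cfc h5 (by fun_prop) (by fun_prop) hsa hs
      have h7 := le_max_left (s - r) 0
      simp only at h6
      linarith
    rw [cfc_id' ℝ a] at h4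
    linarith
  · rw [hkey]; exact hep

/-- From `x ≠ 0` in `P` get a nonzero partial isometry of `P` `u = x * y * e` with
`u⋆u = e` a projection with `e (x⋆x) = (x⋆x) e`; in particular `q * u = u` if `q * x = x` and
`u * p = u` if `x * p = x` (p a projection).
Proof: pick `0 < r < ‖x⋆x‖`, `1 - e` the spectral projection of `x⋆x` at `r`,
`u = x * cfc (fun s => (Real.sqrt (max s r))⁻¹) (x⋆x) * e`. -/
theorem exists_partial_isometry_of_ne_zero {P : StarSubalgebra ℂ A} (hP : TClosed P) {x : A}
    (hx : x ∈ P) (hx0 : x ≠ 0) :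
    ∃ u ∈ P, u ≠ 0 ∧ IsStarProjection (star u * u) ∧ IsStarProjection (u * star u) ∧
      (∀ q : A, q * x = x → q * u = u) ∧ (∀ p : A, IsStarProjection p → x * p = x → u * p = u) := by
  obtain ⟨b, hb, hcomm, hne, hproj⟩ := cm_aux hP hx hx0
  have hPI : PI (x * b) := pi_of_proj hproj
  refine ⟨x * b, mul_mem hx hb, hne, hproj, hPI.proj', ?_, ?_⟩
  · intro q hq
    rw [← mul_assoc, hq]
  · intro p hp hxp
    have h1 : Commute (star x * x) p := by
      have h2 : star x * x * p = star x * x := by rw [mul_assoc, hxp]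
      have h3 : p * (star x * x) = star x * x := by
        have := congrArg star h2
        rwa [star_mul, star_mul, star_star, hp.isSelfAdjoint.star_eq] at this
      rw [commute_iff_eq, h2, h3]
    rw [mul_assoc, (hcomm p h1).eq, ← mul_assoc, hxp]

/-- In a factor two nonzero projections are connected: some `q x p ≠ 0`. -/
theorem exists_connect {P : StarSubalgebra ℂ A} (hP : IsFac P) {p q : A} (hp : p ∈ P) (hq : q ∈ P)
    (hpp : IsStarProjection p) (hqq : IsStarProjection q) (hp0 : p ≠ 0) (hq0 : q ≠ 0) :
    ∃ x ∈ P, q * x * p ≠ 0 := by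
  by_contra hcon
  push Not at hcon
  have hτp : τ p = ((tr p : ℝ) : ℂ) := by
    apply Complex.ext
    · simp [tr]
    · rw [τ_sa_im hpp.isSelfAdjoint]; simp
  have htp := tr_proj_pos hpp hp0
  have h1 : ∀ y ∈ convexHull ℝ {x : A | ∃ v ∈ P, v ∈ unitary A ∧ x = v * p * star v},
      q * y = 0 := by
    have hconv : Convex ℝ {y : A | q * y = 0} := by
      intro y hy z hz a b _ _ _
      simp only [Set.mem_ofPred_eq] at hy hz ⊢
      rw [mul_add, mul_smul_comm, mul_smul_comm, hy, hz]; simp
    intro y hy
    refine convexHull_min ?_ hconv hy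
    rintro x ⟨v, hv, -, rfl⟩
    simp only [Set.mem_ofPred_eq]
    rw [← mul_assoc, ← mul_assoc, hcon v hv, zero_mul]
  have h2 : n2 (q * (τ p • (1 : A))) = 0 := by
    refine le_antisymm (le_of_forall_pos_le_add fun ε hε => ?_) (n2_nonneg _)
    obtain ⟨y, hy, hyε⟩ := exists_average hP hp hε
    have h3 : q * (τ p • (1 : A)) = q * ((τ p • (1 : A)) - y) := by
      rw [mul_sub, h1 y hy, sub_zero]
    rw [h3, zero_add]
    refine (n2_mul_le_left _ _).trans ?_
    rw [n2_sub_comm] at hyε
    calc ‖q‖ * n2 (τ p • (1 : A) - y) ≤ 1 * n2 (τ p • (1 : A) - y) :=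
          mul_le_mul_of_nonneg_right (proj_norm_le hqq) (n2_nonneg _)
      _ ≤ ε := by rw [one_mul]; exact hyε.le
  rw [mul_smul_comm, mul_one, n2_smul] at h2
  rcases mul_eq_zero.1 h2 with h | h
  · rw [norm_eq_zero, hτp] at h
    exact htp.ne' (by exact_mod_cast h)
  · exact hq0 (eq_zero_of_n2 h)

theorem cm_X_lim {P : StarSubalgebra ℂ A} (hP : TClosed P) {p q : A} (f : ℕ → A) (g : A)
    (hf : ∀ n, f n ∈ P ∧ PI (f n) ∧ q * f n = f n ∧ f n * p = f n) (hfg : TL f g) (hg : PI g) :
    g ∈ P ∧ PI g ∧ q * g = g ∧ g * p = g := by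
  refine ⟨hP f g 1 (fun n => (hf n).1) (fun n => (hf n).2.1.norm_le) hfg, hg, ?_, ?_⟩
  · exact (hfg.const_mul q).unique (hfg.congr' (Eventually.of_forall fun n => (hf n).2.2.1.symm))
  · exact (hfg.mul_const p).unique (hfg.congr' (Eventually.of_forall fun n => (hf n).2.2.2.symm))

/-- sum of orthogonal partial isometries -/
theorem cm_add {v u : A} (hv : PI v) (hu : PI u) (h1 : star v * u = 0) (h2 : u * star v = 0) :
    PI (v + u) ∧ star (v + u) * (v + u) = star v * v + star u * u ∧ Ext v (v + u) := by
  have h1' : star u * v = 0 := by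
    have := congrArg star h1
    rwa [star_mul, star_star, star_zero] at this
  have h2' : v * star u = 0 := by
    have := congrArg star h2
    rwa [star_mul, star_star, star_zero] at this
  have e1 : star (v + u) * (v + u) = star v * v + star u * u := by
    rw [star_add]
    have : (star v + star u) * (v + u) = star v * v + star v * u + star u * v + star u * u := by
      noncomm_ring
    rw [this, h1, h1']; abel
  refine ⟨?_, e1, ?_, ?_⟩
  · rw [PI, e1]
    have : (v + u) * (star v * v + star u * u) = v * (star v * v) + (v * star u) * u +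
        (u * star v) * v + u * (star u * u) := by noncomm_ring
    rw [this, h2, h2', hv, hu]; simp
  · have : (v + u) * (star v * v) = v * (star v * v) + (u * star v) * v := by noncomm_ring
    rw [this, h2, hv]; simp
  · have : v * star v * (v + u) = v * star v * v + v * (star v * u) := by noncomm_ring
    rw [this, h1, hv.left]; simp

/-- Comparison: projections of equal trace in a II₁ factor are equivalent. -/
theorem exists_equiv {P : StarSubalgebra ℂ A} (hP : IsFac P) {p q : A} (hp : p ∈ P) (hq : q ∈ P)
    (hpp : IsStarProjection p) (hqq : IsStarProjection q) (hpq : tr p = tr q) :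
    ∃ v ∈ P, star v * v = p ∧ v * star v = q := by
  obtain ⟨v, ⟨hvP, hv, hqv, hvp⟩, -, hmax⟩ := exhaust
    (X := fun v => v ∈ P ∧ PI v ∧ q * v = v ∧ v * p = v) (fun v h => h.2.1)
    (fun f g h _ hfg hg => cm_X_lim hP.closedP f g h hfg hg)
    (v0 := 0) ⟨zero_mem _, PI.zero, mul_zero _, zero_mul _⟩
  have h1 : p * (star v * v) = star v * v := by
    have : p * star v = star v := by
      have := congrArg star hvp
      rwa [star_mul, hpp.isSelfAdjoint.star_eq] at this
    rw [← mul_assoc, this]
  have h2 : q * (v * star v) = v * star v := by rw [← mul_assoc, hqv]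
  have hp' := proj_sub hpp hv.proj h1
  have hq' := proj_sub hqq hv.proj' h2
  have htr : tr (v * star v) = tr (star v * v) := tr_comm _ _
  have hkey : tr (star v * v) = tr p := by
    by_contra hne
    have hlt : tr (star v * v) < tr p := lt_of_le_of_ne (tr_proj_mono hpp hv.proj h1) hne
    have hp0 : p - star v * v ≠ 0 := by
      intro h0
      have := congrArg tr h0
      rw [lm_tr_sub, tr_zero] at this; linarith
    have hq0 : q - v * star v ≠ 0 := by
      intro h0
      have := congrArg tr h0
      rw [lm_tr_sub, tr_zero, htr] at this; linarith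
    obtain ⟨x, hx, hx0⟩ := exists_connect hP (sub_mem hp (mul_mem (star_mem hvP) hvP))
      (sub_mem hq (mul_mem hvP (star_mem hvP))) hp' hq' hp0 hq0
    obtain ⟨u, hu, hu0, huP, -, huq, hup⟩ := exists_partial_isometry_of_ne_zero hP.closedP
      (x := (q - v * star v) * x * (p - star v * v))
      (mul_mem (mul_mem (sub_mem hq (mul_mem hvP (star_mem hvP))) hx)
        (sub_mem hp (mul_mem (star_mem hvP) hvP))) hx0
    have huPI : PI u := pi_of_proj huP
    have hu1 : (q - v * star v) * u = u := huq _ (by
      rw [← mul_assoc, ← mul_assoc, hq'.isIdempotentElem.eq])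
    have hu2 : u * (p - star v * v) = u := hup _ hp' (by
      rw [mul_assoc, hp'.isIdempotentElem.eq])
    have hvu : star v * u = 0 := by
      have h3 : star v * (q - v * star v) = 0 := by
        have : star v * q = star v := by
          have := congrArg star hqv
          rwa [star_mul, hqq.isSelfAdjoint.star_eq] at this
        rw [mul_sub, this, ← mul_assoc, hv.star_eq, sub_self]
      rw [← hu1, ← mul_assoc, h3, zero_mul]
    have huv : u * star v = 0 := by
      have h3 : (p - star v * v) * star v = 0 := by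
        have : p * star v = star v := by
          have := congrArg star hvp
          rwa [star_mul, hpp.isSelfAdjoint.star_eq] at this
        rw [sub_mul, this, hv.star_eq, sub_self]
      rw [← hu2, mul_assoc, h3, mul_zero]
    obtain ⟨g1, g2, g3⟩ := cm_add hv huPI hvu huv
    have hqu : q * u = u := by
      have : q * (q - v * star v) = q - v * star v := by
        rw [mul_sub, hqq.isIdempotentElem.eq, h2]
      rw [← hu1, ← mul_assoc, this]
    have hup' : u * p = u := by
      have : (p - star v * v) * p = p - star v * v := by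
        rw [sub_mul, hpp.isIdempotentElem.eq, proj_comm hpp hv.proj h1]
      rw [← hu2, mul_assoc, this]
    have := hmax (v + u) ⟨add_mem hvP hu, g1, by rw [mul_add, hqv, hqu],
      by rw [add_mul, hvp, hup']⟩ g3
    rw [g2, lm_tr_add] at this
    have h5 : 0 < tr (star u * u) := tr_proj_pos huP (fun h => hu0 (eq_zero_of_star_mul_self h))
    linarith
  refine ⟨v, hvP, ?_, ?_⟩
  · have : p - star v * v = 0 := proj_eq_zero hp' (by rw [lm_tr_sub, hkey, sub_self])
    exact (sub_eq_zero.1 this).symm
  · have : q - v * star v = 0 := proj_eq_zero hq' (by rw [lm_tr_sub, htr, hkey, hpq, sub_self])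
    exact (sub_eq_zero.1 this).symm

/-- A projection is minimal in `P`. -/
def Minl (P : StarSubalgebra ℂ A) (p : A) : Prop :=
  ∀ f ∈ P, IsStarProjection f → p * f = f → f = 0 ∨ f = p

theorem cm_min_sa {P : StarSubalgebra ℂ A} (hP : TClosed P) {p : A} (hp : p ∈ P)
    (hpp : IsStarProjection p) (hp0 : p ≠ 0) (hmin : Minl P p) {b : A} (hb : b ∈ P)
    (hsa : IsSelfAdjoint b) (hpb : p * b = b) : ∃ c : ℝ, b = c • p := by
  have hbp : b * p = b := by
    have := congrArg star hpb
    rwa [star_mul, hsa.star_eq, hpp.isSelfAdjoint.star_eq] at this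
  have hcomm : Commute b p := by rw [commute_iff_eq, hpb, hbp]
  have htp := tr_proj_pos hpp hp0
  set c : ℝ := tr b / tr p with hc
  set g1 : ℝ → ℝ := fun s => max (s - c) 0 with hg1
  set g2 : ℝ → ℝ := fun s => max (c - s) 0 with hg2
  have cont1 : Continuous g1 := by fun_prop
  have cont2 : Continuous g2 := by fun_prop
  have hc1 : Commute p (cfc g1 b) := (hsa.commute_cfc hcomm g1).symm
  have hc2 : Commute p (cfc g2 b) := (hsa.commute_cfc hcomm g2).symm
  have h12 : cfc g1 b * cfc g2 b = 0 := by
    rw [← cfc_mul g1 g2 b cont1.continuousOn cont2.continuousOn]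
    have : (fun x => g1 x * g2 x) = fun _ => (0 : ℝ) := by
      funext x
      simp only [hg1, hg2]
      rcases le_total x c with h | h
      · rw [max_eq_right (by linarith : x - c ≤ 0), zero_mul]
      · rw [max_eq_right (by linarith : c - x ≤ 0), mul_zero]
    rw [this, cfc_const_zero]
  have hdiff : p * cfc g1 b - p * cfc g2 b = b - c • p := by
    rw [← mul_sub, ← cfc_sub g1 g2 b cont1.continuousOn cont2.continuousOn]
    have : (fun x => g1 x - g2 x) = fun x => x - c := by
      funext x
      simp only [hg1, hg2]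
      rcases le_total x c with h | h
      · rw [max_eq_right (by linarith : x - c ≤ 0), max_eq_left (by linarith : (0 : ℝ) ≤ c - x)]
        ring
      · rw [max_eq_left (by linarith : 0 ≤ x - c), max_eq_right (by linarith : c - x ≤ 0)]
        ring
    rw [this, cfc_sub (fun x : ℝ => x) (fun _ => c) b continuousOn_id continuousOn_const,
      cfc_id' ℝ b, cfc_const c b, mul_sub, hpb, Algebra.algebraMap_eq_smul_one, mul_smul_comm,
      mul_one]
  -- one of the two parts vanishes
  have hor : p * cfc g1 b = 0 ∨ p * cfc g2 b = 0 := by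
    by_contra hcon
    push Not at hcon
    obtain ⟨hx0, hy0⟩ := hcon
    set x := p * cfc g1 b with hx
    set y := p * cfc g2 b with hy
    have hxP : x ∈ P := mul_mem hp (cfc_mem hP hb _)
    have hxp : x * p = x := by rw [hx, mul_assoc, ← hc1.eq, ← mul_assoc, hpp.isIdempotentElem.eq]
    have hxsa : IsSelfAdjoint x := by
      rw [IsSelfAdjoint, hx, star_mul, hpp.isSelfAdjoint.star_eq,
        (cfc_predicate g1 b : IsSelfAdjoint (cfc g1 b)).star_eq, hc1.eq]
    have hpy : p * y = y := by rw [hy, ← mul_assoc, hpp.isIdempotentElem.eq]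
    have hxy : x * y = 0 := by
      calc x * y = x * p * cfc g2 b := by rw [hy, ← mul_assoc]
        _ = p * (cfc g1 b * cfc g2 b) := by rw [hxp, hx, mul_assoc]
        _ = 0 := by rw [h12, mul_zero]
    have hyx : y * x = 0 := by
      have hysa : IsSelfAdjoint y := by
        rw [IsSelfAdjoint, hy, star_mul, hpp.isSelfAdjoint.star_eq,
          (cfc_predicate g2 b : IsSelfAdjoint (cfc g2 b)).star_eq, hc2.eq]
      have := congrArg star hxy
      rwa [star_mul, hxsa.star_eq, hysa.star_eq, star_zero] at this
    obtain ⟨b', hb'P, hb'c, hne, hproj⟩ := cm_aux hP hxP hx0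
    set u := x * b' with hu
    have hup : u * p = u := by
      have h1 : Commute (star x * x) p := by
        have h2 : star x * x * p = star x * x := by rw [mul_assoc, hxp]
        have h3 : p * (star x * x) = star x * x := by
          have := congrArg star h2
          rwa [star_mul, star_mul, star_star, hpp.isSelfAdjoint.star_eq] at this
        rw [commute_iff_eq, h2, h3]
      rw [hu, mul_assoc, (hb'c p h1).eq, ← mul_assoc, hxp]
    have huy : u * y = 0 := by
      have h1 : Commute (star x * x) y := by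
        rw [commute_iff_eq, hxsa.star_eq, mul_assoc, hxy, ← mul_assoc, hyx]; simp
      rw [hu, mul_assoc, (hb'c y h1).eq, ← mul_assoc, hxy, zero_mul]
    have hf : p * (star u * u) = star u * u := by
      have : p * star u = star u := by
        have := congrArg star hup
        rwa [star_mul, hpp.isSelfAdjoint.star_eq] at this
      rw [← mul_assoc, this]
    have huP : u ∈ P := mul_mem hxP hb'P
    rcases hmin _ (mul_mem (star_mem huP) huP) hproj hf with h | h
    · exact hne (eq_zero_of_star_mul_self h)
    · apply hy0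
      rw [← hpy, ← h, mul_assoc, huy, mul_zero]
  have hpos : ∀ g : ℝ → ℝ, Continuous g → (∀ x, 0 ≤ g x) → tr (p * cfc g b) = 0 →
      p * cfc g b = 0 := by
    intro g hg hg0 htr
    have hs : cfc g b = cfc (fun x => Real.sqrt (g x)) b * cfc (fun x => Real.sqrt (g x)) b := by
      have cs : ContinuousOn (fun x => Real.sqrt (g x)) (spectrum ℝ b) :=
        (Real.continuous_sqrt.comp hg).continuousOn
      rw [← cfc_mul _ _ b cs cs]
      refine cfc_congr fun x _ => ?_
      exact (Real.mul_self_sqrt (hg0 x)).symm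
    set s := cfc (fun x => Real.sqrt (g x)) b with hsdef
    have hssa : IsSelfAdjoint s := cfc_predicate _ b
    have hcs : Commute p s := (hsa.commute_cfc hcomm _).symm
    have e1 : p * cfc g b = star (s * p) * (s * p) := by
      rw [star_mul, hssa.star_eq, hpp.isSelfAdjoint.star_eq, hs]
      calc p * (s * s) = (p * p) * (s * s) := by rw [hpp.isIdempotentElem.eq]
        _ = p * ((p * s) * s) := by noncomm_ring
        _ = p * ((s * p) * s) := by rw [hcs.eq]
        _ = p * s * (p * s) := by noncomm_ring
        _ = p * s * (s * p) := by rw [← hcs.eq]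
    have h0 : s * p = 0 := by
      apply eq_zero_of_n2
      rw [e1, tr_star_mul_self] at htr
      exact pow_eq_zero_iff (two_ne_zero) |>.1 htr
    rw [e1, h0, mul_zero]
  have htr : tr (p * cfc g1 b) - tr (p * cfc g2 b) = 0 := by
    rw [← lm_tr_sub, hdiff, lm_tr_sub]
    have : tr (c • p) = c * tr p := by
      have e : c • p = (c : ℂ) • p := (Complex.coe_smul _ _).symm
      rw [e, tr, map_smul, smul_eq_mul, Complex.re_ofReal_mul]; rfl
    rw [this, hc]; field_simp; ring
  refine ⟨c, ?_⟩
  have hz : p * cfc g1 b = 0 ∧ p * cfc g2 b = 0 := by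
    rcases hor with h | h
    · refine ⟨h, hpos g2 cont2 (fun x => le_max_right _ _) ?_⟩
      rw [h, tr_zero] at htr; linarith
    · refine ⟨hpos g1 cont1 (fun x => le_max_right _ _) ?_, h⟩
      rw [h, tr_zero] at htr; linarith
  rw [hz.1, hz.2, sub_zero] at hdiff
  exact (sub_eq_zero.1 hdiff.symm)

theorem cm_min {P : StarSubalgebra ℂ A} (hP : TClosed P) {p : A} (hp : p ∈ P)
    (hpp : IsStarProjection p) (hp0 : p ≠ 0) (hmin : Minl P p) {a : A} (ha : a ∈ P) :
    ∃ c : ℂ, p * a * p = c • p := by
  have h1 : ∀ b ∈ P, IsSelfAdjoint b → ∃ c : ℝ, p * b * p = c • p := by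
    intro b hb hsa
    refine cm_min_sa hP hp hpp hp0 hmin (mul_mem (mul_mem hp hb) hp) ?_ ?_
    · rw [IsSelfAdjoint, star_mul, star_mul, hsa.star_eq, hpp.isSelfAdjoint.star_eq, mul_assoc]
    · rw [← mul_assoc, ← mul_assoc, hpp.isIdempotentElem.eq]
  obtain ⟨c1, hc1⟩ := h1 _ (P.smul_mem (add_mem ha (star_mem ha)) (1 / 2 : ℂ)) (cl_sa_re a)
  obtain ⟨c2, hc2⟩ := h1 _ (P.smul_mem (sub_mem ha (star_mem ha)) (-(Complex.I / 2) : ℂ))
    (cl_sa_im a)
  refine ⟨(c1 : ℂ) + Complex.I * c2, ?_⟩
  have e := cl_re_add_im a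
  rw [e, mul_add, add_mul, hc1, mul_smul_comm, smul_mul_assoc, hc2, add_smul, mul_smul]
  simp only [Complex.coe_smul]

theorem cm_no_min {P : StarSubalgebra ℂ A} (hP : IsFac P) {p : A} (hp : p ∈ P)
    (hpp : IsStarProjection p) (hp0 : p ≠ 0) : ¬ Minl P p := by
  intro hmin
  have htp := tr_proj_pos hpp hp0
  -- families of partial isometries
  let Fam : ℕ → (ℕ → A) → Prop := fun n u =>
    (∀ i, i < n → u i ∈ P) ∧ ∀ i, i < n → ∀ j, j < n → star (u i) * u j = if i = j then p else 0
  have hPI : ∀ n u, Fam n u → ∀ i, i < n → PI (u i) := by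
    intro n u hu i hi
    apply pi_of_proj
    rw [hu.2 i hi i hi, if_pos rfl]; exact hpp
  have hup : ∀ n u, Fam n u → ∀ i, i < n → u i * p = u i := by
    intro n u hu i hi
    have := hPI n u hu i hi
    rw [PI, hu.2 i hi i hi, if_pos rfl] at this
    exact this
  have hzu : ∀ n u, Fam n u → ∀ j, j < n →
      (∑ i ∈ Finset.range n, u i * star (u i)) * u j = u j := by
    intro n u hu j hj
    rw [Finset.sum_mul, Finset.sum_eq_single j]
    · rw [mul_assoc, hu.2 j hj j hj, if_pos rfl, hup n u hu j hj]
    · intro i hi hij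
      rw [mul_assoc, hu.2 i (Finset.mem_range.1 hi) j hj, if_neg hij, mul_zero]
    · intro h; exact absurd (Finset.mem_range.2 hj) h
  have hsumP : ∀ n u, Fam n u → ∑ i ∈ Finset.range n, u i * star (u i) ∈ P := fun n u hu =>
    sum_mem fun i hi => mul_mem (hu.1 i (Finset.mem_range.1 hi))
      (star_mem (hu.1 i (Finset.mem_range.1 hi)))
  have hproj : ∀ n u, Fam n u → IsStarProjection (∑ i ∈ Finset.range n, u i * star (u i)) := by
    intro n u hu
    constructor
    · rw [IsIdempotentElem]
      nth_rewrite 2 [← Finset.sum_congr rfl (fun i _ => rfl)]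
      rw [Finset.mul_sum]
      refine Finset.sum_congr rfl fun j hj => ?_
      rw [← mul_assoc, hzu n u hu j (Finset.mem_range.1 hj)]
    · rw [IsSelfAdjoint, star_sum]
      refine Finset.sum_congr rfl fun j hj => ?_
      rw [star_mul, star_star]
  have htr : ∀ n u, Fam n u → tr (∑ i ∈ Finset.range n, u i * star (u i)) = n * tr p := by
    intro n u hu
    have : tr (∑ i ∈ Finset.range n, u i * star (u i)) =
        ∑ i ∈ Finset.range n, tr (u i * star (u i)) := by
      simp [tr, map_sum]
    rw [this, Finset.sum_congr rfl (fun i hi => by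
      rw [tr_comm, hu.2 i (Finset.mem_range.1 hi) i (Finset.mem_range.1 hi), if_pos rfl]),
      Finset.sum_const, Finset.card_range, nsmul_eq_mul]
  have hex : ∃ n u, Fam n u ∧ ∑ i ∈ Finset.range n, u i * star (u i) = 1 := by
    by_contra hcon
    push Not at hcon
    have hall : ∀ n, ∃ u, Fam n u := by
      intro n
      induction n with
      | zero => exact ⟨fun _ => 0, fun i hi => absurd hi (Nat.not_lt_zero _),
          fun i hi => absurd hi (Nat.not_lt_zero _)⟩
      | succ n ih =>
        obtain ⟨u, hu⟩ := ih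
        set z : A := 1 - ∑ i ∈ Finset.range n, u i * star (u i) with hz
        have hz0 : z ≠ 0 := fun h => hcon n u hu (sub_eq_zero.1 h).symm
        have hzP : z ∈ P := sub_mem (one_mem _) (hsumP n u hu)
        have hzp : IsStarProjection z := (hproj n u hu).one_sub
        obtain ⟨x, hx, hx0⟩ := exists_connect hP hp hzP hpp hzp hp0 hz0
        obtain ⟨v, hv, hv0, hvp, -, hvz, hvr⟩ := exists_partial_isometry_of_ne_zero hP.closedP
          (x := z * x * p) (mul_mem (mul_mem hzP hx) hp) hx0
        have hzv : z * v = v := hvz z (by rw [← mul_assoc, ← mul_assoc, hzp.isIdempotentElem.eq])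
        have hvp' : v * p = v := hvr p hpp (by rw [mul_assoc, hpp.isIdempotentElem.eq])
        have hvv : star v * v = p := by
          rcases hmin _ (mul_mem (star_mem hv) hv) hvp (by
            have : p * star v = star v := by
              have := congrArg star hvp'
              rwa [star_mul, hpp.isSelfAdjoint.star_eq] at this
            rw [← mul_assoc, this]) with h | h
          · exact absurd (eq_zero_of_star_mul_self h) hv0
          · exact h
        have huv : ∀ i, i < n → star (u i) * v = 0 := by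
          intro i hi
          have h1 : z * u i = 0 := by rw [hz, sub_mul, one_mul, hzu n u hu i hi, sub_self]
          have h2 : star (u i) * z = 0 := by
            have := congrArg star h1
            rwa [star_mul, hzp.isSelfAdjoint.star_eq, star_zero] at this
          rw [← hzv, ← mul_assoc, h2, zero_mul]
        have hvu : ∀ i, i < n → star v * u i = 0 := by
          intro i hi
          have := congrArg star (huv i hi)
          rwa [star_mul, star_star, star_zero] at this
        refine ⟨Function.update u n v, fun i hi => ?_, fun i hi j hj => ?_⟩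
        · rcases Nat.lt_succ_iff_lt_or_eq.1 hi with h | rfl
          · rw [Function.update_of_ne h.ne]; exact hu.1 i h
          · rw [Function.update_self]; exact hv
        · rcases Nat.lt_succ_iff_lt_or_eq.1 hi with h | rfl <;>
          rcases Nat.lt_succ_iff_lt_or_eq.1 hj with h' | rfl
          · rw [Function.update_of_ne h.ne, Function.update_of_ne h'.ne]; exact hu.2 i h j h'
          · rw [Function.update_of_ne h.ne, Function.update_self, if_neg h.ne]; exact huv i h
          · rw [Function.update_of_ne h'.ne, Function.update_self, if_neg h'.ne']; exact hvu j h'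
          · rw [Function.update_self, if_pos rfl]; exact hvv
    obtain ⟨n, hn⟩ := exists_nat_gt (1 / tr p)
    obtain ⟨u, hu⟩ := hall n
    have h1 := tr_proj_le_one (hproj n u hu)
    rw [htr n u hu] at h1
    rw [div_lt_iff₀ htp] at hn
    linarith
  obtain ⟨n, u, hu, hsum⟩ := hex
  apply hP.inf
  let T : Set A := Set.range (fun ij : Fin n × Fin n => u ij.1 * star (u ij.2))
  have hT : T.Finite := Set.finite_range _
  have hle : P.toSubalgebra.toSubmodule ≤ Submodule.span ℂ T := by
    intro x hx
    have hxP : x ∈ P := hx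
    have e1 : x = ∑ i ∈ Finset.range n, ∑ j ∈ Finset.range n,
        u i * (star (u i) * x * u j) * star (u j) := by
      calc x = (∑ i ∈ Finset.range n, u i * star (u i)) * x *
            (∑ j ∈ Finset.range n, u j * star (u j)) := by rw [hsum, one_mul, mul_one]
        _ = _ := by
          rw [Finset.sum_mul, Finset.sum_mul]
          refine Finset.sum_congr rfl fun i _ => ?_
          rw [Finset.mul_sum]
          refine Finset.sum_congr rfl fun j _ => ?_
          noncomm_ring
    rw [e1]
    refine sum_mem fun i hi => sum_mem fun j hj => ?_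
    rw [Finset.mem_range] at hi hj
    have hpi : p * star (u i) = star (u i) := by
      have := congrArg star (hup n u hu i hi)
      rwa [star_mul, hpp.isSelfAdjoint.star_eq] at this
    obtain ⟨c, hc⟩ := cm_min hP.closedP hp hpp hp0 hmin
      (mul_mem (mul_mem (star_mem (hu.1 i hi)) hxP) (hu.1 j hj))
    have e2 : star (u i) * x * u j = c • p := by
      rw [← hc]
      calc star (u i) * x * u j = (p * star (u i)) * x * (u j * p) := by
            rw [hpi, hup n u hu j hj]
        _ = _ := by noncomm_ring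
    rw [e2, mul_smul_comm, hup n u hu i hi, smul_mul_assoc]
    exact Submodule.smul_mem _ _ (Submodule.subset_span ⟨(⟨i, hi⟩, ⟨j, hj⟩), rfl⟩)
  haveI : FiniteDimensional ℂ (Submodule.span ℂ T) := FiniteDimensional.span_of_finite ℂ hT
  exact Submodule.finiteDimensional_of_le hle

theorem cm_half {P : StarSubalgebra ℂ A} (hP : IsFac P) {p : A} (hp : p ∈ P)
    (hpp : IsStarProjection p) (hp0 : p ≠ 0) :
    ∃ q ∈ P, IsStarProjection q ∧ q ≠ 0 ∧ p * q = q ∧ tr q ≤ tr p / 2 := by
  have h := cm_no_min hP hp hpp hp0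
  simp only [Minl] at h
  push Not at h
  obtain ⟨f, hf, hfp, hpf, hf0, hfp'⟩ := h
  have h1 := proj_sub hpp hfp hpf
  rcases le_total (tr f) (tr p / 2) with h2 | h2
  · exact ⟨f, hf, hfp, hf0, hpf, h2⟩
  · refine ⟨p - f, sub_mem hp hf, h1, fun h => hfp' (sub_eq_zero.1 h).symm, ?_, ?_⟩
    · rw [mul_sub, hpp.isIdempotentElem.eq, hpf]
    · rw [lm_tr_sub]; linarith

theorem cm_small {P : StarSubalgebra ℂ A} (hP : IsFac P) {p : A} (hp : p ∈ P)
    (hpp : IsStarProjection p) (hp0 : p ≠ 0) {ε : ℝ} (hε : 0 < ε) :
    ∃ q ∈ P, IsStarProjection q ∧ q ≠ 0 ∧ p * q = q ∧ tr q < ε := by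
  have h1 : ∀ n : ℕ, ∃ q ∈ P, IsStarProjection q ∧ q ≠ 0 ∧ p * q = q ∧
      tr q ≤ tr p * (1 / 2) ^ n := by
    intro n
    induction n with
    | zero => exact ⟨p, hp, hpp, hp0, hpp.isIdempotentElem.eq, by simp⟩
    | succ n ih =>
      obtain ⟨q, hq, hqp, hq0, hpq, ht⟩ := ih
      obtain ⟨r, hr, hrp, hr0, hqr, ht'⟩ := cm_half hP hq hqp hq0
      refine ⟨r, hr, hrp, hr0, ?_, ?_⟩
      · rw [← hqr, ← mul_assoc, hpq]
      · rw [pow_succ]; linarith
  obtain ⟨n, hn⟩ := exists_pow_lt_of_lt_one hε (by norm_num : (1 / 2 : ℝ) < 1)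
  obtain ⟨q, hq, hqp, hq0, hpq, ht⟩ := h1 n
  refine ⟨q, hq, hqp, hq0, hpq, lt_of_le_of_lt ht (lt_of_le_of_lt ?_ hn)⟩
  have h2 := tr_proj_le_one hpp
  have h3 : (0 : ℝ) ≤ (1 / 2) ^ n := by positivity
  nlinarith

/-- Diffuseness: subprojections of any trace. (First: no minimal projections because `P` is
infinite dimensional; then arbitrarily small nonzero subprojections; then a greedy sum.) -/
theorem exists_subproj {P : StarSubalgebra ℂ A} (hP : IsFac P) {p : A} (hp : p ∈ P)
    (hpp : IsStarProjection p) (t : ℝ) (h0 : 0 ≤ t) (ht : t ≤ tr p) :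
    ∃ q ∈ P, IsStarProjection q ∧ p * q = q ∧ tr q = t := by
  obtain ⟨q, ⟨hqP, hq, hpq, hqt⟩, -, hmax⟩ := exhaust
    (X := fun q => q ∈ P ∧ IsStarProjection q ∧ p * q = q ∧ tr q ≤ t)
    (fun v h => PI.of_proj h.2.1) (fun f g h _ hfg hg => by
      have h1 : IsStarProjection g := by
        have e1 : star g = g := hfg.star.unique (hfg.congr'
          (Eventually.of_forall fun n => (h n).2.1.isSelfAdjoint.star_eq.symm))
        have := hg.proj
        rw [e1] at this
        have e2 : g * g = g := by
          have h2 : TL (fun n => f n * f n) (g * g) := hfg.mul hfg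
            (fun n => proj_norm_le (h n).2.1)
          exact h2.unique (hfg.congr'
            (Eventually.of_forall fun n => (h n).2.1.isIdempotentElem.eq.symm))
        exact ⟨e2, e1⟩
      refine ⟨hP.closedP f g 1 (fun n => (h n).1) (fun n => proj_norm_le (h n).2.1) hfg, h1, ?_, ?_⟩
      · exact (hfg.const_mul p).unique (hfg.congr'
          (Eventually.of_forall fun n => (h n).2.2.1.symm))
      · exact le_of_tendsto' hfg.tr (fun n => (h n).2.2.2))
    (v0 := 0) ⟨zero_mem _, proj_zero, mul_zero _, by rw [tr_zero]; exact h0⟩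
  refine ⟨q, hqP, hq, hpq, ?_⟩
  by_contra hne
  have hlt : tr q < t := lt_of_le_of_ne hqt hne
  have hpq' := proj_sub hpp hq hpq
  have hne0 : p - q ≠ 0 := by
    intro h
    have := congrArg tr h
    rw [lm_tr_sub, tr_zero] at this; linarith
  obtain ⟨r, hr, hrp, hr0, hpr, htr⟩ := cm_small hP (sub_mem hp hqP) hpq' hne0
    (sub_pos.2 hlt)
  have hqr : q * r = 0 := by
    rw [← hpr, ← mul_assoc, mul_sub, proj_comm hpp hq hpq, hq.isIdempotentElem.eq, sub_self,
      zero_mul]
  have hpr' : p * r = r := by
    rw [← hpr, ← mul_assoc, mul_sub, hpp.isIdempotentElem.eq, hpq]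
  have hqr' := proj_add hq hrp hqr
  have hsq : ∀ {s : A}, IsStarProjection s → star s * s = s := fun hs => by
    rw [hs.isSelfAdjoint.star_eq, hs.isIdempotentElem.eq]
  have hext : Ext q (q + r) := by
    have hrq : r * q = 0 := by
      have := congrArg star hqr
      rwa [star_mul, hq.isSelfAdjoint.star_eq, hrp.isSelfAdjoint.star_eq, star_zero] at this
    constructor
    · rw [hsq hq, add_mul, hrq, hq.isIdempotentElem.eq, add_zero]
    · rw [hq.isSelfAdjoint.star_eq, hq.isIdempotentElem.eq, mul_add, hqr,
        hq.isIdempotentElem.eq, add_zero]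
  have := hmax (q + r) ⟨add_mem hqP hr, hqr', by rw [mul_add, hpq, hpr'],
    by rw [lm_tr_add]; linarith⟩ hext
  rw [hsq hqr', hsq hq, lm_tr_add] at this
  have := tr_proj_pos hrp hr0
  linarith

/-- Equal partition of a projection into `n` pieces. -/
theorem exists_partition {P : StarSubalgebra ℂ A} (hP : IsFac P) {p : A} (hp : p ∈ P)
    (hpp : IsStarProjection p) (n : ℕ) (hn : 0 < n) :
    ∃ q : Fin n → A, (∀ i, q i ∈ P) ∧ (∀ i, IsStarProjection (q i)) ∧
      (∀ i j, i ≠ j → q i * q j = 0) ∧ ∑ i, q i = p ∧ ∀ i, tr (q i) = tr p / n := by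
  obtain ⟨m, rfl⟩ : ∃ m, n = m + 1 := ⟨n - 1, by omega⟩
  clear hn
  induction m generalizing p with
  | zero =>
    refine ⟨fun _ => p, fun _ => hp, fun _ => hpp, fun i j hij => ?_, by simp, by simp⟩
    exact absurd (Fin.ext (by omega)) hij
  | succ m ih =>
    have htp := lm_tr_proj_nonneg hpp
    obtain ⟨q0, hq0, hq0p, hpq0, ht0⟩ := exists_subproj hP hp hpp (tr p / (m + 1 + 1 : ℕ))
      (by positivity) (by
        apply div_le_self htp
        push_cast
        linarith [(Nat.cast_nonneg m : (0 : ℝ) ≤ m)])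
    have hp' := proj_sub hpp hq0p hpq0
    obtain ⟨q, hq, hqp, horth, hsum, htr⟩ := ih (sub_mem hp hq0) hp'
    have hle : ∀ i, (p - q0) * q i = q i := by
      intro i
      rw [← hsum, Finset.sum_mul, Finset.sum_eq_single i]
      · exact (hqp i).isIdempotentElem.eq
      · intro j _ hji; exact horth j i hji
      · intro h; exact absurd (Finset.mem_univ i) h
    have h0 : ∀ i, q0 * q i = 0 := by
      intro i
      rw [← hle i, ← mul_assoc, mul_sub, proj_comm hpp hq0p hpq0, hq0p.isIdempotentElem.eq,
        sub_self, zero_mul]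
    have h0' : ∀ i, q i * q0 = 0 := by
      intro i
      have := congrArg star (h0 i)
      rwa [star_mul, hq0p.isSelfAdjoint.star_eq, (hqp i).isSelfAdjoint.star_eq, star_zero] at this
    refine ⟨Fin.cons q0 q, ?_, ?_, ?_, ?_, ?_⟩
    · intro i; refine Fin.cases ?_ (fun i => ?_) i
      · exact hq0
      · exact hq i
    · intro i; refine Fin.cases ?_ (fun i => ?_) i
      · exact hq0p
      · exact hqp i
    · intro i j
      refine Fin.cases ?_ (fun i => ?_) i <;> refine Fin.cases ?_ (fun j => ?_) j
      · intro h; exact absurd rfl h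
      · intro _; simpa using h0 j
      · intro _; simpa using h0' i
      · intro h
        simp only [Fin.cons_succ]
        exact horth i j (fun hij => h (by rw [hij]))
    · rw [Fin.sum_univ_succ]
      simp only [Fin.cons_zero, Fin.cons_succ]
      rw [hsum]; abel
    · intro i; refine Fin.cases ?_ (fun i => ?_) i
      · simpa using ht0
      · simp only [Fin.cons_succ]
        rw [htr i, lm_tr_sub, ht0]
        push_cast
        have : (m : ℝ) + 1 ≠ 0 := by positivity
        have : (m : ℝ) + 1 + 1 ≠ 0 := by positivity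
        field_simp
        ring

end Crest.Agent.GenII1
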