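import Crest.Agent.GenII1.PatchB

/-! Popa's incremental patching: approximately free unitaries in an irreducible subfactor. -/

set_option autoImplicit false
set_option linter.unusedSectionVars false

namespace Crest.Agent.GenII1

open Filter Topology

/-- an ordering principle (Brezis–Browder) -/
theorem ordering_principle {X : Type*} (le : X → X → Prop) (hrefl : ∀ v, le v v)
    (htrans : ∀ u v w, le u v → le v w → le u w) (x : X → ℝ) (hpos : ∀ v, 0 ≤ x v)
    (hanti : ∀ v v', le v v' → x v' ≤ x v)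
    (hseq : ∀ u : ℕ → X, (∀ n, le (u n) (u (n + 1))) → ∃ g, ∀ n, le (u n) g) (v0 : X) :
    ∃ g, le v0 g ∧ ∀ v', le g v' → x v' = x g := by
  have hstep : ∀ v, ∃ v', le v v' ∧ ∀ v'', le v v'' → x v' ≤ (x v + x v'') / 2 := by
    intro v
    set E : Set ℝ := {r | ∃ v', le v v' ∧ r = x v'} with hE
    have hEne : E.Nonempty := ⟨x v, v, hrefl v, rfl⟩
    have hEbd : BddBelow E := ⟨0, by rintro r ⟨v', _, rfl⟩; exact hpos v'⟩
    have hI : ∀ v'', le v v'' → sInf E ≤ x v'' := fun v'' hv'' => csInf_le hEbd ⟨v'', hv'', rfl⟩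
    rcases (hI v (hrefl v)).eq_or_lt with heq | hlt
    · refine ⟨v, hrefl v, fun v'' hv'' => ?_⟩
      have := hI v'' hv''
      linarith
    · obtain ⟨r, ⟨v', hv', rfl⟩, hr⟩ := exists_lt_of_csInf_lt hEne
        (show sInf E < (x v + sInf E) / 2 by linarith)
      refine ⟨v', hv', fun v'' hv'' => ?_⟩
      have := hI v'' hv''
      linarith
  choose f hf1 hf2 using hstep
  set u : ℕ → X := fun n => f^[n] v0 with hu
  have hu1 : ∀ n, u (n + 1) = f (u n) := fun n => Function.iterate_succ_apply' f n v0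
  have hule : ∀ n, le (u n) (u (n + 1)) := fun n => by rw [hu1]; exact hf1 _
  obtain ⟨g, hg⟩ := hseq u hule
  refine ⟨g, hg 0, fun v' hv' => ?_⟩
  have hle : ∀ n, le (u n) v' := fun n => htrans _ _ _ (hg n) hv'
  have hdec : ∀ n, x (u n) - x v' ≤ (x (u 0) - x v') * (1 / 2) ^ n := by
    intro n
    induction n with
    | zero => simp
    | succ n ih =>
      have h1 := hf2 (u n) v' (hle n)
      rw [← hu1] at h1
      rw [pow_succ]
      linarith
  have hlim : Tendsto (fun n : ℕ => (x (u 0) - x v') * (1 / 2 : ℝ) ^ n) atTop (𝓝 0) := by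
    have := (tendsto_pow_atTop_nhds_zero_of_lt_one (r := (1 / 2 : ℝ)) (by norm_num)
      (by norm_num)).const_mul (x (u 0) - x v')
    simpa using this
  have h2 : x g - x v' ≤ 0 := by
    refine ge_of_tendsto hlim (Eventually.of_forall fun n => ?_)
    have h3 := hanti _ _ (hg n)
    exact (sub_le_sub_right h3 _).trans (hdec n)
  have h3 := hanti _ _ hv'
  linarith

variable {A : Type*} [CStarAlgebra A] [FinVN A]

/-- 2-norm convergence -/
def T2 (f : ℕ → A) (a : A) : Prop := Tendsto (fun n => n2 (f n - a)) atTop (𝓝 0)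

theorem T2.congrf {f g : ℕ → A} {a : A} (hf : T2 f a) (h : ∀ n, f n = g n) : T2 g a := by
  have : f = g := funext h
  rwa [← this]

theorem T2.mul {f g : ℕ → A} {a b : A} {C : ℝ} (hC : ∀ n, ‖f n‖ ≤ C) (hf : T2 f a)
    (hg : T2 g b) : T2 (fun n => f n * g n) (a * b) := by
  have h1 : Tendsto (fun n => C * n2 (g n - b) + n2 (f n - a) * ‖b‖) atTop (𝓝 0) := by
    have := (Tendsto.const_mul C hg).add (Tendsto.mul_const ‖b‖ hf)
    simpa using this
  refine squeeze_zero (fun n => n2_nonneg _) (fun n => ?_) h1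
  have h2 : f n * g n - a * b = f n * (g n - b) + (f n - a) * b := by noncomm_ring
  rw [h2]
  refine (n2_add_le _ _).trans (add_le_add ?_ (n2_mul_le_right _ _))
  exact (n2_mul_le_left _ _).trans (mul_le_mul_of_nonneg_right (hC n) (n2_nonneg _))

theorem T2.star {f : ℕ → A} {a : A} (hf : T2 f a) : T2 (fun n => star (f n)) (star a) := by
  refine hf.congr (fun n => ?_)
  rw [← star_sub, n2_star]

theorem T2.const (a : A) : T2 (fun _ => a) a := by
  unfold T2
  simp

theorem T2.unique {f : ℕ → A} {a b : A} (ha : T2 f a) (hb : T2 f b) : a = b := by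
  have h1 : Tendsto (fun n => n2 (f n - a) + n2 (f n - b)) atTop (𝓝 0) := by
    have := Tendsto.add ha hb
    simpa using this
  have h2 : n2 (a - b) ≤ 0 := by
    refine ge_of_tendsto h1 (Eventually.of_forall fun n => ?_)
    have := n2_triangle a (f n) b
    rwa [n2_sub_comm a (f n)] at this
  have h3 : n2 (a - b) = 0 := le_antisymm h2 (n2_nonneg _)
  exact sub_eq_zero.1 (eq_zero_of_n2 h3)

theorem T2.tendsto_τ {f : ℕ → A} {a : A} (hf : T2 f a) :
    Tendsto (fun n => τ (f n)) atTop (𝓝 (τ a)) := by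
  rw [tendsto_iff_norm_sub_tendsto_zero]
  refine squeeze_zero (fun n => norm_nonneg _) (fun n => ?_) hf
  rw [← map_sub]
  exact norm_τ_le_n2 _

theorem T2.tendsto_tr {f : ℕ → A} {a : A} (hf : T2 f a) :
    Tendsto (fun n => tr (f n)) atTop (𝓝 (tr a)) :=
  (Complex.continuous_re.tendsto _).comp hf.tendsto_τ

theorem T2.sub {f g : ℕ → A} {a b : A} (hf : T2 f a) (hg : T2 g b) :
    T2 (fun n => f n - g n) (a - b) := by
  have h1 : Tendsto (fun n => n2 (f n - a) + n2 (g n - b)) atTop (𝓝 0) := by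
    have := Tendsto.add hf hg
    simpa using this
  refine squeeze_zero (fun n => n2_nonneg _) (fun n => ?_) h1
  have h2 : f n - g n - (a - b) = (f n - a) - (g n - b) := by abel
  rw [h2]
  exact n2_sub_le _ _

theorem T2.pw {f : ℕ → A} {a : A} (hf : T2 f a) (b : Bool) : T2 (fun n => pw (f n) b) (pw a b) := by
  cases b
  · exact hf.star
  · exact hf

theorem T2.rs {f : ℕ → A} {a : A} (hf : T2 f a) (hf1 : ∀ n, ‖f n‖ ≤ 1) (L : List (Bool × A)) :
    T2 (fun n => rs (f n) L) (rs a L) := by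
  induction L with
  | nil => exact T2.const _
  | cons x L ih =>
    obtain ⟨b, t⟩ := x
    simp only [rs_cons]
    refine T2.mul (C := 1 * ‖t‖) (fun n => ?_) ?_ ih
    · refine (norm_mul_le _ _).trans ?_
      rw [norm_pw]
      exact mul_le_mul_of_nonneg_right (hf1 n) (norm_nonneg _)
    · exact T2.mul (C := 1) (fun n => by rw [norm_pw]; exact hf1 n) (hf.pw b) (T2.const t)

theorem T2.wd {f : ℕ → A} {a : A} (hf : T2 f a) (hf1 : ∀ n, ‖f n‖ ≤ 1) (s : A)
    (L : List (Bool × A)) : T2 (fun n => wd (f n) s L) (wd a s L) := by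
  simp only [wd_eq_rs]
  exact T2.mul (C := ‖s‖) (fun _ => le_rfl) (T2.const s) (hf.rs hf1 L)

/-- extension order of partial unitaries -/
def PLe (v v' : A) : Prop := v' * (star v * v) = v ∧ (star v * v) * v' = v

theorem PLe.refl {v : A} (hv : PU v (star v * v)) : PLe v v := ⟨hv.mul_q, hv.q_mul⟩

/-- `star v' * v = star v * v` -/
theorem PLe.starmul {v v' : A} (hv : PU v (star v * v)) (h : PLe v v') :
    star v' * v = star v * v := by
  have h1 : star v * v' = star v * v := by
    have h2 : star v * (star v * v) = star v := hv.star.mul_q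
    calc star v * v' = star v * (star v * v) * v' := by rw [h2]
      _ = star v * ((star v * v) * v') := by noncomm_ring
      _ = star v * v := by rw [h.2]
  have h3 := congrArg Star.star h1
  rwa [star_mul, star_star, star_mul, star_star] at h3

theorem PLe.mul_proj {v v' : A} (hv : PU v (star v * v)) (h : PLe v v') :
    (star v' * v') * (star v * v) = star v * v := by
  rw [mul_assoc, h.1, h.starmul hv]

theorem PLe.trans {u v w : A} (hu : PU u (star u * u)) (hv : PU v (star v * v)) (h1 : PLe u v)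
    (h2 : PLe v w) : PLe u w := by
  have e1 := h1.mul_proj hu
  have e2 : (star u * u) * (star v * v) = star u * u := by
    have h3 := congrArg Star.star e1
    rwa [star_mul, hu.hq.isSelfAdjoint.star_eq, hv.hq.isSelfAdjoint.star_eq] at h3
  constructor
  · calc w * (star u * u) = w * ((star v * v) * (star u * u)) := by rw [e1]
      _ = (w * (star v * v)) * (star u * u) := by noncomm_ring
      _ = u := by rw [h2.1, h1.1]
  · calc (star u * u) * w = ((star u * u) * (star v * v)) * w := by rw [e2]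
      _ = (star u * u) * ((star v * v) * w) := by noncomm_ring
      _ = u := by rw [h2.2, h1.2]

theorem PLe.n2_sq_sub {v v' : A} (hv : PU v (star v * v)) (hv' : PU v' (star v' * v'))
    (h : PLe v v') : n2 (v' - v) ^ 2 = tr (star v' * v') - tr (star v * v) := by
  have e1 := h.starmul hv
  have e2 : star v * v' = star v * v := by
    have h3 := congrArg Star.star e1
    rwa [star_mul, star_star, star_mul, star_star] at h3
  rw [n2_sq, star_sub, sub_mul, mul_sub, mul_sub, e1, e2, sub_self, sub_zero, map_sub,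
    Complex.sub_re]
  rfl

theorem tr_one : tr (1 : A) = 1 := by
  rw [tr, τ_one, Complex.one_re]

theorem tr_sub (a b : A) : tr (a - b) = tr a - tr b := by
  rw [tr, map_sub, Complex.sub_re]; rfl

theorem tr_add (a b : A) : tr (a + b) = tr a + tr b := by
  rw [tr, map_add, Complex.add_re]; rfl

theorem PLe.tr_le {v v' : A} (hv : PU v (star v * v)) (hv' : PU v' (star v' * v'))
    (h : PLe v v') : tr (1 - star v' * v') ≤ tr (1 - star v * v) := by
  have h1 := h.n2_sq_sub hv hv'
  rw [tr_sub, tr_sub]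
  nlinarith [sq_nonneg (n2 (v' - v))]

/-- the states of the patching process -/
structure PState (P : StarSubalgebra ℂ A) (S : Set A) (m : ℕ) (x0 : ℝ) (Bf : ℝ → ℝ) (v : A) :
    Prop where
  mem : v ∈ P
  pu : PU v (star v * v)
  lb : x0 ≤ tr (1 - star v * v)
  lam : LamLe S v m (Bf (tr (1 - star v * v)))

theorem tr_compl_le_one {v : A} (hv : PU v (star v * v)) : tr (1 - star v * v) ≤ 1 := by
  rw [tr_sub, tr_one]
  have := tr_proj_nonneg hv.hq
  linarith

/-- limits of increasing sequences of states -/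
theorem PState.limit {P : StarSubalgebra ℂ A} (hP : TClosed P) {S : Set A} {m : ℕ} {x0 : ℝ}
    {Bf : ℝ → ℝ} (hBf : ContinuousOn Bf (Set.Ici x0)) (u : ℕ → A)
    (hu : ∀ n, PState P S m x0 Bf (u n)) (hle : ∀ n, PLe (u n) (u (n + 1))) :
    ∃ g, PState P S m x0 Bf g ∧ ∀ n, PLe (u n) g := by
  have hmono : ∀ n k, PLe (u n) (u (n + k)) := by
    intro n k
    induction k with
    | zero => exact PLe.refl (hu n).pu
    | succ k ih => exact PLe.trans (hu n).pu (hu (n + k)).pu ih (hle (n + k))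
  have hmono' : ∀ n m, n ≤ m → PLe (u n) (u m) := by
    intro n m hnm
    obtain ⟨k, rfl⟩ := Nat.exists_eq_add_of_le hnm
    exact hmono n k
  set x : ℕ → ℝ := fun n => tr (1 - star (u n) * u n) with hx
  have hxanti : Antitone x := by
    intro n m hnm
    exact (hmono' n m hnm).tr_le (hu n).pu (hu m).pu
  have hxbd : BddBelow (Set.range x) := by
    refine ⟨0, ?_⟩
    rintro r ⟨n, rfl⟩
    exact tr_proj_nonneg (hu n).pu.hq.one_sub
  have hxlim : Tendsto x atTop (𝓝 (⨅ n, x n)) := tendsto_atTop_ciInf hxanti hxbd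
  have hxge : ∀ n, ⨅ n, x n ≤ x n := fun n => ciInf_le hxbd n
  have hdist : ∀ n m, n ≤ m → n2 (u m - u n) ^ 2 = x n - x m := by
    intro n m hnm
    rw [(hmono' n m hnm).n2_sq_sub (hu n).pu (hu m).pu, hx]
    simp only
    rw [tr_sub, tr_sub]
    ring
  obtain ⟨g, hg1, hg⟩ := exists_lim u 1 (fun n => (hu n).pu.norm_le) (by
    intro ε hε
    have h1 := (Metric.tendsto_atTop.1 hxlim) (ε ^ 2) (by positivity)
    obtain ⟨N, hN⟩ := h1
    have key : ∀ n m, N ≤ n → n ≤ m → n2 (u m - u n) < ε := by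
      intro n m hn hnm
      have h2 := hN n hn
      rw [Real.dist_eq] at h2
      have h3 := abs_lt.1 h2
      have h4 := hdist n m hnm
      have h5 := hxge m
      have h6 : n2 (u m - u n) ^ 2 < ε ^ 2 := by
        rw [h4]; linarith [h3.2]
      exact (sq_lt_sq₀ (n2_nonneg _) hε.le).1 h6
    refine ⟨N, fun m hm n hn => ?_⟩
    rcases le_total n m with h | h
    · exact key n m hn h
    · rw [n2_sub_comm]
      exact key m n hm h)
  have hgT : T2 u g := hg
  have hu1 : ∀ n, ‖u n‖ ≤ 1 := fun n => (hu n).pu.norm_le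
  have hsu1 : ∀ n, ‖star (u n)‖ ≤ 1 := fun n => by rw [norm_star]; exact hu1 n
  have hpT : T2 (fun n => star (u n) * u n) (star g * g) := T2.mul hsu1 hgT.star hgT
  have hpT' : T2 (fun n => star (u n) * u n) (g * star g) := by
    have h1 : T2 (fun n => u n * star (u n)) (g * star g) := T2.mul hu1 hgT hgT.star
    exact h1.congrf (fun n => (hu n).pu.r)
  have hpn : ∀ n, ‖star (u n) * u n‖ ≤ 1 := fun n => (hu n).pu.hq.norm_le
  have hidem : (star g * g) * (star g * g) = star g * g := by
    have h1 := T2.mul hpn hpT hpT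
    exact T2.unique h1 (hpT.congrf fun n => ((hu n).pu.hq.isIdempotentElem.eq).symm)
  have hcomm : g * star g = star g * g := T2.unique hpT' hpT
  have hgpu : PU g (star g * g) := by
    refine ⟨⟨hidem, ?_⟩, rfl, hcomm⟩
    change star (star g * g) = star g * g
    rw [star_mul, star_star]
  have hxg : Tendsto x atTop (𝓝 (tr (1 - star g * g))) := (T2.sub (T2.const 1) hpT).tendsto_tr
  have hlb : x0 ≤ tr (1 - star g * g) :=
    ge_of_tendsto hxg (Eventually.of_forall fun n => (hu n).lb)
  refine ⟨g, ⟨?_, hgpu, hlb, ?_⟩, ?_⟩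
  · exact hP u g 1 (fun n => (hu n).mem) hu1 hg
  · intro s hs L hL hlen hLS hRd
    have h1 : Tendsto (fun n => ‖τ (wd (u n) s L)‖) atTop (𝓝 ‖τ (wd g s L)‖) :=
      ((hgT.wd hu1 s L).tendsto_τ).norm
    have h2 : Tendsto (fun n => Bf (x n)) atTop (𝓝 (Bf (tr (1 - star g * g)))) := by
      have h3 := hBf (tr (1 - star g * g)) hlb
      refine h3.tendsto.comp ?_
      rw [tendsto_nhdsWithin_iff]
      exact ⟨hxg, Eventually.of_forall fun n => (hu n).lb⟩
    exact le_of_tendsto_of_tendsto' h1 h2 (fun n => (hu n).lam s hs L hL hlen hLS hRd)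
  · intro n
    have hconst : ∀ k, u (n + k) * (star (u n) * u n) = u n ∧
        (star (u n) * u n) * u (n + k) = u n := fun k => hmono n k
    have hshift : T2 (fun k => u (n + k)) g := by
      have h1 : Tendsto (fun k : ℕ => n + k) atTop atTop := tendsto_add_atTop_nat n |>.congr
        (fun k => by rw [add_comm])
      exact (show Tendsto (fun n => n2 (u n - g)) atTop (𝓝 0) from hg).comp h1
    constructor
    · have h1 := T2.mul (fun k => hu1 (n + k)) hshift (T2.const (star (u n) * u n))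
      have h2 : T2 (fun k => u (n + k) * (star (u n) * u n)) (u n) :=
        (T2.const (u n)).congrf (fun k => ((hconst k).1).symm)
      exact T2.unique h1 h2
    · have h1 := T2.mul (f := fun _ : ℕ => star (u n) * u n) (fun _ => hpn n)
        (T2.const (star (u n) * u n)) hshift
      have h2 : T2 (fun k => (star (u n) * u n) * u (n + k)) (u n) :=
        (T2.const (u n)).congrf (fun k => ((hconst k).2).symm)
      exact T2.unique h1 h2

theorem B_step (m : ℕ) {x t ε' : ℝ} (hx : 0 < x) (hx1 : x ≤ 1) (ht : 0 ≤ t) (htx : t ≤ x / 2)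
    (hε : 0 < ε') :
    ε' * ((x⁻¹) ^ (2 * 3 ^ m) - 1) + 3 ^ m * (2 * (ε' * ((x⁻¹) ^ (2 * 3 ^ m) - 1)) / x + ε') * t ≤
      ε' * (((x - t)⁻¹) ^ (2 * 3 ^ m) - 1) := by
  set K : ℕ := 2 * 3 ^ m with hK
  have hy : 0 < x - t := by linarith
  have hxi : 1 ≤ x⁻¹ := (one_le_inv₀ hx).2 hx1
  have hXK : 1 ≤ (x⁻¹) ^ K := one_le_pow₀ hxi
  have hKr : (K : ℝ) = 2 * 3 ^ m := by rw [hK]; push_cast; ring
  set X := (x⁻¹) ^ K with hX
  -- `(x - t)⁻¹ ^ K ≥ X (1 + K t / x)`
  have h1 : X * (1 + K * (t / x)) ≤ ((x - t)⁻¹) ^ K := by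
    have h2 : 1 + t / x ≤ x / (x - t) := by
      rw [le_div_iff₀ hy]
      have h3 : (1 + t / x) * (x - t) = x - t ^ 2 / x := by field_simp; ring
      rw [h3]
      have : 0 ≤ t ^ 2 / x := by positivity
      linarith
    have h4 : 1 + K * (t / x) ≤ (1 + t / x) ^ K :=
      one_add_mul_le_pow (by have : 0 ≤ t / x := by positivity
                             linarith) K
    have h5 : (1 + t / x) ^ K ≤ (x / (x - t)) ^ K :=
      pow_le_pow_left₀ (by positivity) h2 K
    calc X * (1 + K * (t / x)) ≤ X * (x / (x - t)) ^ K :=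
          mul_le_mul_of_nonneg_left (h4.trans h5) (by positivity)
      _ = ((x - t)⁻¹) ^ K := by
          rw [hX, ← mul_pow]
          congr 1
          field_simp
  have h6 : 3 ^ m * (2 * (ε' * (X - 1)) / x + ε') * t ≤ ε' * (X * (K * (t / x))) := by
    have h7 : 2 * (ε' * (X - 1)) / x + ε' ≤ ε' * (2 * X / x) := by
      have h8 : 2 * (ε' * (X - 1)) / x = ε' * (2 * X / x) - ε' * (2 / x) := by field_simp
      have h9 : 1 ≤ 2 / x := by rw [le_div_iff₀ hx]; linarith
      rw [h8]
      nlinarith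
    calc 3 ^ m * (2 * (ε' * (X - 1)) / x + ε') * t ≤ 3 ^ m * (ε' * (2 * X / x)) * t := by
          apply mul_le_mul_of_nonneg_right _ ht
          exact mul_le_mul_of_nonneg_left h7 (by positivity)
      _ = ε' * (X * (K * (t / x))) := by rw [hKr]; field_simp
  calc ε' * (X - 1) + 3 ^ m * (2 * (ε' * (X - 1)) / x + ε') * t ≤
      ε' * (X - 1) + ε' * (X * (K * (t / x))) := by linarith
    _ = ε' * (X * (1 + K * (t / x)) - 1) := by ring
    _ ≤ ε' * (((x - t)⁻¹) ^ K - 1) := mul_le_mul_of_nonneg_left (by linarith) hε.le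

/-- adding a small projection changes word traces little -/
theorem rs_add_proj_le {v e : A} (he : IsStarProjection e) (hv : ‖v‖ ≤ 1) (hve : ‖v + e‖ ≤ 1)
    (L : List (Bool × A)) (hL : ∀ x ∈ L, ‖x.2‖ ≤ 1) (X : A) (hX : ‖X‖ ≤ 1) :
    ‖τ (X * rs (v + e) L) - τ (X * rs v L)‖ ≤ L.length * tr e := by
  induction L generalizing X with
  | nil => simp
  | cons x L ih =>
    obtain ⟨b, t⟩ := x
    have ht : ‖t‖ ≤ 1 := hL (b, t) (by simp)
    have hL' : ∀ x ∈ L, ‖x.2‖ ≤ 1 := fun x hx => hL x (by simp [hx])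
    have hpe : pw (v + e) b = pw v b + e := by
      rw [pw_add]
      cases b
      · rw [pw_false, pw_false, he.isSelfAdjoint.star_eq]
      · rfl
    have e1 : X * rs (v + e) ((b, t) :: L) =
        X * pw v b * t * rs (v + e) L + X * e * (t * rs (v + e) L) := by
      rw [rs_cons, hpe]
      noncomm_ring
    have e2 : X * rs v ((b, t) :: L) = X * pw v b * t * rs v L := by
      rw [rs_cons]
      noncomm_ring
    have f1 := ih hL' (X * pw v b * t) (norm_mul_le_one (norm_mul_le_one hX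
      (by rw [norm_pw]; exact hv)) ht)
    have f2 : ‖τ (X * e * (t * rs (v + e) L))‖ ≤ tr e :=
      norm_τ_proj_le he hX (norm_mul_le_one ht (norm_rs_le hve L hL'))
    rw [e1, e2, map_add]
    have e3 : τ (X * pw v b * t * rs (v + e) L) + τ (X * e * (t * rs (v + e) L)) -
        τ (X * pw v b * t * rs v L) = (τ (X * pw v b * t * rs (v + e) L) -
        τ (X * pw v b * t * rs v L)) + τ (X * e * (t * rs (v + e) L)) := by ring
    rw [e3, List.length_cons]
    push_cast
    refine (norm_add_le _ _).trans ((add_le_add f1 f2).trans (le_of_eq ?_))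
    ring

theorem exists_approx_free_aux {P : StarSubalgebra ℂ A} (h : IsIrr P ⊤) {S : Set A}
    (hSf : S.Finite) (hS1 : ∀ s ∈ S, ‖s‖ ≤ 1) (h1S : (1 : A) ∈ S) (m : ℕ) (ε : ℝ) (hε : 0 < ε) :
    ∃ v ∈ P, v ∈ unitary A ∧ LamLe S v m ε := by
  set d : ℝ := min (1 / 2) (ε / (2 * ((m : ℝ) + 1))) with hd
  have hd0 : 0 < d := by positivity
  have hd1 : d ≤ 1 / 2 := min_le_left _ _
  have hd2 : m * d ≤ ε / 2 := by
    have h1 : d ≤ ε / (2 * ((m : ℝ) + 1)) := min_le_right _ _
    have h2 : (m : ℝ) * d ≤ m * (ε / (2 * ((m : ℝ) + 1))) :=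
      mul_le_mul_of_nonneg_left h1 (Nat.cast_nonneg m)
    refine h2.trans ?_
    rw [mul_div_assoc', div_le_div_iff₀ (by positivity) (by norm_num)]
    nlinarith [Nat.cast_nonneg (α := ℝ) m]
  set x0 : ℝ := d / 2 with hx0
  have hx00 : 0 < x0 := by positivity
  set K : ℕ := 2 * 3 ^ m with hK
  set ε' : ℝ := ε / 2 * x0 ^ K with hε'
  have hε'0 : 0 < ε' := by positivity
  set Bf : ℝ → ℝ := fun x => ε' * ((x⁻¹) ^ K - 1) with hBf
  have hBfc : ContinuousOn Bf (Set.Ici x0) := by
    apply ContinuousOn.mul continuousOn_const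
    apply ContinuousOn.sub _ continuousOn_const
    apply ContinuousOn.pow
    apply ContinuousOn.inv₀ continuousOn_id
    intro x hx
    exact (hx00.trans_le hx).ne'
  -- the order
  let X := {v : A // PState P S m x0 Bf v}
  have hz : PState P S m x0 Bf (0 : A) := by
    have h1 : (star (0 : A) * 0) = 0 := by simp
    have h2 : tr (1 - star (0 : A) * 0) = 1 := by rw [h1, sub_zero, tr_one]
    refine ⟨zero_mem P, ?_, ?_, ?_⟩
    · rw [h1]
      exact ⟨IsStarProjection.zero A, by simp, by simp⟩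
    · rw [h2, hx0]
      linarith
    · intro s _ L hL _ _ _
      rw [h2]
      cases L with
      | nil => exact absurd rfl hL
      | cons x L =>
        obtain ⟨b, t⟩ := x
        have h3 : wd (0 : A) s ((b, t) :: L) = 0 := by
          rw [wd]
          cases b <;> simp [pw]
        rw [h3, map_zero, norm_zero, hBf]
        simp
  obtain ⟨⟨g, hg⟩, -, hmax⟩ := ordering_principle (X := X) (fun v v' => PLe v.1 v'.1)
    (fun v => PLe.refl v.2.pu) (fun u v w h1 h2 => PLe.trans u.2.pu v.2.pu h1 h2)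
    (fun v => tr (1 - star v.1 * v.1)) (fun v => tr_proj_nonneg v.2.pu.hq.one_sub)
    (fun v v' hvv' => hvv'.tr_le v.2.pu v'.2.pu)
    (by
      intro u hu
      obtain ⟨g, hg, hgu⟩ := PState.limit h.closedP hBfc (fun n => (u n).1) (fun n => (u n).2) hu
      exact ⟨⟨g, hg⟩, hgu⟩) ⟨0, hz⟩
  simp only at hmax
  set p : A := star g * g with hp
  set x : ℝ := tr (1 - p) with hx
  have hx_lb : x0 ≤ x := hg.lb
  have hx_pos : 0 < x := hx00.trans_le hx_lb
  have hx_le1 : x ≤ 1 := tr_compl_le_one hg.pu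
  have hB0 : 0 ≤ Bf x := by
    have h1 : 1 ≤ x⁻¹ := (one_le_inv₀ hx_pos).2 hx_le1
    have h2 : 1 ≤ (x⁻¹) ^ K := one_le_pow₀ h1
    have h3 : 0 ≤ (x⁻¹) ^ K - 1 := by linarith
    exact mul_nonneg hε'0.le h3
  have hxd : x ≤ d := by
    by_contra hcon
    push Not at hcon
    have hp1 : p ≠ 1 := by
      intro h0
      rw [hx, h0, sub_self] at hx_pos
      simp [tr] at hx_pos
    obtain ⟨w, q, hwP, hqP, hw, hq0, hpq, hqtr, hLam⟩ :=
      exists_extension h hSf hS1 h1S m hg.mem hg.pu hp1 hB0 hε'0 hg.lam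
    have hq : IsStarProjection q := hw.hq
    have hqpos : 0 < tr q := tr_pos_of_ne_zero hq hq0
    have hqp : q * p = 0 := by
      have h1 := congrArg star hpq
      rwa [star_mul, hq.isSelfAdjoint.star_eq, hg.pu.hq.isSelfAdjoint.star_eq, star_zero] at h1
    have hgq : g * q = 0 := by rw [← hg.pu.mul_q, mul_assoc, hpq, mul_zero]
    have hqg : q * g = 0 := by rw [← hg.pu.q_mul, ← mul_assoc, hqp, zero_mul]
    have hgw1 : star g * w = 0 := by
      rw [← hw.q_mul, ← mul_assoc]
      have h1 := congrArg star hqg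
      rw [star_mul, hq.isSelfAdjoint.star_eq, star_zero] at h1
      rw [h1, zero_mul]
    have hgw2 : g * star w = 0 := by
      rw [← hw.star.q_mul, ← mul_assoc, hgq, zero_mul]
    have hwg1 : star w * g = 0 := by
      have h1 := congrArg star hgw1
      rwa [star_mul, star_star, star_zero] at h1
    have hwg2 : w * star g = 0 := by
      have h1 := congrArg star hgw2
      rwa [star_mul, star_star, star_zero] at h1
    have hsum : star (g + w) * (g + w) = p + q := by
      rw [star_add, add_mul, mul_add, mul_add, hw.l, hgw1, hwg1, hp]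
      abel
    have hpqp : IsStarProjection (p + q) := by
      refine ⟨?_, ?_⟩
      · change (p + q) * (p + q) = p + q
        rw [add_mul, mul_add, mul_add, hg.pu.hq.isIdempotentElem.eq, hq.isIdempotentElem.eq,
          hpq, hqp]
        abel
      · exact hg.pu.hq.isSelfAdjoint.add hq.isSelfAdjoint
    have hpu' : PU (g + w) (star (g + w) * (g + w)) := by
      rw [hsum]
      refine ⟨hpqp, hsum, ?_⟩
      rw [star_add, add_mul, mul_add, mul_add, hg.pu.r, hw.r, hgw2, hwg2]
      abel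
    have hx' : tr (1 - star (g + w) * (g + w)) = x - tr q := by
      rw [hsum, tr_sub, tr_add, hx, tr_sub]
      ring
    have hst : PState P S m x0 Bf (g + w) := by
      refine ⟨add_mem hg.mem hwP, hpu', ?_, ?_⟩
      · rw [hx', hx0]
        have : tr q ≤ x / 2 := hqtr
        linarith
      · rw [hx']
        intro s hs L hL hlen hLS hRd
        refine (hLam s hs L hL hlen hLS hRd).trans ?_
        have h1 := B_step m hx_pos hx_le1 hqpos.le hqtr hε'0
        exact h1
    have hle : PLe g (g + w) := by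
      constructor
      · rw [← hp, add_mul, hg.pu.mul_q]
        have h1 : w * p = 0 := by rw [← hw.mul_q, mul_assoc, hqp, mul_zero]
        rw [h1, add_zero]
      · rw [← hp, mul_add, hg.pu.q_mul]
        have h1 : p * w = 0 := by rw [← hw.q_mul, ← mul_assoc, hpq, zero_mul]
        rw [h1, add_zero]
    have h2 := hmax ⟨g + w, hst⟩ hle
    simp only at h2
    rw [hx'] at h2
    linarith
  -- the unitary
  set e : A := 1 - p with he
  have hee : IsStarProjection e := hg.pu.hq.one_sub
  have heP : e ∈ P := sub_mem (one_mem P) (mul_mem (star_mem hg.mem) hg.mem)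
  have hge : g * e = 0 := by rw [he, mul_sub, mul_one, hg.pu.mul_q, sub_self]
  have heg : e * g = 0 := by rw [he, sub_mul, one_mul, hg.pu.q_mul, sub_self]
  have hges : star g * e = 0 := by
    have h1 := congrArg star heg
    rwa [star_mul, hee.isSelfAdjoint.star_eq, star_zero] at h1
  have hegs : e * star g = 0 := by
    have h1 := congrArg star hge
    rwa [star_mul, hee.isSelfAdjoint.star_eq, star_zero] at h1
  have hu1 : star (g + e) * (g + e) = 1 := by
    rw [star_add, hee.isSelfAdjoint.star_eq, add_mul, mul_add, mul_add, hges, heg,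
      hee.isIdempotentElem.eq, ← hp, he]
    abel
  have hu2 : (g + e) * star (g + e) = 1 := by
    rw [star_add, hee.isSelfAdjoint.star_eq, add_mul, mul_add, mul_add, hge, hegs,
      hee.isIdempotentElem.eq, hg.pu.r, ← hp, he]
    abel
  have huU : g + e ∈ unitary A := Unitary.mem_iff.2 ⟨hu1, hu2⟩
  have hune : ‖g + e‖ ≤ 1 := by
    have h1 : ‖g + e‖ * ‖g + e‖ ≤ 1 := by
      rw [← CStarRing.norm_star_mul_self, hu1]
      exact norm_rs_le hg.pu.norm_le ([] : List (Bool × A)) (by simp)
    nlinarith [norm_nonneg (g + e)]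
  refine ⟨g + e, add_mem hg.mem heP, huU, ?_⟩
  intro s hs L hL hlen hLS hRd
  have h1 := rs_add_proj_le hee hg.pu.norm_le hune L (fun y hy => hS1 _ (hLS y hy)) s (hS1 s hs)
  rw [← wd_eq_rs, ← wd_eq_rs] at h1
  have h2 := hg.lam s hs L hL hlen hLS hRd
  have h3 : Bf x ≤ ε / 2 := by
    have h4 : (x⁻¹) ^ K ≤ (x0⁻¹) ^ K :=
      pow_le_pow_left₀ (by positivity) ((inv_le_inv₀ hx_pos hx00).2 hx_lb) K
    have h5 : ε' * (x0⁻¹) ^ K = ε / 2 := by
      rw [hε', mul_assoc, ← mul_pow, mul_inv_cancel₀ hx00.ne', one_pow, mul_one]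
    calc Bf x = ε' * ((x⁻¹) ^ K - 1) := rfl
      _ ≤ ε' * (x0⁻¹) ^ K := mul_le_mul_of_nonneg_left (by linarith) hε'0.le
      _ = ε / 2 := h5
  have h6 : (L.length : ℝ) * tr e ≤ ε / 2 := by
    have h7 : (L.length : ℝ) ≤ m := by exact_mod_cast hlen
    have h8 : tr e ≤ d := hxd
    have h9 : 0 ≤ tr e := tr_proj_nonneg hee
    calc (L.length : ℝ) * tr e ≤ m * d := mul_le_mul h7 h8 h9 (Nat.cast_nonneg m)
      _ ≤ ε / 2 := hd2
  calc ‖τ (wd (g + e) s L)‖ = ‖τ (wd g s L) + (τ (wd (g + e) s L) - τ (wd g s L))‖ := by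
        congr 1; ring
    _ ≤ ‖τ (wd g s L)‖ + ‖τ (wd (g + e) s L) - τ (wd g s L)‖ := norm_add_le _ _
    _ ≤ ε / 2 + ε / 2 := add_le_add (h2.trans h3) (h1.trans h6)
    _ = ε := by ring

/-- scaling the coefficients of a word -/
theorem wd_smul_coeff (v s : A) (c : ℂ) (L : List (Bool × A)) :
    wd v (c • s) (L.map fun x => (x.1, c • x.2)) = c ^ (L.length + 1) • wd v s L := by
  induction L generalizing s with
  | nil => simp [wd]
  | cons x L ih =>
    obtain ⟨b, t⟩ := x
    rw [List.map_cons, wd, wd, ih, List.length_cons, smul_mul_assoc, smul_mul_assoc,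
      mul_smul_comm, smul_smul]
    congr 1
    ring

/-- Main output: a unitary of `P` approximately free from the finite set `S`, for words of length at
most `m`. (Greedy extension of partial unitaries `v ∈ P`, `v⋆v = vv⋆ = p`, keeping
`Λ(v) + ε' ≤ ε' (1 - tr p)^{-K}`.) -/
theorem exists_approx_free {P : StarSubalgebra ℂ A} (h : IsIrr P ⊤) (S : Finset A) (m : ℕ) (ε : ℝ)
    (hε : 0 < ε) :
    ∃ v ∈ P, v ∈ unitary A ∧ ∀ s ∈ S, ∀ L : List (Bool × A), L ≠ [] → L.length ≤ m →
      (∀ x ∈ L, x.2 ∈ S) → Rd L → ‖τ (wd v s L)‖ ≤ ε := by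
  -- normalisation constant
  set C : ℝ := 1 + ∑ s ∈ S, ‖s‖ with hC
  have hC1 : 1 ≤ C := by
    have : 0 ≤ ∑ s ∈ S, ‖s‖ := Finset.sum_nonneg fun s _ => norm_nonneg s
    linarith
  have hC0 : 0 < C := by linarith
  have hsC : ∀ s ∈ S, ‖s‖ ≤ C := by
    intro s hs
    have h1 : ‖s‖ ≤ ∑ s ∈ S, ‖s‖ := Finset.single_le_sum (fun s _ => norm_nonneg s) hs
    linarith
  set c : ℂ := ((C⁻¹ : ℝ) : ℂ) with hc
  have hcn : ‖c‖ = C⁻¹ := by
    rw [hc, Complex.norm_real, Real.norm_eq_abs, abs_of_pos (by positivity)]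
  set S' : Set A := insert 1 ((fun s => c • s) '' (S : Set A)) with hS'
  have hS'f : S'.Finite := (S.finite_toSet.image _).insert _
  have h1n : ‖(1 : A)‖ ≤ 1 :=
    norm_rs_le (u := (0 : A)) (by simp) ([] : List (Bool × A)) (by simp)
  have hS'1 : ∀ s ∈ S', ‖s‖ ≤ 1 := by
    intro s hs
    rcases hs with rfl | ⟨t, ht, rfl⟩
    · exact h1n
    · simp only
      rw [norm_smul, hcn]
      have h1 := hsC t ht
      calc C⁻¹ * ‖t‖ ≤ C⁻¹ * C := mul_le_mul_of_nonneg_left h1 (by positivity)
        _ = 1 := inv_mul_cancel₀ hC0.ne'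
  obtain ⟨v, hvP, hvU, hv⟩ := exists_approx_free_aux h hS'f hS'1 (Set.mem_insert _ _) m
    (ε / C ^ (m + 1)) (by positivity)
  refine ⟨v, hvP, hvU, ?_⟩
  intro s hs L hL hlen hLS hRd
  have h1 := hv (c • s) (Set.mem_insert_of_mem _ ⟨s, hs, rfl⟩) (L.map fun x => (x.1, c • x.2))
    (by simpa using hL) (by simpa using hlen) (by
      intro y hy
      simp only [List.mem_map] at hy
      obtain ⟨x, hx, rfl⟩ := hy
      exact Set.mem_insert_of_mem _ ⟨x.2, hLS x hx, rfl⟩) (by
      rw [Rd, List.isChain_map]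
      refine List.IsChain.imp ?_ hRd
      intro x y hxy hne
      rw [map_smul, hxy hne, smul_zero])
  rw [wd_smul_coeff, map_smul, norm_smul, norm_pow, hcn] at h1
  have h2 : ‖τ (wd v s L)‖ ≤ ε / C ^ (m + 1) * C ^ (L.length + 1) := by
    have h3 : ‖τ (wd v s L)‖ = (C⁻¹ ^ (L.length + 1) * ‖τ (wd v s L)‖) * C ^ (L.length + 1) := by
      rw [inv_pow]
      field_simp
    rw [h3]
    exact mul_le_mul_of_nonneg_right h1 (by positivity)
  refine h2.trans ?_
  have h4 : C ^ (L.length + 1) ≤ C ^ (m + 1) := pow_le_pow_right₀ hC1 (by omega)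
  calc ε / C ^ (m + 1) * C ^ (L.length + 1) ≤ ε / C ^ (m + 1) * C ^ (m + 1) :=
        mul_le_mul_of_nonneg_left h4 (by positivity)
    _ = ε := by field_simp

end Crest.Agent.GenII1
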