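import Crest.Agent.GenII1.Free
import Crest.Agent.GenII1.Patch

/-! The algebra of bounded sequences with the ultrafilter-limit trace; exactly free unitaries. -/

set_option autoImplicit false

namespace Crest.Agent.GenII1

open Filter Topology BoundedContinuousFunction

variable {A : Type*} [CStarAlgebra A] [FinVN A]

theorem uf_norm_τ_seq_le (f : ℕ →ᵇ A) (n : ℕ) : ‖τ (f n)‖ ≤ ‖f‖ :=
  (norm_τ_le _).trans (f.norm_coe_le_norm n)

/-- existence of ultrafilter limits of bounded scalar sequences -/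
theorem uf_exists_lim (g : ℕ → ℂ) (C : ℝ) (hg : ∀ n, ‖g n‖ ≤ C) :
    ∃ z : ℂ, Tendsto g (hyperfilter ℕ : Filter ℕ) (𝓝 z) := by
  have hc : IsCompact (Metric.closedBall (0 : ℂ) C) := isCompact_closedBall _ _
  have h1 : ((hyperfilter ℕ).map g : Filter ℂ) ≤ 𝓟 (Metric.closedBall (0 : ℂ) C) := by
    rw [le_principal_iff]
    have : g ⁻¹' (Metric.closedBall (0 : ℂ) C) = Set.univ := by
      ext n; simpa using hg n
    show g ⁻¹' (Metric.closedBall (0 : ℂ) C) ∈ (hyperfilter ℕ : Filter ℕ)
    rw [this]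
    exact univ_mem
  obtain ⟨z, -, hz⟩ := hc.ultrafilter_le_nhds _ h1
  exact ⟨z, hz⟩

/-- the ultrafilter limit of the traces -/
noncomputable def ufτ (f : ℕ →ᵇ A) : ℂ := limUnder (hyperfilter ℕ : Filter ℕ) (fun n => τ (f n))

theorem ufτ_tendsto (f : ℕ →ᵇ A) :
    Tendsto (fun n => τ (f n)) (hyperfilter ℕ : Filter ℕ) (𝓝 (ufτ f)) := by
  apply tendsto_nhds_limUnder
  exact uf_exists_lim _ ‖f‖ (fun n => uf_norm_τ_seq_le f n)

theorem ufτ_unique {f : ℕ →ᵇ A} {z : ℂ}
    (h : Tendsto (fun n => τ (f n)) (hyperfilter ℕ : Filter ℕ) (𝓝 z)) : ufτ f = z :=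
  tendsto_nhds_unique (ufτ_tendsto f) h

/-- the trace on bounded sequences: limit along the hyperfilter -/
noncomputable instance seqTracial : TracialC (ℕ →ᵇ A) where
  τ :=
    { toFun := ufτ
      map_add' := by
        intro f g
        apply ufτ_unique
        refine ((ufτ_tendsto f).add (ufτ_tendsto g)).congr (fun n => ?_)
        simp
      map_smul' := by
        intro c f
        apply ufτ_unique
        refine ((ufτ_tendsto f).const_mul c).congr (fun n => ?_)
        simp }
  τ_one := by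
    apply ufτ_unique
    simp [τ_one]
  τ_comm := by
    intro x y
    apply ufτ_unique
    refine (ufτ_tendsto (y * x)).congr (fun n => ?_)
    simp [τ_comm]
  τ_nonneg := by
    intro x
    refine ge_of_tendsto' ((Complex.continuous_re.tendsto _).comp (ufτ_tendsto (star x * x))) ?_
    intro n
    exact τ_nonneg (x n)
  τ_im := by
    intro x
    refine tendsto_nhds_unique
      ((Complex.continuous_im.tendsto _).comp (ufτ_tendsto (star x * x))) ?_
    refine tendsto_const_nhds.congr (fun n => ?_)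
    exact (τ_im (x n)).symm

theorem tendsto_τ_seq (f : ℕ →ᵇ A) :
    Tendsto (fun n => τ (f n)) (hyperfilter ℕ : Filter ℕ) (𝓝 (τ f)) := ufτ_tendsto f

/-- a sequence with `τ (f n) → 0` has trace zero -/
theorem uf_τ_eq_zero {f : ℕ →ᵇ A} (h : Tendsto (fun n => τ (f n)) atTop (𝓝 0)) : τ f = 0 :=
  tendsto_nhds_unique (tendsto_τ_seq f) (h.mono_left Nat.hyperfilter_le_atTop)

/-- pointwise trace, as a sequence of scalars in `A` -/
noncomputable def ufS (f : ℕ →ᵇ A) : ℕ →ᵇ A :=
  BoundedContinuousFunction.ofNormedAddCommGroup (fun n => τ (f n) • (1 : A))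
    continuous_of_discreteTopology (‖f‖ * ‖(1 : A)‖) (fun n => by
      rw [norm_smul]
      exact mul_le_mul_of_nonneg_right (uf_norm_τ_seq_le f n) (norm_nonneg _))

@[simp] theorem ufS_apply (f : ℕ →ᵇ A) (n : ℕ) : ufS f n = τ (f n) • (1 : A) := rfl

/-- centering, linear -/
noncomputable def ufT : (ℕ →ᵇ A) →ₗ[ℂ] (ℕ →ᵇ A) where
  toFun f := f - ufS f
  map_add' f g := by
    ext n; simp [add_smul]; abel
  map_smul' c f := by
    ext n; simp [smul_sub, mul_smul]

@[simp] theorem ufT_apply (f : ℕ →ᵇ A) (n : ℕ) : ufT f n = f n - τ (f n) • (1 : A) := rfl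

theorem ufT_τ (f : ℕ →ᵇ A) (n : ℕ) : τ (ufT f n) = 0 := by
  simp [τ_one]

theorem ufT_null {f : ℕ →ᵇ A} (h : τ f = 0) : n2 (f - ufT f) = 0 := by
  have h1 : f - ufT f = ufS f := by
    show f - (f - ufS f) = ufS f
    abel
  rw [h1]
  have h2 : n2 (ufS f) ^ 2 = 0 := by
    rw [n2_sq]
    have h3 := tendsto_τ_seq (star (ufS f) * ufS f)
    have h4 := tendsto_τ_seq f
    rw [h] at h4
    have h5 : Tendsto (fun n => τ ((star (ufS f) * ufS f) n)) (hyperfilter ℕ : Filter ℕ) (𝓝 0) := by
      have h6 : Tendsto (fun n => (starRingEnd ℂ) (τ (f n)) * τ (f n))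
          (hyperfilter ℕ : Filter ℕ) (𝓝 0) := by
        have := ((Complex.continuous_conj.tendsto _).comp h4).mul h4
        simpa using this
      refine h6.congr (fun n => ?_)
      simp [τ_one, mul_comm]
    rw [tendsto_nhds_unique h3 h5]
    simp
  exact pow_eq_zero_iff (two_ne_zero) |>.1 h2

section words

/-- good words: products `m c^ε m' c^ε' …` ending with a letter, coefficients from `D`, centered
(by `ufT`) at sign changes -/
inductive UFGood (D : Set (ℕ →ᵇ A)) (c : ℕ →ᵇ A) : Bool → (ℕ →ᵇ A) → Prop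
  | base (ε : Bool) (b : ℕ →ᵇ A) (hb : b ∈ D) : UFGood D c ε (b * pw c ε)
  | same (ε : Bool) (y b : ℕ →ᵇ A) (hy : UFGood D c ε y) (hb : b ∈ D) :
      UFGood D c ε (y * b * pw c ε)
  | flip (ε : Bool) (y b : ℕ →ᵇ A) (hy : UFGood D c ε y) (hb : b ∈ D) :
      UFGood D c (!ε) (y * ufT b * pw c (!ε))

theorem uf_wd_append {B : Type*} [CStarAlgebra B] (v : B) (ε : Bool) (t : B) :
    ∀ (L : List (Bool × B)) (s : B), wd v s (L ++ [(ε, t)]) = wd v s L * pw v ε * t
  | [], s => by simp [wd]
  | (b, r) :: L, s => by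
      rw [List.cons_append, wd, uf_wd_append v ε t L r, wd]
      noncomm_ring

omit [FinVN A] in
theorem uf_wd_apply (c : ℕ →ᵇ A) (n : ℕ) :
    ∀ (L : List (Bool × (ℕ →ᵇ A))) (s : ℕ →ᵇ A),
      (wd c s L) n = wd (c n) (s n) (L.map (fun x => (x.1, x.2 n)))
  | [], s => rfl
  | (b, r) :: L, s => by
      rw [wd, List.map_cons, wd, ← uf_wd_apply c n L r]
      cases b <;> rfl

theorem UFGood.exists_list {D : Set (ℕ →ᵇ A)} {c : ℕ →ᵇ A} {ε : Bool} {y : ℕ →ᵇ A}
    (h : UFGood D c ε y) :
    ∃ s ∈ D, ∃ L : List (Bool × (ℕ →ᵇ A)), (∀ x ∈ L, x.2 ∈ D ∪ ufT '' D) ∧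
      (∀ t, wd c s (L ++ [(ε, t)]) = y * t) ∧
      ∀ t, (L ++ [(ε, t)]).IsChain
        (fun (x z : Bool × (ℕ →ᵇ A)) => x.1 ≠ z.1 → ∀ n, τ (x.2 n) = 0) := by
  induction h with
  | base ε b hb =>
    refine ⟨b, hb, [], by simp, fun t => by simp [wd], fun t => by simp⟩
  | same ε y b hy hb ih =>
    obtain ⟨s, hs, L, h1, h2, h3⟩ := ih
    refine ⟨s, hs, L ++ [(ε, b)], ?_, ?_, ?_⟩
    · intro x hx
      rw [List.mem_append] at hx
      rcases hx with hx | hx
      · exact h1 x hx
      · rw [List.mem_singleton] at hx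
        subst hx
        exact Or.inl hb
    · intro t
      rw [uf_wd_append, h2]
    · intro t
      rw [List.append_assoc, List.isChain_append]
      have h4 := h3 b
      rw [List.isChain_append] at h4
      refine ⟨h4.1, ?_, ?_⟩
      · simp
      · intro x hx z hz
        have := h4.2.2 x hx
        simp only [List.cons_append, List.nil_append, List.head?_cons, Option.mem_def, Option.some.injEq] at hz this
        subst hz
        exact this _ rfl
  | flip ε y b hy hb ih =>
    obtain ⟨s, hs, L, h1, h2, h3⟩ := ih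
    refine ⟨s, hs, L ++ [(ε, ufT b)], ?_, ?_, ?_⟩
    · intro x hx
      rw [List.mem_append] at hx
      rcases hx with hx | hx
      · exact h1 x hx
      · rw [List.mem_singleton] at hx
        subst hx
        exact Or.inr ⟨b, hb, rfl⟩
    · intro t
      rw [uf_wd_append, h2]
    · intro t
      rw [List.append_assoc, List.isChain_append]
      have h4 := h3 (ufT b)
      rw [List.isChain_append] at h4
      refine ⟨h4.1, ?_, ?_⟩
      · simp only [List.cons_append, List.nil_append, List.isChain_cons_cons, List.isChain_singleton,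
          and_true]
        intro _ n
        exact ufT_τ b n
      · intro x hx z hz
        have := h4.2.2 x hx
        simp only [List.cons_append, List.nil_append, List.head?_cons, Option.mem_def, Option.some.injEq] at hz this
        subst hz
        exact this _ rfl

/-- the diagonal construction -/
theorem uf_exists_seq {P : StarSubalgebra ℂ A} (h : IsIrr P ⊤) (d : ℕ → (ℕ →ᵇ A)) :
    ∃ c : ℕ →ᵇ A, (∀ n, c n ∈ P) ∧ (∀ n, c n ∈ unitary A) ∧
      ∀ (i : ℕ) (L : List (Bool × (ℕ →ᵇ A))), L ≠ [] → (∀ x ∈ L, x.2 ∈ Set.range d) →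
        L.IsChain (fun (x z : Bool × (ℕ →ᵇ A)) => x.1 ≠ z.1 → ∀ n, τ (x.2 n) = 0) →
        τ (wd c (d i) L) = 0 := by
  classical
  have hnt : Nontrivial A := ⟨1, 0, fun h => by
    have := τ_one (A := A)
    rw [h, map_zero] at this
    exact zero_ne_one this⟩
  choose v hvP hvU hv using fun n : ℕ =>
    exists_approx_free h ((Finset.range (n + 1)).image (fun j => d j n)) n (1 / ((n : ℝ) + 1))
      (by positivity)
  refine ⟨BoundedContinuousFunction.ofNormedAddCommGroup v continuous_of_discreteTopology 1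
    (fun n => (CStarRing.norm_of_mem_unitary (hvU n)).le), fun n => hvP n, fun n => hvU n, ?_⟩
  intro i L hL hLd hch
  apply uf_τ_eq_zero
  have hev : ∀ᶠ n in atTop, ∀ x ∈ {x | x ∈ L}, x.2 n ∈ (Finset.range (n + 1)).image (fun j => d j n) := by
    rw [Filter.eventually_all_finite (List.finite_toSet L)]
    intro x hx
    obtain ⟨j, hj⟩ := hLd x hx
    filter_upwards [eventually_ge_atTop j] with n hn
    rw [Finset.mem_image]
    exact ⟨j, Finset.mem_range.2 (by omega), by rw [hj]⟩
  have hb : ∀ᶠ n : ℕ in atTop, ‖τ ((wd (BoundedContinuousFunction.ofNormedAddCommGroup v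
      continuous_of_discreteTopology 1 (fun n => (CStarRing.norm_of_mem_unitary (hvU n)).le))
      (d i) L) n)‖ ≤ 1 / ((n : ℝ) + 1) := by
    filter_upwards [hev, eventually_ge_atTop i, eventually_ge_atTop L.length] with n h1 h2 h3
    rw [uf_wd_apply]
    refine hv n (d i n) ?_ _ ?_ ?_ ?_ ?_
    · rw [Finset.mem_image]
      exact ⟨i, Finset.mem_range.2 (by omega), rfl⟩
    · simpa using hL
    · simpa using h3
    · intro x hx
      rw [List.mem_map] at hx
      obtain ⟨y, hy, rfl⟩ := hx
      exact h1 y hy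
    · rw [Rd, List.isChain_map]
      exact hch.imp (fun a b hab hne => hab hne n)
  exact squeeze_zero_norm' hb tendsto_one_div_add_atTop_nhds_zero_nat

end words

theorem uf_span_mul {B : Type*} [Ring B] [Algebra ℂ B] {S T U : Set B} (g : B)
    (h : ∀ y ∈ S, ∀ b ∈ T, y * b * g ∈ U) {y b : B} (hy : y ∈ Submodule.span ℂ S)
    (hb : b ∈ Submodule.span ℂ T) : y * b * g ∈ Submodule.span ℂ U := by
  induction hy using Submodule.span_induction with
  | mem y hy =>
    induction hb using Submodule.span_induction with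
    | mem b hb => exact Submodule.subset_span (h y hy b hb)
    | zero => simp
    | add b b' _ _ h1 h2 => rw [mul_add, add_mul]; exact add_mem h1 h2
    | smul r b _ h1 => rw [mul_smul_comm, smul_mul_assoc]; exact Submodule.smul_mem _ _ h1
  | zero => simp
  | add y y' _ _ h1 h2 => rw [add_mul, add_mul]; exact add_mem h1 h2
  | smul r y _ h1 => rw [smul_mul_assoc, smul_mul_assoc]; exact Submodule.smul_mem _ _ h1

/-- reduced words are combinations of good words modulo null elements -/
theorem uf_RW_span {D : Set (ℕ →ᵇ A)} {B : Subalgebra ℂ (ℕ →ᵇ A)}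
    (hB : Subalgebra.toSubmodule B = Submodule.span ℂ D) {c : ℕ →ᵇ A} {ε : Bool}
    {y : ℕ →ᵇ A} (h : RW B c ε y) :
    ∃ z ∈ Submodule.span ℂ {w | UFGood D c ε w}, n2 (y - z) = 0 := by
  have hBD : ∀ b ∈ B, b ∈ Submodule.span ℂ D := by
    intro b hb
    rw [← hB]; exact hb
  induction h with
  | base ε b hb =>
    refine ⟨b * pw c ε, ?_, by simp⟩
    have h1 : (1 : ℕ →ᵇ A) * b * pw c ε ∈ Submodule.span ℂ {w | UFGood D c ε w} := by
      refine uf_span_mul (S := {1}) (T := D) _ ?_ (Submodule.subset_span (Set.mem_singleton _)) (hBD b hb)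
      rintro y rfl b hb
      rw [one_mul]
      exact UFGood.base ε b hb
    rwa [one_mul] at h1
  | same ε y b hy hb ih =>
    obtain ⟨z, hz, hyz⟩ := ih
    refine ⟨z * b * pw c ε, uf_span_mul _ (fun y hy b hb => UFGood.same ε y b hy hb) hz (hBD b hb), ?_⟩
    have h1 : y * b * pw c ε - z * b * pw c ε = (y - z) * (b * pw c ε) := by noncomm_ring
    rw [h1]
    refine le_antisymm ((n2_mul_le_right _ _).trans ?_) (n2_nonneg _)
    rw [hyz, zero_mul]
  | flip ε y b hy hb h0 ih =>
    obtain ⟨z, hz, hyz⟩ := ih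
    have hTb : ufT b ∈ Submodule.span ℂ (ufT '' D) := by
      rw [Submodule.span_image]
      exact Submodule.mem_map_of_mem (hBD b hb)
    refine ⟨z * ufT b * pw c (!ε), uf_span_mul _ (S := {w | UFGood D c ε w}) (T := ufT '' D) ?_ hz hTb, ?_⟩
    · rintro y hy _ ⟨b, hb, rfl⟩
      exact UFGood.flip ε y b hy hb
    · have h1 : y * b * pw c (!ε) - z * ufT b * pw c (!ε) =
          (y - z) * (b * pw c (!ε)) + z * ((b - ufT b) * pw c (!ε)) := by noncomm_ring
      rw [h1]
      refine le_antisymm ((n2_add_le _ _).trans ?_) (n2_nonneg _)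
      have h2 := n2_mul_le_right (y - z) (b * pw c (!ε))
      have h3 := n2_mul_le_left z ((b - ufT b) * pw c (!ε))
      have h4 := n2_mul_le_right (b - ufT b) (pw c (!ε))
      rw [hyz, zero_mul] at h2
      rw [ufT_null h0, zero_mul] at h4
      have h5 : ‖z‖ * n2 ((b - ufT b) * pw c (!ε)) ≤ ‖z‖ * 0 :=
        mul_le_mul_of_nonneg_left h4 (norm_nonneg _)
      linarith

/-- Exactly free unitary sequence in `P` over a countably generated algebra of sequences.
(Diagonalize `exists_approx_free` over the countable monoid generated by `G`, centered versions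
included; multilinearity.) -/
theorem exists_free_seq {P : StarSubalgebra ℂ A} (h : IsIrr P ⊤) (G : Set (ℕ →ᵇ A))
    (hG : G.Countable) :
    ∃ c : ℕ →ᵇ A, (∀ n, c n ∈ P) ∧ (∀ n, c n ∈ unitary A) ∧ IsFree (Algebra.adjoin ℂ G) c := by
  classical
  set D : Set (ℕ →ᵇ A) := (Submonoid.closure G : Set (ℕ →ᵇ A)) with hD
  have hDc : D.Countable := by
    rw [hD, Submonoid.closure_eq_mrange]
    have : Countable G := hG
    have : Countable (FreeMonoid G) := inferInstanceAs (Countable (List G))
    exact Set.countable_range _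
  have hB : Subalgebra.toSubmodule (Algebra.adjoin ℂ G) = Submodule.span ℂ D :=
    Algebra.adjoin_eq_span ℂ G
  have h1D : (1 : ℕ →ᵇ A) ∈ D := one_mem _
  have hD2 : (D ∪ ufT '' D).Countable := hDc.union (hDc.image _)
  obtain ⟨d, hd⟩ := hD2.exists_eq_range ⟨1, Or.inl h1D⟩
  obtain ⟨c, hcP, hcU, hc⟩ := uf_exists_seq h d
  have hcu : c ∈ unitary (ℕ →ᵇ A) := by
    rw [Unitary.mem_iff]
    constructor
    · ext n
      exact Unitary.star_mul_self_of_mem (hcU n)
    · ext n
      exact Unitary.mul_star_self_of_mem (hcU n)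
  refine ⟨c, hcP, hcU, hcu, ?_⟩
  intro ε y b hy hb
  obtain ⟨z, hz, hyz⟩ := uf_RW_span hB hy
  have h1 : τ (y * b) = τ (z * b) := by
    have h2 : τ ((y - z) * b) = 0 := by
      rw [← norm_le_zero_iff]
      refine (norm_τ_mul_le _ _).trans ?_
      rw [hyz, zero_mul]
    rw [sub_mul, map_sub, sub_eq_zero] at h2
    exact h2
  rw [h1]
  have hb' : b ∈ Submodule.span ℂ D := by
    rw [← hB]; exact hb
  clear h1 hyz hy hb
  induction hz using Submodule.span_induction with
  | mem z hz =>
    induction hb' using Submodule.span_induction with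
    | mem b hb =>
      obtain ⟨s, hs, L, h1, h2, h3⟩ := UFGood.exists_list hz
      rw [← h2 b]
      have hsd : s ∈ Set.range d := by
        rw [← hd]; exact Or.inl hs
      obtain ⟨i, rfl⟩ := hsd
      refine hc i _ (by simp) ?_ (h3 b)
      intro x hx
      rw [← hd]
      rw [List.mem_append] at hx
      rcases hx with hx | hx
      · exact h1 x hx
      · rw [List.mem_singleton] at hx
        subst hx
        exact Or.inl hb
    | zero => simp
    | add b b' _ _ h1 h2 => rw [mul_add, map_add, h1, h2, add_zero]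
    | smul r b _ h1 => rw [mul_smul_comm, map_smul, h1, smul_zero]
  | zero => simp
  | add z z' _ _ h1 h2 => rw [add_mul, map_add, h1, h2, add_zero]
  | smul r z _ h1 => rw [smul_mul_assoc, map_smul, h1, smul_zero]

end Crest.Agent.GenII1
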