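import Crest.Agent.GenII1.KeyLemma
import Crest.Agent.GenII1.UltraFree

/-! The key lemma in a finite von Neumann algebra with an irreducible subfactor. -/

set_option autoImplicit false

namespace Crest.Agent.GenII1

open Filter Topology BoundedContinuousFunction

variable {A : Type*} [CStarAlgebra A] [FinVN A]

/-- the star algebra generated by `P` and `w` -/
def adjU (P : StarSubalgebra ℂ A) (w : A) : StarSubalgebra ℂ A :=
  StarAlgebra.adjoin ℂ ((P : Set A) ∪ {w})

theorem adjS_le {B : Type*} [CStarAlgebra B] {B0 S : Subalgebra ℂ B} {g : ℕ → B} {s : Set ℕ}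
    (hB : B0 ≤ S) (h1 : ∀ i ∈ s, g i ∈ S) (h2 : ∀ i ∈ s, star (g i) ∈ S) : adjS B0 g s ≤ S := by
  apply Algebra.adjoin_le
  rintro z (hz | ⟨i, hi, rfl | rfl⟩)
  · exact hB hz
  · exact h1 i hi
  · exact h2 i hi

theorem le_adjS {B : Type*} [CStarAlgebra B] {B0 : Subalgebra ℂ B} {g : ℕ → B} {s : Set ℕ} :
    B0 ≤ adjS B0 g s := fun _ hz => Algebra.subset_adjoin (Or.inl hz)

theorem mem_adjS {B : Type*} [CStarAlgebra B] {B0 : Subalgebra ℂ B} {g : ℕ → B} {s : Set ℕ}
    {i : ℕ} (hi : i ∈ s) : g i ∈ adjS B0 g s := Algebra.subset_adjoin (Or.inr ⟨i, hi, Or.inl rfl⟩)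

theorem star_mem_adjS {B : Type*} [CStarAlgebra B] {B0 : Subalgebra ℂ B} {g : ℕ → B} {s : Set ℕ}
    {i : ℕ} (hi : i ∈ s) : star (g i) ∈ adjS B0 g s :=
  Algebra.subset_adjoin (Or.inr ⟨i, hi, Or.inr rfl⟩)

theorem seq_unitary {f : ℕ →ᵇ A} (hf : ∀ n, f n ∈ unitary A) : f ∈ unitary (ℕ →ᵇ A) := by
  rw [Unitary.mem_iff]
  constructor
  · ext n; exact Unitary.star_mul_self_of_mem (hf n)
  · ext n; exact Unitary.mul_star_self_of_mem (hf n)

theorem unitary_seq {f : ℕ →ᵇ A} (hf : f ∈ unitary (ℕ →ᵇ A)) (n : ℕ) : f n ∈ unitary A := by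
  rw [Unitary.mem_iff]
  constructor
  · exact DFunLike.congr_fun (Unitary.star_mul_self_of_mem hf) n
  · exact DFunLike.congr_fun (Unitary.mul_star_self_of_mem hf) n

theorem exists_free_fam {P : StarSubalgebra ℂ A} (h : IsIrr P ⊤) (G : Set (ℕ →ᵇ A))
    (hG : G.Countable) (n : ℕ) :
    ∃ v : ℕ → (ℕ →ᵇ A), ∀ j, j < n → (∀ m, v j m ∈ P) ∧ (∀ m, v j m ∈ unitary A) ∧
      IsFree (adjS (Algebra.adjoin ℂ G) v {i | i < j}) (v j) := by
  classical
  induction n with
  | zero => exact ⟨fun _ => 0, fun j hj => absurd hj (Nat.not_lt_zero _)⟩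
  | succ n ih =>
    obtain ⟨v, hv⟩ := ih
    let G' : Set (ℕ →ᵇ A) := G ∪ {z | ∃ i ∈ {i | i < n}, z = v i ∨ z = star (v i)}
    have hG' : G'.Countable := by
      refine hG.union ?_
      have h1 : {z : ℕ →ᵇ A | ∃ i ∈ {i | i < n}, z = v i ∨ z = star (v i)} ⊆
          Set.range v ∪ Set.range (fun i => star (v i)) := by
        rintro z ⟨i, -, rfl | rfl⟩
        · exact Or.inl ⟨i, rfl⟩
        · exact Or.inr ⟨i, rfl⟩
      exact ((Set.countable_range _).union (Set.countable_range _)).mono h1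
    obtain ⟨c, hcP, hcu, hc⟩ := exists_free_seq h G' hG'
    have hle : adjS (Algebra.adjoin ℂ G) v {i | i < n} ≤ Algebra.adjoin ℂ G' := by
      apply adjS_le
      · exact Algebra.adjoin_mono Set.subset_union_left
      · exact fun i hi => Algebra.subset_adjoin (Or.inr ⟨i, hi, Or.inl rfl⟩)
      · exact fun i hi => Algebra.subset_adjoin (Or.inr ⟨i, hi, Or.inr rfl⟩)
    refine ⟨Function.update v n c, fun j hj => ?_⟩
    have hle2 : ∀ j, j ≤ n → adjS (Algebra.adjoin ℂ G) (Function.update v n c) {i | i < j} ≤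
        adjS (Algebra.adjoin ℂ G) v {i | i < j} := by
      intro j hj
      apply adjS_le le_adjS
      · intro i hi
        have hi' : i < j := hi
        rw [Function.update_of_ne (by omega)]
        exact mem_adjS hi
      · intro i hi
        have hi' : i < j := hi
        rw [Function.update_of_ne (by omega)]
        exact star_mem_adjS hi
    rcases Nat.lt_succ_iff_lt_or_eq.1 hj with hj' | rfl
    · rw [Function.update_of_ne hj'.ne]
      exact ⟨(hv j hj').1, (hv j hj').2.1, (hv j hj').2.2.mono (hle2 j hj'.le)⟩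
    · rw [Function.update_self]
      exact ⟨hcP, hcu, hc.mono ((hle2 _ le_rfl).trans hle)⟩

theorem Fw_apply (c c' : ℕ → (ℕ →ᵇ A)) (k : ℕ) (W : ℕ →ᵇ A) (n : ℕ) :
    (Fw c c' k W) n = Fw (fun j => c j n) (fun j => c' j n) k (W n) := by
  induction k with
  | zero => simp [Fw]
  | succ k ih =>
    have e1 : ∀ {B : Type _} [CStarAlgebra B] (c c' : ℕ → B) (W : B),
        Fw c c' (k + 1) W = Fw c c' k W * (c k * W * star (c' k)) := by
      intro B _ c c' W
      exact pre_succ _ _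
    rw [e1, e1, ← ih]
    rfl

theorem Fw_mem {B : Type*} [CStarAlgebra B] {S : Type*} [SetLike S B] [SubmonoidClass S B] {s : S}
    {c c' : ℕ → B} {k : ℕ} {W : B}
    (hc : ∀ j, j < k → c j ∈ s) (hc' : ∀ j, j < k → star (c' j) ∈ s) (hW : W ∈ s) :
    Fw c c' k W ∈ s :=
  pre_mem (a := fun j => c j * W * star (c' j)) fun j hj => mul_mem (mul_mem (hc j hj) hW) (hc' j hj)

theorem key {P : StarSubalgebra ℂ A} (h : IsIrr P ⊤) {u0 x : A} (hu0 : u0 ∈ unitary A)
    (hx : τ x = 0) (hx0 : x ≠ 0) (ε : ℝ) (hε : 0 < ε) :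
    ∃ w ∈ unitary A, n2 (w - u0) < ε ∧ ∃ y ∈ adjU P w, n2 y ≤ 1 ∧
      n2 x ^ 2 / (57 * ‖x‖) ≤ ‖τ (star x * y)‖ := by
  have hxn : 0 < ‖x‖ := norm_pos_iff.2 hx0
  have hx2 : 0 < n2 x := n2_pos hx0
  let U0 : ℕ →ᵇ A := BoundedContinuousFunction.const ℕ u0
  let X : ℕ →ᵇ A := BoundedContinuousFunction.const ℕ x
  have hU0 : U0 ∈ unitary (ℕ →ᵇ A) := seq_unitary fun _ => hu0
  have hτX : τ X = 0 := by
    refine tendsto_nhds_unique (tendsto_τ_seq X) ?_
    refine tendsto_const_nhds.congr fun n => ?_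
    exact hx.symm
  have hnX : ‖X‖ = ‖x‖ := by
    haveI : Nonempty ℕ := ⟨0⟩
    exact BoundedContinuousFunction.norm_const_eq x
  have hn2X : n2 X = n2 x := by
    have h1 : n2 X ^ 2 = n2 x ^ 2 := by
      rw [n2_sq, n2_sq]
      congr 1
      refine tendsto_nhds_unique (tendsto_τ_seq (star X * X)) ?_
      exact tendsto_const_nhds.congr fun n => rfl
    exact (sq_eq_sq₀ (n2_nonneg _) (n2_nonneg _)).1 h1
  set t : ℝ := 1 / (14 * ‖x‖) with ht
  have ht0 : 0 < t := by positivity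
  obtain ⟨k, hk0, hkε⟩ : ∃ k : ℕ, 0 < k ∧ t * n2 X / Real.sqrt k < ε := by
    obtain ⟨k, hk⟩ := exists_nat_gt (max 0 ((t * n2 X / ε) ^ 2))
    have hk1 : (0 : ℝ) < k := lt_of_le_of_lt (le_max_left _ _) hk
    refine ⟨k, by exact_mod_cast hk1, ?_⟩
    have hk2 := lt_of_le_of_lt (le_max_right _ _) hk
    have hs : 0 < Real.sqrt k := Real.sqrt_pos.2 hk1
    have h3 : t * n2 X / ε < Real.sqrt k := Real.lt_sqrt_of_sq_lt hk2
    rw [div_lt_iff₀ hε] at h3
    rw [div_lt_iff₀ hs]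
    linarith
  obtain ⟨v, hv⟩ := exists_free_fam h {U0, star U0, X, star X}
    (Set.toFinite _).countable (2 * k)
  set B0 : Subalgebra ℂ (ℕ →ᵇ A) := Algebra.adjoin ℂ {U0, star U0, X, star X} with hB0
  have hUB : U0 ∈ B0 := Algebra.subset_adjoin (by simp)
  have hUB' : star U0 ∈ B0 := Algebra.subset_adjoin (by simp)
  let c' : ℕ → (ℕ →ᵇ A) := v
  let c : ℕ → (ℕ →ᵇ A) := fun j => v (k + j)
  have hvu : ∀ j, j < 2 * k → v j ∈ unitary (ℕ →ᵇ A) := fun j hj => seq_unitary (hv j hj).2.1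
  have hg1 : ∀ j, j < k → gfam U0 c c' k j = v j := fun j hj => by rw [gfam, if_pos hj]
  have hg2 : ∀ j, k ≤ j → gfam U0 c c' k j = v j * (U0 * star (v (j - k))) := fun j hj => by
    rw [gfam, if_neg (by omega)]
    change v (k + (j - k)) * U0 * star (v (j - k)) = _
    rw [Nat.add_sub_cancel' hj, mul_assoc]
  have hgm : ∀ j, ∀ i, i < j → gfam U0 c c' k i ∈ adjS B0 v {i | i < j} := by
    intro j i hij
    rcases Nat.lt_or_ge i k with hik | hik
    · rw [hg1 i hik]; exact mem_adjS hij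
    · rw [hg2 i hik]
      exact mul_mem (mem_adjS hij) (mul_mem (le_adjS hUB)
        (star_mem_adjS (show i - k < j by omega)))
  have hgm' : ∀ j, ∀ i, i < j → star (gfam U0 c c' k i) ∈ adjS B0 v {i | i < j} := by
    intro j i hij
    rcases Nat.lt_or_ge i k with hik | hik
    · rw [hg1 i hik]; exact star_mem_adjS hij
    · rw [hg2 i hik, star_mul, star_mul, star_star]
      exact mul_mem (mul_mem (mem_adjS (show i - k < j by omega)) (le_adjS hUB'))
        (star_mem_adjS hij)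
  have hfree := free_family (B := B0) (n := 2 * k) (g := gfam U0 c c' k) (by
    intro j hj
    have hle : adjS B0 (gfam U0 c c' k) {i | i < j} ≤ adjS B0 v {i | i < j} :=
      adjS_le le_adjS (fun i hi => hgm j i hi) (fun i hi => hgm' j i hi)
    refine IsFree.mono hle ?_
    rcases Nat.lt_or_ge j k with hjk | hjk
    · rw [hg1 j hjk]; exact (hv j hj).2.2
    · rw [hg2 j hjk]
      have hjj : j - k < j := by omega
      refine (hv j hj).2.2.mul_right ?_ ?_ ?_
      · exact mul_mem hU0 (Unitary.star_mem (hvu _ (by omega)))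
      · exact mul_mem (le_adjS hUB) (star_mem_adjS hjj)
      · rw [star_mul, star_star]
        exact mul_mem (mem_adjS hjj) (le_adjS hUB'))
  obtain ⟨W, hW, hWu, hWF⟩ := key_abstract hk0 hU0 c c' (fun j hj => hvu _ (by omega))
    (fun j hj => hvu _ (by omega)) hfree hτX t ht0.le
  rw [hn2X, hnX] at hWF
  have hlow : n2 x ^ 2 / (57 * ‖x‖) < (τ (star X * Fw c c' k W)).re := by
    refine lt_of_lt_of_le ?_ hWF
    have e1 : t / 2 * n2 x ^ 2 - 7 / 2 * t ^ 2 * ‖x‖ * n2 x ^ 2 = n2 x ^ 2 / (56 * ‖x‖) := by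
      rw [ht]; field_simp; norm_num
    rw [e1]
    apply div_lt_div_of_pos_left (by positivity) (by positivity)
    nlinarith
  have hup : (τ (star (W - U0) * (W - U0))).re < ε ^ 2 := by
    rw [← n2_sq]
    exact pow_lt_pow_left₀ (lt_of_le_of_lt hWu hkε) (n2_nonneg _) (by norm_num)
  have ev1 := ((Complex.continuous_re.tendsto _).comp
    (tendsto_τ_seq (star X * Fw c c' k W))).eventually (lt_mem_nhds hlow)
  have ev2 := ((Complex.continuous_re.tendsto _).comp
    (tendsto_τ_seq (star (W - U0) * (W - U0)))).eventually (gt_mem_nhds hup)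
  obtain ⟨n, hn1, hn2⟩ := (ev1.and ev2).exists
  have hWn := unitary_seq hW n
  refine ⟨W n, hWn, ?_, Fw (fun j => c j n) (fun j => c' j n) k (W n), ?_, ?_, ?_⟩
  · have h1 : n2 (W n - u0) ^ 2 < ε ^ 2 := by
      rw [n2_sq]; exact hn2
    exact lt_of_pow_lt_pow_left₀ 2 hε.le h1
  · have hP : ∀ z ∈ P, z ∈ adjU P (W n) := fun z hz =>
      StarAlgebra.subset_adjoin ℂ _ (Or.inl hz)
    refine Fw_mem (fun j hj => hP _ ((hv _ (by omega)).1 n)) (fun j hj => hP _ ?_) ?_
    · exact star_mem ((hv j (by omega)).1 n)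
    · exact StarAlgebra.subset_adjoin ℂ _ (Or.inr rfl)
  · have hu : Fw (fun j => c j n) (fun j => c' j n) k (W n) ∈ unitary A :=
      Fw_mem (fun j hj => (hv _ (by omega)).2.1 n)
        (fun j hj => Unitary.star_mem ((hv _ (by omega)).2.1 n)) hWn
    have := n2_mul_unitary (1 : A) hu
    rw [one_mul, n2_one] at this
    exact this.le
  · have h1 : n2 x ^ 2 / (57 * ‖x‖) < (τ (star x * Fw (fun j => c j n) (fun j => c' j n) k (W n))).re := by
      have := hn1
      simp only [Function.comp_apply, BoundedContinuousFunction.coe_mul, Pi.mul_apply, Fw_apply] at this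
      exact this
    exact h1.le.trans ((le_abs_self _).trans (Complex.abs_re_le_norm _))

end Crest.Agent.GenII1
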