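import Crest.Agent.GenII1.Free
import Crest.Agent.GenII1.Taylor

/-! The key computation, in a C*-algebra with tracial state containing a free family. -/

set_option autoImplicit false

namespace Crest.Agent.GenII1

open Filter Topology

variable {A : Type*} [CStarAlgebra A]

/-- the word `F(w) = ∏_{j<k} c_j w (c'_j)⋆` -/
def Fw (c c' : ℕ → A) (k : ℕ) (w : A) : A :=
  ((List.range k).map (fun j => c j * w * star (c' j))).prod

/-- the family `c'_0, …, c'_{k-1}, e_0, …, e_{k-1}` with `e_j = c_j u₀ (c'_j)⋆` -/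
def gfam (u0 : A) (c c' : ℕ → A) (k : ℕ) : ℕ → A :=
  fun j => if j < k then c' j else c (j - k) * u0 * star (c' (j - k))

/-- prefix products `a_0 ⋯ a_{j-1}` -/
def pre (a : ℕ → A) (j : ℕ) : A := ((List.range j).map a).prod

/-- suffix products `a_j ⋯ a_{k-1}` -/
def suf (a : ℕ → A) (k j : ℕ) : A := ((List.range' j (k - j)).map a).prod

@[simp] theorem pre_zero (a : ℕ → A) : pre a 0 = 1 := by simp [pre]

theorem pre_succ (a : ℕ → A) (j : ℕ) : pre a (j + 1) = pre a j * a j := by
  simp [pre, List.range_succ]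

@[simp] theorem suf_self (a : ℕ → A) (k : ℕ) : suf a k k = 1 := by simp [suf]

theorem suf_lt (a : ℕ → A) {k j : ℕ} (h : j < k) : suf a k j = a j * suf a k (j + 1) := by
  have h1 : k - j = (k - (j + 1)) + 1 := by omega
  rw [suf, h1, List.range'_succ, List.map_cons, List.prod_cons]; rfl

theorem suf_zero (a : ℕ → A) (k : ℕ) : suf a k 0 = pre a k := by
  rw [suf, pre, List.range_eq_range', Nat.sub_zero]

theorem pre_mul_suf (a : ℕ → A) {k j : ℕ} (h : j ≤ k) : pre a j * suf a k j = pre a k := by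
  induction j with
  | zero => rw [pre_zero, one_mul, suf_zero]
  | succ j ih =>
    rw [pre_succ, mul_assoc, ← suf_lt a (by omega : j < k)]
    exact ih (by omega)

theorem pre_mem {S : Type*} [SetLike S A] [SubmonoidClass S A] {s : S} {a : ℕ → A} {j : ℕ}
    (h : ∀ i, i < j → a i ∈ s) : pre a j ∈ s := by
  induction j with
  | zero => rw [pre_zero]; exact one_mem s
  | succ j ih => rw [pre_succ]; exact mul_mem (ih fun i hi => h i (by omega)) (h j (by omega))

theorem suf_mem {S : Type*} [SetLike S A] [SubmonoidClass S A] {s : S} {a : ℕ → A} {k j : ℕ}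
    (h : ∀ i, j ≤ i → i < k → a i ∈ s) : suf a k j ∈ s := by
  rw [suf]
  apply list_prod_mem
  intro x hx
  rw [List.mem_map] at hx
  obtain ⟨i, hi, rfl⟩ := hx
  rw [List.mem_range'_1] at hi
  exact h i hi.1 (by omega)

variable [TracialC A]

theorem exp_mem_closed {S : Subalgebra ℂ A} (hS : IsClosed (S : Set A)) {X : A} (hX : X ∈ S) :
    NormedSpace.exp X ∈ S := by
  have h := NormedSpace.exp_series_hasSum_exp' (𝕂 := ℂ) X
  refine hS.mem_of_tendsto h (Eventually.of_forall fun s => ?_)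
  exact sum_mem fun i _ => S.smul_mem (pow_mem hX i) _

theorem conj_zero_closure {B : Subalgebra ℂ A} {c : A} (hc : IsFree B c) {a : A} (ha : a ∈ B)
    (ha0 : τ a = 0) {Y : A}
    (hY : Y ∈ (Algebra.adjoin ℂ
      ((B : Set A) ∪ {z | ∃ b ∈ B, z = star c * b * c})).topologicalClosure) :
    τ (c * a * star c * Y) = 0 := by
  have hcl : IsClosed {Y : A | τ (c * a * star c * Y) = 0} := by
    have : Continuous fun Y : A => τ (c * a * star c * Y) :=
      (τL A).continuous.comp (continuous_const.mul continuous_id)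
    exact isClosed_eq this continuous_const
  have h2 : ((Algebra.adjoin ℂ
      ((B : Set A) ∪ {z | ∃ b ∈ B, z = star c * b * c})) : Set A) ⊆
      {Y : A | τ (c * a * star c * Y) = 0} := fun Y hY => hc.conj_zero ha ha0 hY
  exact closure_minimal h2 hcl hY


theorem down_ind {P : ℕ → Prop} {k : ℕ} (hk : P k) (h : ∀ j, j < k → P (j + 1) → P j) :
    ∀ j, j ≤ k → P j := by
  intro j hj
  obtain ⟨d, rfl⟩ := Nat.exists_eq_add_of_le hj
  clear hj
  induction d generalizing j with
  | zero => simpa using hk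
  | succ d ih =>
    refine h j (by omega) ?_
    have e1 : j + (d + 1) = j + 1 + d := by omega
    rw [e1] at hk h
    exact ih (j + 1) hk h

/-- The data used in the key computation. -/
structure Cfg (k : ℕ) (x : A) (e c' : ℕ → A) (BB : ℕ → Subalgebra ℂ A) : Prop where
  hk : 0 < k
  he : ∀ j, j < k → e j ∈ unitary A
  hc' : ∀ j, j < k → c' j ∈ unitary A
  hx : ∀ j, j < k → x ∈ BB j
  hx' : ∀ j, j < k → star x ∈ BB j
  me : ∀ j, j < k → ∀ i, i < k → e i ∈ BB j
  me' : ∀ j, j < k → ∀ i, i < k → star (e i) ∈ BB j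
  mc : ∀ j, j < k → ∀ i, i < k → i ≠ j → c' i ∈ BB j
  mc' : ∀ j, j < k → ∀ i, i < k → i ≠ j → star (c' i) ∈ BB j
  free : ∀ j, j < k → IsFree (BB j) (c' j)
  g1 : τ (star x * pre e k) = 0
  g2 : τ (star x * pre e k * (star x * pre e k)) = 0

/-- `ψ_j` -/
noncomputable def psi (k : ℕ) (x : A) (e : ℕ → A) (j : ℕ) : A :=
  star (pre e (j + 1)) * x * star (suf e k (j + 1))

/-- `z_j = Im ψ_j` -/
noncomputable def zz (k : ℕ) (x : A) (e : ℕ → A) (j : ℕ) : A :=
  (Complex.I / 2) • (star (psi k x e j) - psi k x e j)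

/-- `η` -/
noncomputable def eta (k : ℕ) (x : A) (e c' : ℕ → A) : A :=
  ((k : ℂ)⁻¹) • ∑ j ∈ Finset.range k, star (c' j) * zz k x e j * c' j

section cfg

variable {k : ℕ} {x : A} {e c' : ℕ → A} {BB : ℕ → Subalgebra ℂ A}

theorem star_pre_mem {S : Subalgebra ℂ A} {j : ℕ} (h : ∀ i, i < j → star (e i) ∈ S) :
    star (pre e j) ∈ S := by
  induction j with
  | zero => rw [pre_zero, star_one]; exact one_mem S
  | succ j ih =>
    rw [pre_succ, star_mul]; exact mul_mem (h j (by omega)) (ih fun i hi => h i (by omega))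

theorem star_suf_mem {S : Subalgebra ℂ A} (h : ∀ i, i < k → star (e i) ∈ S) :
    ∀ j, j ≤ k → star (suf e k j) ∈ S := by
  apply down_ind
  · rw [suf_self, star_one]; exact one_mem S
  · intro j hj ih
    rw [suf_lt e hj, star_mul]
    exact mul_mem ih (h j hj)

theorem zz_sa (j : ℕ) : IsSelfAdjoint (zz k x e j) := by
  rw [IsSelfAdjoint, zz, star_smul, star_sub, star_star]
  have : star (Complex.I / 2) = -(Complex.I / 2) := by
    simp [neg_div]
  rw [this, neg_smul, ← smul_neg, neg_sub]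

theorem eta_sa : IsSelfAdjoint (eta k x e c') := by
  rw [IsSelfAdjoint, eta, star_smul, star_sum]
  have : star ((k : ℂ)⁻¹) = (k : ℂ)⁻¹ := by simp
  rw [this]
  congr 1
  refine Finset.sum_congr rfl fun j _ => ?_
  rw [star_mul, star_mul, star_star, (zz_sa j).star_eq, mul_assoc]

theorem Cfg.psi_mem (h : Cfg k x e c' BB) {j m : ℕ} (hj : j < k) (hm : m < k) :
    psi k x e j ∈ BB m := by
  refine mul_mem (mul_mem (star_pre_mem fun i hi => h.me' m hm i (by omega)) (h.hx m hm)) ?_
  exact star_suf_mem (fun i hi => h.me' m hm i hi) _ (by omega)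

theorem Cfg.star_psi_mem (h : Cfg k x e c' BB) {j m : ℕ} (hj : j < k) (hm : m < k) :
    star (psi k x e j) ∈ BB m := by
  rw [psi, star_mul, star_mul, star_star, star_star]
  refine mul_mem (suf_mem fun i _ hi => h.me m hm i hi) (mul_mem (h.hx' m hm) ?_)
  exact pre_mem fun i hi => h.me m hm i (by omega)

theorem Cfg.zz_mem (h : Cfg k x e c' BB) {j m : ℕ} (hj : j < k) (hm : m < k) :
    zz k x e j ∈ BB m :=
  (BB m).smul_mem (sub_mem (h.star_psi_mem hj hm) (h.psi_mem hj hm)) _

theorem Cfg.pre_unitary (h : Cfg k x e c' BB) {j : ℕ} (hj : j ≤ k) : pre e j ∈ unitary A :=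
  pre_mem fun i hi => h.he i (by omega)

theorem Cfg.suf_unitary (h : Cfg k x e c' BB) (j : ℕ) : suf e k j ∈ unitary A :=
  suf_mem fun i _ hi => h.he i hi

theorem Cfg.n2_psi (h : Cfg k x e c' BB) {j : ℕ} (hj : j < k) : n2 (psi k x e j) = n2 x := by
  rw [psi, n2_mul_unitary _ (Unitary.star_mem (h.suf_unitary _)),
    n2_unitary_mul (Unitary.star_mem (h.pre_unitary (by omega)))]

theorem Cfg.τ_star_psi (h : Cfg k x e c' BB) {j : ℕ} (hj : j < k) : τ (star (psi k x e j)) = 0 := by
  rw [psi, star_mul, star_mul, star_star, star_star, τ_comm, mul_assoc,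
    pre_mul_suf e (by omega), h.g1]

theorem Cfg.τ_zz (h : Cfg k x e c' BB) {j : ℕ} (hj : j < k) : τ (zz k x e j) = 0 := by
  have h1 : τ (psi k x e j) = 0 := by
    have := τ_star (star (psi k x e j))
    rwa [star_star, h.τ_star_psi hj, map_zero] at this
  rw [zz, map_smul, map_sub, h.τ_star_psi hj, h1, sub_zero, smul_zero]

theorem Cfg.τ_star_psi_sq (h : Cfg k x e c' BB) {j : ℕ} (hj : j < k) :
    τ (star (psi k x e j) * star (psi k x e j)) = 0 := by
  rw [psi, star_mul, star_mul, star_star, star_star]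
  have e1 : suf e k (j + 1) * (star x * pre e (j + 1)) * (suf e k (j + 1) * (star x * pre e (j + 1)))
      = suf e k (j + 1) * (star x * (pre e (j + 1) * suf e k (j + 1)) *
        (star x * pre e (j + 1))) := by noncomm_ring
  rw [e1, τ_comm]
  have e2 : star x * (pre e (j + 1) * suf e k (j + 1)) * (star x * pre e (j + 1)) *
      suf e k (j + 1) = star x * (pre e (j + 1) * suf e k (j + 1)) *
        (star x * (pre e (j + 1) * suf e k (j + 1))) := by noncomm_ring
  rw [e2, pre_mul_suf e (by omega), h.g2]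

theorem Cfg.n2_zz_sq (h : Cfg k x e c' BB) {j : ℕ} (hj : j < k) :
    n2 (zz k x e j) ^ 2 = n2 x ^ 2 / 2 := by
  have h1 := h.τ_star_psi_sq hj
  have h2 : τ (psi k x e j * psi k x e j) = 0 := by
    have := τ_star (star (psi k x e j) * star (psi k x e j))
    rwa [star_mul, star_star, h1, map_zero] at this
  have h3 := h.n2_psi hj
  have h4 : n2 (psi k x e j) ^ 2 = (τ (star (psi k x e j) * psi k x e j)).re := n2_sq _
  rw [h3] at h4
  have h5 : (τ (psi k x e j * star (psi k x e j))).re = n2 x ^ 2 := by rw [τ_comm, h4]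
  have e0 : n2 (zz k x e j) = (1 / 2) * n2 (star (psi k x e j) - psi k x e j) := by
    rw [zz, n2_smul]; simp
  rw [e0, mul_pow, n2_sq]
  have e1 : star (star (psi k x e j) - psi k x e j) * (star (psi k x e j) - psi k x e j)
      = psi k x e j * star (psi k x e j) - psi k x e j * psi k x e j
        - star (psi k x e j) * star (psi k x e j) + star (psi k x e j) * psi k x e j := by
    rw [star_sub, star_star]; noncomm_ring
  rw [e1]
  simp only [map_add, map_sub, Complex.add_re, Complex.sub_re]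
  rw [h1, h2, h5, ← h4]
  simp; ring

theorem Cfg.n2_zz_le (h : Cfg k x e c' BB) {j : ℕ} (hj : j < k) : n2 (zz k x e j) ≤ n2 x := by
  have := h.n2_zz_sq hj
  nlinarith [n2_nonneg x, n2_nonneg (zz k x e j)]

/-- `Re (i τ(ψ⋆ z)) = ‖x‖₂² / 2` -/
theorem Cfg.re_psi_zz (h : Cfg k x e c' BB) {j : ℕ} (hj : j < k) :
    (Complex.I * τ (star (psi k x e j) * zz k x e j)).re = n2 x ^ 2 / 2 := by
  have h1 := h.τ_star_psi_sq hj
  have h4 : τ (star (psi k x e j) * psi k x e j) = ((n2 x ^ 2 : ℝ) : ℂ) := by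
    rw [τ_star_mul_self, h.n2_psi hj]
  rw [zz, mul_smul_comm, map_smul, mul_sub, map_sub, h1, h4, zero_sub, smul_eq_mul]
  have e1 : Complex.I * (Complex.I / 2 * -((n2 x ^ 2 : ℝ) : ℂ)) = ((n2 x ^ 2 / 2 : ℝ) : ℂ) := by
    push_cast
    linear_combination (-(n2 x : ℂ) ^ 2 / 2) * Complex.I_mul_I
  rw [e1, Complex.ofReal_re]

theorem Cfg.conj_zz_mem (h : Cfg k x e c' BB) {j m : ℕ} (hj : j < k) (hm : m < k) (hjm : j ≠ m) :
    star (c' j) * zz k x e j * c' j ∈ BB m :=
  mul_mem (mul_mem (h.mc' m hm j hj hjm) (h.zz_mem hj hm)) (h.mc m hm j hj hjm)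

theorem Cfg.cross (h : Cfg k x e c' BB) {j : ℕ} (hj : j < k) {y : A} (hy : y ∈ BB j) :
    τ (star (c' j) * zz k x e j * c' j * y) = 0 := by
  have h1 : RW (BB j) (c' j) false (1 * pw (c' j) false) := RW.base false 1 (one_mem _)
  have h2 := RW.flip false _ _ h1 (h.zz_mem hj hj) (h.τ_zz hj)
  have h3 := (h.free j hj).zero _ _ _ h2 hy
  simpa using h3

/-- `‖η‖₂² = ‖x‖₂² / (2k)` -/
theorem Cfg.n2_eta_sq (h : Cfg k x e c' BB) : n2 (eta k x e c') ^ 2 = n2 x ^ 2 / (2 * k) := by
  have hk : (k : ℂ) ≠ 0 := by exact_mod_cast h.hk.ne'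
  have hk' : (k : ℝ) ≠ 0 := by exact_mod_cast h.hk.ne'
  have e1 : τ (eta k x e c' * eta k x e c') = ((n2 x ^ 2 / (2 * k) : ℝ) : ℂ) := by
    rw [eta, smul_mul_smul_comm, Finset.sum_mul_sum, map_smul, map_sum]
    have e2 : ∀ i ∈ Finset.range k, τ (∑ j ∈ Finset.range k,
        (star (c' i) * zz k x e i * c' i) * (star (c' j) * zz k x e j * c' j))
        = ((n2 x ^ 2 / 2 : ℝ) : ℂ) := by
      intro i hi
      rw [Finset.mem_range] at hi
      rw [map_sum, Finset.sum_eq_single i]
      · have e3 : (star (c' i) * zz k x e i * c' i) * (star (c' i) * zz k x e i * c' i)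
            = star (c' i) * (zz k x e i * (c' i * star (c' i)) * zz k x e i * c' i) := by
          noncomm_ring
        rw [e3, Unitary.mul_star_self_of_mem (h.hc' i hi), mul_one, τ_comm]
        have e4 : zz k x e i * zz k x e i * c' i * star (c' i)
            = zz k x e i * zz k x e i * (c' i * star (c' i)) := by noncomm_ring
        rw [e4, Unitary.mul_star_self_of_mem (h.hc' i hi), mul_one]
        have e5 := τ_star_mul_self (zz k x e i)
        rw [(zz_sa i).star_eq, h.n2_zz_sq hi] at e5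
        exact e5
      · intro j hj hji
        rw [Finset.mem_range] at hj
        exact h.cross hi (h.conj_zz_mem hj hi hji)
      · intro hi'
        exact absurd (Finset.mem_range.2 hi) hi'
    rw [Finset.sum_congr rfl e2, Finset.sum_const, Finset.card_range, nsmul_eq_mul, smul_eq_mul]
    push_cast
    field_simp
  have e2 := τ_star_mul_self (eta k x e c')
  rw [eta_sa.star_eq, e1] at e2
  exact (Complex.ofReal_inj.1 e2).symm

theorem Cfg.n2_eta_sq_le (h : Cfg k x e c' BB) : n2 (eta k x e c') ^ 2 ≤ n2 x ^ 2 / k := by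
  have hk' : (0 : ℝ) < k := by exact_mod_cast h.hk
  rw [h.n2_eta_sq]
  apply div_le_div_of_nonneg_left (sq_nonneg _) hk'
  linarith

/-- the algebra used for freeness of `c'_j BB_j c'_j⋆` -/
def CC (BB : ℕ → Subalgebra ℂ A) (c' : ℕ → A) (j : ℕ) : Subalgebra ℂ A :=
  (Algebra.adjoin ℂ
      ((BB j : Set A) ∪ {z | ∃ b ∈ BB j, z = star (c' j) * b * c' j})).topologicalClosure

theorem BB_le_CC (j : ℕ) : BB j ≤ CC BB c' j := by
  intro z hz
  apply Subalgebra.le_topologicalClosure
  exact Algebra.subset_adjoin (Or.inl hz)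

theorem conj_mem_CC {j : ℕ} {b : A} (hb : b ∈ BB j) : star (c' j) * b * c' j ∈ CC BB c' j := by
  apply Subalgebra.le_topologicalClosure
  exact Algebra.subset_adjoin (Or.inr ⟨b, hb, rfl⟩)

theorem CC_closed (j : ℕ) : IsClosed (CC BB c' j : Set A) :=
  Subalgebra.isClosed_topologicalClosure _

theorem Cfg.eta_mem (h : Cfg k x e c' BB) {m : ℕ} (hm : m < k) : eta k x e c' ∈ CC BB c' m := by
  refine Subalgebra.smul_mem _ (sum_mem fun j hj => ?_) _
  rw [Finset.mem_range] at hj
  by_cases hjm : j = m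
  · subst hjm
    exact conj_mem_CC (h.zz_mem hj hj)
  · exact BB_le_CC _ (h.conj_zz_mem hj hm hjm)

/-- `e^{itη}` -/
noncomputable def PE (t : ℝ) (k : ℕ) (x : A) (e c' : ℕ → A) : A :=
  NormedSpace.exp (t • (Complex.I • eta k x e c'))

theorem PE_unitary (t : ℝ) : PE t k x e c' ∈ unitary A := exp_unitary eta_sa t

theorem Cfg.PE_mem (h : Cfg k x e c' BB) (t : ℝ) {m : ℕ} (hm : m < k) :
    PE t k x e c' ∈ CC BB c' m := by
  apply exp_mem_closed (CC_closed m)
  have : t • (Complex.I • eta k x e c') = (t : ℂ) • (Complex.I • eta k x e c') :=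
    (Complex.coe_smul _ _).symm
  rw [this]
  exact Subalgebra.smul_mem _ (Subalgebra.smul_mem _ (h.eta_mem hm) _) _

/-- `X_j` -/
noncomputable def XX (t : ℝ) (k : ℕ) (x : A) (e c' : ℕ → A) (j : ℕ) : A :=
  c' j * PE t k x e c' * star (c' j)

/-- `e_j X_j` -/
noncomputable def eX (t : ℝ) (k : ℕ) (x : A) (e c' : ℕ → A) (j : ℕ) : A :=
  e j * XX t k x e c' j

theorem Cfg.XX_unitary (h : Cfg k x e c' BB) (t : ℝ) {j : ℕ} (hj : j < k) :
    XX t k x e c' j ∈ unitary A :=
  mul_mem (mul_mem (h.hc' j hj) (PE_unitary t)) (Unitary.star_mem (h.hc' j hj))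

theorem Cfg.eX_unitary (h : Cfg k x e c' BB) (t : ℝ) {j : ℕ} (hj : j < k) :
    eX t k x e c' j ∈ unitary A := mul_mem (h.he j hj) (h.XX_unitary t hj)

theorem Cfg.sufX_unitary (h : Cfg k x e c' BB) (t : ℝ) (j : ℕ) :
    suf (eX t k x e c') k j ∈ unitary A :=
  suf_mem fun _ _ hi => h.eX_unitary t hi

theorem Cfg.XX_mem (h : Cfg k x e c' BB) (t : ℝ) {j m : ℕ} (hj : j < k) (hm : m < k)
    (hjm : j ≠ m) : XX t k x e c' j ∈ CC BB c' m :=
  mul_mem (mul_mem (BB_le_CC _ (h.mc m hm j hj hjm)) (h.PE_mem t hm))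
    (BB_le_CC _ (h.mc' m hm j hj hjm))

theorem Cfg.sufX_mem (h : Cfg k x e c' BB) (t : ℝ) {m : ℕ} (hm : m < k) :
    suf (eX t k x e c') k (m + 1) ∈ CC BB c' m :=
  suf_mem fun i hi hi' =>
    mul_mem (BB_le_CC _ (h.me m hm i hi')) (h.XX_mem t hi' hm (by omega))

/-- the first-order estimate -/
theorem Cfg.step (h : Cfg k x e c' BB) {t : ℝ} (ht : 0 ≤ t) {j : ℕ} (hj : j < k) (a b : A)
    (hab : b * a ∈ CC BB c' j) {α : ℝ} (ha : ‖a‖ ≤ α) (hb : ‖b‖ ≤ 1) :
    ‖τ (a * (XX t k x e c' j - 1) * b) - ((t / k : ℝ) : ℂ) * (Complex.I * τ (a * zz k x e j * b))‖ ≤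
      t ^ 2 / 2 * (α * (n2 x ^ 2 / k)) := by
  have hk : (k : ℂ) ≠ 0 := by exact_mod_cast h.hk.ne'
  have hα : 0 ≤ α := (norm_nonneg _).trans ha
  set η := eta k x e c' with hη
  set P := PE t k x e c' with hP
  have hcu := h.hc' j hj
  -- the free part
  have hfree : τ (a * (c' j * (∑ l ∈ (Finset.range k).erase j,
      star (c' l) * zz k x e l * c' l) * star (c' j)) * b) = 0 := by
    have h1 := conj_zero_closure (h.free j hj) (a := ∑ l ∈ (Finset.range k).erase j,
      star (c' l) * zz k x e l * c' l) (sum_mem fun l hl => by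
        rw [Finset.mem_erase, Finset.mem_range] at hl
        exact h.conj_zz_mem hl.2 hj hl.1) (by
        rw [map_sum]
        refine Finset.sum_eq_zero fun l hl => ?_
        rw [Finset.mem_erase, Finset.mem_range] at hl
        have := h.cross hl.2 (one_mem (BB l))
        rwa [mul_one] at this) hab
    rw [← h1, mul_assoc, τ_comm, mul_assoc, mul_assoc, mul_assoc]
  have hmain : τ (a * (c' j * η * star (c' j)) * b) = (k : ℂ)⁻¹ * τ (a * zz k x e j * b) := by
    have e1 : η = (k : ℂ)⁻¹ • (star (c' j) * zz k x e j * c' j +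
        ∑ l ∈ (Finset.range k).erase j, star (c' l) * zz k x e l * c' l) := by
      rw [hη, eta, ← Finset.add_sum_erase _ _ (Finset.mem_range.2 hj)]
    have e2 : a * (c' j * η * star (c' j)) * b = (k : ℂ)⁻¹ •
        (a * ((c' j * star (c' j)) * zz k x e j * (c' j * star (c' j))) * b +
        a * (c' j * (∑ l ∈ (Finset.range k).erase j,
      star (c' l) * zz k x e l * c' l) * star (c' j)) * b) := by
      rw [e1]
      simp only [mul_smul_comm, smul_mul_assoc, mul_add, add_mul, mul_assoc]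
    rw [e2, map_smul, map_add, hfree, add_zero, Unitary.mul_star_self_of_mem hcu, one_mul, mul_one,
      smul_eq_mul]
  have e3 : a * (XX t k x e c' j - 1) * b = (a * c' j) * (P - 1 - t • (Complex.I • η)) *
      (star (c' j) * b) + ((t : ℂ) * Complex.I) • (a * (c' j * η * star (c' j)) * b) := by
    have e4 : (1 : A) = c' j * star (c' j) := (Unitary.mul_star_self_of_mem hcu).symm
    have e5 : t • (Complex.I • η) = ((t : ℂ) * Complex.I) • η := by
      rw [← smul_smul]; exact (Complex.coe_smul _ _).symm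
    rw [e5, XX, ← hP]
    nth_rewrite 1 [e4]
    simp only [mul_smul_comm, smul_mul_assoc, mul_sub, sub_mul, mul_one, mul_assoc]
    abel
  have e6 : τ (a * (XX t k x e c' j - 1) * b) -
      ((t / k : ℝ) : ℂ) * (Complex.I * τ (a * zz k x e j * b))
      = τ ((a * c' j) * (P - 1 - t • (Complex.I • η)) * (star (c' j) * b)) := by
    rw [e3, map_add, map_smul, hmain, smul_eq_mul]
    push_cast
    field_simp
    ring
  rw [e6]
  refine (exp_taylor eta_sa ht _ _).trans ?_
  refine mul_le_mul_of_nonneg_left ?_ (by positivity)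
  have n1 : ‖a * c' j‖ ≤ α := by
    refine (norm_mul_le _ _).trans ?_
    calc ‖a‖ * ‖c' j‖ ≤ α * 1 := mul_le_mul ha (norm_unitary_le hcu) (norm_nonneg _) hα
      _ = α := mul_one _
  have n2' : ‖star (c' j) * b‖ ≤ 1 := by
    refine (norm_mul_le _ _).trans ?_
    rw [norm_star]
    calc ‖c' j‖ * ‖b‖ ≤ 1 * 1 := mul_le_mul (norm_unitary_le hcu) hb (norm_nonneg _) zero_le_one
      _ = 1 := mul_one _
  calc ‖a * c' j‖ * ‖star (c' j) * b‖ * n2 η ^ 2 ≤ (α * 1) * (n2 x ^ 2 / k) := by
        apply mul_le_mul (mul_le_mul n1 n2' (norm_nonneg _) hα) h.n2_eta_sq_le (sq_nonneg _)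
        linarith
    _ = α * (n2 x ^ 2 / k) := by rw [mul_one]

theorem n2_sub_sq_of_unitary {u v : A} (hu : u ∈ unitary A) (hv : v ∈ unitary A) :
    n2 (u - v) ^ 2 = -2 * (τ (star v * (u - v))).re := by
  rw [n2_sq]
  have e1 : star (u - v) * (u - v) = star u * u - star u * v - star v * u + star v * v := by
    rw [star_sub]; noncomm_ring
  have e2 : star v * (u - v) = star v * u - star v * v := by noncomm_ring
  have e3 : (τ (star u * v)).re = (τ (star v * u)).re := by
    have := τ_star (star v * u)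
    rw [star_mul, star_star] at this
    rw [this, Complex.conj_re]
  rw [e1, e2]
  simp only [map_add, map_sub, Complex.add_re, Complex.sub_re]
  rw [e3, Unitary.star_mul_self_of_mem hu, Unitary.star_mul_self_of_mem hv, τ_one,
    Complex.one_re]
  ring

/-- Step 1: `F` is `3 t ‖x‖₂`-close to the word at `t = 0`. -/
theorem Cfg.step1 (h : Cfg k x e c' BB) {t : ℝ} (ht : 0 ≤ t) :
    ∀ j, j ≤ k → ‖τ (star (suf e k j) * (suf (eX t k x e c') k j - suf e k j))‖ ≤
      ((k - j : ℝ) / k) * (7 / 2 * t ^ 2 * n2 x ^ 2) := by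
  have hk' : (0 : ℝ) < k := by exact_mod_cast h.hk
  apply down_ind
  · simp
  · intro j hj ih
    set N := n2 x with hN
    have hN0 : 0 ≤ N := n2_nonneg _
    set F := suf (eX t k x e c') k (j + 1) with hF
    set E := suf e k (j + 1) with hE
    have hFu : F ∈ unitary A := h.sufX_unitary t _
    have hEu : E ∈ unitary A := h.suf_unitary _
    have hD : n2 (F - E) ≤ 3 * t * N := by
      have h1 := n2_sub_sq_of_unitary hFu hEu
      have h2 := (abs_le.1 ((Complex.abs_re_le_norm _).trans ih)).1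
      have h3 : ((k - (j + 1 : ℕ) : ℝ) / k) ≤ 1 := by
        rw [div_le_one hk']; push_cast; linarith [(Nat.cast_nonneg j : (0 : ℝ) ≤ j)]
      have h4 : ((k - (j + 1 : ℕ) : ℝ) / k) * (7 / 2 * t ^ 2 * N ^ 2) ≤ 7 / 2 * t ^ 2 * N ^ 2 := by
        have : 0 ≤ 7 / 2 * t ^ 2 * N ^ 2 := by positivity
        nlinarith
      have h5 : n2 (F - E) ^ 2 ≤ (3 * t * N) ^ 2 := by
        rw [h1]; nlinarith [sq_nonneg (t * N)]
      exact (abs_le_of_sq_le_sq' h5 (by positivity)).2
    have hej := h.he j hj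
    have e1 : star (suf e k j) * (suf (eX t k x e c') k j - suf e k j) =
        star E * (F - E) + star E * (XX t k x e c' j - 1) * F := by
      rw [suf_lt e hj, suf_lt _ hj, ← hE, ← hF, star_mul, eX]
      have : star E * star (e j) * (e j * XX t k x e c' j * F - e j * E) =
          star E * (star (e j) * e j) * (XX t k x e c' j * F - E) := by noncomm_ring
      rw [this, Unitary.star_mul_self_of_mem hej]
      noncomm_ring
    have hst := h.step ht hj (star E) F (mul_mem (h.sufX_mem t hj)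
      (BB_le_CC _ (star_suf_mem (fun i hi => h.me' j hj i hi) _ (by omega))))
      (α := 1) (by rw [norm_star]; exact norm_unitary_le hEu) (norm_unitary_le hFu)
    have hz : ‖τ (star E * zz k x e j * F)‖ ≤ N * (3 * t * N) := by
      have e2 : τ (star E * zz k x e j * F) = τ ((star E * zz k x e j) * (F - E)) := by
        have : τ ((star E * zz k x e j) * E) = 0 := by
          rw [τ_comm, ← mul_assoc, Unitary.mul_star_self_of_mem hEu, one_mul, h.τ_zz hj]
        rw [mul_sub, map_sub, this, sub_zero]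
      rw [e2]
      refine (norm_τ_mul_le _ _).trans ?_
      refine mul_le_mul ?_ hD (n2_nonneg _) hN0
      rw [n2_unitary_mul (Unitary.star_mem hEu)]
      exact h.n2_zz_le hj
    have hnorm : ‖((t / k : ℝ) : ℂ) * (Complex.I * τ (star E * zz k x e j * F))‖ ≤
        t / k * (N * (3 * t * N)) := by
      rw [norm_mul, norm_mul, Complex.norm_I, one_mul, Complex.norm_real, Real.norm_eq_abs,
        abs_of_nonneg (by positivity)]
      exact mul_le_mul_of_nonneg_left hz (by positivity)
    rw [e1, map_add]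
    refine (norm_add_le _ _).trans ?_
    have h6 : ‖τ (star E * (XX t k x e c' j - 1) * F)‖ ≤
        t ^ 2 / 2 * (1 * (N ^ 2 / k)) + t / k * (N * (3 * t * N)) := by
      have := norm_add_le (τ (star E * (XX t k x e c' j - 1) * F) -
        ((t / k : ℝ) : ℂ) * (Complex.I * τ (star E * zz k x e j * F)))
        (((t / k : ℝ) : ℂ) * (Complex.I * τ (star E * zz k x e j * F)))
      rw [sub_add_cancel] at this
      linarith
    refine (add_le_add ih h6).trans (le_of_eq ?_)
    push_cast
    field_simp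
    ring

/-- Step 2 -/
theorem Cfg.step2 (h : Cfg k x e c' BB) {t : ℝ} (ht : 0 ≤ t) :
    ∀ j, j ≤ k → ((k - j : ℝ) / k) * (t / 2 * n2 x ^ 2 - 7 / 2 * t ^ 2 * ‖x‖ * n2 x ^ 2) ≤
      (τ (star x * pre e j * suf (eX t k x e c') k j)).re := by
  have hk' : (0 : ℝ) < k := by exact_mod_cast h.hk
  apply down_ind
  · simp [h.g1]
  · intro j hj ih
    set N := n2 x with hN
    have hN0 : 0 ≤ N := n2_nonneg _
    set F := suf (eX t k x e c') k (j + 1) with hF
    set E := suf e k (j + 1) with hE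
    set Q := pre e (j + 1) with hQ
    have hFu : F ∈ unitary A := h.sufX_unitary t _
    have hEu : E ∈ unitary A := h.suf_unitary _
    have hQu : Q ∈ unitary A := h.pre_unitary (by omega)
    have hD : n2 (F - E) ≤ 3 * t * N := by
      have ih := h.step1 ht (j + 1) (by omega)
      have h1 := n2_sub_sq_of_unitary hFu hEu
      have h2 := (abs_le.1 ((Complex.abs_re_le_norm _).trans ih)).1
      have h3 : ((k - (j + 1 : ℕ) : ℝ) / k) ≤ 1 := by
        rw [div_le_one hk']; push_cast; linarith [(Nat.cast_nonneg j : (0 : ℝ) ≤ j)]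
      have h4 : ((k - (j + 1 : ℕ) : ℝ) / k) * (7 / 2 * t ^ 2 * N ^ 2) ≤ 7 / 2 * t ^ 2 * N ^ 2 := by
        have : 0 ≤ 7 / 2 * t ^ 2 * N ^ 2 := by positivity
        nlinarith
      have h5 : n2 (F - E) ^ 2 ≤ (3 * t * N) ^ 2 := by
        rw [h1]; nlinarith [sq_nonneg (t * N)]
      exact (abs_le_of_sq_le_sq' h5 (by positivity)).2
    have e1 : star x * pre e j * suf (eX t k x e c') k j =
        star x * Q * F + star x * Q * (XX t k x e c' j - 1) * F := by
      rw [suf_lt _ hj, ← hF, hQ, pre_succ, eX]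
      noncomm_ring
    have hnx : ‖star x * Q‖ ≤ ‖x‖ := by
      refine (norm_mul_le _ _).trans ?_
      rw [norm_star]
      calc ‖x‖ * ‖Q‖ ≤ ‖x‖ * 1 := mul_le_mul_of_nonneg_left (norm_unitary_le hQu) (norm_nonneg _)
        _ = ‖x‖ := mul_one _
    have hst := h.step ht hj (star x * Q) F (mul_mem (h.sufX_mem t hj)
      (BB_le_CC _ (mul_mem (h.hx' j hj) (pre_mem fun i hi => h.me j hj i (by omega)))))
      hnx (norm_unitary_le hFu)
    -- main term
    have hm : N ^ 2 / 2 - ‖x‖ * (N * (3 * t * N)) ≤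
        (Complex.I * τ (star x * Q * zz k x e j * F)).re := by
      have e2 : τ (star x * Q * zz k x e j * F) = τ (star (psi k x e j) * zz k x e j) +
          τ ((star x * Q * zz k x e j) * (F - E)) := by
        have : τ (star (psi k x e j) * zz k x e j) = τ (star x * Q * zz k x e j * E) := by
          rw [psi, star_mul, star_mul, star_star, star_star, ← hE, ← hQ, mul_assoc, τ_comm]
        rw [this, mul_sub, map_sub]
        ring
      rw [e2, mul_add, Complex.add_re, h.re_psi_zz hj]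
      have h7 : ‖Complex.I * τ ((star x * Q * zz k x e j) * (F - E))‖ ≤
          ‖x‖ * (N * (3 * t * N)) := by
        rw [norm_mul, Complex.norm_I, one_mul]
        refine (norm_τ_mul_le _ _).trans ?_
        rw [← mul_assoc]
        refine mul_le_mul ?_ hD (n2_nonneg _) (by positivity)
        refine (n2_mul_le_left _ _).trans ?_
        exact mul_le_mul hnx (h.n2_zz_le hj) (n2_nonneg _) (norm_nonneg _)
      have h8 := (abs_le.1 ((Complex.abs_re_le_norm _).trans h7)).1
      linarith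
    have h9 := (abs_le.1 ((Complex.abs_re_le_norm _).trans hst)).1
    rw [Complex.sub_re, Complex.re_ofReal_mul] at h9
    have h10 : t / k * (N ^ 2 / 2 - ‖x‖ * (N * (3 * t * N))) ≤
        t / k * (Complex.I * τ (star x * Q * zz k x e j * F)).re :=
      mul_le_mul_of_nonneg_left hm (by positivity)
    rw [e1, map_add, Complex.add_re]
    have h11 : ((k - j : ℝ) / k) * (t / 2 * N ^ 2 - 7 / 2 * t ^ 2 * ‖x‖ * N ^ 2) =
        ((k - (j + 1 : ℕ) : ℝ) / k) * (t / 2 * N ^ 2 - 7 / 2 * t ^ 2 * ‖x‖ * N ^ 2) +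
        (t / k * (N ^ 2 / 2 - ‖x‖ * (N * (3 * t * N))) - t ^ 2 / 2 * (‖x‖ * (N ^ 2 / k))) := by
      push_cast
      field_simp
      ring
    rw [h11]
    linarith

end cfg

/-- Key lemma, abstract form: `w = u₀ exp(i t η)`, `η = (1/k) ∑_j (c'_j)⋆ z_j c'_j`,
`z_j = Im (E_j⋆ x E'_j⋆)`, `E_j = e_0 ⋯ e_j`, `E'_j = e_{j+1} ⋯ e_{k-1}`. -/
theorem key_abstract {k : ℕ} (hk : 0 < k) {u0 x : A} (hu0 : u0 ∈ unitary A) (c c' : ℕ → A)
    (hc : ∀ j, j < k → c j ∈ unitary A) (hc' : ∀ j, j < k → c' j ∈ unitary A)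
    (hfree : ∀ i, i < 2 * k →
      IsFree (adjS (Algebra.adjoin ℂ {u0, star u0, x, star x}) (gfam u0 c c' k)
        {j | j < 2 * k ∧ j ≠ i}) (gfam u0 c c' k i))
    (hx : τ x = 0) (t : ℝ) (ht : 0 ≤ t) :
    ∃ w ∈ unitary A, n2 (w - u0) ≤ t * n2 x / Real.sqrt k ∧
      t / 2 * n2 x ^ 2 - 7 / 2 * t ^ 2 * ‖x‖ * n2 x ^ 2 ≤ (τ (star x * Fw c c' k w)).re := by
  classical
  set g := gfam u0 c c' k with hg
  set B0 : Subalgebra ℂ A := Algebra.adjoin ℂ {u0, star u0, x, star x} with hB0
  let e : ℕ → A := fun j => c j * u0 * star (c' j)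
  let BB : ℕ → Subalgebra ℂ A := fun i => adjS B0 g {j | j < 2 * k ∧ j ≠ i}
  have hgc : ∀ j, j < k → g j = c' j := fun j hj => by rw [hg, gfam, if_pos hj]
  have hge : ∀ j, g (k + j) = e j := fun j => by
    rw [hg, gfam, if_neg (by omega), Nat.add_sub_cancel_left]
  have hB : ∀ i, B0 ≤ BB i := fun i z hz => Algebra.subset_adjoin (Or.inl hz)
  have hgm : ∀ i j, j < 2 * k → j ≠ i → g j ∈ BB i := fun i j h1 h2 =>
    Algebra.subset_adjoin (Or.inr ⟨j, ⟨h1, h2⟩, Or.inl rfl⟩)
  have hgm' : ∀ i j, j < 2 * k → j ≠ i → star (g j) ∈ BB i := fun i j h1 h2 =>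
    Algebra.subset_adjoin (Or.inr ⟨j, ⟨h1, h2⟩, Or.inr rfl⟩)
  have hxB : x ∈ B0 := Algebra.subset_adjoin (by simp)
  have hxB' : star x ∈ B0 := Algebra.subset_adjoin (by simp)
  have hlast : IsFree (BB (2 * k - 1)) (e (k - 1)) := by
    have := hfree (2 * k - 1) (by omega)
    have e1 : 2 * k - 1 = k + (k - 1) := by omega
    rw [show g (2 * k - 1) = e (k - 1) by rw [e1, hge]] at this
    exact this
  have hpre : pre e k = pre e (k - 1) * e (k - 1) := by
    have := pre_succ e (k - 1)
    rwa [Nat.sub_add_cancel hk] at this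
  have hpm : star x * pre e (k - 1) ∈ BB (2 * k - 1) := by
    refine mul_mem (hB _ hxB') (pre_mem fun i hi => ?_)
    rw [← hge]
    exact hgm _ _ (by omega) (by omega)
  have hrw : RW (BB (2 * k - 1)) (e (k - 1)) true (star x * pre e k) := by
    have := RW.base (B := BB (2 * k - 1)) (c := e (k - 1)) true _ hpm
    rwa [pw_true, mul_assoc, ← hpre] at this
  have hrw2 : RW (BB (2 * k - 1)) (e (k - 1)) true (star x * pre e k * (star x * pre e k)) := by
    have := RW.same true _ _ hrw hpm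
    rw [pw_true, mul_assoc (star x * pre e k), mul_assoc (star x) (pre e (k - 1)), ← hpre] at this
    exact this
  have cfg : Cfg k x e c' BB :=
    { hk := hk
      he := fun j hj => mul_mem (mul_mem (hc j hj) hu0) (Unitary.star_mem (hc' j hj))
      hc' := hc'
      hx := fun j _ => hB j hxB
      hx' := fun j _ => hB j hxB'
      me := fun j hj i hi => by rw [← hge]; exact hgm _ _ (by omega) (by omega)
      me' := fun j hj i hi => by rw [← hge]; exact hgm' _ _ (by omega) (by omega)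
      mc := fun j hj i hi hij => by rw [← hgc i hi]; exact hgm _ _ (by omega) hij
      mc' := fun j hj i hi hij => by rw [← hgc i hi]; exact hgm' _ _ (by omega) hij
      free := fun j hj => by
        have := hfree j (by omega)
        rwa [hgc j hj] at this
      g1 := by
        have := hlast.zero _ _ 1 hrw (one_mem _)
        rwa [mul_one] at this
      g2 := by
        have := hlast.zero _ _ 1 hrw2 (one_mem _)
        rwa [mul_one] at this }
  refine ⟨u0 * PE t k x e c', mul_mem hu0 (PE_unitary t), ?_, ?_⟩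
  · have e1 : u0 * PE t k x e c' - u0 = u0 * (PE t k x e c' - 1) := by noncomm_ring
    rw [e1, n2_unitary_mul hu0]
    refine (n2_exp_sub_one eta_sa ht).trans ?_
    rw [mul_div_assoc]
    refine mul_le_mul_of_nonneg_left ?_ ht
    have hk' : (0 : ℝ) < k := by exact_mod_cast hk
    have h2 : n2 (eta k x e c') ^ 2 ≤ (n2 x / Real.sqrt k) ^ 2 := by
      rw [div_pow, Real.sq_sqrt hk'.le]
      exact cfg.n2_eta_sq_le
    exact (abs_le_of_sq_le_sq' h2 (div_nonneg (n2_nonneg _) (Real.sqrt_nonneg _))).2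
  · have h2 := cfg.step2 ht 0 (Nat.zero_le _)
    have hk' : (k : ℝ) ≠ 0 := by exact_mod_cast hk.ne'
    rw [pre_zero, mul_one, Nat.cast_zero, sub_zero, div_self hk', one_mul, suf_zero] at h2
    have e1 : Fw c c' k (u0 * PE t k x e c') = pre (eX t k x e c') k := by
      rw [Fw, pre]
      congr 1
      apply List.map_congr_left
      intro j hj
      rw [List.mem_range] at hj
      change _ = (c j * u0 * star (c' j)) * (c' j * PE t k x e c' * star (c' j))
      have : c j * u0 * star (c' j) * (c' j * PE t k x e c' * star (c' j)) =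
          c j * u0 * (star (c' j) * c' j) * PE t k x e c' * star (c' j) := by noncomm_ring
      rw [this, Unitary.star_mul_self_of_mem (hc' j hj), mul_one]
      simp only [mul_assoc]
    rw [e1]
    exact h2

end Crest.Agent.GenII1
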