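import Crest.Agent.GenII1.Quant

/-! Local quantization in corners. -/

set_option autoImplicit false

namespace Crest.Agent.GenII1

open Filter Topology

section signs

variable {E : Type*} [SeminormedAddCommGroup E] [InnerProductSpace ℂ E]
variable {ι : Type*} [Fintype ι] [DecidableEq ι]

/-- sign of a boolean -/
def lqSg (b : Bool) : ℂ := if b then 1 else -1

lemma lqSg_sq (b : Bool) : lqSg b * lqSg b = 1 := by cases b <;> simp [lqSg]

lemma lqStar_sg (b : Bool) : star (lqSg b) = lqSg b := by cases b <;> simp [lqSg]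

lemma lqSg_not (b : Bool) : lqSg (!b) = - lqSg b := by cases b <;> simp [lqSg]

/-- lqFlip coordinate `i` -/
def lqFlip (i : ι) (θ : ι → Bool) : ι → Bool := Function.update θ i (!(θ i))

lemma lqFlip_same (i : ι) (θ : ι → Bool) : lqFlip i θ i = !(θ i) := by simp [lqFlip]

lemma lqFlip_ne {i j : ι} (h : j ≠ i) (θ : ι → Bool) : lqFlip i θ j = θ j := by
  simp [lqFlip, h]

lemma lqFlip_flip (i : ι) (θ : ι → Bool) : lqFlip i (lqFlip i θ) = θ := by
  funext j
  by_cases h : j = i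
  · subst h; simp [lqFlip]
  · rw [lqFlip_ne h, lqFlip_ne h]

/-- the lqFlip as an equivalence -/
def lqFlipEquiv (i : ι) : (ι → Bool) ≃ (ι → Bool) where
  toFun := lqFlip i
  invFun := lqFlip i
  left_inv := lqFlip_flip i
  right_inv := lqFlip_flip i

lemma lqNorm_sg_smul (b : Bool) (x : E) : ‖lqSg b • x‖ = ‖x‖ := by
  cases b <;> simp [lqSg]

/-- one step of averaging -/
lemma lqSum_flip (i : ι) (X Y : (ι → Bool) → E) (hX : ∀ θ, X (lqFlip i θ) = X θ)
    (hY : ∀ θ, Y (lqFlip i θ) = Y θ) :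
    ∑ θ : ι → Bool, ‖X θ + lqSg (θ i) • Y θ‖ ^ 2 = ∑ θ, ‖X θ‖ ^ 2 + ∑ θ, ‖Y θ‖ ^ 2 := by
  have h1 : ∑ θ : ι → Bool, ‖X θ + lqSg (θ i) • Y θ‖ ^ 2 =
      ∑ θ : ι → Bool, ‖X θ - lqSg (θ i) • Y θ‖ ^ 2 := by
    rw [← Equiv.sum_comp (lqFlipEquiv i) (fun θ => ‖X θ + lqSg (θ i) • Y θ‖ ^ 2)]
    refine Finset.sum_congr rfl fun θ _ => ?_
    simp only [lqFlipEquiv, Equiv.coe_fn_mk, hX, hY, lqFlip_same, lqSg_not, neg_smul, sub_eq_add_neg]
  have h2 : ∑ θ : ι → Bool, ‖X θ + lqSg (θ i) • Y θ‖ ^ 2 + ∑ θ : ι → Bool, ‖X θ + lqSg (θ i) • Y θ‖ ^ 2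
      = 2 * (∑ θ, ‖X θ‖ ^ 2 + ∑ θ, ‖Y θ‖ ^ 2) := by
    nth_rw 2 [h1]
    rw [← Finset.sum_add_distrib, ← Finset.sum_add_distrib, Finset.mul_sum]
    refine Finset.sum_congr rfl fun θ _ => ?_
    have := parallelogram_law_with_norm ℂ (X θ) (lqSg (θ i) • Y θ)
    rw [lqNorm_sg_smul] at this
    nlinarith
  linarith

lemma lqSum_signs_linear (s : Finset ι) (d : ι → E) :
    ∑ θ : ι → Bool, ‖∑ j ∈ s, lqSg (θ j) • d j‖ ^ 2 =
      (Fintype.card (ι → Bool) : ℝ) * ∑ j ∈ s, ‖d j‖ ^ 2 := by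
  induction s using Finset.induction_on with
  | empty => simp
  | insert i s hi ih =>
    have h1 := lqSum_flip i (fun θ => ∑ j ∈ s, lqSg (θ j) • d j) (fun _ => d i)
      (fun θ => Finset.sum_congr rfl fun j hj => by
        rw [lqFlip_ne (ne_of_mem_of_not_mem hj hi)]) (fun _ => rfl)
    have h2 : ∑ θ : ι → Bool, ‖∑ j ∈ insert i s, lqSg (θ j) • d j‖ ^ 2 =
        ∑ θ : ι → Bool, ‖∑ j ∈ s, lqSg (θ j) • d j + lqSg (θ i) • d i‖ ^ 2 := by
      refine Finset.sum_congr rfl fun θ _ => ?_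
      rw [Finset.sum_insert hi, add_comm]
    rw [h2, h1, ih, Finset.sum_insert hi]
    simp only [Finset.sum_const, nsmul_eq_mul, Finset.card_univ]
    ring

lemma lqSum_signs_quad (s : Finset ι) (b : ι → ι → E) (c : E) :
    ∑ θ : ι → Bool, ‖c + ∑ i ∈ s, ∑ j ∈ s.erase i, (lqSg (θ i) * lqSg (θ j)) • b i j‖ ^ 2 ≤
      (Fintype.card (ι → Bool) : ℝ) * (‖c‖ ^ 2 + 2 * ∑ i ∈ s, ∑ j ∈ s, ‖b i j‖ ^ 2) := by
  induction s using Finset.induction_on with
  | empty => simp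
  | insert a s ha ih =>
    have h1 := lqSum_flip a
      (fun θ => c + ∑ i ∈ s, ∑ j ∈ s.erase i, (lqSg (θ i) * lqSg (θ j)) • b i j)
      (fun θ => ∑ j ∈ s, lqSg (θ j) • (b a j + b j a))
      (fun θ => by
        congr 1
        refine Finset.sum_congr rfl fun i hi => Finset.sum_congr rfl fun j hj => ?_
        rw [lqFlip_ne (ne_of_mem_of_not_mem hi ha),
          lqFlip_ne (ne_of_mem_of_not_mem (Finset.mem_of_mem_erase hj) ha)])
      (fun θ => Finset.sum_congr rfl fun j hj => by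
        rw [lqFlip_ne (ne_of_mem_of_not_mem hj ha)])
    have h2 : ∀ θ : ι → Bool,
        c + ∑ i ∈ insert a s, ∑ j ∈ (insert a s).erase i, (lqSg (θ i) * lqSg (θ j)) • b i j =
        (c + ∑ i ∈ s, ∑ j ∈ s.erase i, (lqSg (θ i) * lqSg (θ j)) • b i j) +
          lqSg (θ a) • ∑ j ∈ s, lqSg (θ j) • (b a j + b j a) := by
      intro θ
      rw [Finset.sum_insert ha, Finset.erase_insert ha]
      have e1 : ∑ i ∈ s, ∑ j ∈ (insert a s).erase i, (lqSg (θ i) * lqSg (θ j)) • b i j =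
          ∑ i ∈ s, ((lqSg (θ i) * lqSg (θ a)) • b i a +
            ∑ j ∈ s.erase i, (lqSg (θ i) * lqSg (θ j)) • b i j) := by
        refine Finset.sum_congr rfl fun i hi => ?_
        have hne : a ≠ i := fun h => ha (h ▸ hi)
        rw [Finset.erase_insert_of_ne hne, Finset.sum_insert (fun h => ha
          (Finset.mem_of_mem_erase h))]
      rw [e1, Finset.sum_add_distrib, Finset.smul_sum]
      have e2 : ∑ j ∈ s, lqSg (θ a) • lqSg (θ j) • (b a j + b j a) =
          ∑ j ∈ s, (lqSg (θ a) * lqSg (θ j)) • b a j + ∑ j ∈ s, (lqSg (θ j) * lqSg (θ a)) • b j a := by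
        rw [← Finset.sum_add_distrib]
        refine Finset.sum_congr rfl fun j _ => ?_
        rw [smul_smul, smul_add, mul_comm (lqSg (θ j)) (lqSg (θ a))]
      rw [e2]
      abel
    have h3 : ∑ θ : ι → Bool,
        ‖c + ∑ i ∈ insert a s, ∑ j ∈ (insert a s).erase i, (lqSg (θ i) * lqSg (θ j)) • b i j‖ ^ 2 =
        ∑ θ : ι → Bool, ‖(c + ∑ i ∈ s, ∑ j ∈ s.erase i, (lqSg (θ i) * lqSg (θ j)) • b i j) +
          lqSg (θ a) • ∑ j ∈ s, lqSg (θ j) • (b a j + b j a)‖ ^ 2 :=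
      Finset.sum_congr rfl fun θ _ => by rw [h2]
    rw [h3, h1, lqSum_signs_linear]
    have h4 : ∑ j ∈ s, ‖b a j + b j a‖ ^ 2 ≤ 2 * (∑ j ∈ s, ‖b a j‖ ^ 2 + ∑ j ∈ s, ‖b j a‖ ^ 2) := by
      rw [← Finset.sum_add_distrib, Finset.mul_sum]
      refine Finset.sum_le_sum fun j _ => ?_
      have := norm_add_le (b a j) (b j a)
      nlinarith [norm_nonneg (b a j), norm_nonneg (b j a), norm_nonneg (b a j + b j a),
        sq_nonneg (‖b a j‖ - ‖b j a‖)]
    have h5 : ∑ i ∈ insert a s, ∑ j ∈ insert a s, ‖b i j‖ ^ 2 =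
        ‖b a a‖ ^ 2 + ∑ j ∈ s, ‖b a j‖ ^ 2 + ∑ j ∈ s, ‖b j a‖ ^ 2 +
          ∑ i ∈ s, ∑ j ∈ s, ‖b i j‖ ^ 2 := by
      rw [Finset.sum_insert ha, Finset.sum_insert ha]
      have : ∑ i ∈ s, ∑ j ∈ insert a s, ‖b i j‖ ^ 2 =
          ∑ i ∈ s, (‖b i a‖ ^ 2 + ∑ j ∈ s, ‖b i j‖ ^ 2) :=
        Finset.sum_congr rfl fun i _ => Finset.sum_insert ha
      rw [this, Finset.sum_add_distrib]
      ring
    rw [h5]
    have hcard : (0:ℝ) ≤ (Fintype.card (ι → Bool) : ℝ) := Nat.cast_nonneg _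
    have h6 := mul_le_mul_of_nonneg_left h4 hcard
    have h7 : 0 ≤ ‖b a a‖ ^ 2 := sq_nonneg _
    have h8 := mul_nonneg hcard h7
    nlinarith

end signs

section corner

variable {A : Type*} [CStarAlgebra A] [FinVN A]

/-- the entry of `b` at `(i,j)`, as an element of the commutant of `e` -/
noncomputable def lqEnt {n : ℕ} (e : Fin n → Fin n → A) (b : A) (i j : Fin n) : A :=
  ∑ m, e m i * b * e j m

section
variable {P : StarSubalgebra ℂ A} {n : ℕ} {e : Fin n → Fin n → A}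

lemma lqMul_ent (he : MU P e) (b : A) (i j k l : Fin n) :
    e k l * lqEnt e b i j = e k i * b * e j l := by
  unfold lqEnt
  rw [Finset.mul_sum]
  rw [Finset.sum_eq_single l]
  · rw [mul_assoc, ← mul_assoc (e k l), he.mul, if_pos rfl, mul_assoc]
  · intro m _ hm
    rw [mul_assoc, ← mul_assoc (e k l), he.mul, if_neg hm.symm, zero_mul]
  · intro h; exact absurd (Finset.mem_univ l) h

lemma lqEnt_mul (he : MU P e) (b : A) (i j k l : Fin n) :
    lqEnt e b i j * e k l = e k i * b * e j l := by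
  unfold lqEnt
  rw [Finset.sum_mul]
  rw [Finset.sum_eq_single k]
  · rw [mul_assoc, he.mul, if_pos rfl]
  · intro m _ hm
    rw [mul_assoc, he.mul, if_neg hm, mul_zero]
  · intro h; exact absurd (Finset.mem_univ k) h

lemma lqEnt_comm (he : MU P e) (b : A) (i j k l : Fin n) :
    e k l * lqEnt e b i j = lqEnt e b i j * e k l := by
  rw [lqMul_ent he, lqEnt_mul he]

lemma lqN2_sq_ent (he : MU P e) (b : A) (i j : Fin n) :
    n2 (lqEnt e b i j) ^ 2 = n * n2 (e i i * b * e j j) ^ 2 := by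
  have hn : 0 < n := Fin.pos_iff_nonempty.2 he.nonempty
  have hn' : (n : ℂ) ≠ 0 := by exact_mod_cast hn.ne'
  set y := star (lqEnt e b i j) * lqEnt e b i j with hy
  have hst : ∀ k l, e k l * star (lqEnt e b i j) = star (lqEnt e b i j) * e k l := by
    intro k l
    have := congrArg star (lqEnt_comm he b i j l k)
    rw [star_mul, star_mul, he.st] at this
    exact this.symm
  have hycomm : ∀ k l, e k l * y = y * e k l := by
    intro k l
    rw [hy, ← mul_assoc, hst, mul_assoc, lqEnt_comm he, mul_assoc]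
  have h1 := τ_MU_mul he hycomm j j
  rw [if_pos rfl, Fintype.card_fin] at h1
  have h2 : τ (e j j * y) = τ (star (e i i * b * e j j) * (e i i * b * e j j)) := by
    have e1 : τ (e j j * y) = τ (star (e j i * b * e j j) * (e j i * b * e j j)) := by
      have e2 : e j i * b * e j j = e j j * lqEnt e b i j := (lqMul_ent he b i j j j).symm
      rw [e2, star_mul, he.st]
      have e3 : star (lqEnt e b i j) * e j j * (e j j * lqEnt e b i j) = e j j * y := by
        rw [mul_assoc, ← mul_assoc (e j j), he.mul, if_pos rfl, ← mul_assoc, ← hst, mul_assoc]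
      rw [e3]
    rw [e1]
    congr 1
    simp only [star_mul, he.st]
    have e4 : e j j * (star b * e i j) * (e j i * b * e j j) =
        e j j * star b * (e i j * e j i) * b * e j j := by noncomm_ring
    have e5 : e j j * (star b * e i i) * (e i i * b * e j j) =
        e j j * star b * (e i i * e i i) * b * e j j := by noncomm_ring
    rw [e4, e5, he.mul, he.mul, if_pos rfl, if_pos rfl]
  rw [h2, τ_star_mul_self] at h1
  rw [hy, τ_star_mul_self] at h1
  have h3 : (n : ℂ) * ((n2 (e i i * b * e j j) ^ 2 : ℝ) : ℂ) = ((n2 (lqEnt e b i j) ^ 2 : ℝ) : ℂ) := by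
    rw [h1, ← mul_assoc, mul_inv_cancel₀ hn', one_mul]
  exact_mod_cast h3.symm

lemma lqSum_n2_sq_ent_le (he : MU P e) (b : A) (i : Fin n) (s : Finset (Fin n)) :
    ∑ j ∈ s, n2 (lqEnt e b i j) ^ 2 ≤ ‖b‖ ^ 2 := by
  have hn : 0 < n := Fin.pos_iff_nonempty.2 he.nonempty
  have hn' : (0:ℝ) < n := by exact_mod_cast hn
  have h1 : ∑ j ∈ s, n2 (lqEnt e b i j) ^ 2 ≤ ∑ j, n2 (lqEnt e b i j) ^ 2 :=
    Finset.sum_le_sum_of_subset_of_nonneg (Finset.subset_univ s) (fun _ _ _ => sq_nonneg _)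
  refine h1.trans ?_
  have h2 : ∑ j, n2 (lqEnt e b i j) ^ 2 = n * n2 (e i i * b) ^ 2 := by
    simp only [lqN2_sq_ent he]
    rw [← Finset.mul_sum]
    congr 1
    have e1 : ∀ j, n2 (e i i * b * e j j) ^ 2 = (τ (star (e i i * b) * (e i i * b) * e j j)).re := by
      intro j
      rw [n2_sq, star_mul, he.st]
      have : e j j * star (e i i * b) * (e i i * b * e j j) =
          e j j * (star (e i i * b) * (e i i * b) * e j j) := by noncomm_ring
      rw [this, τ_comm, mul_assoc _ (e j j), he.mul, if_pos rfl]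
    simp only [e1]
    rw [← Complex.re_sum, ← map_sum, ← Finset.mul_sum, he.sum, mul_one, n2_sq]
  rw [h2]
  have h3 := n2_mul_le_right (e i i) b
  have h4 : n2 (e i i) ^ 2 = (n:ℝ)⁻¹ := by
    rw [n2_sq_proj (he.proj i), he.tr_diag, Fintype.card_fin]
  have h5 : n2 (e i i * b) ^ 2 ≤ (n:ℝ)⁻¹ * ‖b‖ ^ 2 := by
    rw [← h4, ← mul_pow]
    exact pow_le_pow_left₀ (n2_nonneg _) h3 2
  calc (n:ℝ) * n2 (e i i * b) ^ 2 ≤ n * ((n:ℝ)⁻¹ * ‖b‖ ^ 2) := by gcongr
    _ = ‖b‖ ^ 2 := by field_simp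

lemma lqEE_corner (he : MU P e) (s : Finset (Fin n)) (hs : s.Nonempty) (b : A) :
    ((n : ℂ) / s.card) • EE e ((∑ i ∈ s, e i i) * b * (∑ i ∈ s, e i i)) =
      ((s.card : ℂ)⁻¹) • ∑ j ∈ s, lqEnt e b j j := by
  have hn : 0 < n := Fin.pos_iff_nonempty.2 he.nonempty
  have hn' : (n : ℂ) ≠ 0 := by exact_mod_cast hn.ne'
  have hr' : (s.card : ℂ) ≠ 0 := by exact_mod_cast hs.card_pos.ne'
  have hp1 : ∀ i j, e i j * (∑ k ∈ s, e k k) = if j ∈ s then e i j else 0 := by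
    intro i j
    rw [Finset.mul_sum]
    simp only [he.mul]
    rw [Finset.sum_ite_eq]
  have hp2 : ∀ i j, (∑ k ∈ s, e k k) * e i j = if i ∈ s then e i j else 0 := by
    intro i j
    rw [Finset.sum_mul]
    have : ∀ k ∈ s, e k k * e i j = if k = i then e k j else 0 := fun k _ => he.mul k k i j
    rw [Finset.sum_congr rfl this, Finset.sum_ite_eq']
  unfold EE
  rw [smul_smul, Fintype.card_fin]
  have e0 : (n : ℂ) / s.card * (n : ℂ)⁻¹ = (s.card : ℂ)⁻¹ := by field_simp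
  rw [e0]
  congr 1
  rw [Finset.sum_comm]
  have e1 : ∀ j, ∑ i, e i j * ((∑ k ∈ s, e k k) * b * (∑ k ∈ s, e k k)) * e j i =
      if j ∈ s then lqEnt e b j j else 0 := by
    intro j
    split_ifs with hj
    · unfold lqEnt
      refine Finset.sum_congr rfl fun i _ => ?_
      have : e i j * ((∑ k ∈ s, e k k) * b * (∑ k ∈ s, e k k)) * e j i =
          (e i j * (∑ k ∈ s, e k k)) * b * ((∑ k ∈ s, e k k) * e j i) := by noncomm_ring
      rw [this, hp1, hp2, if_pos hj, if_pos hj]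
    · refine Finset.sum_eq_zero fun i _ => ?_
      have : e i j * ((∑ k ∈ s, e k k) * b * (∑ k ∈ s, e k k)) * e j i =
          (e i j * (∑ k ∈ s, e k k)) * b * ((∑ k ∈ s, e k k) * e j i) := by noncomm_ring
      rw [this, hp1, if_neg hj, zero_mul, zero_mul]
  simp only [e1]
  rw [Finset.sum_ite_mem, Finset.univ_inter]

/-- the sign vector -/
noncomputable def lqX (e : Fin n → Fin n → A) (s : Finset (Fin n)) (i0 : Fin n)
    (θ : Fin n → Bool) : A :=
  ∑ i ∈ s, lqSg (θ i) • e i i0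

/-- the averaged entry -/
noncomputable def lqBet (e : Fin n → Fin n → A) (s : Finset (Fin n)) (θ : Fin n → Bool) (b : A) : A :=
  ((s.card : ℂ)⁻¹) • ∑ i ∈ s, ∑ j ∈ s, (lqSg (θ i) * lqSg (θ j)) • lqEnt e b i j

lemma lqStar_xv (he : MU P e) (s : Finset (Fin n)) (i0 : Fin n) (θ : Fin n → Bool) :
    star (lqX e s i0 θ) = ∑ i ∈ s, lqSg (θ i) • e i0 i := by
  unfold lqX
  rw [star_sum]
  refine Finset.sum_congr rfl fun i _ => ?_
  rw [star_smul, he.st, lqStar_sg]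

lemma lqStar_xv_mul (he : MU P e) (s : Finset (Fin n)) (i0 : Fin n) (θ : Fin n → Bool) (b : A) :
    star (lqX e s i0 θ) * b * lqX e s i0 θ =
      ∑ i ∈ s, ∑ j ∈ s, (lqSg (θ i) * lqSg (θ j)) • (e i0 i * b * e j i0) := by
  rw [lqStar_xv he]
  unfold lqX
  rw [Finset.sum_mul, Finset.sum_mul]
  refine Finset.sum_congr rfl fun i _ => ?_
  rw [Finset.mul_sum]
  refine Finset.sum_congr rfl fun j _ => ?_
  rw [smul_mul_assoc, smul_mul_assoc, mul_smul_comm, smul_smul]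

lemma lqStar_xv_xv (he : MU P e) (s : Finset (Fin n)) (i0 : Fin n) (θ : Fin n → Bool) :
    star (lqX e s i0 θ) * lqX e s i0 θ = (s.card : ℂ) • e i0 i0 := by
  have h1 := lqStar_xv_mul he s i0 θ 1
  rw [mul_one] at h1
  rw [h1]
  have : ∀ i ∈ s, ∑ j ∈ s, (lqSg (θ i) * lqSg (θ j)) • (e i0 i * 1 * e j i0) = e i0 i0 := by
    intro i hi
    rw [Finset.sum_eq_single i]
    · rw [mul_one, he.mul, if_pos rfl, lqSg_sq]; simp
    · intro j _ hj
      rw [mul_one, he.mul, if_neg hj.symm, smul_zero]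
    · intro h; exact absurd hi h
  rw [Finset.sum_congr rfl this, Finset.sum_const, ← Nat.cast_smul_eq_nsmul ℂ]

lemma lqXv_mul (he : MU P e) (s : Finset (Fin n)) (i0 : Fin n) (θ : Fin n → Bool) :
    lqX e s i0 θ * e i0 i0 = lqX e s i0 θ := by
  unfold lqX
  rw [Finset.sum_mul]
  refine Finset.sum_congr rfl fun i _ => ?_
  rw [smul_mul_assoc, he.mul, if_pos rfl]

lemma lqProj_mul_xv (he : MU P e) (s : Finset (Fin n)) (i0 : Fin n) (θ : Fin n → Bool) :
    (∑ i ∈ s, e i i) * lqX e s i0 θ = lqX e s i0 θ := by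
  unfold lqX
  rw [Finset.mul_sum]
  refine Finset.sum_congr rfl fun i hi => ?_
  rw [mul_smul_comm, Finset.sum_mul]
  congr 1
  have : ∀ k ∈ s, e k k * e i i0 = if k = i then e k i0 else 0 := fun k _ => he.mul k k i i0
  rw [Finset.sum_congr rfl this, Finset.sum_ite_eq', if_pos hi]

lemma lqBet_comm (he : MU P e) (s : Finset (Fin n)) (θ : Fin n → Bool) (b : A) (k l : Fin n) :
    e k l * lqBet e s θ b = lqBet e s θ b * e k l := by
  unfold lqBet
  rw [mul_smul_comm, smul_mul_assoc, Finset.mul_sum, Finset.sum_mul]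
  congr 1
  refine Finset.sum_congr rfl fun i _ => ?_
  rw [Finset.mul_sum, Finset.sum_mul]
  refine Finset.sum_congr rfl fun j _ => ?_
  rw [mul_smul_comm, smul_mul_assoc, lqEnt_comm he]

lemma lqStar_xv_mul_xv_eq (he : MU P e) (s : Finset (Fin n)) (hs : s.Nonempty) (i0 : Fin n)
    (θ : Fin n → Bool) (b : A) :
    star (lqX e s i0 θ) * b * lqX e s i0 θ = (s.card : ℂ) • (e i0 i0 * lqBet e s θ b) := by
  have hr' : (s.card : ℂ) ≠ 0 := by exact_mod_cast hs.card_pos.ne'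
  rw [lqStar_xv_mul he]
  unfold lqBet
  rw [mul_smul_comm, smul_smul, mul_inv_cancel₀ hr', one_smul, Finset.mul_sum]
  refine Finset.sum_congr rfl fun i _ => ?_
  rw [Finset.mul_sum]
  refine Finset.sum_congr rfl fun j _ => ?_
  rw [mul_smul_comm, lqMul_ent he]

/-- the projection -/
noncomputable def lqQ (e : Fin n → Fin n → A) (s : Finset (Fin n)) (i0 : Fin n)
    (θ : Fin n → Bool) : A :=
  ((s.card : ℂ)⁻¹) • (lqX e s i0 θ * star (lqX e s i0 θ))

lemma lqQ_proj (he : MU P e) (s : Finset (Fin n)) (hs : s.Nonempty) (i0 : Fin n)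
    (θ : Fin n → Bool) : IsStarProjection (lqQ e s i0 θ) := by
  have hr' : (s.card : ℂ) ≠ 0 := by exact_mod_cast hs.card_pos.ne'
  constructor
  · show lqQ e s i0 θ * lqQ e s i0 θ = lqQ e s i0 θ
    unfold lqQ
    set x := lqX e s i0 θ
    rw [smul_mul_smul_comm]
    have e1 : x * star x * (x * star x) = x * (star x * x) * star x := by noncomm_ring
    rw [e1, lqStar_xv_xv he, mul_smul_comm, lqXv_mul he, smul_mul_assoc, smul_smul]
    congr 1
    field_simp
  · show star (lqQ e s i0 θ) = lqQ e s i0 θ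
    unfold lqQ
    rw [star_smul, star_mul, star_star]
    congr 1
    simp

lemma lqQ_mul (he : MU P e) (s : Finset (Fin n)) (hs : s.Nonempty) (i0 : Fin n)
    (θ : Fin n → Bool) (b : A) :
    lqQ e s i0 θ * b * lqQ e s i0 θ = lqQ e s i0 θ * lqBet e s θ b := by
  have hr' : (s.card : ℂ) ≠ 0 := by exact_mod_cast hs.card_pos.ne'
  have hc : star (lqX e s i0 θ) * lqBet e s θ b = lqBet e s θ b * star (lqX e s i0 θ) := by
    rw [lqStar_xv he, Finset.sum_mul, Finset.mul_sum]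
    refine Finset.sum_congr rfl fun i _ => ?_
    rw [smul_mul_assoc, mul_smul_comm, lqBet_comm he]
  unfold lqQ
  set x := lqX e s i0 θ with hx
  have e1 : ((s.card : ℂ)⁻¹) • (x * star x) * b * ((s.card : ℂ)⁻¹) • (x * star x) =
      ((s.card : ℂ)⁻¹ * (s.card : ℂ)⁻¹) • (x * (star x * b * x) * star x) := by
    rw [smul_mul_assoc, smul_mul_smul_comm]
    congr 1
    noncomm_ring
  have hc' : x * lqBet e s θ b * star x = x * star x * lqBet e s θ b := by
    rw [mul_assoc, ← hc, ← mul_assoc]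
  rw [e1, hx, lqStar_xv_mul_xv_eq he s hs, ← hx, mul_smul_comm, ← mul_assoc, hx, lqXv_mul he, ← hx,
    smul_mul_assoc, smul_smul, smul_mul_assoc, hc']
  congr 1
  field_simp

lemma lqTau_qv_mul (he : MU P e) (s : Finset (Fin n)) (hs : s.Nonempty) (i0 : Fin n)
    (θ : Fin n → Bool) {y : A} (hy : ∀ i j, e i j * y = y * e i j) :
    τ (lqQ e s i0 θ * y) = (n : ℂ)⁻¹ * τ y := by
  have hr' : (s.card : ℂ) ≠ 0 := by exact_mod_cast hs.card_pos.ne'
  have hc : y * lqX e s i0 θ = lqX e s i0 θ * y := by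
    unfold lqX
    rw [Finset.sum_mul, Finset.mul_sum]
    refine Finset.sum_congr rfl fun i _ => ?_
    rw [smul_mul_assoc, mul_smul_comm, hy]
  unfold lqQ
  rw [smul_mul_assoc, map_smul, mul_assoc, τ_comm, mul_assoc, hc, ← mul_assoc, lqStar_xv_xv he,
    smul_mul_assoc, map_smul, smul_smul, inv_mul_cancel₀ hr', one_smul, τ_MU_mul he hy, if_pos rfl,
    Fintype.card_fin]

lemma lqN2_sq_qv (he : MU P e) (s : Finset (Fin n)) (hs : s.Nonempty) (i0 : Fin n)
    (θ : Fin n → Bool) (b : A) (l : ℂ) :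
    n2 (lqQ e s i0 θ * b * lqQ e s i0 θ - l • lqQ e s i0 θ) ^ 2 =
      (n : ℝ)⁻¹ * n2 (lqBet e s θ b - l • (1 : A)) ^ 2 := by
  set q := lqQ e s i0 θ with hq
  set z := lqBet e s θ b - l • (1 : A) with hz
  have hqp : IsStarProjection q := lqQ_proj he s hs i0 θ
  have e1 : q * b * q - l • q = q * z := by
    rw [hz, mul_sub, mul_smul_comm, mul_one, hq, lqQ_mul he s hs]
  have hzc : ∀ i j, e i j * z = z * e i j := by
    intro i j
    rw [hz, mul_sub, sub_mul, lqBet_comm he, mul_smul_comm, smul_mul_assoc, mul_one, one_mul]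
  have hzs : ∀ i j, e i j * star z = star z * e i j := by
    intro i j
    have := congrArg star (hzc j i)
    rw [star_mul, star_mul, he.st] at this
    exact this.symm
  have hyc : ∀ i j, e i j * (z * star z) = z * star z * e i j := by
    intro i j
    rw [← mul_assoc, hzc, mul_assoc, hzs, mul_assoc]
  have h1 := lqTau_qv_mul he s hs i0 θ hyc
  rw [← hq] at h1
  rw [e1, n2_sq, star_mul, hqp.isSelfAdjoint.star_eq]
  have e2 : star z * q * (q * z) = star z * (q * q * z) := by noncomm_ring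
  rw [e2, hqp.isIdempotentElem.eq, τ_comm, mul_assoc, h1]
  have e3 : τ (z * star z) = ((n2 z ^ 2 : ℝ) : ℂ) := by
    rw [τ_comm, τ_star_mul_self]
  rw [e3]
  have : ((n : ℂ)⁻¹ * ((n2 z ^ 2 : ℝ) : ℂ)) = (((n : ℝ)⁻¹ * n2 z ^ 2 : ℝ) : ℂ) := by push_cast; ring
  rw [this, Complex.ofReal_re]

lemma lqAvg_bet (he : MU P e) (s : Finset (Fin n)) (hs : s.Nonempty) (b : A) (l : ℂ) :
    ∑ θ : Fin n → Bool, n2 (lqBet e s θ b - l • (1 : A)) ^ 2 ≤
      (Fintype.card (Fin n → Bool) : ℝ) *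
        (n2 (((n : ℂ) / s.card) • EE e ((∑ i ∈ s, e i i) * b * (∑ i ∈ s, e i i)) - l • (1 : A)) ^ 2
          + 2 * ‖b‖ ^ 2 / s.card) := by
  have hr : (0:ℝ) < s.card := by exact_mod_cast hs.card_pos
  rw [lqEE_corner he s hs]
  set c : A := ((s.card : ℂ)⁻¹) • ∑ j ∈ s, lqEnt e b j j - l • (1 : A) with hc
  have key := lqSum_signs_quad (E := L2 A) s (fun i j => toL2 (((s.card : ℂ)⁻¹) • lqEnt e b i j))
    (toL2 c)
  have e1 : ∀ θ : Fin n → Bool, toL2 (lqBet e s θ b - l • (1 : A)) =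
      (toL2 c : L2 A) + ∑ i ∈ s, ∑ j ∈ s.erase i, (lqSg (θ i) * lqSg (θ j)) •
        (toL2 (((s.card : ℂ)⁻¹) • lqEnt e b i j) : L2 A) := by
    intro θ
    have e2 : ∀ i ∈ s, ∀ j ∈ s.erase i, (lqSg (θ i) * lqSg (θ j)) •
        (toL2 (((s.card : ℂ)⁻¹) • lqEnt e b i j) : L2 A) =
        toL2 (((s.card : ℂ)⁻¹) • ((lqSg (θ i) * lqSg (θ j)) • lqEnt e b i j)) := by
      intro i _ j _
      rw [smul_comm ((s.card : ℂ)⁻¹), map_smul toL2 (lqSg (θ i) * lqSg (θ j))]
    rw [Finset.sum_congr rfl fun i hi => Finset.sum_congr rfl (e2 i hi)]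
    simp only [← map_sum]
    rw [← map_add]
    congr 1
    simp only [← Finset.smul_sum]
    rw [hc]
    unfold lqBet
    have e3 : ∑ i ∈ s, ∑ j ∈ s, (lqSg (θ i) * lqSg (θ j)) • lqEnt e b i j =
        ∑ i ∈ s, lqEnt e b i i +
          ∑ i ∈ s, ∑ j ∈ s.erase i, (lqSg (θ i) * lqSg (θ j)) • lqEnt e b i j := by
      rw [← Finset.sum_add_distrib]
      refine Finset.sum_congr rfl fun i hi => ?_
      rw [← Finset.add_sum_erase s _ hi, lqSg_sq]
      simp
    rw [e3, smul_add]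
    abel
  have e4 : ∑ θ : Fin n → Bool, n2 (lqBet e s θ b - l • (1 : A)) ^ 2 =
      ∑ θ : Fin n → Bool, ‖(toL2 c : L2 A) + ∑ i ∈ s, ∑ j ∈ s.erase i, (lqSg (θ i) * lqSg (θ j)) •
        (toL2 (((s.card : ℂ)⁻¹) • lqEnt e b i j) : L2 A)‖ ^ 2 := by
    refine Finset.sum_congr rfl fun θ _ => ?_
    rw [← e1 θ]; rfl
  rw [e4]
  refine key.trans ?_
  refine mul_le_mul_of_nonneg_left ?_ (Nat.cast_nonneg _)
  have e5 : ‖(toL2 c : L2 A)‖ = n2 c := rfl
  rw [e5]
  have e6 : ∑ i ∈ s, ∑ j ∈ s, ‖(toL2 (((s.card : ℂ)⁻¹) • lqEnt e b i j) : L2 A)‖ ^ 2 ≤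
      ‖b‖ ^ 2 / s.card := by
    have e7 : ∀ i ∈ s, ∑ j ∈ s, ‖(toL2 (((s.card : ℂ)⁻¹) • lqEnt e b i j) : L2 A)‖ ^ 2 ≤
        ((s.card : ℝ)⁻¹) ^ 2 * ‖b‖ ^ 2 := by
      intro i _
      have e8 : ∀ j ∈ s, ‖(toL2 (((s.card : ℂ)⁻¹) • lqEnt e b i j) : L2 A)‖ ^ 2 =
          ((s.card : ℝ)⁻¹) ^ 2 * n2 (lqEnt e b i j) ^ 2 := by
        intro j _
        have : ‖(toL2 (((s.card : ℂ)⁻¹) • lqEnt e b i j) : L2 A)‖ =
            n2 (((s.card : ℂ)⁻¹) • lqEnt e b i j) := rfl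
        rw [this, n2_smul, mul_pow]
        congr 2
        rw [norm_inv, Complex.norm_natCast]
      rw [Finset.sum_congr rfl e8, ← Finset.mul_sum]
      exact mul_le_mul_of_nonneg_left (lqSum_n2_sq_ent_le he b i s) (sq_nonneg _)
    refine (Finset.sum_le_sum e7).trans ?_
    rw [Finset.sum_const, nsmul_eq_mul]
    apply le_of_eq
    field_simp
  have e9 : 2 * ‖b‖ ^ 2 / (s.card : ℝ) = 2 * (‖b‖ ^ 2 / s.card) := by ring
  rw [e9]
  linarith

end

/-- Random sign superposition. Given matrix units `e`, `s ⊆ ι` with `r = |s|` elements and finitely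
many `b`, some sign vector `θ` gives the projection `q = (1/r) ∑_{i,j∈s} θ_i θ_j e_{ij}` with
`n2 (q b q - λ q)² ≤ 2 (1/N) (‖(N/r) EE(p b p) - λ‖₂² + 2‖b‖²/r)` (up to constants), where
`p = ∑_{i∈s} e_ii`, `N = |ι|`, by averaging over `θ`. -/
theorem exists_sign {P : StarSubalgebra ℂ A} {n : ℕ} {e : Fin n → Fin n → A} (he : MU P e)
    (s : Finset (Fin n)) (hs : s.Nonempty) (S : Finset A) (l : A → ℂ) :
    ∃ q ∈ P, IsStarProjection q ∧ (∑ i ∈ s, e i i) * q = q ∧ tr q = (n : ℝ)⁻¹ ∧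
      ∑ b ∈ S, n2 (q * b * q - l b • q) ^ 2 ≤ tr q * ∑ b ∈ S,
        (2 * n2 (((n : ℂ) / s.card) • EE e ((∑ i ∈ s, e i i) * b * (∑ i ∈ s, e i i)) - l b • (1 : A)) ^ 2
          + 4 * ‖b‖ ^ 2 / s.card) := by
  have hr : (0:ℝ) < s.card := by exact_mod_cast hs.card_pos
  obtain ⟨i0, hi0⟩ := hs
  have hs : s.Nonempty := ⟨i0, hi0⟩
  have htr : ∀ θ, tr (lqQ e s i0 θ) = (n : ℝ)⁻¹ := by
    intro θ
    have h1 := lqTau_qv_mul he s hs i0 θ (y := 1) (fun i j => by rw [mul_one, one_mul])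
    rw [mul_one, τ_one, mul_one] at h1
    unfold tr
    rw [h1]
    have : (n : ℂ)⁻¹ = (((n : ℝ)⁻¹ : ℝ) : ℂ) := by push_cast; rfl
    rw [this, Complex.ofReal_re]
  have hxP : ∀ θ, lqX e s i0 θ ∈ P := fun θ => by
    unfold lqX
    exact sum_mem fun i _ => P.smul_mem (he.mem _ _) _
  have hqP : ∀ θ, lqQ e s i0 θ ∈ P := fun θ => by
    unfold lqQ
    exact P.smul_mem (mul_mem (hxP θ) (star_mem (hxP θ))) _
  set G : ℝ := ∑ b ∈ S,
        (2 * n2 (((n : ℂ) / s.card) • EE e ((∑ i ∈ s, e i i) * b * (∑ i ∈ s, e i i)) - l b • (1 : A)) ^ 2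
          + 4 * ‖b‖ ^ 2 / s.card) with hG
  have hsum : ∑ θ : Fin n → Bool, ∑ b ∈ S, n2 (lqQ e s i0 θ * b * lqQ e s i0 θ - l b • lqQ e s i0 θ) ^ 2 ≤
      ∑ θ : Fin n → Bool, (n : ℝ)⁻¹ * G := by
    rw [Finset.sum_comm, Finset.sum_const, nsmul_eq_mul, Finset.card_univ, hG, Finset.mul_sum,
      Finset.mul_sum]
    refine Finset.sum_le_sum fun b _ => ?_
    simp only [lqN2_sq_qv he s hs]
    rw [← Finset.mul_sum]
    have h1 := lqAvg_bet he s hs b (l b)
    have hn0 : (0:ℝ) ≤ (n:ℝ)⁻¹ := by positivity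
    have h2 := mul_le_mul_of_nonneg_left h1 hn0
    refine h2.trans ?_
    have hcard : (0:ℝ) ≤ (Fintype.card (Fin n → Bool) : ℝ) := Nat.cast_nonneg _
    rw [← mul_assoc, mul_comm ((n:ℝ)⁻¹), mul_assoc]
    refine mul_le_mul_of_nonneg_left (mul_le_mul_of_nonneg_left ?_ hn0) hcard
    have h3 := sq_nonneg (n2 (((n : ℂ) / s.card) •
      EE e ((∑ i ∈ s, e i i) * b * (∑ i ∈ s, e i i)) - l b • (1 : A)))
    have h4 : 0 ≤ ‖b‖ ^ 2 / (s.card : ℝ) := by positivity
    have e9 : 2 * ‖b‖ ^ 2 / (s.card : ℝ) = 2 * (‖b‖ ^ 2 / s.card) := by ring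
    have e10 : 4 * ‖b‖ ^ 2 / (s.card : ℝ) = 4 * (‖b‖ ^ 2 / s.card) := by ring
    rw [e9, e10]
    linarith
  obtain ⟨θ, -, hθ⟩ := Finset.exists_le_of_sum_le Finset.univ_nonempty hsum
  refine ⟨lqQ e s i0 θ, hqP θ, lqQ_proj he s hs i0 θ, ?_, htr θ, ?_⟩
  · unfold lqQ
    rw [mul_smul_comm, ← mul_assoc, lqProj_mul_xv he]
  · rw [htr θ]; exact hθ

theorem lqN2_sq_sub_proj {p q : A} (hpp : IsStarProjection p) (hq : IsStarProjection q)
    (hpq : p * q = q) : n2 (p - q) ^ 2 = tr p - tr q := by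
  have hqp : q * p = q := by
    have := congrArg star hpq
    rwa [star_mul, hq.isSelfAdjoint.star_eq, hpp.isSelfAdjoint.star_eq] at this
  rw [n2_sq, star_sub, hq.isSelfAdjoint.star_eq, hpp.isSelfAdjoint.star_eq]
  have : (p - q) * (p - q) = p - q := by
    rw [sub_mul, mul_sub, mul_sub, hpq, hqp, hpp.isIdempotentElem.eq, hq.isIdempotentElem.eq]
    abel
  rw [this, map_sub, Complex.sub_re]; rfl

theorem lqTau_proj {p : A} (hpp : IsStarProjection p) : τ p = ((tr p : ℝ) : ℂ) := by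
  have h1 : τ p = τ (star p * p) := by
    rw [hpp.isSelfAdjoint.star_eq, hpp.isIdempotentElem.eq]
  rw [h1, τ_star_mul_self, n2_sq_proj hpp]

set_option maxHeartbeats 1000000 in
/-- Local quantization (Popa) in a corner `p` of an irreducible inclusion. -/
theorem local_quant {P M : StarSubalgebra ℂ A} (h : IsIrr P M) {p : A} (hp : p ∈ P)
    (hpp : IsStarProjection p) (hp0 : p ≠ 0) (S : Finset A) (hS : ∀ b ∈ S, b ∈ M) (ε : ℝ)
    (hε : 0 < ε) :
    ∃ q ∈ P, IsStarProjection q ∧ q ≠ 0 ∧ p * q = q ∧ tr q ≤ tr p / 2 ∧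
      ∀ b ∈ S, n2 (q * b * q - (τ (p * b) / τ p) • q) ≤ ε * n2 q := by
  classical
  set T := tr p with hT
  have hTpos : 0 < T := by
    have h1 := n2_pos hp0
    have h2 := n2_sq_proj hpp
    rw [hT, ← h2]; positivity
  have hT1 : T ≤ 1 := by
    have h1 := n2_sq_proj hpp
    have h2 := n2_le_norm p
    have h3 := hpp.norm_le
    have h4 := n2_nonneg p
    rw [hT, ← h1]; nlinarith
  have hτp : τ p = (T : ℂ) := lqTau_proj hpp
  -- constants
  set k : ℝ := S.card + 1 with hk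
  have hk1 : 1 ≤ k := by
    have : (0:ℝ) ≤ S.card := Nat.cast_nonneg _
    linarith
  set η := ε / (2 * k) with hη
  have hηpos : 0 < η := by positivity
  set Cb : ℝ := ∑ b ∈ S, ‖b‖ + 1 with hCb
  have hCb0 : 0 ≤ ∑ b ∈ S, ‖b‖ := Finset.sum_nonneg fun _ _ => norm_nonneg _
  have hCbpos : 0 < Cb := by linarith
  have hbC : ∀ b ∈ S, ‖b‖ ≤ Cb := by
    intro b hb
    have := Finset.single_le_sum (f := fun b : A => ‖b‖) (fun _ _ => norm_nonneg _) hb
    linarith
  set C2 : ℝ := ∑ b ∈ S, ‖b‖ ^ 2 with hC2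
  have hC20 : 0 ≤ C2 := Finset.sum_nonneg fun _ _ => by positivity
  set δ := min (T / 2) (η * T / (6 * Cb)) with hδ
  have hδpos : 0 < δ := lt_min (by positivity) (by positivity)
  have hδ1 : δ ≤ T / 2 := min_le_left _ _
  have hδ2 : δ ≤ η * T / (6 * Cb) := min_le_right _ _
  obtain ⟨p', r, N, hp'P, hp'p, hpp', hN, htr, hδ'⟩ := q_exists_rational_sub h.isFac hp hpp δ hδpos
  set T' := tr p' with hT'
  have hTT' := lqN2_sq_sub_proj hpp hp'p hpp'
  rw [← hT, ← hT'] at hTT'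
  have hnn := n2_nonneg (p - p')
  have hT'le : T' ≤ T := by nlinarith
  have hT'ge : T / 2 ≤ T' := by nlinarith
  have hT'pos : 0 < T' := by linarith
  set ε' := η * T / 4 with hε'
  obtain ⟨K, hK⟩ := exists_nat_ge (16 * C2 / (T * ε ^ 2) + 2 / T + 1)
  obtain ⟨n, e, s, hKn, he, hpe, hEE⟩ := quant_proj h (S.image (fun b => p' * b * p'))
    (by
      intro c hc
      obtain ⟨b, hb, rfl⟩ := Finset.mem_image.1 hc
      exact mul_mem (mul_mem (h.le hp'P) (hS b hb)) (h.le hp'P))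
    ε' (by positivity) hp'P hp'p r N hN htr K
  have hn : 0 < n := Fin.pos_iff_nonempty.2 he.nonempty
  have hnR : (0:ℝ) < n := by exact_mod_cast hn
  have hKn' : (K : ℝ) ≤ n := by exact_mod_cast hKn
  have hnge : 16 * C2 / (T * ε ^ 2) + 2 / T + 1 ≤ n := hK.trans hKn'
  have hcard : (s.card : ℝ) = n * T' := by
    have h1 : T' = ∑ i ∈ s, tr (e i i) := by
      rw [hT', hpe]
      unfold tr
      rw [map_sum, Complex.re_sum]
    rw [h1]
    simp only [he.tr_diag, Fintype.card_fin, Finset.sum_const, nsmul_eq_mul]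
    field_simp
  have hcardpos : 0 < (s.card : ℝ) := by rw [hcard]; positivity
  have hs : s.Nonempty := by
    rw [← Finset.card_pos]; exact_mod_cast hcardpos
  obtain ⟨q, hqP, hqp, hpq, htq, hsum⟩ := exists_sign he s hs S (fun b => τ (p * b) / τ p)
  rw [← hpe] at hpq hsum
  have hq0 : q ≠ 0 := by
    intro h0
    rw [h0] at htq
    simp only [tr, map_zero, Complex.zero_re] at htq
    have : (0:ℝ) < (n:ℝ)⁻¹ := by positivity
    linarith
  refine ⟨q, hqP, hqp, hq0, ?_, ?_, ?_⟩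
  · rw [← hpq, ← mul_assoc, hpp']
  · rw [htq, inv_le_comm₀ hnR (by positivity)]
    have h1 : 0 ≤ 16 * C2 / (T * ε ^ 2) := by positivity
    have h2 : (T / 2)⁻¹ = 2 / T := by field_simp
    rw [h2]; linarith
  · -- the main estimate
    have hvb : ∀ b ∈ S, n2 (((n : ℂ) / s.card) • EE e (p' * b * p') - (τ (p * b) / τ p) • (1 : A)) ≤
        η := by
      intro b hb
      have h1 := hEE (p' * b * p') (Finset.mem_image_of_mem _ hb)
      have hτ1 : τ (p' * b * p') = τ (p' * b) := by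
        rw [τ_comm, ← mul_assoc, hp'p.isIdempotentElem.eq]
      rw [hτ1] at h1
      have hratio : (n : ℂ) / s.card = ((T'⁻¹ : ℝ) : ℂ) := by
        have : (s.card : ℂ) = (n : ℂ) * (T' : ℂ) := by exact_mod_cast hcard
        rw [this]
        have hn' : (n : ℂ) ≠ 0 := by exact_mod_cast hn.ne'
        have hT'' : (T' : ℂ) ≠ 0 := by exact_mod_cast hT'pos.ne'
        push_cast
        field_simp
      have e1 : ((n : ℂ) / s.card) • EE e (p' * b * p') - (τ (p * b) / τ p) • (1 : A) =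
          ((n : ℂ) / s.card) • (EE e (p' * b * p') - τ (p' * b) • (1 : A)) +
          (((n : ℂ) / s.card) * τ (p' * b) - τ (p * b) / τ p) • (1 : A) := by
        rw [smul_sub, smul_smul, sub_smul]; abel
      rw [e1]
      refine (n2_add_le _ _).trans ?_
      rw [n2_smul, n2_smul, n2_one, mul_one, hratio, hτp]
      have h2 : ‖((T'⁻¹ : ℝ) : ℂ)‖ = T'⁻¹ := by
        rw [Complex.norm_real, Real.norm_of_nonneg (by positivity)]
      rw [h2]
      have h3 : T'⁻¹ ≤ 2 / T := by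
        rw [inv_le_comm₀ hT'pos (by positivity)]
        have : (2 / T)⁻¹ = T / 2 := by field_simp
        rw [this]; exact hT'ge
      have h4 : T'⁻¹ * n2 (EE e (p' * b * p') - τ (p' * b) • (1 : A)) ≤ η / 2 := by
        calc T'⁻¹ * n2 (EE e (p' * b * p') - τ (p' * b) • (1 : A)) ≤ 2 / T * ε' :=
              mul_le_mul h3 h1 (n2_nonneg _) (by positivity)
          _ = η / 2 := by rw [hε']; field_simp; norm_num
      have h5 : ‖((T'⁻¹ : ℝ) : ℂ) * τ (p' * b) - τ (p * b) / (T : ℂ)‖ ≤ η / 2 := by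
        have e2 : ((T'⁻¹ : ℝ) : ℂ) * τ (p' * b) - τ (p * b) / (T : ℂ) =
            -(((T'⁻¹ : ℝ) : ℂ) * τ ((p - p') * b)) + ((T'⁻¹ - T⁻¹ : ℝ) : ℂ) * τ (p * b) := by
          rw [sub_mul, map_sub]
          push_cast
          ring
        rw [e2]
        refine (norm_add_le _ _).trans ?_
        rw [norm_neg, norm_mul, norm_mul, h2]
        have h6 : ‖τ ((p - p') * b)‖ ≤ δ * Cb := by
          refine (norm_τ_mul_le _ _).trans ?_
          exact mul_le_mul hδ' ((n2_le_norm b).trans (hbC b hb)) (n2_nonneg _) hδpos.le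
        have h7 : ‖τ (p * b)‖ ≤ Cb := by
          refine (norm_τ_mul_le _ _).trans ?_
          have h8 : n2 p ≤ 1 := (n2_le_norm p).trans hpp.norm_le
          have h9 := (n2_le_norm b).trans (hbC b hb)
          calc n2 p * n2 b ≤ 1 * Cb := mul_le_mul h8 h9 (n2_nonneg _) zero_le_one
            _ = Cb := one_mul _
        have h8 : ‖((T'⁻¹ - T⁻¹ : ℝ) : ℂ)‖ ≤ δ / T := by
          rw [Complex.norm_real, Real.norm_of_nonneg]
          · have e3 : T'⁻¹ - T⁻¹ = (T - T') / (T' * T) := by field_simp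
            rw [e3, div_le_div_iff₀ (by positivity) hTpos]
            have h9 : T - T' ≤ δ * T' := by
              rw [← hTT']
              calc n2 (p - p') ^ 2 ≤ δ ^ 2 := by gcongr
                _ = δ * δ := by ring
                _ ≤ δ * T' := by gcongr; linarith
            calc (T - T') * T ≤ δ * T' * T := by gcongr
              _ = δ * (T' * T) := by ring
          · rw [sub_nonneg]
            exact inv_anti₀ hT'pos hT'le
        have h9 : T'⁻¹ * ‖τ ((p - p') * b)‖ ≤ 2 / T * (δ * Cb) := by gcongr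
        have h10 : ‖((T'⁻¹ - T⁻¹ : ℝ) : ℂ)‖ * ‖τ (p * b)‖ ≤ δ / T * Cb := by gcongr
        have h11 : 2 / T * (δ * Cb) + δ / T * Cb = 3 * Cb / T * δ := by ring
        have h12 : 3 * Cb / T * δ ≤ 3 * Cb / T * (η * T / (6 * Cb)) := by gcongr
        have h13 : 3 * Cb / T * (η * T / (6 * Cb)) = η / 2 := by field_simp; norm_num
        linarith
      linarith
    have hG : ∑ b ∈ S, (2 * n2 (((n : ℂ) / s.card) • EE e (p' * b * p') -
        (τ (p * b) / τ p) • (1 : A)) ^ 2 + 4 * ‖b‖ ^ 2 / s.card) ≤ ε ^ 2 := by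
      rw [Finset.sum_add_distrib]
      have h1 : ∑ b ∈ S, 2 * n2 (((n : ℂ) / s.card) • EE e (p' * b * p') -
        (τ (p * b) / τ p) • (1 : A)) ^ 2 ≤ ε ^ 2 / 2 := by
        have h2 : ∀ b ∈ S, 2 * n2 (((n : ℂ) / s.card) • EE e (p' * b * p') -
            (τ (p * b) / τ p) • (1 : A)) ^ 2 ≤ 2 * η ^ 2 := by
          intro b hb
          have h3 := hvb b hb
          have h4 := n2_nonneg (((n : ℂ) / s.card) • EE e (p' * b * p') -
            (τ (p * b) / τ p) • (1 : A))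
          gcongr
        refine (Finset.sum_le_sum h2).trans ?_
        rw [Finset.sum_const, nsmul_eq_mul]
        have h3 : (S.card : ℝ) ≤ k := by linarith
        have h4 : (S.card : ℝ) * (2 * η ^ 2) ≤ k * (2 * η ^ 2) := by gcongr
        refine h4.trans ?_
        rw [hη]
        have h5 : k * (2 * (ε / (2 * k)) ^ 2) = ε ^ 2 / 2 / k := by field_simp
        rw [h5]
        exact div_le_self (by positivity) hk1
      have h2 : ∑ b ∈ S, 4 * ‖b‖ ^ 2 / (s.card : ℝ) ≤ ε ^ 2 / 2 := by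
        rw [← Finset.sum_div, ← Finset.mul_sum, ← hC2, div_le_iff₀ hcardpos]
        have h3 : 16 * C2 / (T * ε ^ 2) ≤ n := by
          have : 0 ≤ 2 / T := by positivity
          linarith
        rw [div_le_iff₀ (by positivity)] at h3
        have h4 : (n : ℝ) * (T / 2) ≤ s.card := by
          rw [hcard]; exact mul_le_mul_of_nonneg_left hT'ge hnR.le
        have h5 : ε ^ 2 / 2 * ((n : ℝ) * (T / 2)) ≤ ε ^ 2 / 2 * s.card :=
          mul_le_mul_of_nonneg_left h4 (by positivity)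
        have h6 : ε ^ 2 / 2 * ((n : ℝ) * (T / 2)) = n * (T * ε ^ 2) / 4 := by ring
        linarith
      linarith
    intro b hb
    have h1 := Finset.single_le_sum (f := fun b : A =>
      n2 (q * b * q - (τ (p * b) / τ p) • q) ^ 2) (fun _ _ => sq_nonneg _) hb
    have htq0 : 0 ≤ tr q := by rw [← n2_sq_proj hqp]; positivity
    have h2 := h1.trans (hsum.trans (mul_le_mul_of_nonneg_left hG htq0))
    rw [← n2_sq_proj hqp] at h2
    have h3 : n2 (q * b * q - (τ (p * b) / τ p) • q) ^ 2 ≤ (ε * n2 q) ^ 2 := by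
      rw [mul_pow]; linarith
    exact (abs_le_of_sq_le_sq' h3 (mul_nonneg hε.le (n2_nonneg q))).2

end corner

end Crest.Agent.GenII1
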