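import Crest.Agent.GenII1.TwoGen
import Crest.Agent.GenII1.Baire

/-! A single generator: the `4 × 4` trick. -/

set_option autoImplicit false
set_option linter.unusedSectionVars false

namespace Crest.Agent.GenII1

open Filter Topology

variable {A : Type*} [CStarAlgebra A] [FinVN A]

/-! ### 2-norm closures -/

theorem og_L2mem_of_mem {N : StarSubalgebra ℂ A} {x : A} (hx : x ∈ N) : L2mem N x := by
  intro ε hε
  exact ⟨x, hx, by simpa using hε⟩

theorem og_L2mem_add {N : StarSubalgebra ℂ A} {x y : A} (hx : L2mem N x) (hy : L2mem N y) :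
    L2mem N (x + y) := by
  intro ε hε
  obtain ⟨a, ha, h1⟩ := hx (ε / 2) (by linarith)
  obtain ⟨b, hb, h2⟩ := hy (ε / 2) (by linarith)
  refine ⟨a + b, add_mem ha hb, ?_⟩
  have e : x + y - (a + b) = (x - a) + (y - b) := by abel
  rw [e]
  exact (n2_add_le _ _).trans_lt (by linarith)

theorem og_L2mem_mul {N : StarSubalgebra ℂ A} {x y : A} (hx : L2mem N x) (hy : L2mem N y) :
    L2mem N (x * y) := by
  intro ε hε
  obtain ⟨b, hb, h2⟩ := hy (ε / (2 * (‖x‖ + 1))) (by positivity)
  obtain ⟨a, ha, h1⟩ := hx (ε / (2 * (‖b‖ + 1))) (by positivity)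
  refine ⟨a * b, mul_mem ha hb, ?_⟩
  have e : x * y - a * b = x * (y - b) + (x - a) * b := by noncomm_ring
  rw [e]
  have h3 : n2 (x * (y - b)) < ε / 2 := by
    refine (n2_mul_le_left _ _).trans_lt ?_
    rw [lt_div_iff₀ (by positivity)] at h2
    have := n2_nonneg (y - b)
    nlinarith [norm_nonneg x]
  have h4 : n2 ((x - a) * b) < ε / 2 := by
    refine (n2_mul_le_right _ _).trans_lt ?_
    rw [lt_div_iff₀ (by positivity)] at h1
    have := n2_nonneg (x - a)
    nlinarith [norm_nonneg b]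
  exact (n2_add_le _ _).trans_lt (by linarith)

theorem og_L2mem_star {N : StarSubalgebra ℂ A} {x : A} (hx : L2mem N x) : L2mem N (star x) := by
  intro ε hε
  obtain ⟨a, ha, h1⟩ := hx ε hε
  refine ⟨star a, star_mem ha, ?_⟩
  rw [← star_sub, n2_star]
  exact h1

/-- the 2-norm closure of a star subalgebra -/
def og_cl (N : StarSubalgebra ℂ A) : StarSubalgebra ℂ A where
  carrier := {x | L2mem N x}
  mul_mem' hx hy := og_L2mem_mul hx hy
  add_mem' hx hy := og_L2mem_add hx hy
  algebraMap_mem' r := og_L2mem_of_mem (algebraMap_mem N r)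
  star_mem' hx := og_L2mem_star hx

theorem og_mem_cl {N : StarSubalgebra ℂ A} {x : A} : x ∈ og_cl N ↔ L2mem N x := Iff.rfl

theorem og_cl_closed (N : StarSubalgebra ℂ A) : TClosed (og_cl N) := by
  intro f g C hf _ hlim ε hε
  have h1 : ∀ᶠ n in atTop, n2 (f n - g) < ε / 2 :=
    hlim.eventually_lt_const (by linarith)
  obtain ⟨n, hn⟩ := h1.exists
  obtain ⟨a, ha, h2⟩ := hf n (ε / 2) (by linarith)
  refine ⟨a, ha, ?_⟩
  calc n2 (g - a) ≤ n2 (g - f n) + n2 (f n - a) := n2_triangle _ _ _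
    _ < ε / 2 + ε / 2 := by rw [n2_sub_comm g]; exact add_lt_add hn h2
    _ = ε := by ring

theorem og_le_cl (N : StarSubalgebra ℂ A) : N ≤ og_cl N := fun _ hx => og_L2mem_of_mem hx

theorem og_cl_le {N P : StarSubalgebra ℂ A} (hP : TClosed P) (h : N ≤ P) : og_cl N ≤ P :=
  fun _ hx => mem_of_L2mem hP h hx

/-! ### dimension -/

theorem og_not_finiteDimensional {N : StarSubalgebra ℂ A}
    (h : ∀ K : ℕ, ∃ n : ℕ, K ≤ n ∧ ∃ e : Fin n → Fin n → A, MU N e) : ¬ FiniteDimensional ℂ N := by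
  intro hfin
  obtain ⟨n, hn, e, he⟩ := h (Module.finrank ℂ N + 1)
  have hne : ∀ i, e i i ≠ 0 := by
    intro i h0
    have h1 : (1 : A) = 0 := by
      rw [← he.sum]
      refine Finset.sum_eq_zero (fun j _ => ?_)
      have : e j j = e j i * e i i * e i j := by
        rw [he.mul, if_pos rfl, he.mul, if_pos rfl]
      rw [this, h0, mul_zero, zero_mul]
    have h2 := τ_one (A := A)
    rw [h1, map_zero] at h2
    exact zero_ne_one h2
  have hli : LinearIndependent ℂ (fun i : Fin n => (⟨e i i, he.mem i i⟩ : N)) := by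
    rw [Fintype.linearIndependent_iff]
    intro g hg i
    have h1 : ∑ j, g j • e j j = 0 := by
      have := congrArg (fun z : N => (z : A)) hg
      simpa using this
    have h2 : e i i * ∑ j, g j • e j j = g i • e i i := by
      rw [Finset.mul_sum, Finset.sum_eq_single i]
      · rw [mul_smul_comm, he.mul, if_pos rfl]
      · intro j _ hj
        rw [mul_smul_comm, he.mul, if_neg (Ne.symm hj), smul_zero]
      · intro hi; exact absurd (Finset.mem_univ _) hi
    rw [h1, mul_zero] at h2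
    rcases smul_eq_zero.1 h2.symm with h3 | h3
    · exact h3
    · exact absurd h3 (hne i)
  have h3 := hli.fintype_card_le_finrank
  rw [Fintype.card_fin] at h3
  omega

/-! ### a 2-closed star subalgebra as a finite von Neumann algebra -/

section sub

variable (M : StarSubalgebra ℂ A) [hM : Fact (TClosed M)]

noncomputable instance og_cstar : CStarAlgebra M :=
  StarSubalgebra.cstarAlgebra M (h_closed := hM.out.isClosed)

noncomputable instance og_fin : FinVN M where
  τ := (τ : A →ₗ[ℂ] ℂ) ∘ₗ M.toSubalgebra.val.toLinearMap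
  τ_one := τ_one (A := A)
  τ_comm x y := τ_comm (x : A) y
  τ_nonneg x := τ_nonneg (x : A)
  τ_im x := τ_im (x : A)
  faithful x hx := Subtype.ext (FinVN.faithful (x : A) hx)
  complete f C hf hc := by
    obtain ⟨g, hg, hlim⟩ := FinVN.complete (fun n => (f n : A)) C hf hc
    have hgM : g ∈ M := by
      refine hM.out (fun n => (f n : A)) g C (fun n => (f n).2) hf ?_
      have h2 := (Real.continuous_sqrt.tendsto 0).comp hlim
      rw [Real.sqrt_zero] at h2
      refine h2.congr (fun n => ?_)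
      simp only [Function.comp]
      rw [← n2_sq, Real.sqrt_sq (n2_nonneg _)]
    exact ⟨⟨g, hgM⟩, hg, hlim⟩

theorem og_τ_coe (x : M) : τ (x : A) = τ x := rfl

theorem og_n2_coe (x : M) : n2 (x : A) = n2 x := by
  have h : n2 (x : A) ^ 2 = n2 x ^ 2 := by
    rw [n2_sq, n2_sq]; rfl
  exact (sq_eq_sq₀ (n2_nonneg _) (n2_nonneg _)).1 h

theorem og_norm_coe (x : M) : ‖(x : A)‖ = ‖x‖ := rfl

/-- restriction of a subalgebra of `A` to `M` -/
noncomputable def og_res (P : StarSubalgebra ℂ A) : StarSubalgebra ℂ M := P.comap M.subtype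

theorem og_mem_res {P : StarSubalgebra ℂ A} {x : M} : x ∈ og_res M P ↔ (x : A) ∈ P := Iff.rfl

theorem og_irr {P : StarSubalgebra ℂ A} (h : IsIrr P M) : IsIrr (og_res M P) ⊤ where
  le := le_top
  closedP := by
    intro f g C hf hC hlim
    refine h.closedP (fun n => (f n : A)) g C hf hC ?_
    refine hlim.congr (fun n => ?_)
    rw [← og_n2_coe]; rfl
  closedM := tclosed_top
  irr := by
    intro x _ hx
    obtain ⟨c, hc⟩ := h.irr (x : A) x.2 (fun y hy => by
      have := hx ⟨y, h.le hy⟩ hy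
      exact congrArg (fun z : M => (z : A)) this)
    exact ⟨c, Subtype.ext hc⟩
  inf := by
    intro hfin
    apply h.inf
    -- linear equivalence
    have e : (og_res M P) ≃ₗ[ℂ] P :=
      { toFun := fun x => ⟨((x : M) : A), x.2⟩
        invFun := fun y => ⟨⟨(y : A), h.le y.2⟩, y.2⟩
        map_add' := fun _ _ => rfl
        map_smul' := fun _ _ => rfl
        left_inv := fun _ => rfl
        right_inv := fun _ => rfl }
    exact LinearEquiv.finiteDimensional e

end sub

/-- four self-adjoint generators -/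
theorem og_four_gen {M : StarSubalgebra ℂ A} (h : IsFac M)
    (hsep : ∃ s : ℕ → A, ∀ x : A, ∀ ε : ℝ, 0 < ε → ∃ n, n2 (x - s n) < ε) :
    ∃ g : Fin 4 → A, (∀ i, g i ∈ M) ∧ (∀ i, IsSelfAdjoint (g i)) ∧
      ∀ N : StarSubalgebra ℂ A, TClosed N → (∀ i, g i ∈ N) → M ≤ N := by
  obtain ⟨a₁, h1M, a₂, h2M, hs1, hs2, hirr, hbig⟩ := exists_two_gen h hsep
  have : Fact (TClosed M) := ⟨h.closedM⟩
  set P : StarSubalgebra ℂ A := og_cl (StarAlgebra.adjoin ℂ ({a₁, a₂} : Set A)) with hP
  have hadj : StarAlgebra.adjoin ℂ ({a₁, a₂} : Set A) ≤ M := by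
    refine StarAlgebra.adjoin_le ?_
    rintro x (rfl | rfl)
    · exact h1M
    · exact h2M
  have hPM : P ≤ M := og_cl_le h.closedM hadj
  have hPc : TClosed P := og_cl_closed _
  have h1P : a₁ ∈ P := og_le_cl _ (StarAlgebra.subset_adjoin ℂ _ (by simp))
  have h2P : a₂ ∈ P := og_le_cl _ (StarAlgebra.subset_adjoin ℂ _ (by simp))
  have hI : IsIrr P M := by
    refine ⟨hPM, hPc, h.closedM, ?_, ?_⟩
    · intro x hx hc
      exact hirr x hx (hc a₁ h1P).symm (hc a₂ h2P).symm
    · apply og_not_finiteDimensional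
      intro K
      obtain ⟨n, hn, e, he⟩ := hbig K
      refine ⟨n, hn, e, he.mono ?_⟩
      exact StarSubalgebra.topologicalClosure_minimal (og_le_cl _) hPc.isClosed
  have hI' := og_irr M hI
  obtain ⟨t, htM, ht⟩ := tg_dense M hsep
  have hsep' : ∃ s : ℕ → M, ∀ x : M, ∀ ε : ℝ, 0 < ε → ∃ n, n2 (x - s n) < ε := by
    refine ⟨fun j => ⟨t j, htM j⟩, fun x ε hε => ?_⟩
    obtain ⟨j, hj⟩ := ht x x.2 ε hε
    refine ⟨j, ?_⟩
    rw [← og_n2_coe]
    exact hj
  obtain ⟨v, hv, -, hgen⟩ := generic hI' hsep' (one_mem (unitary M)) 1 one_pos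
  set w : A := (v : A) with hw
  have hwM : w ∈ M := v.2
  refine ⟨![a₁, a₂, (1 / 2 : ℂ) • (w + star w), (-Complex.I / 2 : ℂ) • (w - star w)], ?_, ?_, ?_⟩
  · intro i
    fin_cases i
    · exact h1M
    · exact h2M
    · exact M.smul_mem (add_mem hwM (star_mem hwM)) _
    · exact M.smul_mem (sub_mem hwM (star_mem hwM)) _
  · intro i
    fin_cases i
    · exact hs1
    · exact hs2
    · show IsSelfAdjoint ((1 / 2 : ℂ) • (w + star w))
      rw [IsSelfAdjoint, star_smul, star_add, star_star, add_comm]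
      simp
    · show IsSelfAdjoint ((-Complex.I / 2 : ℂ) • (w - star w))
      rw [IsSelfAdjoint, star_smul, star_sub, star_star]
      have : star (-Complex.I / 2 : ℂ) = -(-Complex.I / 2) := by
        simp [neg_div]
      rw [this, neg_smul, ← smul_neg, neg_sub]
  · intro N hN hg
    have g0 : a₁ ∈ N := hg 0
    have g1 : a₂ ∈ N := hg 1
    have g2 : (1 / 2 : ℂ) • (w + star w) ∈ N := hg 2
    have g3 : (-Complex.I / 2 : ℂ) • (w - star w) ∈ N := hg 3
    have hPN : P ≤ N := by
      refine og_cl_le hN (StarAlgebra.adjoin_le ?_)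
      rintro x (rfl | rfl)
      · exact g0
      · exact g1
    have hwN : w ∈ N := by
      have e : w = (1 / 2 : ℂ) • (w + star w) +
          Complex.I • ((-Complex.I / 2 : ℂ) • (w - star w)) := by
        rw [smul_smul]
        have : Complex.I * (-Complex.I / 2) = 1 / 2 := by
          rw [mul_div_assoc', mul_neg, Complex.I_mul_I]; norm_num
        rw [this, smul_add, smul_sub]
        have e2 : (1 / 2 : ℂ) • w + (1 / 2 : ℂ) • w = w := by
          rw [← add_smul]; norm_num
        calc w = (1 / 2 : ℂ) • w + (1 / 2 : ℂ) • w := e2.symm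
          _ = _ := by abel
      rw [e]
      exact add_mem g2 (N.smul_mem g3 _)
    have hle : adjU (og_res M P) v ≤ og_res M N := by
      refine StarAlgebra.adjoin_le ?_
      rintro x (hx | hx)
      · exact hPN hx
      · rw [Set.mem_singleton_iff] at hx
        subst hx
        exact hwN
    intro x hx
    refine mem_of_L2mem hN le_rfl ?_
    intro ε hε
    obtain ⟨a, ha, hxa⟩ := hgen ⟨x, hx⟩ ε hε
    refine ⟨(a : A), hle ha, ?_⟩
    rw [← og_n2_coe] at hxa
    exact hxa

/-- peel off one spectral piece -/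
theorem og_peel {N : StarSubalgebra ℂ A} (hN : IsClosed (N : Set A)) {p w s : A}
    (hp : IsStarProjection p) (hw : ‖w‖ ≤ 1 / 10) (hpw : p * w = w) (hwp : w * p = w)
    (hs : ‖s‖ ≤ 1 / 8) (hps : p * s = 0) (hsp : s * p = 0) (h : (p + w) + s ∈ N) :
    p ∈ N ∧ w ∈ N ∧ s ∈ N := by
  have h1 : p ∈ N := by
    refine tg_extract hN hp (r := w + s) ?_ ?_ ?_
    · show p * (w + s) = (w + s) * p
      rw [mul_add, add_mul, hpw, hwp, hps, hsp]
    · refine (norm_add_le _ _).trans ?_
      linarith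
    · rwa [← add_assoc]
  have h2 : p + w ∈ N := by
    have e : p + w = p * ((p + w) + s) := by
      rw [mul_add, mul_add, hp.isIdempotentElem.eq, hpw, hps, add_zero]
    rw [e]
    exact mul_mem h1 h
  refine ⟨h1, ?_, ?_⟩
  · have e : w = (p + w) - p := by abel
    rw [e]
    exact sub_mem h2 h1
  · have e : s = ((p + w) + s) - (p + w) := by abel
    rw [e]
    exact sub_mem h h2

/-- everything is generated by matrix units and their commutant -/
theorem og_top_of_MU {N : StarSubalgebra ℂ A} {n : ℕ} {f : Fin n → Fin n → A}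
    (hf : MU (⊤ : StarSubalgebra ℂ A) f) (h1 : ∀ i j, f i j ∈ N)
    (h2 : relComm (⊤ : StarSubalgebra ℂ A) f ≤ N) (y : A) : y ∈ N := by
  have e1 : y = ∑ i, ∑ j, f i i * y * f j j := by
    have : y = (∑ i, f i i) * y * (∑ j, f j j) := by rw [hf.sum, one_mul, mul_one]
    conv_lhs => rw [this]
    rw [Finset.sum_mul, Finset.sum_mul]
    refine Finset.sum_congr rfl (fun i _ => ?_)
    rw [Finset.mul_sum]
  rw [e1]
  refine sum_mem (fun i _ => sum_mem (fun j _ => ?_))
  have h3 : ∑ k, f k i * y * f j k ∈ relComm (⊤ : StarSubalgebra ℂ A) f := by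
    rw [mem_relComm hf]
    refine ⟨by trivial, fun a b => ?_⟩
    have e2 : f a b * ∑ k, f k i * y * f j k = f a i * y * f j b := by
      rw [Finset.mul_sum, Finset.sum_eq_single b]
      · rw [← mul_assoc, ← mul_assoc, hf.mul, if_pos rfl]
      · intro c _ hc
        rw [← mul_assoc, ← mul_assoc, hf.mul, if_neg (Ne.symm hc), zero_mul, zero_mul]
      · intro hb; exact absurd (Finset.mem_univ _) hb
    have e3 : (∑ k, f k i * y * f j k) * f a b = f a i * y * f j b := by
      rw [Finset.sum_mul, Finset.sum_eq_single a]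
      · rw [mul_assoc, hf.mul, if_pos rfl]
      · intro c _ hc
        rw [mul_assoc, hf.mul, if_neg hc, mul_zero]
      · intro hb; exact absurd (Finset.mem_univ _) hb
    rw [e2, e3]
  have e4 : f i i * y * f j j = (∑ k, f k i * y * f j k) * f i j := by
    rw [Finset.sum_mul, Finset.sum_eq_single i]
    · rw [mul_assoc (f i i * y), hf.mul, if_pos rfl]
    · intro c _ hc
      rw [mul_assoc, hf.mul, if_neg hc, mul_zero]
    · intro hb; exact absurd (Finset.mem_univ _) hb
  rw [e4]
  exact mul_mem (h2 h3) (h1 i j)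

/-- elements of the commutant are recovered from one corner -/
theorem og_corner {N : StarSubalgebra ℂ A} {n : ℕ} {f : Fin n → Fin n → A}
    (hf : MU (⊤ : StarSubalgebra ℂ A) f) (h1 : ∀ i j, f i j ∈ N) {c : A}
    (hc : ∀ i j, f i j * c = c * f i j) (i : Fin n) (h : f i i * c ∈ N) : c ∈ N := by
  have e : c = ∑ k, f k i * (f i i * c) * f i k := by
    have h3 : ∀ k, f k i * (f i i * c) * f i k = c * f k k := by
      intro k
      rw [← mul_assoc, hf.mul, if_pos rfl, hc, mul_assoc, hf.mul, if_pos rfl]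
    rw [Finset.sum_congr rfl (fun k _ => h3 k), ← Finset.mul_sum, hf.sum, mul_one]
  rw [e]
  exact sum_mem (fun k _ => mul_mem (mul_mem (h1 k i) h) (h1 i k))

/-- **one generator** -/
theorem og_one_gen (h : IsFac (⊤ : StarSubalgebra ℂ A))
    (hsep : ∃ s : ℕ → A, ∀ x : A, ∀ ε : ℝ, 0 < ε → ∃ n, n2 (x - s n) < ε) :
    ∃ x : A, ∀ N : StarSubalgebra ℂ A, TClosed N → x ∈ N → ∀ y, y ∈ N := by
  obtain ⟨f, hf⟩ := exists_MU h 4 (by norm_num)
  obtain ⟨g, hgM, hgs, hg⟩ := og_four_gen (h.relComm hf) hsep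
  have hgc : ∀ i a b, f a b * g i = g i * f a b := fun i => ((mem_relComm hf).1 (hgM i)).2
  -- rescaled generators
  set κ : Fin 4 → ℝ := fun i => 1 / (10 * (1 + ‖g i‖)) with hκ
  have hκpos : ∀ i, 0 < κ i := fun i => by
    have := norm_nonneg (g i)
    simp only [hκ]; positivity
  set w : Fin 4 → A := fun i => f i i * ((κ i : ℂ) • g i) with hw
  have hfp : ∀ i, IsStarProjection (f i i) := fun i => hf.proj i
  have hfn : ∀ i, ‖f i i‖ ≤ 1 := fun i => tg_norm_proj_le (hfp i)
  have hcc : ∀ i a b, f a b * ((κ i : ℂ) • g i) = ((κ i : ℂ) • g i) * f a b := by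
    intro i a b
    rw [mul_smul_comm, smul_mul_assoc, hgc]
  have hwn : ∀ i, ‖w i‖ ≤ 1 / 10 := by
    intro i
    have h1 : ‖(κ i : ℂ) • g i‖ ≤ 1 / 10 := by
      rw [norm_smul, Complex.norm_real, Real.norm_of_nonneg (hκpos i).le]
      simp only [hκ]
      have := norm_nonneg (g i)
      rw [div_mul_eq_mul_div, div_le_iff₀ (by positivity)]
      linarith
    refine (norm_mul_le _ _).trans ?_
    nlinarith [hfn i, norm_nonneg (f i i), norm_nonneg ((κ i : ℂ) • g i)]
  have hfw : ∀ i j, f i i * w j = if i = j then w j else 0 := by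
    intro i j
    simp only [hw]
    rw [← mul_assoc, hf.mul]
    by_cases hij : i = j
    · subst hij; simp
    · simp [hij]
  have hwf : ∀ i j, w j * f i i = if i = j then w j else 0 := by
    intro i j
    simp only [hw]
    rw [mul_assoc, ← hcc, ← mul_assoc, hf.mul]
    by_cases hij : i = j
    · subst hij; simp
    · simp [hij, Ne.symm hij]
  have hff : ∀ i j, f i i * f j j = if i = j then f i i else 0 := by
    intro i j
    rw [hf.mul]
    by_cases hij : i = j
    · subst hij; simp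
    · simp [hij]
  -- nested sums
  set s₃ : A := 0 with hs₃
  set s₂ : A := (1 / 10 : ℂ) • ((f 3 3 + w 3) + s₃) with hs₂
  set s₁ : A := (1 / 10 : ℂ) • ((f 2 2 + w 2) + s₂) with hs₁
  set s₀ : A := (1 / 10 : ℂ) • ((f 1 1 + w 1) + s₁) with hs₀
  set X : A := (f 0 0 + w 0) + s₀ with hX
  have hnorm : ∀ (i : Fin 4) (s : A), ‖s‖ ≤ 1 / 8 → ‖(1 / 10 : ℂ) • ((f i i + w i) + s)‖ ≤ 1 / 8 := by
    intro i s hs
    rw [norm_smul]
    have c1 : ‖(1 / 10 : ℂ)‖ = 1 / 10 := by
      rw [show (1 / 10 : ℂ) = ((1 / 10 : ℝ) : ℂ) by push_cast; ring, Complex.norm_real]; norm_num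
    rw [c1]
    have h1 : ‖(f i i + w i) + s‖ ≤ 1 + 1 / 10 + 1 / 8 :=
      (norm_add_le _ _).trans (add_le_add ((norm_add_le _ _).trans (add_le_add (hfn i) (hwn i))) hs)
    linarith
  have n3 : ‖s₃‖ ≤ 1 / 8 := by simp [hs₃]
  have n2' : ‖s₂‖ ≤ 1 / 8 := hnorm 3 s₃ n3
  have n1 : ‖s₁‖ ≤ 1 / 8 := hnorm 2 s₂ n2'
  have n0 : ‖s₀‖ ≤ 1 / 8 := hnorm 1 s₁ n1
  have hself : ∀ i, star (w i) = w i := by
    intro i
    simp only [hw]
    rw [star_mul, star_smul, (hgs i).star_eq, (hfp i).isSelfAdjoint.star_eq]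
    have : star ((κ i : ℝ) : ℂ) = ((κ i : ℝ) : ℂ) := Complex.conj_ofReal _
    rw [this, ← hcc]
  have h10 : star (1 / 10 : ℂ) = 1 / 10 := by
    rw [show (1 / 10 : ℂ) = ((1 / 10 : ℝ) : ℂ) by push_cast; ring]
    exact Complex.conj_ofReal _
  have hXs : star X = X := by
    have hfs : ∀ i, star (f i i) = f i i := fun i => (hfp i).isSelfAdjoint.star_eq
    simp only [hX, hs₀, hs₁, hs₂, hs₃, star_add, star_smul, hself, hfs, h10, star_zero]
  set Y : A := ∑ i, ∑ j, f i j with hY
  have hYs : star Y = Y := by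
    simp only [hY, star_sum, hf.st]
    exact Finset.sum_comm
  refine ⟨X + Complex.I • Y, ?_⟩
  intro N hN hx
  have hNc : IsClosed (N : Set A) := hN.isClosed
  have hx' : X - Complex.I • Y ∈ N := by
    have := star_mem hx
    rw [star_add, star_smul, hXs, hYs] at this
    have hI : star Complex.I = -Complex.I := Complex.conj_I
    rw [hI, neg_smul, ← sub_eq_add_neg] at this
    exact this
  have hXN : X ∈ N := by
    have e : X = (1 / 2 : ℂ) • ((X + Complex.I • Y) + (X - Complex.I • Y)) := by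
      have : (X + Complex.I • Y) + (X - Complex.I • Y) = (2 : ℂ) • X := by
        rw [two_smul]; abel
      rw [this, smul_smul]; norm_num
    rw [e]
    exact N.smul_mem (add_mem hx hx') _
  have hYN : Y ∈ N := by
    have e : Y = (-Complex.I / 2 : ℂ) • ((X + Complex.I • Y) - (X - Complex.I • Y)) := by
      have : (X + Complex.I • Y) - (X - Complex.I • Y) = (2 * Complex.I : ℂ) • Y := by
        rw [mul_smul, two_smul]; abel
      rw [this, smul_smul]
      have h3 : (-Complex.I / 2 : ℂ) * (2 * Complex.I) = 1 := by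
        have := Complex.I_mul_I
        linear_combination (-1 : ℂ) * this
      rw [h3, one_smul]
    rw [e]
    exact N.smul_mem (sub_mem hx hx') _
  have ten : ∀ s : A, (1 / 10 : ℂ) • s ∈ N → s ∈ N := by
    intro s hs
    have e : s = (10 : ℂ) • ((1 / 10 : ℂ) • s) := by
      rw [smul_smul]; norm_num
    rw [e]
    exact N.smul_mem hs _
  have hfd : ∀ i, f i i * w i = w i := fun i => by rw [hfw]; simp
  have hfd' : ∀ i, w i * f i i = w i := fun i => by rw [hwf]; simp
  obtain ⟨p0, w0, q0⟩ := og_peel hNc (hfp 0) (hwn 0) (hfd 0) (hfd' 0) n0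
    (by simp [hs₀, hs₁, hs₂, hs₃, mul_add, hfw, hff])
    (by simp [hs₀, hs₁, hs₂, hs₃, add_mul, hwf, hff]) hXN
  obtain ⟨p1, w1, q1⟩ := og_peel hNc (hfp 1) (hwn 1) (hfd 1) (hfd' 1) n1
    (by simp [hs₁, hs₂, hs₃, mul_add, hfw, hff])
    (by simp [hs₁, hs₂, hs₃, add_mul, hwf, hff]) (ten _ q0)
  obtain ⟨p2, w2, q2⟩ := og_peel hNc (hfp 2) (hwn 2) (hfd 2) (hfd' 2) n2'
    (by simp [hs₂, hs₃, mul_add, hfw, hff])
    (by simp [hs₂, hs₃, add_mul, hwf, hff]) (ten _ q1)
  obtain ⟨p3, w3, -⟩ := og_peel hNc (hfp 3) (hwn 3) (hfd 3) (hfd' 3) n3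
    (by simp [hs₃]) (by simp [hs₃]) (ten _ q2)
  have hp : ∀ i, f i i ∈ N := by
    intro i; fin_cases i
    · exact p0
    · exact p1
    · exact p2
    · exact p3
  have hwN : ∀ i, w i ∈ N := by
    intro i; fin_cases i
    · exact w0
    · exact w1
    · exact w2
    · exact w3
  have hfN : ∀ i j, f i j ∈ N := by
    intro i j
    have e : f i j = f i i * Y * f j j := by
      simp only [hY, Finset.mul_sum, Finset.sum_mul]
      rw [Finset.sum_eq_single i, Finset.sum_eq_single j]
      · rw [hf.mul, if_pos rfl, hf.mul, if_pos rfl]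
      · intro b _ hb
        rw [hf.mul, if_pos rfl, hf.mul, if_neg hb]
      · intro hb; exact absurd (Finset.mem_univ _) hb
      · intro b _ hb
        refine Finset.sum_eq_zero (fun c _ => ?_)
        rw [hf.mul, if_neg (Ne.symm hb), zero_mul]
      · intro hb; exact absurd (Finset.mem_univ _) hb
    rw [e]
    exact mul_mem (mul_mem (hp i) hYN) (hp j)
  have hgN : ∀ i, g i ∈ N := by
    intro i
    have h1 : ((κ i : ℂ) • g i) ∈ N := og_corner hf hfN (hcc i) i (hwN i)
    have e : g i = ((κ i : ℂ)⁻¹) • ((κ i : ℂ) • g i) := by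
      rw [smul_smul, inv_mul_cancel₀, one_smul]
      exact_mod_cast (hκpos i).ne'
    rw [e]
    exact N.smul_mem h1 _
  exact og_top_of_MU hf hfN (hg N hN hgN)

end Crest.Agent.GenII1
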