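import Crest.Agent.GenII1.Words

/-! Popa's incremental patching: the expansion estimate. -/

set_option autoImplicit false
set_option linter.unusedSectionVars false

namespace Crest.Agent.GenII1

open Filter Topology

section words

variable {A : Type*} [CStarAlgebra A]

/-- the word without its leading coefficient: `u^{b₁} t₁ u^{b₂} t₂ ⋯` -/
def rs (u : A) : List (Bool × A) → A
  | [] => 1
  | (b, t) :: l => pw u b * t * rs u l

@[simp] theorem rs_nil (u : A) : rs u [] = 1 := rfl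

theorem rs_cons (u : A) (b : Bool) (t : A) (l : List (Bool × A)) :
    rs u ((b, t) :: l) = pw u b * t * rs u l := rfl

theorem wd_eq_rs (u s : A) (L : List (Bool × A)) : wd u s L = s * rs u L := by
  induction L generalizing s with
  | nil => simp [wd]
  | cons x L ih =>
    obtain ⟨b, t⟩ := x
    rw [wd, ih, rs_cons]
    noncomm_ring

theorem rs_append (u : A) (L L' : List (Bool × A)) : rs u (L ++ L') = rs u L * rs u L' := by
  induction L with
  | nil => simp
  | cons x L ih =>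
    obtain ⟨b, t⟩ := x
    rw [List.cons_append, rs_cons, rs_cons, ih]
    noncomm_ring

theorem wd_concat (u s : A) (L : List (Bool × A)) (b : Bool) (t : A) :
    wd u s (L ++ [(b, t)]) = wd u s L * pw u b * t := by
  rw [wd_eq_rs, wd_eq_rs, rs_append, rs_cons, rs_nil]
  noncomm_ring

theorem pw_add (u w : A) (b : Bool) : pw (u + w) b = pw u b + pw w b := by
  cases b <;> simp [pw]

theorem norm_pw (u : A) (b : Bool) : ‖pw u b‖ = ‖u‖ := by
  cases b <;> simp [pw]

theorem norm_rs_le {u : A} (hu : ‖u‖ ≤ 1) (L : List (Bool × A)) (hL : ∀ x ∈ L, ‖x.2‖ ≤ 1) :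
    ‖rs u L‖ ≤ 1 := by
  induction L with
  | nil => 
    rw [rs_nil]
    rcases subsingleton_or_nontrivial A with h | h
    · rw [Subsingleton.elim (1 : A) 0, norm_zero]; norm_num
    · rw [CStarRing.norm_one]
  | cons x L ih =>
    obtain ⟨b, t⟩ := x
    rw [rs_cons]
    have h1 : ‖t‖ ≤ 1 := hL (b, t) (by simp)
    have h2 : ‖rs u L‖ ≤ 1 := ih (fun x hx => hL x (by simp [hx]))
    calc ‖pw u b * t * rs u L‖ ≤ ‖pw u b‖ * ‖t‖ * ‖rs u L‖ :=
          (norm_mul_le _ _).trans (mul_le_mul_of_nonneg_right (norm_mul_le _ _) (norm_nonneg _))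
      _ ≤ 1 * 1 * 1 := by
          rw [norm_pw]
          exact mul_le_mul (mul_le_mul hu h1 (norm_nonneg _) (by norm_num)) h2 (norm_nonneg _)
            (by norm_num)
      _ = 1 := by norm_num

theorem norm_wd_le {u s : A} (hu : ‖u‖ ≤ 1) (hs : ‖s‖ ≤ 1) (L : List (Bool × A))
    (hL : ∀ x ∈ L, ‖x.2‖ ≤ 1) : ‖wd u s L‖ ≤ 1 := by
  rw [wd_eq_rs]
  calc ‖s * rs u L‖ ≤ ‖s‖ * ‖rs u L‖ := norm_mul_le _ _
    _ ≤ 1 * 1 := mul_le_mul hs (norm_rs_le hu L hL) (norm_nonneg _) (by norm_num)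
    _ = 1 := by norm_num

end words

section reduced

variable {A : Type*} [CStarAlgebra A] [TracialC A]

theorem Rd.right {L L' : List (Bool × A)} (h : Rd (L ++ L')) : Rd L' :=
  (List.isChain_append.1 h).2.1

theorem Rd.left {L L' : List (Bool × A)} (h : Rd (L ++ L')) : Rd L :=
  (List.isChain_append.1 h).1

theorem Rd.change_last {L L' : List (Bool × A)} {b : Bool} {t t' : A}
    (h : Rd (L ++ (b, t) :: L')) : Rd (L ++ [(b, t')]) := by
  rw [Rd, List.isChain_append] at h ⊢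
  refine ⟨h.1, List.isChain_singleton _, ?_⟩
  intro x hx y hy
  simp only [List.head?_cons, Option.mem_def, Option.some.injEq] at hy
  subst hy
  have := h.2.2 x hx (b, t) (by simp)
  exact this

theorem Rd.tail {x : Bool × A} {L : List (Bool × A)} (h : Rd (x :: L)) : Rd L :=
  List.IsChain.tail h

end reduced

section traces

variable {A : Type*} [CStarAlgebra A] [TracialC A]

/-- `|τ(X z Y)| ≤ c tr q` if `z = z q`, `‖z‖₂ ≤ c ‖q‖₂`. -/
theorem norm_τ_sandwich_le {q z X Y : A} (hq : IsStarProjection q) (hz : z * q = z) {c : ℝ}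
    (hc : n2 z ≤ c * n2 q) (hX : ‖X‖ ≤ 1) (hY : ‖Y‖ ≤ 1) : ‖τ (X * z * Y)‖ ≤ c * tr q := by
  have e1 : τ (X * z * Y) = τ (z * (q * (Y * X))) := by
    have h1 : X * z * Y = X * (z * Y) := by noncomm_ring
    rw [h1, τ_comm]
    congr 1
    conv_lhs => rw [← hz]
    noncomm_ring
  rw [e1]
  have h1 : n2 (q * (Y * X)) ≤ n2 q := by
    refine (n2_mul_le_right q (Y * X)).trans ?_
    have h2 : ‖Y * X‖ ≤ 1 := by
      calc ‖Y * X‖ ≤ ‖Y‖ * ‖X‖ := norm_mul_le _ _
        _ ≤ 1 * 1 := mul_le_mul hY hX (norm_nonneg _) (by norm_num)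
        _ = 1 := by norm_num
    calc n2 q * ‖Y * X‖ ≤ n2 q * 1 := mul_le_mul_of_nonneg_left h2 (n2_nonneg _)
      _ = n2 q := mul_one _
  calc ‖τ (z * (q * (Y * X)))‖ ≤ n2 z * n2 (q * (Y * X)) := norm_τ_mul_le _ _
    _ ≤ n2 z * n2 q := mul_le_mul_of_nonneg_left h1 (n2_nonneg _)
    _ ≤ c * n2 q * n2 q := mul_le_mul_of_nonneg_right hc (n2_nonneg _)
    _ = c * tr q := by rw [mul_assoc, ← sq, n2_sq_proj hq]

theorem norm_τ_proj_le {q X Y : A} (hq : IsStarProjection q) (hX : ‖X‖ ≤ 1) (hY : ‖Y‖ ≤ 1) :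
    ‖τ (X * q * Y)‖ ≤ tr q := by
  have := norm_τ_sandwich_le (z := q) hq hq.isIdempotentElem (c := 1) (by rw [one_mul]) hX hY
  rwa [one_mul] at this

theorem tr_proj_nonneg {q : A} (hq : IsStarProjection q) : 0 ≤ tr q := by
  rw [← n2_sq_proj hq]
  positivity

/-- the words over `S` in `v` of length at most `m` -/
def VW (S : Set A) (v : A) (m : ℕ) : Set A :=
  {x | ∃ s ∈ S, ∃ L : List (Bool × A), L.length ≤ m ∧ (∀ y ∈ L, y.2 ∈ S) ∧ x = wd v s L}

/-- partial unitary `w` on the projection `q` -/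
structure PU (w q : A) : Prop where
  hq : IsStarProjection q
  l : star w * w = q
  r : w * star w = q

theorem PU.mul_q {w q : A} (h : PU w q) : w * q = w := by
  -- `‖w - w q‖² = ‖q - q q - q q + q q q‖ = 0`
  have h1 : star (w - w * q) * (w - w * q) = 0 := by
    rw [star_sub, star_mul, h.hq.isSelfAdjoint.star_eq]
    have h2 : (star w - q * star w) * (w - w * q) =
        star w * w - star w * w * q - q * (star w * w) + q * (star w * w) * q := by noncomm_ring
    rw [h2, h.l, h.hq.isIdempotentElem.eq, h.hq.isIdempotentElem.eq]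
    abel
  have h3 := (CStarRing.star_mul_self_eq_zero_iff (w - w * q)).1 h1
  exact (sub_eq_zero.1 h3).symm

theorem PU.star {w q : A} (h : PU w q) : PU (star w) q :=
  ⟨h.hq, by rw [star_star, h.r], by rw [star_star, h.l]⟩

theorem PU.q_mul {w q : A} (h : PU w q) : q * w = w := by
  have h1 := h.star.mul_q
  have h2 := congrArg Star.star h1
  rwa [star_mul, star_star, h.hq.isSelfAdjoint.star_eq] at h2

theorem PU.pw {w q : A} (h : PU w q) (b : Bool) : PU (pw w b) q := by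
  cases b
  · exact h.star
  · exact h

theorem PU.norm_le {w q : A} (h : PU w q) : ‖w‖ ≤ 1 := by
  have h1 : ‖w‖ * ‖w‖ ≤ 1 := by
    rw [← CStarRing.norm_star_mul_self, h.l]
    exact h.hq.norm_le
  nlinarith [norm_nonneg w]

theorem PU.pw_mul_not {w q : A} (h : PU w q) (b : Bool) : Crest.Agent.GenII1.pw w b * Crest.Agent.GenII1.pw w (!b) = q := by
  cases b
  · exact h.l
  · exact h.r

/-- powers of same-sign letters -/
theorem τ_pw_pow {w : A} {m : ℕ} (hw : ∀ j : ℕ, 1 ≤ j → j ≤ m → τ (w ^ j) = 0) (b : Bool)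
    (j : ℕ) (h1 : 1 ≤ j) (h2 : j ≤ m) : τ (pw w b ^ j) = 0 := by
  cases b
  · rw [pw_false, ← star_pow, τ_star, hw j h1 h2, map_zero]
  · exact hw j h1 h2

theorem PU.q_mul_pow {w q : A} (h : PU w q) {k : ℕ} (hk : 1 ≤ k) : q * w ^ k = w ^ k := by
  obtain ⟨j, rfl⟩ := Nat.exists_eq_add_of_le hk
  rw [pow_add, pow_one, ← mul_assoc, h.q_mul]

theorem PU.pow_mul_q {w q : A} (h : PU w q) {k : ℕ} (hk : 1 ≤ k) : w ^ k * q = w ^ k := by
  obtain ⟨j, rfl⟩ := Nat.exists_eq_add_of_le' hk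
  rw [pow_succ, mul_assoc, h.mul_q]

theorem PU.norm_pow_le {w q : A} (h : PU w q) {k : ℕ} (hk : 1 ≤ k) : ‖w ^ k‖ ≤ 1 := by
  have := norm_pow_le' w hk
  exact this.trans (pow_le_one₀ (norm_nonneg _) h.norm_le)

theorem norm_mul_le_one {x y : A} (hx : ‖x‖ ≤ 1) (hy : ‖y‖ ≤ 1) : ‖x * y‖ ≤ 1 := by
  calc ‖x * y‖ ≤ ‖x‖ * ‖y‖ := norm_mul_le _ _
    _ ≤ 1 * 1 := mul_le_mul hx hy (norm_nonneg _) (by norm_num)
    _ = 1 := by norm_num

/-- data for the patching estimate -/
structure PData (S : Set A) (v w q : A) (m : ℕ) (l : A → ℂ) (δ Λ : ℝ) : Prop where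
  pu : PU w q
  hv : ‖v‖ ≤ 1
  hvw : ‖v + w‖ ≤ 1
  hpow : ∀ j : ℕ, 1 ≤ j → j ≤ m → τ (w ^ j) = 0
  hS : ∀ s ∈ S, ‖s‖ ≤ 1
  hδ : 0 ≤ δ
  hΛ : 0 ≤ Λ
  hl1 : ∀ b ∈ VW S v m, ‖l b‖ ≤ 1
  hq1 : ∀ b ∈ VW S v m, n2 (q * b * q - l b • q) ≤ δ * n2 q
  hl2 : ∀ b ∈ VW S v m, ∀ b' ∈ VW S v m, ‖l (b * b')‖ ≤ 1
  hq2 : ∀ b ∈ VW S v m, ∀ b' ∈ VW S v m, n2 (q * (b * b') * q - l (b * b') • q) ≤ δ * n2 q
  hlΛ : ∀ s ∈ S, ∀ L : List (Bool × A), L.length + 2 ≤ m → (∀ x ∈ L, x.2 ∈ S) →
      ∀ (a : Bool) (t : A), Rd ((a, s) :: L ++ [(!a, t)]) → ‖l (wd v s L)‖ ≤ Λ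

theorem VW_norm_le {S : Set A} {v : A} {m : ℕ} (hv : ‖v‖ ≤ 1) (hS : ∀ s ∈ S, ‖s‖ ≤ 1) {b : A}
    (hb : b ∈ VW S v m) : ‖b‖ ≤ 1 := by
  obtain ⟨s, hs, L, -, hL, rfl⟩ := hb
  exact norm_wd_le hv (hS s hs) L (fun x hx => hS _ (hL x hx))

/-- quantized middle: `|τ (X (q b q - l q) Y)| ≤ δ tr q` -/
theorem quant_err {q b X Y : A} (hq : IsStarProjection q) {l : ℂ} {δ : ℝ}
    (h : n2 (q * b * q - l • q) ≤ δ * n2 q) (hX : ‖X‖ ≤ 1) (hY : ‖Y‖ ≤ 1) :
    ‖τ (X * (q * b * q) * Y) - l * τ (X * q * Y)‖ ≤ δ * tr q := by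
  have h1 := norm_τ_sandwich_le (z := q * b * q - l • q) hq (by
    rw [sub_mul, mul_assoc (q * b), hq.isIdempotentElem.eq, smul_mul_assoc,
      hq.isIdempotentElem.eq]) h hX hY
  have h2 : X * (q * b * q - l • q) * Y = X * (q * b * q) * Y - l • (X * q * Y) := by
    rw [mul_sub, sub_mul, mul_smul_comm, smul_mul_assoc]
  rw [h2, map_sub, map_smul, smul_eq_mul] at h1
  exact h1

set_option maxHeartbeats 2000000 in
theorem PData.stepA {S : Set A} {v w q : A} {m : ℕ} {l : A → ℂ} {δ Λ : ℝ}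
    (D : PData S v w q m l δ Λ) {Y : A} (hY : Y ∈ VW S v m) :
    ∀ (L : List (Bool × A)), (∀ x ∈ L, x.2 ∈ S) → ∀ (k : ℕ) (a : Bool) (t0 : A)
      (L0 : List (Bool × A)), 1 ≤ k → t0 ∈ S → (∀ x ∈ L0, x.2 ∈ S) →
      Rd ((a, t0) :: (L0 ++ L)) → k + L0.length + L.length ≤ m →
      ‖τ (Y * pw w a ^ k * wd v t0 L0 * rs (v + w) L)‖ ≤ 3 ^ L.length * (Λ + δ) * tr q := by
  have hq := D.pu.hq
  have hY1 : ‖Y‖ ≤ 1 := VW_norm_le D.hv D.hS hY
  have htr : 0 ≤ tr q := tr_proj_nonneg hq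
  have hΛδ : 0 ≤ Λ + δ := add_nonneg D.hΛ D.hδ
  intro L
  induction L with
  | nil =>
    intro _ k a t0 L0 hk ht0 hL0 _ hlen
    simp only [List.length_nil, pow_zero, one_mul, rs_nil, mul_one]
    have hB : wd v t0 L0 ∈ VW S v m := ⟨t0, ht0, L0, by simp at hlen; omega, hL0, rfl⟩
    set B := wd v t0 L0 with hBdef
    have hPU := D.pu.pw a
    set g := pw w a ^ k with hg
    have hgq : g * q = g := hPU.pow_mul_q hk
    have hqg : q * g = g := hPU.q_mul_pow hk
    have hgn : ‖g‖ ≤ 1 := hPU.norm_pow_le hk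
    have e1 : τ (Y * g * B) = τ (g * (q * (B * Y) * q) * 1) := by
      have h1 : Y * g * B = Y * (g * B) := by noncomm_ring
      rw [h1, τ_comm]
      have h2 : g * (q * (B * Y) * q) * 1 = (g * q) * ((B * Y) * q) := by noncomm_ring
      rw [h2, hgq]
      have h3 : g * ((B * Y) * q) = (g * (B * Y)) * q := by noncomm_ring
      rw [h3, τ_comm _ q]
      have h4 : q * (g * (B * Y)) = (q * g) * (B * Y) := by noncomm_ring
      rw [h4, hqg]
      congr 1
      noncomm_ring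
    have h1 : ‖(1 : A)‖ ≤ 1 := norm_rs_le D.hv ([] : List (Bool × A)) (by simp)
    have h2 := quant_err hq (D.hq2 B hB Y hY) hgn h1
    rw [← e1, mul_one, hgq, τ_pw_pow D.hpow a k hk (by simp at hlen; omega), mul_zero,
      sub_zero] at h2
    refine h2.trans ?_
    apply mul_le_mul_of_nonneg_right _ htr
    linarith [D.hΛ]
  | cons x L ih =>
    obtain ⟨b, t⟩ := x
    intro hL k a t0 L0 hk ht0 hL0 hRd hlen
    have ht : t ∈ S := hL (b, t) (by simp)
    have hL' : ∀ x ∈ L, x.2 ∈ S := fun x hx => hL x (by simp [hx])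
    simp only [List.length_cons] at hlen ⊢
    have hB : wd v t0 L0 ∈ VW S v m := ⟨t0, ht0, L0, by omega, hL0, rfl⟩
    have hPU := D.pu.pw a
    set g := pw w a ^ k with hg
    have hgq : g * q = g := hPU.pow_mul_q hk
    have hgn : ‖g‖ ≤ 1 := hPU.norm_pow_le hk
    set R := rs (v + w) L with hR
    have hRn : ‖R‖ ≤ 1 := norm_rs_le D.hvw L (fun x hx => D.hS _ (hL' x hx))
    -- split
    have e1 : Y * g * wd v t0 L0 * rs (v + w) ((b, t) :: L) =
        Y * g * wd v t0 (L0 ++ [(b, t)]) * R + Y * g * wd v t0 L0 * (pw w b * t * R) := by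
      rw [rs_cons, pw_add, wd_concat]
      noncomm_ring
    rw [e1, map_add]
    have f1 : ‖τ (Y * g * wd v t0 (L0 ++ [(b, t)]) * R)‖ ≤ 3 ^ L.length * (Λ + δ) * tr q := by
      apply ih hL' k a t0 (L0 ++ [(b, t)]) hk ht0
      · intro x hx
        rw [List.mem_append] at hx
        rcases hx with hx | hx
        · exact hL0 x hx
        · simp only [List.mem_singleton] at hx
          rw [hx]; exact ht
      · rw [List.append_assoc, List.singleton_append]
        exact hRd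
      · rw [List.length_append, List.length_singleton]
        omega
    -- second part
    have hPUb := D.pu.pw b
    have hX : ‖Y * g‖ ≤ 1 := norm_mul_le_one hY1 hgn
    have hZ : ‖pw w b * t * R‖ ≤ 1 :=
      norm_mul_le_one (norm_mul_le_one hPUb.norm_le (D.hS t ht)) hRn
    have h2 := quant_err hq (D.hq1 _ hB) hX hZ
    set B := wd v t0 L0 with hBdef
    have e2 : Y * g * (q * B * q) * (pw w b * t * R) = Y * g * B * (pw w b * t * R) := by
      have h3 : Y * g * (q * B * q) * (pw w b * t * R) =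
          Y * (g * q) * B * ((q * pw w b) * t * R) := by noncomm_ring
      rw [h3, hgq, hPUb.q_mul]
    have e3 : Y * g * q * (pw w b * t * R) = Y * (g * pw w b) * t * R := by
      have h3 : Y * g * q * (pw w b * t * R) = Y * (g * (q * pw w b)) * t * R := by noncomm_ring
      rw [h3, hPUb.q_mul]
    rw [e2] at h2
    have f2 : ‖l B * τ (Y * g * q * (pw w b * t * R))‖ ≤
        3 ^ L.length * (Λ + δ) * tr q := by
      rw [norm_mul]
      by_cases hab : b = a
      · subst hab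
        rw [e3, ← pow_succ]
        have h4 : ‖τ (Y * pw w b ^ (k + 1) * t * R)‖ ≤ 3 ^ L.length * (Λ + δ) * tr q := by
          have h5 := ih hL' (k + 1) b t [] (by omega) ht (by simp) (by
            rw [List.nil_append]
            have h6 : Rd (((b, t0) :: L0) ++ ((b, t) :: L)) := hRd
            exact h6.right) (by simp; omega)
          exact h5
        calc ‖l B‖ * ‖τ (Y * pw w b ^ (k + 1) * t * R)‖ ≤ 1 * (3 ^ L.length * (Λ + δ) * tr q) :=
              mul_le_mul (D.hl1 B hB) h4 (norm_nonneg _) (by norm_num)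
          _ = 3 ^ L.length * (Λ + δ) * tr q := one_mul _
      · have hba : b = !a := by
          cases a <;> cases b <;> simp_all
        have h4 : ‖l B‖ ≤ Λ := by
          apply D.hlΛ t0 ht0 L0 (by omega) hL0 a t
          subst hba
          have h6 : Rd (((a, t0) :: L0) ++ ((!a, t) :: L)) := hRd
          exact h6.change_last
        have h5 : ‖τ (Y * g * q * (pw w b * t * R))‖ ≤ tr q := norm_τ_proj_le hq hX hZ
        calc ‖l B‖ * ‖τ (Y * g * q * (pw w b * t * R))‖ ≤ Λ * tr q :=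
              mul_le_mul h4 h5 (norm_nonneg _) D.hΛ
          _ ≤ 3 ^ L.length * (Λ + δ) * tr q := by
              apply mul_le_mul_of_nonneg_right _ htr
              have h6 : (1 : ℝ) ≤ 3 ^ L.length := one_le_pow₀ (by norm_num)
              nlinarith [D.hδ, D.hΛ]
    have f3 : ‖τ (Y * g * B * (pw w b * t * R))‖ ≤
        δ * tr q + 3 ^ L.length * (Λ + δ) * tr q := by
      calc ‖τ (Y * g * B * (pw w b * t * R))‖ =
          ‖(τ (Y * g * B * (pw w b * t * R)) - l B * τ (Y * g * q * (pw w b * t * R))) +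
            l B * τ (Y * g * q * (pw w b * t * R))‖ := by congr 1; ring
        _ ≤ _ := (norm_add_le _ _).trans (add_le_add h2 f2)
    refine (norm_add_le _ _).trans ((add_le_add f1 f3).trans ?_)
    have h6 : (1 : ℝ) ≤ 3 ^ L.length := one_le_pow₀ (by norm_num)
    have h7 : δ ≤ 3 ^ L.length * (Λ + δ) := by nlinarith [D.hδ, D.hΛ]
    have h8 : δ * tr q ≤ 3 ^ L.length * (Λ + δ) * tr q := mul_le_mul_of_nonneg_right h7 htr
    rw [pow_succ]
    linarith

set_option maxHeartbeats 1000000 in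
theorem PData.stepB {S : Set A} {v w q : A} {m : ℕ} {l : A → ℂ} {δ Λ : ℝ}
    (D : PData S v w q m l δ Λ) {s : A} (hs : s ∈ S) :
    ∀ (L : List (Bool × A)), (∀ x ∈ L, x.2 ∈ S) → ∀ (L0 : List (Bool × A)),
      (∀ x ∈ L0, x.2 ∈ S) → Rd (L0 ++ L) → L0.length + L.length ≤ m →
      ‖τ (wd v s L0 * rs (v + w) L) - τ (wd v s L0 * rs v L)‖ ≤
        3 ^ L.length * (Λ + δ) * tr q := by
  have hq := D.pu.hq
  have htr : 0 ≤ tr q := tr_proj_nonneg hq
  have hΛδ : 0 ≤ Λ + δ := add_nonneg D.hΛ D.hδ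
  intro L
  induction L with
  | nil =>
    intro _ L0 _ _ _
    simp only [rs_nil, sub_self, norm_zero]
    positivity
  | cons x L ih =>
    obtain ⟨b, t⟩ := x
    intro hL L0 hL0 hRd hlen
    have ht : t ∈ S := hL (b, t) (by simp)
    have hL' : ∀ x ∈ L, x.2 ∈ S := fun x hx => hL x (by simp [hx])
    simp only [List.length_cons] at hlen ⊢
    have e1 : wd v s L0 * rs (v + w) ((b, t) :: L) =
        wd v s (L0 ++ [(b, t)]) * rs (v + w) L + wd v s L0 * pw w b ^ 1 * t * rs (v + w) L := by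
      rw [rs_cons, pw_add, wd_concat]
      noncomm_ring
    have e2 : wd v s L0 * rs v ((b, t) :: L) = wd v s (L0 ++ [(b, t)]) * rs v L := by
      rw [rs_cons, wd_concat]
      noncomm_ring
    have f1 := ih hL' (L0 ++ [(b, t)]) (by
      intro x hx
      rw [List.mem_append] at hx
      rcases hx with hx | hx
      · exact hL0 x hx
      · simp only [List.mem_singleton] at hx
        rw [hx]; exact ht) (by
      rw [List.append_assoc, List.singleton_append]
      exact hRd) (by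
      rw [List.length_append, List.length_singleton]
      omega)
    have f2 := D.stepA (Y := wd v s L0) ⟨s, hs, L0, by omega, hL0, rfl⟩ L hL' 1 b t [] le_rfl ht
      (by simp) (by
        rw [List.nil_append]
        exact hRd.right) (by simp; omega)
    rw [e1, e2, map_add]
    have e3 : τ (wd v s (L0 ++ [(b, t)]) * rs (v + w) L) +
        τ (wd v s L0 * pw w b ^ 1 * t * rs (v + w) L) - τ (wd v s (L0 ++ [(b, t)]) * rs v L) =
        (τ (wd v s (L0 ++ [(b, t)]) * rs (v + w) L) - τ (wd v s (L0 ++ [(b, t)]) * rs v L)) +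
        τ (wd v s L0 * pw w b ^ 1 * t * rs (v + w) L) := by ring
    rw [e3]
    refine (norm_add_le _ _).trans ((add_le_add f1 f2).trans ?_)
    have h6 : (0 : ℝ) ≤ 3 ^ L.length * (Λ + δ) * tr q := by positivity
    rw [pow_succ]
    linarith

/-- the patching estimate -/
theorem PData.estimate {S : Set A} {v w q : A} {m : ℕ} {l : A → ℂ} {δ Λ : ℝ}
    (D : PData S v w q m l δ Λ) {s : A} (hs : s ∈ S) (L : List (Bool × A))
    (hL : ∀ x ∈ L, x.2 ∈ S) (hRd : Rd L) (hlen : L.length ≤ m) :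
    ‖τ (wd (v + w) s L) - τ (wd v s L)‖ ≤ 3 ^ m * (Λ + δ) * tr q := by
  have h1 := D.stepB hs L hL [] (by simp) hRd (by simpa using hlen)
  rw [show wd v s [] = s from rfl, ← wd_eq_rs, ← wd_eq_rs] at h1
  refine h1.trans ?_
  have htr : 0 ≤ tr q := tr_proj_nonneg D.pu.hq
  have hΛδ : 0 ≤ Λ + δ := add_nonneg D.hΛ D.hδ
  have h2 : (3 : ℝ) ^ L.length ≤ 3 ^ m := pow_le_pow_right₀ (by norm_num) hlen
  exact mul_le_mul_of_nonneg_right (mul_le_mul_of_nonneg_right h2 hΛδ) htr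

end traces

end Crest.Agent.GenII1
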