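import Crest.Agent.GenII1.PatchA
import Crest.Agent.GenII1.LQ

/-! Popa's incremental patching: extension of partial unitaries. -/

set_option autoImplicit false
set_option linter.unusedSectionVars false

namespace Crest.Agent.GenII1

open Filter Topology

variable {A : Type*} [CStarAlgebra A] [FinVN A]

theorem tr_pos_of_ne_zero {q : A} (hq : IsStarProjection q) (h0 : q ≠ 0) : 0 < tr q := by
  rw [← n2_sq_proj hq]
  have := n2_pos h0
  positivity

theorem τ_proj {q : A} (hq : IsStarProjection q) : τ q = ((tr q : ℝ) : ℂ) := by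
  have h1 := τ_star_mul_self q
  rw [hq.isSelfAdjoint.star_eq, hq.isIdempotentElem.eq, n2_sq_proj hq] at h1
  exact h1

/-- a "Haar to order `m`" partial unitary on a projection of `P` -/
theorem exists_pu_haar {P : StarSubalgebra ℂ A} (hP : IsFac P) {q : A} (hq : q ∈ P)
    (hqq : IsStarProjection q) (m : ℕ) :
    ∃ w ∈ P, PU w q ∧ ∀ j : ℕ, 1 ≤ j → j ≤ m → τ (w ^ j) = 0 := by
  obtain ⟨r, hrP, hrr, hro, hrs, hrt⟩ := exists_partition hP hq hqq (m + 1) (by omega)
  set ω : ℂ := Complex.exp (2 * Real.pi * Complex.I / ((m + 1 : ℕ) : ℂ)) with hω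
  have hprim : IsPrimitiveRoot ω (m + 1) := Complex.isPrimitiveRoot_exp (m + 1) (by omega)
  set w : A := ∑ a : Fin (m + 1), (ω ^ (a : ℕ)) • r a with hw
  have hω1 : ∀ k : ℕ, (starRingEnd ℂ) (ω ^ k) * ω ^ k = 1 := by
    intro k
    have h1 : ‖ω‖ = 1 := hprim.norm'_eq_one (by omega)
    rw [← Complex.normSq_eq_conj_mul_self, Complex.normSq_eq_norm_sq, norm_pow, h1]
    simp
  have hmul : ∀ (f g : Fin (m + 1) → ℂ), (∑ a, f a • r a) * (∑ a, g a • r a) =
      ∑ a, (f a * g a) • r a := by
    intro f g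
    rw [Finset.sum_mul_sum]
    apply Finset.sum_congr rfl
    intro a _
    rw [Finset.sum_eq_single a]
    · rw [smul_mul_smul_comm, (hrr a).isIdempotentElem.eq]
    · intro b _ hba
      rw [smul_mul_smul_comm, hro a b (Ne.symm hba), smul_zero]
    · intro h; exact absurd (Finset.mem_univ a) h
  have hstar : star w = ∑ a : Fin (m + 1), ((starRingEnd ℂ) (ω ^ (a : ℕ))) • r a := by
    rw [hw, star_sum]
    apply Finset.sum_congr rfl
    intro a _
    rw [star_smul, (hrr a).isSelfAdjoint.star_eq]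
    rfl
  have hpow : ∀ j : ℕ, 1 ≤ j → w ^ j = ∑ a : Fin (m + 1), ((ω ^ (a : ℕ)) ^ j) • r a := by
    intro j hj
    induction j, hj using Nat.le_induction with
    | base => simp [hw]
    | succ j hj ih =>
      rw [pow_succ, ih, hw, hmul]
      simp only [pow_succ]
  refine ⟨w, ?_, ⟨hqq, ?_, ?_⟩, ?_⟩
  · exact sum_mem fun a _ => P.smul_mem (hrP a) _
  · rw [hstar, hw, hmul]
    simp only [hω1, one_smul, hrs]
  · rw [hstar, hw, hmul]
    simp only [mul_comm (ω ^ _), hω1, one_smul, hrs]
  · intro j hj1 hj2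
    rw [hpow j hj1, map_sum]
    have h1 : ∀ a : Fin (m + 1), τ (((ω ^ (a : ℕ)) ^ j) • r a) =
        (ω ^ j) ^ (a : ℕ) * (((tr q / ((m + 1 : ℕ) : ℝ) : ℝ)) : ℂ) := by
      intro a
      rw [map_smul, smul_eq_mul, τ_proj (hrr a), hrt a, ← pow_mul, ← pow_mul, mul_comm (a : ℕ) j]
    simp only [h1]
    rw [← Finset.sum_mul]
    have h2 : ω ^ j ≠ 1 := by
      intro h
      have h3 := hprim.dvd_of_pow_eq_one j h
      have := Nat.le_of_dvd (by omega) h3
      omega
    have h3 : ∑ a : Fin (m + 1), (ω ^ j) ^ (a : ℕ) = 0 := by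
      rw [Fin.sum_univ_eq_sum_range (fun a => (ω ^ j) ^ a) (m + 1)]
      have h4 := geom_sum_mul (ω ^ j) (m + 1)
      have h5 : (ω ^ j) ^ (m + 1) = 1 := by
        rw [← pow_mul, mul_comm, pow_mul, hprim.pow_eq_one, one_pow]
      rw [h5, sub_self] at h4
      rcases mul_eq_zero.1 h4 with h6 | h6
      · exact h6
      · exact absurd (sub_eq_zero.1 h6) h2
    rw [h3, zero_mul]

/-- the set of words is finite -/
theorem VW_finite {S : Set A} (hS : S.Finite) (v : A) (m : ℕ) : (VW S v m).Finite := by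
  have h1 : ∀ m : ℕ, {L : List (Bool × A) | L.length ≤ m ∧ ∀ y ∈ L, y.2 ∈ S}.Finite := by
    intro m
    induction m with
    | zero =>
      refine (Set.finite_singleton ([] : List (Bool × A))).subset ?_
      rintro L ⟨hL, -⟩
      simp only [Set.mem_singleton_iff]
      exact List.length_eq_zero_iff.1 (by omega)
    | succ m ih =>
      have hU : ((Set.univ : Set Bool) ×ˢ S).Finite := Set.finite_univ.prod hS
      refine ((Set.finite_singleton ([] : List (Bool × A))).union
        (hU.image2 (fun x L => x :: L) ih)).subset ?_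
      rintro L ⟨hL, hLS⟩
      cases L with
      | nil => left; rfl
      | cons x L =>
        right
        refine ⟨x, ⟨Set.mem_univ _, hLS x (by simp)⟩, L, ⟨by simpa using hL, fun y hy => hLS y (by simp [hy])⟩, rfl⟩
  refine (hS.image2 (fun s L => wd v s L) (h1 m)).subset ?_
  rintro x ⟨s, hs, L, hL, hLS, rfl⟩
  exact ⟨s, hs, L, ⟨hL, hLS⟩, rfl⟩

/-- bound for all reduced nonempty words of length at most `m` -/
def LamLe (S : Set A) (v : A) (m : ℕ) (B : ℝ) : Prop :=
  ∀ s ∈ S, ∀ L : List (Bool × A), L ≠ [] → L.length ≤ m → (∀ x ∈ L, x.2 ∈ S) → Rd L →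
    ‖τ (wd v s L)‖ ≤ B

/-- extension step -/
theorem exists_extension {P : StarSubalgebra ℂ A} (h : IsIrr P ⊤) {S : Set A} (hSf : S.Finite)
    (hS1 : ∀ s ∈ S, ‖s‖ ≤ 1) (h1S : (1 : A) ∈ S) (m : ℕ) {v p : A} (hvP : v ∈ P) (hv : PU v p)
    (hp1 : p ≠ 1) {B δ : ℝ} (hB : 0 ≤ B) (hδ : 0 < δ) (hLam : LamLe S v m B) :
    ∃ w q : A, w ∈ P ∧ q ∈ P ∧ PU w q ∧ q ≠ 0 ∧ p * q = 0 ∧ tr q ≤ tr (1 - p) / 2 ∧
      LamLe S (v + w) m (B + 3 ^ m * (2 * B / tr (1 - p) + δ) * tr q) := by
  have hpP : p ∈ P := by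
    rw [← hv.l]
    exact mul_mem (star_mem hvP) hvP
  set e : A := 1 - p with he
  have hee : IsStarProjection e := hv.hq.one_sub
  have heP : e ∈ P := sub_mem (one_mem P) hpP
  have he0 : e ≠ 0 := fun h0 => hp1 (sub_eq_zero.1 h0).symm
  have hx : 0 < tr e := tr_pos_of_ne_zero hee he0
  set VW1 := VW S v m with hVW
  have hfin1 : VW1.Finite := VW_finite hSf v m
  have hfin2 : (Set.image2 (fun b b' => b * b') VW1 VW1).Finite := hfin1.image2 _ hfin1
  obtain ⟨q, hqP, hqq, hq0, heq, hqtr, hquant⟩ := local_quant h heP hee he0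
    (hfin1.union hfin2).toFinset (fun _ _ => by trivial) δ hδ
  obtain ⟨w, hwP, hw, hwpow⟩ := exists_pu_haar h.isFac hqP hqq m
  have hpq : p * q = 0 := by
    have h1 : (1 - p) * q = q := heq
    rw [sub_mul, one_mul] at h1
    exact sub_eq_self.1 h1
  have hqp : q * p = 0 := by
    have h1 := congrArg star hpq
    rwa [star_mul, hqq.isSelfAdjoint.star_eq, hv.hq.isSelfAdjoint.star_eq, star_zero] at h1
  have hvq : v * q = 0 := by rw [← hv.mul_q, mul_assoc, hpq, mul_zero]
  have hqv : q * v = 0 := by rw [← hv.q_mul, ← mul_assoc, hqp, zero_mul]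
  have hvw1 : star v * w = 0 := by
    rw [← hw.q_mul, ← mul_assoc]
    have h1 := congrArg star hqv
    rw [star_mul, hqq.isSelfAdjoint.star_eq, star_zero] at h1
    rw [h1, zero_mul]
  have hvw2 : v * star w = 0 := by
    rw [← hw.star.q_mul, ← mul_assoc, hvq, zero_mul]
  have hwv1 : star w * v = 0 := by
    have h1 := congrArg star hvw1
    rwa [star_mul, star_star, star_zero] at h1
  have hwv2 : w * star v = 0 := by
    have h1 := congrArg star hvw2
    rwa [star_mul, star_star, star_zero] at h1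
  have hpqp : IsStarProjection (p + q) := by
    refine ⟨?_, ?_⟩
    · change (p + q) * (p + q) = p + q
      rw [add_mul, mul_add, mul_add, hv.hq.isIdempotentElem.eq, hqq.isIdempotentElem.eq, hpq, hqp]
      abel
    · exact hv.hq.isSelfAdjoint.add hqq.isSelfAdjoint
  have hpuvw : PU (v + w) (p + q) := by
    refine ⟨hpqp, ?_, ?_⟩
    · rw [star_add, add_mul, mul_add, mul_add, hv.l, hw.l, hvw1, hwv1]
      abel
    · rw [star_add, add_mul, mul_add, mul_add, hv.r, hw.r, hvw2, hwv2]
      abel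
  -- the constants
  set l : A → ℂ := fun b => τ (e * b) / τ e with hl
  have hτe : τ e = ((tr e : ℝ) : ℂ) := τ_proj hee
  have hl_le : ∀ (b : A) (c : ℝ), ‖τ (e * b)‖ ≤ c → ‖l b‖ ≤ c / tr e := by
    intro b c hc
    rw [hl]
    simp only
    rw [norm_div, hτe, Complex.norm_real, Real.norm_eq_abs, abs_of_pos hx]
    exact div_le_div_of_nonneg_right hc hx.le
  have hl1 : ∀ b : A, ‖b‖ ≤ 1 → ‖l b‖ ≤ 1 := by
    intro b hb
    have h1 : ‖τ (e * b)‖ ≤ tr e := by
      have h2 := norm_τ_proj_le (X := (1 : A)) (Y := b) hee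
        (norm_rs_le (A := A) hv.norm_le ([] : List (Bool × A)) (by simp)) hb
      rwa [one_mul] at h2
    have h2 := hl_le b _ h1
    rwa [div_self hx.ne'] at h2
  have hΛ0 : 0 ≤ 2 * B / tr e := by positivity
  have D : PData S v w q m l δ (2 * B / tr e) := by
    refine ⟨hw, hv.norm_le, hpuvw.norm_le, hwpow, hS1, hδ.le, hΛ0, ?_, ?_, ?_, ?_, ?_⟩
    · intro b hb
      exact hl1 b (VW_norm_le hv.norm_le hS1 hb)
    · intro b hb
      exact hquant b ((Set.Finite.mem_toFinset _).2 (Or.inl hb))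
    · intro b hb b' hb'
      exact hl1 _ (norm_mul_le_one (VW_norm_le hv.norm_le hS1 hb) (VW_norm_le hv.norm_le hS1 hb'))
    · intro b hb b' hb'
      exact hquant (b * b') ((Set.Finite.mem_toFinset _).2 (Or.inr ⟨b, hb, b', hb', rfl⟩))
    · intro s hs L hlen hLS a t hRd
      apply hl_le
      -- `τ (e b) = τ b - τ (p b)`
      have e1 : τ (e * wd v s L) = τ (wd v s L) - τ (p * wd v s L) := by
        rw [he, sub_mul, one_mul, map_sub]
      have hPUa := hv.pw a
      -- `τ (p b) = τ (v^a b v^{-a})`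
      have e2 : τ (p * wd v s L) = τ (wd v 1 ((a, s) :: (L ++ [(!a, 1)]))) := by
        have h1 : wd v 1 ((a, s) :: (L ++ [(!a, 1)])) = pw v a * (wd v s L * pw v (!a)) := by
          rw [wd, wd_concat, one_mul, mul_one]
        have h2 : pw v (!a) * pw v a = p := by
          have := hv.pw_mul_not (!a)
          rwa [Bool.not_not] at this
        rw [h1, τ_comm (pw v a), mul_assoc, h2, τ_comm]
      have f2 : ‖τ (p * wd v s L)‖ ≤ B := by
        rw [e2]
        apply hLam 1 h1S
        · simp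
        · rw [List.length_cons, List.length_append, List.length_singleton]
          omega
        · intro x hx
          simp only [List.mem_cons, List.mem_append, List.not_mem_nil, or_false] at hx
          rcases hx with rfl | hx | rfl
          · exact hs
          · exact hLS x hx
          · exact h1S
        · have h3 : Rd (((a, s) :: L) ++ (!a, t) :: []) := hRd
          exact h3.change_last
      have f1 : ‖τ (wd v s L)‖ ≤ B := by
        cases L with
        | nil =>
          have h3 : Rd ((a, s) :: [] ++ [(!a, t)]) := hRd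
          rw [Rd] at h3
          simp only [List.cons_append, List.nil_append, List.isChain_cons_cons,
            List.isChain_singleton, and_true] at h3
          have h4 : τ s = 0 := h3 (by cases a <;> simp)
          rw [show wd v s [] = s from rfl, h4, norm_zero]
          exact hB
        | cons x L =>
          apply hLam s hs _ (by simp) (by omega) hLS
          have h3 : Rd ((a, s) :: (x :: L) ++ [(!a, t)]) := hRd
          have h4 : Rd ((a, s) :: (x :: L)) := h3.left
          exact h4.tail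
      rw [e1]
      calc ‖τ (wd v s L) - τ (p * wd v s L)‖ ≤ ‖τ (wd v s L)‖ + ‖τ (p * wd v s L)‖ := norm_sub_le _ _
        _ ≤ B + B := add_le_add f1 f2
        _ = 2 * B := by ring
  refine ⟨w, q, hwP, hqP, hw, hq0, hpq, hqtr, ?_⟩
  intro s hs L hLne hlen hLS hRd
  have h1 := D.estimate hs L hLS hRd hlen
  have h2 := hLam s hs L hLne hlen hLS hRd
  calc ‖τ (wd (v + w) s L)‖ = ‖τ (wd v s L) + (τ (wd (v + w) s L) - τ (wd v s L))‖ := by
        congr 1; ring
    _ ≤ ‖τ (wd v s L)‖ + ‖τ (wd (v + w) s L) - τ (wd v s L)‖ := norm_add_le _ _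
    _ ≤ _ := add_le_add h2 h1

end Crest.Agent.GenII1
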