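import Crest.Agent.GenII1.MatUnits
import Crest.Agent.GenII1.Averaging

/-! Matrix algebras in an irreducible subfactor whose commutant expectation is almost the trace. -/

set_option autoImplicit false

namespace Crest.Agent.GenII1

open Filter Topology

variable {A : Type*} [CStarAlgebra A] [FinVN A]

section reindex
variable {ι κ : Type*} [Fintype ι] [DecidableEq ι] [Fintype κ] [DecidableEq κ]

theorem MU.qreindex {P : StarSubalgebra ℂ A} {e : ι → ι → A} (he : MU P e) (σ : κ ≃ ι) :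
    MU P (fun i j => e (σ i) (σ j)) where
  mem i j := he.mem _ _
  mul i j k l := by
    rw [he.mul]
    simp only [EmbeddingLike.apply_eq_iff_eq]
  st i j := he.st _ _
  sum := by
    rw [← he.sum]
    exact Equiv.sum_comp σ (fun i => e i i)

theorem EE_qreindex (e : ι → ι → A) (σ : κ ≃ ι) (x : A) :
    EE (fun i j => e (σ i) (σ j)) x = EE e x := by
  unfold EE
  rw [Fintype.card_congr σ]
  congr 1
  rw [← Equiv.sum_comp σ (fun i => ∑ j, e i j * x * e j i)]
  refine Finset.sum_congr rfl fun i _ => ?_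
  exact Equiv.sum_comp σ (fun j => e (σ i) j * x * e j (σ i))

end reindex

/-- EE is bounded in 2-norm around the trace -/
theorem q_n2_EE_sub_le {ι : Type*} [Fintype ι] [DecidableEq ι] {P : StarSubalgebra ℂ A}
    {e : ι → ι → A} (he : MU P e) (x : A) (c : ℂ) :
    n2 (EE e x - c • (1 : A)) ≤ n2 (x - c • (1 : A)) := by
  have h1 := n2_EE_le he (x - c • (1 : A))
  rwa [EE_sub, EE_smul_one he] at h1

/-- combine matrix units -/
theorem MU.combine {P : StarSubalgebra ℂ A} {n m : ℕ} {e : Fin n → Fin n → A}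
    {f : Fin m → Fin m → A} (he : MU P e) (hf : MU (GenII1.relComm P e) f) :
    ∃ g : Fin (n * m) → Fin (n * m) → A, MU P g ∧ (∀ x, EE g x = EE f (EE e x)) ∧
      ∀ s : Finset (Fin n), ∃ s' : Finset (Fin (n * m)), ∑ i ∈ s, e i i = ∑ i ∈ s', g i i := by
  refine ⟨fun i j => prodMU e f (finProdFinEquiv.symm i) (finProdFinEquiv.symm j),
    (he.prod hf).qreindex finProdFinEquiv.symm, fun x => ?_, fun s => ?_⟩
  · rw [EE_qreindex (prodMU e f) finProdFinEquiv.symm x, EE_prod he hf]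
  · refine ⟨(s ×ˢ (Finset.univ : Finset (Fin m))).map finProdFinEquiv.toEmbedding, ?_⟩
    rw [Finset.sum_map]
    simp only [Equiv.coe_toEmbedding, Equiv.symm_apply_apply]
    rw [Finset.sum_product]
    refine Finset.sum_congr rfl fun i _ => ?_
    simp only [prodMU]
    rw [← Finset.mul_sum, hf.sum, mul_one]

/-- `[p, c]` for a diagonal projection only sees `c - EE e c`. -/
theorem q_comm_le_sub_EE {P : StarSubalgebra ℂ A} {n : ℕ} {e : Fin n → Fin n → A} (he : MU P e)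
    (s : Finset (Fin n)) {p : A} (hp : p = ∑ i ∈ s, e i i) (c : A) :
    n2 (p * c - c * p) ≤ 2 * n2 (c - EE e c) := by
  have hpp : IsStarProjection p := hp ▸ he.proj_sum s
  have hcomm : p * EE e c = EE e c * p := by
    rw [hp, Finset.sum_mul, Finset.mul_sum]
    exact Finset.sum_congr rfl fun i _ => EE_comm he c i i
  have hn : ‖p‖ ≤ 1 := by
    exact hpp.norm_le
  have e1 : p * c - c * p = p * (c - EE e c) - (c - EE e c) * p := by
    rw [mul_sub, sub_mul, hcomm]; abel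
  rw [e1]
  refine (n2_sub_le _ _).trans ?_
  have h1 := n2_mul_le_left p (c - EE e c)
  have h2 := n2_mul_le_right (c - EE e c) p
  have h3 := n2_nonneg (c - EE e c)
  nlinarith

/-- a subprojection of rational trace -/
theorem q_exists_rational_sub {P : StarSubalgebra ℂ A} (hP : IsFac P) {p : A} (hp : p ∈ P)
    (hpp : IsStarProjection p) (δ : ℝ) (hδ : 0 < δ) :
    ∃ (p₀ : A) (r N : ℕ), p₀ ∈ P ∧ IsStarProjection p₀ ∧ p * p₀ = p₀ ∧ 0 < N ∧
      tr p₀ = (r : ℝ) / N ∧ n2 (p - p₀) ≤ δ := by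
  have htr0 : 0 ≤ tr p := by rw [← n2_sq_proj hpp]; positivity
  obtain ⟨N, hN⟩ := exists_nat_gt (1 / δ ^ 2)
  have hNpos : (0:ℝ) < N := lt_trans (by positivity) hN
  have hN0 : 0 < N := by exact_mod_cast hNpos
  set r := ⌊tr p * N⌋₊ with hr
  have hfl := Nat.floor_le (show 0 ≤ tr p * N by positivity)
  have hfl2 := Nat.lt_floor_add_one (tr p * N)
  have hle : (r : ℝ) / N ≤ tr p := by rw [div_le_iff₀ hNpos]; exact hfl
  obtain ⟨q, hqP, hq, hpq, htq⟩ := exists_subproj hP hp hpp ((r:ℝ) / N) (by positivity) hle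
  refine ⟨q, r, N, hqP, hq, hpq, hN0, htq, ?_⟩
  have hqp : q * p = q := by
    have := congrArg star hpq
    rwa [star_mul, hq.isSelfAdjoint.star_eq, hpp.isSelfAdjoint.star_eq] at this
  have hsq : n2 (p - q) ^ 2 = tr p - tr q := by
    rw [n2_sq, star_sub, hq.isSelfAdjoint.star_eq, hpp.isSelfAdjoint.star_eq]
    have : (p - q) * (p - q) = p - q := by
      rw [sub_mul, mul_sub, mul_sub, hpq, hqp, hpp.isIdempotentElem.eq, hq.isIdempotentElem.eq]
      abel
    rw [this, map_sub, Complex.sub_re]; rfl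
  have h1 : tr p - tr q ≤ δ ^ 2 := by
    rw [htq]
    have h2 : tr p - (r:ℝ) / N ≤ 1 / N := by
      rw [sub_le_iff_le_add, ← add_div, le_div_iff₀ hNpos]
      linarith
    refine h2.trans ?_
    rw [div_le_iff₀ hNpos]
    rw [div_lt_iff₀ (by positivity)] at hN
    linarith
  rw [← hsq] at h1
  exact (abs_le_of_sq_le_sq' h1 hδ.le).2

/-- one step: a fixed proportion of the variance of a single element is removed.
Proof: projection `p` from `exists_proj_comm`, shrink to rational trace `p₀ ≤ p` with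
`n2 (p - p₀)` tiny, matrix units containing `p₀`, `[p₀,c] = [p₀, c - EE e c]`. -/
theorem quant_step {P M : StarSubalgebra ℂ A} (h : IsIrr P M) {c : A} (hc : c ∈ M) :
    ∃ (n : ℕ) (e : Fin n → Fin n → A), MU P e ∧
      n2 (EE e c - τ c • (1 : A)) ^ 2 ≤ (1 - 1 / 4096) * n2 (c - τ c • (1 : A)) ^ 2 := by
  set D := n2 (c - τ c • (1 : A)) with hD
  have hD0 : 0 ≤ D := n2_nonneg _
  rcases hD0.eq_or_lt with hz | hDpos
  · obtain ⟨e, he⟩ := exists_MU h.isFac 1 one_pos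
    refine ⟨1, e, he, ?_⟩
    have h1 := q_n2_EE_sub_le he c (τ c)
    rw [← hD, ← hz] at h1
    have h2 := n2_nonneg (EE e c - τ c • (1 : A))
    have h3 : n2 (EE e c - τ c • (1 : A)) = 0 := le_antisymm h1 h2
    rw [h3, ← hz]; norm_num
  obtain ⟨p, hpP, hpp, hpc⟩ := exists_proj_comm h hc
  rw [← hD] at hpc
  obtain ⟨p₀, r, N, hp₀, hp₀p, hpp₀, hN, htr, hδ⟩ := q_exists_rational_sub h.isFac hpP hpp
    (D / (64 * (‖c‖ + 1))) (by positivity)
  obtain ⟨e, he, hpe⟩ := exists_MU_of_proj h.isFac hp₀ hp₀p r N hN htr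
  refine ⟨N, e, he, ?_⟩
  have h1 := q_comm_le_sub_EE he _ hpe c
  have h2 : n2 (p * c - c * p) ≤ n2 (p₀ * c - c * p₀) + 2 * ‖c‖ * n2 (p - p₀) := by
    have e1 : p * c - c * p = (p₀ * c - c * p₀) + ((p - p₀) * c - c * (p - p₀)) := by
      noncomm_ring
    rw [e1]
    refine (n2_add_le _ _).trans ?_
    have h3 := n2_sub_le ((p - p₀) * c) (c * (p - p₀))
    have h4 := n2_mul_le_left c (p - p₀)
    have h5 := n2_mul_le_right (p - p₀) c
    linarith
  have h3 : 2 * ‖c‖ * n2 (p - p₀) ≤ D / 32 := by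
    have h4 : n2 (p - p₀) * (64 * (‖c‖ + 1)) ≤ D := by
      rwa [le_div_iff₀ (by positivity)] at hδ
    have h5 := n2_nonneg (p - p₀)
    nlinarith [norm_nonneg c]
  have h4 : D / 64 ≤ n2 (c - EE e c) := by linarith
  have h5 := n2_sq_EE he (c - τ c • (1 : A))
  rw [EE_sub, EE_smul_one he] at h5
  have e2 : c - τ c • (1 : A) - (EE e c - τ c • (1 : A)) = c - EE e c := by abel
  rw [e2, ← hD] at h5
  have h6 : (D / 64) ^ 2 ≤ n2 (c - EE e c) ^ 2 := by gcongr
  nlinarith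

/-- iterate one step inside the relative commutant -/
theorem quant_iter {P M : StarSubalgebra ℂ A} (h : IsIrr P M) {c : A} (hc : c ∈ M) {n : ℕ}
    {e : Fin n → Fin n → A} (he : MU P e) :
    ∃ (n' : ℕ) (e' : Fin n' → Fin n' → A), n ≤ n' ∧ MU P e' ∧
      (∀ x, n2 (EE e' x - τ x • (1 : A)) ≤ n2 (EE e x - τ x • (1 : A))) ∧
      n2 (EE e' c - τ c • (1 : A)) ^ 2 ≤ (1 - 1 / 4096) * n2 (EE e c - τ c • (1 : A)) ^ 2 ∧
      (∀ s : Finset (Fin n), ∃ s' : Finset (Fin n'), ∑ i ∈ s, e i i = ∑ i ∈ s', e' i i) := by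
  have hM : MU M e := he.mono h.le
  obtain ⟨m, f, hf, hfc⟩ := quant_step (h.relComm he) (EE_mem hM hc)
  obtain ⟨g, hg, hgE, hgs⟩ := he.combine hf
  have hm : 0 < m := by
    have := hf.nonempty
    exact Fin.pos_iff_nonempty.2 this
  refine ⟨n * m, g, Nat.le_mul_of_pos_right n hm, hg, fun x => ?_, ?_, hgs⟩
  · rw [hgE]
    exact q_n2_EE_sub_le hf _ _
  · rw [hgE]
    rw [τ_EE he] at hfc
    exact hfc

theorem quant_iter_pow {P M : StarSubalgebra ℂ A} (h : IsIrr P M) {c : A} (hc : c ∈ M) {n : ℕ}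
    {e : Fin n → Fin n → A} (he : MU P e) (k : ℕ) :
    ∃ (n' : ℕ) (e' : Fin n' → Fin n' → A), n ≤ n' ∧ MU P e' ∧
      (∀ x, n2 (EE e' x - τ x • (1 : A)) ≤ n2 (EE e x - τ x • (1 : A))) ∧
      n2 (EE e' c - τ c • (1 : A)) ^ 2 ≤ (1 - 1 / 4096) ^ k * n2 (EE e c - τ c • (1 : A)) ^ 2 ∧
      (∀ s : Finset (Fin n), ∃ s' : Finset (Fin n'), ∑ i ∈ s, e i i = ∑ i ∈ s', e' i i) := by
  induction k with
  | zero => exact ⟨n, e, le_rfl, he, fun x => le_rfl, by simp, fun s => ⟨s, rfl⟩⟩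
  | succ k ih =>
    obtain ⟨n1, e1, hn1, he1, hx1, hc1, hs1⟩ := ih
    obtain ⟨n2', e2, hn2, he2, hx2, hc2, hs2⟩ := quant_iter h hc he1
    refine ⟨n2', e2, hn1.trans hn2, he2, fun x => (hx2 x).trans (hx1 x), ?_, fun s => ?_⟩
    · refine hc2.trans ?_
      have e3 : (1 - 1 / 4096 : ℝ) ^ (k + 1) * n2 (EE e c - τ c • (1 : A)) ^ 2 =
          (1 - 1 / 4096) * ((1 - 1 / 4096) ^ k * n2 (EE e c - τ c • (1 : A)) ^ 2) := by ring
      rw [e3]
      exact mul_le_mul_of_nonneg_left hc1 (by norm_num)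
    · obtain ⟨s1, h1⟩ := hs1 s
      obtain ⟨s2, h2⟩ := hs2 s1
      exact ⟨s2, h1.trans h2⟩

/-- simultaneous version starting from given matrix units -/
theorem quant_from {P M : StarSubalgebra ℂ A} (h : IsIrr P M) (S : Finset A) (hS : ∀ c ∈ S, c ∈ M)
    (ε : ℝ) (hε : 0 < ε) {n : ℕ} {e : Fin n → Fin n → A} (he : MU P e) :
    ∃ (n' : ℕ) (e' : Fin n' → Fin n' → A), n ≤ n' ∧ MU P e' ∧
      (∀ c ∈ S, n2 (EE e' c - τ c • (1 : A)) ≤ ε) ∧
      (∀ s : Finset (Fin n), ∃ s' : Finset (Fin n'), ∑ i ∈ s, e i i = ∑ i ∈ s', e' i i) := by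
  classical
  induction S using Finset.induction_on with
  | empty => exact ⟨n, e, le_rfl, he, by simp, fun s => ⟨s, rfl⟩⟩
  | insert a S ha ih =>
    obtain ⟨n1, e1, hn1, he1, hx1, hs1⟩ := ih (fun c hc => hS c (Finset.mem_insert_of_mem hc))
    have haM := hS a (Finset.mem_insert_self a S)
    set D := n2 (EE e1 a - τ a • (1 : A)) ^ 2 with hD
    have hlim : Tendsto (fun k : ℕ => (1 - 1 / 4096 : ℝ) ^ k * D) atTop (𝓝 (0 * D)) :=
      (tendsto_pow_atTop_nhds_zero_of_lt_one (by norm_num) (by norm_num)).mul_const D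
    rw [zero_mul] at hlim
    obtain ⟨k, hk⟩ := (hlim.eventually (gt_mem_nhds (show (0:ℝ) < ε ^ 2 by positivity))).exists
    obtain ⟨n2', e2, hn2, he2, hx2, hc2, hs2⟩ := quant_iter_pow h haM he1 k
    refine ⟨n2', e2, hn1.trans hn2, he2, fun c hc => ?_, fun s => ?_⟩
    · rcases Finset.mem_insert.1 hc with rfl | hc'
      · have h1 := hc2.trans hk.le
        exact (abs_le_of_sq_le_sq' h1 hε.le).2
      · exact (hx2 c).trans (hx1 c hc')
    · obtain ⟨s1, h1⟩ := hs1 s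
      obtain ⟨s2, h2⟩ := hs2 s1
      exact ⟨s2, h1.trans h2⟩

/-- Lemma δ: finitely many elements simultaneously. -/
theorem quant {P M : StarSubalgebra ℂ A} (h : IsIrr P M) (S : Finset A) (hS : ∀ c ∈ S, c ∈ M)
    (ε : ℝ) (hε : 0 < ε) :
    ∃ (n : ℕ) (e : Fin n → Fin n → A), MU P e ∧ ∀ c ∈ S, n2 (EE e c - τ c • (1 : A)) ≤ ε := by
  obtain ⟨e, he⟩ := exists_MU h.isFac 1 one_pos
  obtain ⟨n', e', -, he', hx, -⟩ := quant_from h S hS ε hε he
  exact ⟨n', e', he', hx⟩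

/-- Lemma δ': same, with a prescribed projection of rational trace sitting diagonally in the
matrix algebra, and the matrix size as large as wanted. -/
theorem quant_proj {P M : StarSubalgebra ℂ A} (h : IsIrr P M) (S : Finset A) (hS : ∀ c ∈ S, c ∈ M)
    (ε : ℝ) (hε : 0 < ε) {p : A} (hp : p ∈ P) (hpp : IsStarProjection p) (r N : ℕ) (hN : 0 < N)
    (htr : tr p = (r : ℝ) / N) (K : ℕ) :
    ∃ (n : ℕ) (e : Fin n → Fin n → A) (s : Finset (Fin n)), K ≤ n ∧ MU P e ∧ p = ∑ i ∈ s, e i i ∧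
      ∀ c ∈ S, n2 (EE e c - τ c • (1 : A)) ≤ ε := by
  obtain ⟨e, he, hpe⟩ := exists_MU_of_proj h.isFac hp hpp r N hN htr
  obtain ⟨f, hf⟩ := exists_MU (h.relComm he).isFac (K + 1) (Nat.succ_pos K)
  obtain ⟨g, hg, -, hgs⟩ := he.combine hf
  obtain ⟨n', e', hn', he', hx, hs'⟩ := quant_from h S hS ε hε hg
  obtain ⟨s1, hs1⟩ := hgs (Finset.univ.filter (fun i : Fin N => i.val < r))
  obtain ⟨s2, hs2⟩ := hs' s1
  refine ⟨n', e', s2, ?_, he', ?_, hx⟩
  · have : K + 1 ≤ N * (K + 1) := Nat.le_mul_of_pos_left _ hN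
    omega
  · rw [hpe, hs1, hs2]

end Crest.Agent.GenII1
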