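import Crest.Agent.GenII1.Basic

/-! Spectral projections in a 2-closed star subalgebra. -/

set_option autoImplicit false
set_option linter.unusedSectionVars false
set_option linter.style.haveILetI false
set_option linter.unusedVariables false

namespace Crest.Agent.GenII1

open Filter Topology

variable {A : Type*} [CStarAlgebra A] [FinVN A]

/-- continuous functional calculus stays in a 2-closed star subalgebra -/
theorem cfc_mem {P : StarSubalgebra ℂ A} (hP : TClosed P) {a : A} (ha : a ∈ P) (f : ℝ → ℝ) :
    cfc f a ∈ P :=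
  _root_.cfc_mem (𝕜' := ℂ) (hs := hP.isClosed) f ha

theorem sp_τ_nonneg {a : A} {f : ℝ → ℝ} (hf : Continuous f) (h0 : ∀ s, 0 ≤ f s) :
    0 ≤ (τ (cfc f a)).re := by
  have h1 : cfc f a = star (cfc (fun s => √(f s)) a) * cfc (fun s => √(f s)) a := by
    rw [(cfc_predicate (fun s => √(f s)) a : IsSelfAdjoint _).star_eq,
      ← cfc_mul _ _ a (by fun_prop) (by fun_prop)]
    apply cfc_congr
    intro s _
    exact (Real.mul_self_sqrt (h0 s)).symm
  rw [h1]
  exact τ_nonneg _

theorem sp_τ_mono {a : A} {f g : ℝ → ℝ} (hf : Continuous f) (hg : Continuous g)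
    (h : ∀ s, f s ≤ g s) : (τ (cfc f a)).re ≤ (τ (cfc g a)).re := by
  have h1 := sp_τ_nonneg (a := a) (f := fun s => g s - f s) (by fun_prop)
    (fun s => sub_nonneg.2 (h s))
  rw [cfc_sub g f a (by fun_prop) (by fun_prop), map_sub, Complex.sub_re] at h1
  linarith

theorem sp_n2_sq {a : A} {f : ℝ → ℝ} (hf : Continuous f) :
    n2 (cfc f a) ^ 2 = (τ (cfc (fun s => f s * f s) a)).re := by
  rw [n2_sq, (cfc_predicate f a : IsSelfAdjoint _).star_eq,
    ← cfc_mul _ _ a (by fun_prop) (by fun_prop)]

/-- the approximants of the spectral projection -/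
noncomputable def spf (r : ℝ) (n : ℕ) (s : ℝ) : ℝ := (1 + n * max (s - r) 0)⁻¹

theorem spf_den_pos (r : ℝ) (n : ℕ) (s : ℝ) : 0 < 1 + n * max (s - r) 0 := by
  have : 0 ≤ max (s - r) 0 := le_max_right _ _
  positivity

theorem spf_cont (r : ℝ) (n : ℕ) : Continuous (spf r n) := by
  unfold spf
  exact Continuous.inv₀ (by fun_prop) (fun s => (spf_den_pos r n s).ne')

theorem spf_nonneg (r : ℝ) (n : ℕ) (s : ℝ) : 0 ≤ spf r n s := (inv_pos.2 (spf_den_pos r n s)).le

theorem spf_le_one (r : ℝ) (n : ℕ) (s : ℝ) : spf r n s ≤ 1 := by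
  have : 0 ≤ max (s - r) 0 := le_max_right _ _
  exact inv_le_one_of_one_le₀ (le_add_of_nonneg_right (by positivity))

theorem spf_anti (r : ℝ) {n m : ℕ} (h : n ≤ m) (s : ℝ) : spf r m s ≤ spf r n s := by
  have h1 : 0 ≤ max (s - r) 0 := le_max_right _ _
  have h2 : (n : ℝ) ≤ m := by exact_mod_cast h
  refine inv_anti₀ (spf_den_pos r n s) ?_
  gcongr

theorem spf_norm_le {a : A} (r : ℝ) (n : ℕ) : ‖cfc (spf r n) a‖ ≤ 1 := by
  refine norm_cfc_le zero_le_one (fun s _ => ?_)
  rw [Real.norm_eq_abs, abs_of_nonneg (spf_nonneg r n s)]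
  exact spf_le_one r n s

theorem spf_n2_le {a : A} (r : ℝ) {n m : ℕ} (h : n ≤ m) :
    n2 (cfc (spf r n) a - cfc (spf r m) a) ^ 2
      ≤ (τ (cfc (spf r n) a)).re - (τ (cfc (spf r m) a)).re := by
  have hn := spf_cont r n
  have hm := spf_cont r m
  rw [← cfc_sub _ _ a (by fun_prop) (by fun_prop),
    sp_n2_sq (f := fun s => spf r n s - spf r m s) (by fun_prop), ← Complex.sub_re, ← map_sub,
    ← cfc_sub _ _ a (by fun_prop) (by fun_prop)]
  refine sp_τ_mono (by fun_prop) (by fun_prop) (fun s => ?_)
  have h1 := spf_anti r h s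
  have h2 := spf_le_one r n s
  have h3 := spf_nonneg r m s
  nlinarith

/-- Spectral projection `e = χ_{(-∞,r]}(a)`: it lies in every 2-closed star subalgebra containing
`a` (here: in `P`), commutes with everything commuting with `a`, kills `(a-r)₊`, and its
complement kills `(r-a)₊`.
Proof: `x_n = (1 + n (a-r)₊)⁻¹` (CFC) is decreasing, so 2-norm Cauchy
(`‖x_n-x_m‖₂² ≤ τ(x_n-x_m)`); limit `e`; `τ(x_n - x_n²) ≤ 2 τ(x_n - x_{2n}) → 0`;
`(a-r)₊ x_n = O(1/n)`; `(r-a)₊ x_n = (r-a)₊`. -/
theorem exists_spectral_proj {P : StarSubalgebra ℂ A} (hP : TClosed P) {a : A} (ha : a ∈ P)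
    (hsa : IsSelfAdjoint a) (r : ℝ) :
    ∃ e ∈ P, IsStarProjection e ∧ (∀ b : A, Commute a b → Commute e b) ∧
      cfc (fun s : ℝ => max (s - r) 0) a * e = 0 ∧
      cfc (fun s : ℝ => max (r - s) 0) a * (1 - e) = 0 := by
  set x : ℕ → A := fun n => cfc (spf r n) a with hx
  set t : ℕ → ℝ := fun n => (τ (x n)).re with ht
  have hanti : Antitone t := fun n m h => sp_τ_mono (spf_cont r m) (spf_cont r n) (spf_anti r h)
  have hbdd : BddBelow (Set.range t) := ⟨0, by
    rintro _ ⟨n, rfl⟩
    exact sp_τ_nonneg (spf_cont r n) (spf_nonneg r n)⟩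
  have htl : Tendsto t atTop (𝓝 (⨅ n, t n)) := tendsto_atTop_ciInf hanti hbdd
  have hcau : CauchySeq t := htl.cauchySeq
  have hx1 : ∀ n, ‖x n‖ ≤ 1 := fun n => spf_norm_le r n
  have hxsa : ∀ n, star (x n) = x n := fun n => (cfc_predicate (spf r n) a : IsSelfAdjoint _).star_eq
  obtain ⟨g, hg1, hg⟩ := exists_lim x 1 hx1 (by
    intro ε hε
    obtain ⟨N, hN⟩ := Metric.cauchySeq_iff.1 hcau (ε ^ 2) (by positivity)
    refine ⟨N, fun m hm n hn => ?_⟩
    have key : n2 (x m - x n) ^ 2 < ε ^ 2 := by
      rcases le_total m n with h | h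
      · refine (spf_n2_le r h).trans_lt ?_
        have := hN m hm n hn
        rw [Real.dist_eq] at this
        exact (le_abs_self _).trans_lt this
      · rw [n2_sub_comm]
        refine (spf_n2_le r h).trans_lt ?_
        have := hN n hn m hm
        rw [Real.dist_eq] at this
        exact (le_abs_self _).trans_lt this
    exact lt_of_pow_lt_pow_left₀ 2 hε.le key)
  have hgP : g ∈ P := hP x g 1 (fun n => cfc_mem hP ha _) hx1 hg
  -- a limit argument
  have hlim0 : ∀ (y : A) (C : ℝ), (∀ n, n2 y ≤ C * n2 (x n - g)) → y = 0 := by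
    intro y C hy
    have h1 : Tendsto (fun n => C * n2 (x n - g)) atTop (𝓝 0) := by
      have := hg.const_mul C
      simpa using this
    have h2 : n2 y ≤ 0 := ge_of_tendsto' h1 hy
    exact eq_zero_of_n2 (le_antisymm h2 (n2_nonneg _))
  -- self adjoint
  have hgsa : star g = g := by
    have : star g - g = 0 := by
      refine hlim0 _ 2 (fun n => ?_)
      have e1 : star g - g = star (g - x n) - (g - x n) := by
        rw [star_sub, hxsa]; abel
      rw [e1]
      refine (n2_sub_le _ _).trans ?_
      rw [n2_star, n2_sub_comm g]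
      linarith
    exact sub_eq_zero.1 this
  -- commutation
  have hcomm : ∀ b : A, Commute a b → Commute g b := by
    intro b hb
    have hc : ∀ n, x n * b = b * x n := fun n => (Commute.cfc_real hb (spf r n)).eq
    have : g * b - b * g = 0 := by
      refine hlim0 _ (2 * ‖b‖) (fun n => ?_)
      have e1 : g * b - b * g = b * (x n - g) - (x n - g) * b := by
        rw [mul_sub, sub_mul, hc]; abel
      rw [e1]
      refine (n2_sub_le _ _).trans ?_
      have h1 := n2_mul_le_left b (x n - g)
      have h2 := n2_mul_le_right (x n - g) b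
      linarith
    exact sub_eq_zero.1 this
  -- idempotent
  have hidem : g * g = g := by
    have h1 : ∀ n, n2 (x n - x n * x n) ^ 2 ≤ 2 * (t n - t (2 * n)) := by
      intro n
      have hc := spf_cont r n
      have hc2 := spf_cont r (2 * n)
      have e1 : x n - x n * x n = cfc (fun s => spf r n s - spf r n s * spf r n s) a := by
        rw [cfc_sub _ _ a (by fun_prop) (by fun_prop), cfc_mul _ _ a (by fun_prop) (by fun_prop)]
      rw [e1, sp_n2_sq (by fun_prop)]
      have e2 : 2 * (t n - t (2 * n)) = (τ (cfc (fun s => 2 * (spf r n s - spf r (2 * n) s)) a)).re := by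
        rw [cfc_const_mul 2 (fun s => spf r n s - spf r (2 * n) s) a (by fun_prop),
          cfc_sub _ _ a (by fun_prop) (by fun_prop), ← Complex.coe_smul, map_smul, smul_eq_mul,
          Complex.re_ofReal_mul, map_sub, Complex.sub_re]
      rw [e2]
      refine sp_τ_mono (by fun_prop) (by fun_prop) (fun s => ?_)
      have h2 := spf_le_one r n s
      have h3 := spf_nonneg r n s
      have h4 : spf r n s - spf r n s * spf r n s ≤ 2 * (spf r n s - spf r (2 * n) s) := by
        unfold spf
        have h5 : 0 ≤ max (s - r) 0 := le_max_right _ _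
        have h6 : 0 ≤ (n : ℝ) * max (s - r) 0 := by positivity
        push_cast
        rw [show (2 * (n : ℝ) * max (s - r) 0) = 2 * ((n : ℝ) * max (s - r) 0) by ring]
        generalize (n : ℝ) * max (s - r) 0 = u at h6
        have h7 : (1 + u) ≠ 0 := by positivity
        have h8 : (1 + 2 * u) ≠ 0 := by positivity
        have e3 : (1 + u)⁻¹ - (1 + u)⁻¹ * (1 + u)⁻¹ = u / (1 + u) ^ 2 := by field_simp; ring
        have e4 : 2 * ((1 + u)⁻¹ - (1 + 2 * u)⁻¹) = 2 * u / ((1 + u) * (1 + 2 * u)) := by
          field_simp; ring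
        rw [e3, e4, div_le_div_iff₀ (by positivity) (by positivity)]
        have : 0 ≤ u * (1 + u) := by positivity
        nlinarith
      have h9 : 0 ≤ spf r n s - spf r n s * spf r n s := by nlinarith
      have h10 : spf r n s - spf r n s * spf r n s ≤ 1 := by nlinarith
      nlinarith
    have h2 : Tendsto (fun n => 2 * (t n - t (2 * n))) atTop (𝓝 0) := by
      have h3 : Tendsto (fun n : ℕ => 2 * n) atTop atTop :=
        tendsto_id.const_mul_atTop' (by norm_num)
      have := (htl.sub (htl.comp h3)).const_mul 2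
      simpa using this
    have h3 : Tendsto (fun n => n2 (x n - x n * x n)) atTop (𝓝 0) := by
      have h4 : Tendsto (fun n => n2 (x n - x n * x n) ^ 2) atTop (𝓝 0) :=
        squeeze_zero (fun n => sq_nonneg _) h1 h2
      have h5 := h4.sqrt
      rw [Real.sqrt_zero] at h5
      exact h5.congr (fun n => Real.sqrt_sq (n2_nonneg _))
    have h4 : ∀ n, n2 (g * g - g) ≤ 3 * n2 (x n - g) + n2 (x n - x n * x n) := by
      intro n
      have e1 : g * g - g = (x n - g) - (x n - x n * x n) - (x n * (x n - g) + (x n - g) * g) := by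
        noncomm_ring
      rw [e1]
      refine (n2_sub_le _ _).trans ?_
      have h5 := n2_sub_le (x n - g) (x n - x n * x n)
      have h6 := n2_add_le (x n * (x n - g)) ((x n - g) * g)
      have h7 := n2_mul_le_left (x n) (x n - g)
      have h8 := n2_mul_le_right (x n - g) g
      have h9 := n2_nonneg (x n - g)
      have h10 := mul_le_mul_of_nonneg_right (hx1 n) h9
      have h11 := mul_le_mul_of_nonneg_left hg1 h9
      linarith
    have h5 : Tendsto (fun n => 3 * n2 (x n - g) + n2 (x n - x n * x n)) atTop (𝓝 0) := by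
      have := (hg.const_mul 3).add h3
      simpa using this
    have h6 : n2 (g * g - g) ≤ 0 := ge_of_tendsto' h5 h4
    exact sub_eq_zero.1 (eq_zero_of_n2 (le_antisymm h6 (n2_nonneg _)))
  refine ⟨g, hgP, ⟨hidem, hgsa⟩, hcomm, ?_, ?_⟩
  · set u : A := cfc (fun s : ℝ => max (s - r) 0) a with hu
    have h0 : ∀ n : ℕ, n2 (u * x (n + 1)) ≤ 1 / ((n : ℝ) + 1) := by
      intro n
      refine (n2_le_norm _).trans ?_
      have hc := spf_cont r (n + 1)
      rw [hu, hx]
      simp only
      rw [← cfc_mul _ _ a (by fun_prop) (by fun_prop)]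
      refine norm_cfc_le (by positivity) (fun s _ => ?_)
      have h5 : 0 ≤ max (s - r) 0 := le_max_right _ _
      have h6 := spf_nonneg r (n + 1) s
      rw [Real.norm_eq_abs, abs_of_nonneg (mul_nonneg h5 h6)]
      unfold spf
      generalize max (s - r) 0 = v at h5
      push_cast
      rw [← div_eq_mul_inv, div_le_div_iff₀ (by positivity) (by positivity)]
      nlinarith
    have h1 : ∀ n : ℕ, n2 (u * g) ≤ ‖u‖ * n2 (x (n + 1) - g) + 1 / ((n : ℝ) + 1) := by
      intro n
      have e1 : u * g = u * x (n + 1) - u * (x (n + 1) - g) := by noncomm_ring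
      rw [e1]
      refine (n2_sub_le _ _).trans ?_
      have h2 := n2_mul_le_left u (x (n + 1) - g)
      have h3 := h0 n
      linarith
    have h2 : Tendsto (fun n : ℕ => ‖u‖ * n2 (x (n + 1) - g) + 1 / ((n : ℝ) + 1)) atTop (𝓝 0) := by
      have := ((hg.comp (tendsto_add_atTop_nat 1)).const_mul ‖u‖).add
        tendsto_one_div_add_atTop_nhds_zero_nat
      simpa using this
    have h3 : n2 (u * g) ≤ 0 := ge_of_tendsto' h2 h1
    exact eq_zero_of_n2 (le_antisymm h3 (n2_nonneg _))
  · set w : A := cfc (fun s : ℝ => max (r - s) 0) a with hw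
    have h1 : ∀ n, w * x n = w := by
      intro n
      rw [hw, hx]
      simp only
      rw [← cfc_mul _ _ a (by fun_prop) (spf_cont r n).continuousOn]
      apply cfc_congr
      intro s _
      simp only
      rcases le_total r s with h | h
      · rw [max_eq_right (by linarith), zero_mul]
      · unfold spf
        rw [max_eq_right (a := s - r) (by linarith)]
        simp
    refine hlim0 _ ‖w‖ (fun n => ?_)
    have e1 : w * (1 - g) = w * (x n - g) := by rw [mul_sub, mul_sub, mul_one, h1]
    rw [e1]
    exact n2_mul_le_left _ _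

/-- Layer cake: if every projection of `P` has commutator with `c` of 2-norm at most `κ`, then
every self-adjoint contraction of `P` has commutator of 2-norm at most `2κ`.
(use `a ≈ -1 + ∑_{j<n} (2/n) (1 - e_j)`, `e_j` the spectral projection at `-1+2j/n`.) -/
theorem comm_le_of_proj {P : StarSubalgebra ℂ A} (hP : TClosed P) (c : A) (κ : ℝ)
    (h : ∀ p ∈ P, IsStarProjection p → n2 (p * c - c * p) ≤ κ) {a : A} (ha : a ∈ P)
    (hsa : IsSelfAdjoint a) (hn : ‖a‖ ≤ 1) :
    n2 (a * c - c * a) ≤ 2 * κ := by
  have hκ : 0 ≤ κ := by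
    refine (n2_nonneg (0 * c - c * 0)).trans (h 0 (zero_mem P) (IsStarProjection.zero A))
  have key : ∀ (k : ℕ) (b : A), b ∈ P → IsSelfAdjoint b → ‖b‖ ≤ 1 →
      n2 (b * c - c * b) ≤ 2 * κ + (1 / 2 : ℝ) ^ k * (2 * n2 c) := by
    intro k
    induction k with
    | zero =>
      intro b _ _ hb
      have h1 := n2_sub_le (b * c) (c * b)
      have h2 := n2_mul_le_left b c
      have h3 := n2_mul_le_right c b
      have h4 := mul_le_mul_of_nonneg_right hb (n2_nonneg c)
      have h5 := mul_le_mul_of_nonneg_left hb (n2_nonneg c)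
      rw [pow_zero]
      linarith
    | succ k ih =>
      intro b hbP hbsa hb
      obtain ⟨e, heP, hpe, hcomm, he1, he2⟩ := exists_spectral_proj hP hbP hbsa 0
      set bp : A := cfc (fun s : ℝ => max (s - 0) 0) b with hbp
      set bm : A := cfc (fun s : ℝ => max (0 - s) 0) b with hbm
      have e1 : b = bp - bm := by
        rw [hbp, hbm, ← cfc_sub _ _ b (by fun_prop) (by fun_prop)]
        conv_lhs => rw [← cfc_id' ℝ b]
        apply cfc_congr
        intro s _
        simp only [sub_zero, zero_sub]
        rcases le_total 0 s with h | h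
        · rw [max_eq_left h, max_eq_right (by linarith)]; ring
        · rw [max_eq_right h, max_eq_left (by linarith)]; ring
      set m : A := cfc (fun s : ℝ => 2 * |s| - 1) b with hm
      have e2 : m = (2 : ℂ) • (bp + bm) - 1 := by
        have : (2 : ℂ) • (bp + bm) = (2 : ℝ) • (bp + bm) := by
          have := (Complex.coe_smul (2 : ℝ) (bp + bm))
          rw [← this]; norm_num
        rw [this, hbp, hbm, ← cfc_add b _ _ (by fun_prop) (by fun_prop),
          ← cfc_const_mul (2 : ℝ) _ b (by fun_prop), ← cfc_const_one ℝ b,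
          ← cfc_sub _ _ b (by fun_prop) (by fun_prop)]
        apply cfc_congr
        intro s _
        simp only [sub_zero, zero_sub]
        rcases le_total 0 s with h | h
        · rw [max_eq_left h, max_eq_right (by linarith), abs_of_nonneg h]; ring
        · rw [max_eq_right h, max_eq_left (by linarith), abs_of_nonpos h]; ring
      have hmn : ‖m‖ ≤ 1 := by
        refine norm_cfc_le zero_le_one (fun s hs => ?_)
        have h1 : |s| ≤ 1 := by
          haveI : Nontrivial A := ⟨⟨0, 1, fun h => by
            have h1 := (τ_one : τ (1 : A) = 1)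
            rw [← h, map_zero] at h1
            exact zero_ne_one h1⟩⟩
          have := spectrum.norm_le_norm_of_mem hs
          rw [Real.norm_eq_abs] at this
          exact this.trans hb
        rw [Real.norm_eq_abs, abs_le]
        constructor <;> linarith [abs_nonneg s]
      set sg : A := 1 - (2 : ℂ) • e with hsg
      have hsgsa : star sg = sg := by
        rw [hsg, star_sub, star_one, star_smul, hpe.isSelfAdjoint.star_eq]; simp
      have hsg2 : sg * sg = 1 := by
        have h1 : ((2 : ℂ) • e) * ((2 : ℂ) • e) = (2 : ℂ) • e + (2 : ℂ) • e := by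
          rw [smul_mul_assoc, mul_smul_comm, hpe.isIdempotentElem.eq, smul_smul, ← add_smul]
          norm_num
        have h2 : sg * sg = 1 - (2 : ℂ) • e - (2 : ℂ) • e + ((2 : ℂ) • e) * ((2 : ℂ) • e) := by
          rw [hsg]
          generalize (2 : ℂ) • e = w
          noncomm_ring
        rw [h2, h1]; abel
      have hbme : bm * e = bm := by
        rw [mul_sub, mul_one] at he2
        exact (sub_eq_zero.1 he2).symm
      have hcb : Commute b e := (hcomm b (Commute.refl b)).symm
      have hcm : Commute m e := Commute.cfc_real hcb _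
      have hbd : b = sg * (bp + bm) := by
        have hcp : e * bp = 0 := by
          have : Commute bp e := Commute.cfc_real hcb _
          rw [← this.eq, he1]
        have hcmm : e * bm = bm := by
          have : Commute bm e := Commute.cfc_real hcb _
          rw [← this.eq, hbme]
        rw [hsg, sub_mul, one_mul, smul_mul_assoc, mul_add, hcp, hcmm, zero_add]
        conv_lhs => rw [e1]
        rw [two_smul]; abel
      set b' : A := sg * m with hb'
      have hbb : b = (1 / 2 : ℂ) • (sg + b') := by
        rw [hb', e2, mul_sub, mul_one, mul_smul_comm, ← hbd]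
        rw [add_sub_cancel, smul_smul]; norm_num
      have hb'P : b' ∈ P := by
        refine mul_mem (sub_mem (one_mem P) (P.smul_mem heP _)) (cfc_mem hP hbP _)
      have hmsa : IsSelfAdjoint m := cfc_predicate _ b
      have hsgm : sg * m = m * sg := by
        rw [hsg, sub_mul, mul_sub, one_mul, mul_one, smul_mul_assoc, mul_smul_comm, hcm.eq]
      have hb'sa : IsSelfAdjoint b' := by
        rw [IsSelfAdjoint, hb', star_mul, hmsa.star_eq, hsgsa, hsgm]
      have hb'n : ‖b'‖ ≤ 1 := by
        have h1 : ‖sg‖ ≤ 1 := by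
          have h2 := CStarRing.norm_star_mul_self (x := sg)
          rw [hsgsa, hsg2] at h2
          haveI : Nontrivial A := ⟨⟨0, 1, fun h => by
            have h1 := (τ_one : τ (1 : A) = 1)
            rw [← h, map_zero] at h1
            exact zero_ne_one h1⟩⟩
          rw [CStarRing.norm_one] at h2
          nlinarith [norm_nonneg sg]
        calc ‖b'‖ ≤ ‖sg‖ * ‖m‖ := norm_mul_le _ _
          _ ≤ 1 * 1 := mul_le_mul h1 hmn (norm_nonneg _) zero_le_one
          _ = 1 := one_mul 1
      have hih := ih b' hb'P hb'sa hb'n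
      have h1 : b * c - c * b = (1 / 2 : ℂ) • ((sg * c - c * sg) + (b' * c - c * b')) := by
        conv_lhs => rw [hbb]
        rw [smul_mul_assoc, mul_smul_comm, ← smul_sub]
        congr 1
        noncomm_ring
      have h2 : sg * c - c * sg = (-2 : ℂ) • (e * c - c * e) := by
        rw [hsg, sub_mul, mul_sub, one_mul, mul_one, smul_mul_assoc, mul_smul_comm, neg_smul,
          smul_sub]
        abel
      have h3 : n2 (sg * c - c * sg) ≤ 2 * κ := by
        rw [h2, n2_smul]
        have := h e heP hpe
        simp only [norm_neg, Complex.norm_ofNat]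
        linarith
      rw [h1, n2_smul]
      have h4 := n2_add_le (sg * c - c * sg) (b' * c - c * b')
      have h5 : ‖(1 / 2 : ℂ)‖ = 1 / 2 := by simp
      rw [h5, pow_succ]
      linarith
  have hlim : Tendsto (fun k : ℕ => 2 * κ + (1 / 2 : ℝ) ^ k * (2 * n2 c)) atTop (𝓝 (2 * κ)) := by
    have h1 : Tendsto (fun k : ℕ => (1 / 2 : ℝ) ^ k) atTop (𝓝 0) :=
      tendsto_pow_atTop_nhds_zero_of_lt_one (by norm_num) (by norm_num)
    have := (h1.mul_const (2 * n2 c)).const_add (2 * κ)
    simpa using this
  exact ge_of_tendsto' hlim (fun k => key k a ha hsa hn)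

end Crest.Agent.GenII1
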