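import Crest.Agent.GenII1.Quant

/-! An irreducible two-generated (hyperfinite) subalgebra of a separable II₁ factor. -/

set_option autoImplicit false

namespace Crest.Agent.GenII1

open Filter Topology

section newton

variable {A : Type*} [CStarAlgebra A]

/-- Newton iteration for the sign: `y ↦ -(3/2) y² - (1/2) y³` tends to `0` from `‖y‖ ≤ 1/2`. -/
noncomputable def tgY (y : A) : ℕ → A
  | 0 => y
  | n + 1 => -((3 / 2 : ℂ) • (tgY y n) ^ 2) - (1 / 2 : ℂ) • (tgY y n) ^ 3

theorem tgY_norm {y : A} (hy : ‖y‖ ≤ 1 / 2) (n : ℕ) : ‖tgY y n‖ ≤ (7 / 8 : ℝ) ^ n * (1 / 2) := by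
  induction n with
  | zero => simpa [tgY] using hy
  | succ n ih =>
    have h0 : 0 ≤ ‖tgY y n‖ := norm_nonneg _
    have h1 : ‖tgY y n‖ ≤ 1 / 2 := by
      refine ih.trans ?_
      have : (7 / 8 : ℝ) ^ n ≤ 1 := pow_le_one₀ (by norm_num) (by norm_num)
      linarith
    have e2 : ‖(tgY y n) ^ 2‖ ≤ ‖tgY y n‖ ^ 2 := norm_pow_le' _ (by norm_num)
    have e3 : ‖(tgY y n) ^ 3‖ ≤ ‖tgY y n‖ ^ 3 := norm_pow_le' _ (by norm_num)
    have e4 : ‖tgY y (n + 1)‖ ≤ 3 / 2 * ‖tgY y n‖ ^ 2 + 1 / 2 * ‖tgY y n‖ ^ 3 := by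
      rw [tgY]
      refine (norm_sub_le _ _).trans ?_
      rw [norm_neg, norm_smul, norm_smul]
      have c1 : ‖(3 / 2 : ℂ)‖ = 3 / 2 := by
        rw [show (3 / 2 : ℂ) = ((3 / 2 : ℝ) : ℂ) by push_cast; ring, Complex.norm_real]; norm_num
      have c2 : ‖(1 / 2 : ℂ)‖ = 1 / 2 := by
        rw [show (1 / 2 : ℂ) = ((1 / 2 : ℝ) : ℂ) by push_cast; ring, Complex.norm_real]; norm_num
      rw [c1, c2]
      nlinarith
    have e5 : 3 / 2 * ‖tgY y n‖ ^ 2 + 1 / 2 * ‖tgY y n‖ ^ 3 ≤ 7 / 8 * ‖tgY y n‖ := by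
      nlinarith [mul_nonneg h0 (sub_nonneg.2 h1), mul_nonneg (mul_nonneg h0 h0) (sub_nonneg.2 h1)]
    calc ‖tgY y (n + 1)‖ ≤ 7 / 8 * ‖tgY y n‖ := e4.trans e5
      _ ≤ 7 / 8 * ((7 / 8 : ℝ) ^ n * (1 / 2)) := by linarith
      _ = (7 / 8 : ℝ) ^ (n + 1) * (1 / 2) := by ring

theorem tgY_comm {y u : A} (h : Commute u y) (n : ℕ) : Commute u (tgY y n) := by
  induction n with
  | zero => exact h
  | succ n ih =>
    rw [tgY]
    exact ((ih.pow_right 2).smul_right _).neg_right.sub_right ((ih.pow_right 3).smul_right _)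

/-- extraction of a projection from a small commuting perturbation -/
theorem tg_extract {N : StarSubalgebra ℂ A} (hN : IsClosed (N : Set A)) {p r : A}
    (hp : IsStarProjection p) (hpr : Commute p r) (hr : ‖r‖ ≤ 1 / 4) (h : p + r ∈ N) : p ∈ N := by
  set u : A := 2 • p - 1 with hu
  have hpp : p * p = p := hp.isIdempotentElem.eq
  have huu : u * u = 1 := by
    rw [hu, sub_mul, mul_sub, one_mul, mul_one, nsmul_eq_mul]
    push_cast
    have : (2 * p) * (2 * p) = 4 * (p * p) := by noncomm_ring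
    rw [this, hpp]; noncomm_ring
  have hus : star u = u := by
    rw [hu, star_sub, star_one, star_nsmul, hp.isSelfAdjoint.star_eq]
  have hun : ‖u‖ ≤ 1 := by
    have h1 : ‖star u * u‖ = ‖u‖ * ‖u‖ := CStarRing.norm_star_mul_self
    rw [hus, huu] at h1
    rcases subsingleton_or_nontrivial A with hA | hA
    · rw [Subsingleton.elim u 0]; simp
    · rw [CStarRing.norm_one] at h1
      nlinarith [norm_nonneg u]
  have hur : Commute u r := by
    rw [hu]
    exact (hpr.smul_left 2).sub_left (Commute.one_left r)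
  set y : A := 2 • (u * r) with hy
  have hyn : ‖y‖ ≤ 1 / 2 := by
    rw [hy, nsmul_eq_mul]
    have h1 : ‖u * r‖ ≤ 1 / 4 := by
      refine (norm_mul_le _ _).trans ?_
      nlinarith [norm_nonneg u, norm_nonneg r]
    have h2 : (((2 : ℕ) : A) * (u * r)) = (u * r) + (u * r) := by push_cast; noncomm_ring
    rw [h2]
    refine (norm_add_le _ _).trans ?_
    linarith
  have huy : Commute u y := by
    rw [hy]
    exact ((Commute.refl u).mul_right hur).smul_right 2
  have key : ∀ n, u + u * tgY y n ∈ N := by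
    intro n
    induction n with
    | zero =>
      have h1 : u + u * tgY y 0 = 2 • (p + r) - 1 := by
        show u + u * y = _
        have : u * y = 2 • r := by
          rw [hy, mul_smul_comm, ← mul_assoc, huu, one_mul]
        rw [this, hu]; noncomm_ring
      rw [h1]
      exact sub_mem (nsmul_mem h 2) (one_mem _)
    | succ n ih =>
      set z := tgY y n with hz
      have hcz : Commute u z := tgY_comm huy n
      have h1 : u + u * tgY y (n + 1) =
          (1 / 2 : ℂ) • (3 • (u + u * z) - (u + u * z) * (u + u * z) * (u + u * z)) := by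
        have e1 : (u + u * z) * (u + u * z) = (1 + z) * (1 + z) := by
          have : (u + u * z) * (u + u * z) = u * (1 + z) * (u * (1 + z)) := by noncomm_ring
          rw [this]
          have h2 : Commute u (1 + z) := (Commute.one_right u).add_right hcz
          calc u * (1 + z) * (u * (1 + z)) = u * ((1 + z) * u) * (1 + z) := by noncomm_ring
            _ = u * (u * (1 + z)) * (1 + z) := by rw [h2.eq]
            _ = (u * u) * (1 + z) * (1 + z) := by noncomm_ring
            _ = (1 + z) * (1 + z) := by rw [huu, one_mul]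
        have e2 : (1 + z) * (1 + z) * (u + u * z) = u * ((1 + z) * (1 + z) * (1 + z)) := by
          have h2 : Commute u (1 + z) := (Commute.one_right u).add_right hcz
          have h3 : u + u * z = u * (1 + z) := by noncomm_ring
          rw [h3]
          have h4 := (h2.mul_right h2).eq
          calc (1 + z) * (1 + z) * (u * (1 + z)) = ((1 + z) * (1 + z) * u) * (1 + z) := by noncomm_ring
            _ = (u * ((1 + z) * (1 + z))) * (1 + z) := by rw [h4]
            _ = _ := by noncomm_ring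
        rw [e1, e2, tgY, ← hz]
        have e3 : (3 • (u + u * z) - u * ((1 + z) * (1 + z) * (1 + z))) =
            u * (2 • (1 : A) - 3 • z ^ 2 - z ^ 3) := by noncomm_ring
        rw [e3]
        have e4 : (1 / 2 : ℂ) • (u * (2 • (1 : A) - 3 • z ^ 2 - z ^ 3)) =
            u * ((1 / 2 : ℂ) • (2 • (1 : A) - 3 • z ^ 2 - z ^ 3)) := (mul_smul_comm _ _ _).symm
        rw [e4]
        have e5 : ((1 / 2 : ℂ) • (2 • (1 : A) - 3 • z ^ 2 - z ^ 3)) =
            1 + (-((3 / 2 : ℂ) • z ^ 2) - (1 / 2 : ℂ) • z ^ 3) := by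
          have f1 : (2 • (1 : A)) = (2 : ℂ) • (1 : A) := by
            rw [← Nat.cast_smul_eq_nsmul ℂ]; norm_num
          have f2 : (3 • z ^ 2) = (3 : ℂ) • z ^ 2 := by
            rw [← Nat.cast_smul_eq_nsmul ℂ]; norm_num
          rw [f1, f2, smul_sub, smul_sub, smul_smul, smul_smul]
          norm_num
          abel
        rw [e5]
        noncomm_ring
      rw [h1]
      exact N.smul_mem (sub_mem (nsmul_mem ih 3) (mul_mem (mul_mem ih ih) ih)) _
  have hlim : Tendsto (fun n => u + u * tgY y n) atTop (𝓝 (u + u * 0)) := by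
    refine tendsto_const_nhds.add (tendsto_const_nhds.mul ?_)
    rw [tendsto_zero_iff_norm_tendsto_zero]
    refine squeeze_zero (fun n => norm_nonneg _) (fun n => tgY_norm hyn n) ?_
    have := (tendsto_pow_atTop_nhds_zero_of_lt_one (r := (7 / 8 : ℝ)) (by norm_num) (by norm_num)).mul_const (1 / 2)
    simpa using this
  rw [mul_zero, add_zero] at hlim
  have huN : u ∈ N := hN.mem_of_tendsto hlim (Eventually.of_forall key)
  have h2 : p = (1 / 2 : ℂ) • (u + 1) := by
    rw [hu, sub_add_cancel, ← Nat.cast_smul_eq_nsmul ℂ, smul_smul]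
    norm_num
  rw [h2]
  exact N.smul_mem (add_mem huN (one_mem _)) _

theorem tg_norm_proj_le {p : A} (hp : IsStarProjection p) : ‖p‖ ≤ 1 := by
  have h1 : ‖star p * p‖ = ‖p‖ * ‖p‖ := CStarRing.norm_star_mul_self
  rw [hp.isSelfAdjoint.star_eq, hp.isIdempotentElem.eq] at h1
  nlinarith [norm_nonneg p]

theorem tg_summable {p : ℕ → A} (hp : ∀ m, ‖p m‖ ≤ 1) :
    Summable (fun m => ((1 / 5 : ℝ) ^ m) • p m) := by
  refine Summable.of_norm_bounded (g := fun m => (1 / 5 : ℝ) ^ m)
    (summable_geometric_of_lt_one (by norm_num) (by norm_num)) (fun m => ?_)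
  rw [norm_smul, norm_pow, Real.norm_of_nonneg (by norm_num : (0 : ℝ) ≤ 1 / 5)]
  have : 0 ≤ (1 / 5 : ℝ) ^ m := by positivity
  nlinarith [hp m]

theorem tg_tsum_norm_le {p : ℕ → A} (hp : ∀ m, ‖p m‖ ≤ 1) :
    ‖∑' m, ((1 / 5 : ℝ) ^ (m + 1)) • p m‖ ≤ 1 / 4 := by
  have h1 : HasSum (fun m : ℕ => (1 / 5 : ℝ) ^ (m + 1)) (1 / 4) := by
    have h2 := (hasSum_geometric_of_lt_one (r := (1 / 5 : ℝ)) (by norm_num) (by norm_num)).mul_left (1 / 5)
    have e1 : (fun m : ℕ => (1 / 5 : ℝ) ^ (m + 1)) = fun m => 1 / 5 * (1 / 5 : ℝ) ^ m := by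
      ext m; rw [pow_succ]; ring
    have e2 : (1 / 4 : ℝ) = 1 / 5 * (1 - 1 / 5)⁻¹ := by norm_num
    rw [e1, e2]
    exact h2
  refine tsum_of_norm_bounded h1 (fun m => ?_)
  rw [norm_smul, norm_pow, Real.norm_of_nonneg (by norm_num : (0 : ℝ) ≤ 1 / 5)]
  have : 0 ≤ (1 / 5 : ℝ) ^ (m + 1) := by positivity
  nlinarith [hp m]

/-- all the (commuting) projections `p m` are in every closed star subalgebra containing
`∑ 5^{-m} p m`. -/
theorem tg_extract_all {N : StarSubalgebra ℂ A} (hN : IsClosed (N : Set A)) (p : ℕ → A)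
    (hp : ∀ m, IsStarProjection (p m)) (hc : ∀ m n, Commute (p m) (p n))
    (h : ∑' m, ((1 / 5 : ℝ) ^ m) • p m ∈ N) (m : ℕ) : p m ∈ N := by
  have hn : ∀ m, ‖p m‖ ≤ 1 := fun m => tg_norm_proj_le (hp m)
  have hsmul : ∀ (c : ℝ) (x : A), x ∈ N → c • x ∈ N := by
    intro c x hx
    rw [← Complex.coe_smul]
    exact N.smul_mem hx _
  have key : ∀ m, ∑' j, ((1 / 5 : ℝ) ^ j) • p (m + j) ∈ N ∧ ∀ i, i < m → p i ∈ N := by
    intro m
    induction m with
    | zero => simpa using h
    | succ m ih =>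
      obtain ⟨h1, h2⟩ := ih
      have hs : Summable (fun j => ((1 / 5 : ℝ) ^ j) • p (m + j)) :=
        tg_summable (p := fun j => p (m + j)) (fun j => hn _)
      have e1 : ∑' j, ((1 / 5 : ℝ) ^ j) • p (m + j) =
          p m + ∑' j, ((1 / 5 : ℝ) ^ (j + 1)) • p (m + (j + 1)) := by
        rw [hs.tsum_eq_zero_add]; simp
      have hpm : p m ∈ N := by
        refine tg_extract hN (hp m) ?_
          (tg_tsum_norm_le (p := fun j => p (m + (j + 1))) (fun j => hn _)) (e1 ▸ h1)
        refine Commute.tsum_right _ (fun j => ?_)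
        exact (hc _ _).smul_right _
      refine ⟨?_, ?_⟩
      · have e2 : ∑' j, ((1 / 5 : ℝ) ^ j) • p (m + 1 + j) =
            (5 : ℝ) • (∑' j, ((1 / 5 : ℝ) ^ j) • p (m + j) - p m) := by
          rw [e1, add_sub_cancel_left, ← tsum_const_smul'']
          congr 1
          ext j
          rw [smul_smul, pow_succ, show m + 1 + j = m + (j + 1) by ring]
          congr 1
          ring
        rw [e2]
        exact hsmul _ _ (sub_mem h1 hpm)
      · intro i hi
        rcases Nat.lt_succ_iff_lt_or_eq.1 hi with hi | rfl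
        · exact h2 i hi
        · exact hpm
  exact (key (m + 1)).2 m (Nat.lt_succ_self m)

end newton

variable {A : Type*} [CStarAlgebra A] [FinVN A]

/-- a state of the recursive construction -/
structure TGS (M : StarSubalgebra ℂ A) where
  R : StarSubalgebra ℂ A
  F : A → A
  fac : IsFac R
  le : R ≤ M
  memF : ∀ x ∈ M, F x ∈ R
  tF : ∀ x, τ (F x) = τ x
  nF : ∀ x y, n2 (F x - F y) ≤ n2 (x - y)

theorem tg_step {M : StarSubalgebra ℂ A} (t : ℕ → A) (ht : ∀ j, t j ∈ M) (s : TGS M) (k : ℕ) :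
    ∃ (n : ℕ) (e : Fin n → Fin n → A), 2 ≤ n ∧ MU s.R e ∧
      ∀ j, j ≤ k → n2 (EE e (s.F (t j)) - τ (t j) • (1 : A)) ≤ 1 / ((k : ℝ) + 1) := by
  classical
  obtain ⟨n, e, -, hn, he, -, hq⟩ := quant_proj s.fac
    ((Finset.range (k + 1)).image (fun j => s.F (t j))) (by
      intro c hc
      rw [Finset.mem_image] at hc
      obtain ⟨j, -, rfl⟩ := hc
      exact s.memF _ (ht j)) (1 / ((k : ℝ) + 1)) (by positivity) (one_mem s.R)
      (IsStarProjection.one A) 1 1 (by norm_num) (by simp [tr, τ_one]) 2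
  refine ⟨n, e, hn, he, fun j hj => ?_⟩
  have := hq (s.F (t j)) (Finset.mem_image.2 ⟨j, Finset.mem_range.2 (by omega), rfl⟩)
  rwa [s.tF] at this

/-- the next state -/
noncomputable def TGS.next {M : StarSubalgebra ℂ A} (s : TGS M) {n : ℕ} (e : Fin n → Fin n → A)
    (he : MU s.R e) : TGS M where
  R := relComm s.R e
  F := fun x => EE e (s.F x)
  fac := s.fac.relComm he
  le := (relComm_le _ _).trans s.le
  memF := fun x hx => EE_mem he (s.memF x hx)
  tF := fun x => by rw [τ_EE he, s.tF]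
  nF := fun x y => by
    rw [← EE_sub]
    exact (n2_EE_le he _).trans (s.nF x y)

/-- the tower of commuting matrix algebras -/
theorem tg_tower {M : StarSubalgebra ℂ A} (h : IsFac M) (t : ℕ → A) (ht : ∀ j, t j ∈ M) :
    ∃ (n : ℕ → ℕ) (e : ∀ k, Fin (n k) → Fin (n k) → A) (R : ℕ → StarSubalgebra ℂ A),
      (∀ k, 2 ≤ n k) ∧ (∀ k, R k ≤ M) ∧ (∀ k, MU (R k) (e k)) ∧ (∀ k, R (k + 1) = relComm (R k) (e k)) ∧
      ∀ x, (∀ k i j, e k i j * x = x * e k i j) → ∀ (j k : ℕ), j ≤ k →
        n2 (x - τ (t j) • (1 : A)) ≤ n2 (x - t j) + 1 / ((k : ℝ) + 1) := by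
  classical
  choose n e h2 hMU hq using tg_step (M := M) t ht
  let seq : ℕ → TGS M := fun k => Nat.rec
    { R := M, F := id, fac := h, le := le_rfl, memF := fun x hx => hx, tF := fun _ => rfl,
      nF := fun _ _ => le_rfl } (fun k s => s.next (e s k) (hMU s k)) k
  have hs : ∀ k, seq (k + 1) = (seq k).next (e (seq k) k) (hMU (seq k) k) := fun k => rfl
  refine ⟨fun k => n (seq k) k, fun k => e (seq k) k, fun k => (seq k).R, fun k => h2 _ _,
    fun k => (seq k).le, fun k => hMU _ _, fun k => rfl, ?_⟩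
  intro x hx j k hjk
  have hF : ∀ k, (seq k).F x = x := by
    intro k
    induction k with
    | zero => rfl
    | succ k ih =>
      rw [hs]
      show EE _ ((seq k).F x) = x
      rw [ih]
      exact EE_of_comm (hMU (seq k) k) (fun a b => hx k a b)
  have h1 : n2 (x - (seq (k + 1)).F (t j)) ≤ n2 (x - t j) := by
    have h4 := (seq (k + 1)).nF x (t j)
    have h5 : (seq (k + 1)).F x = x := hF (k + 1)
    calc n2 (x - (seq (k + 1)).F (t j)) = n2 ((seq (k + 1)).F x - (seq (k + 1)).F (t j)) := by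
          rw [h5]
      _ ≤ _ := h4
  have h3 : n2 ((seq (k + 1)).F (t j) - τ (t j) • (1 : A)) ≤ 1 / ((k : ℝ) + 1) :=
    hq (seq k) k j hjk
  exact (n2_triangle _ ((seq (k + 1)).F (t j)) _).trans (add_le_add h1 h3)

theorem tg_dense (M : StarSubalgebra ℂ A)
    (hsep : ∃ s : ℕ → A, ∀ x : A, ∀ ε : ℝ, 0 < ε → ∃ n, n2 (x - s n) < ε) :
    ∃ t : ℕ → A, (∀ j, t j ∈ M) ∧ ∀ x ∈ M, ∀ ε : ℝ, 0 < ε → ∃ j, n2 (x - t j) < ε := by
  classical
  obtain ⟨s, hs⟩ := hsep
  have h1 : ∀ i k : ℕ, ∃ y ∈ M, (∃ z ∈ M, n2 (z - s i) < 1 / ((k : ℝ) + 1)) →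
      n2 (y - s i) < 1 / ((k : ℝ) + 1) := by
    intro i k
    by_cases h : ∃ z ∈ M, n2 (z - s i) < 1 / ((k : ℝ) + 1)
    · obtain ⟨z, hz, hz2⟩ := h
      exact ⟨z, hz, fun _ => hz2⟩
    · exact ⟨0, zero_mem M, fun h' => absurd h' h⟩
  choose y hyM hy using h1
  refine ⟨fun j => y j.unpair.1 j.unpair.2, fun j => hyM _ _, ?_⟩
  intro x hx ε hε
  obtain ⟨k, hk⟩ := exists_nat_one_div_lt (show (0 : ℝ) < ε / 2 by positivity)
  obtain ⟨i, hi⟩ := hs x (1 / ((k : ℝ) + 1)) (by positivity)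
  have h2 := hy i k ⟨x, hx, hi⟩
  refine ⟨Nat.pair i k, ?_⟩
  simp only [Nat.unpair_pair]
  calc n2 (x - y i k) ≤ n2 (x - s i) + n2 (s i - y i k) := n2_triangle _ _ _
    _ < ε / 2 + ε / 2 := by
        rw [n2_sub_comm (s i)]
        exact add_lt_add (hi.trans hk) (h2.trans hk)
    _ = ε := by ring

omit [FinVN A] in
theorem tg_reindex {ι κ : Type*} [Fintype ι] [DecidableEq ι] [Fintype κ] [DecidableEq κ]
    {P : StarSubalgebra ℂ A} {e : ι → ι → A} (he : MU P e) (σ : κ ≃ ι) :
    MU P (fun a b => e (σ a) (σ b)) where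
  mem a b := he.mem _ _
  mul i j k l := by
    rw [he.mul]
    by_cases h : j = k
    · simp [h]
    · rw [if_neg h, if_neg (fun h' => h (σ.injective h'))]
  st i j := he.st _ _
  sum := by
    rw [← he.sum]
    exact Equiv.sum_comp σ (fun i => e i i)

theorem tg_big {N : StarSubalgebra ℂ A} {n : ℕ → ℕ} {e : ∀ k, Fin (n k) → Fin (n k) → A}
    {R : ℕ → StarSubalgebra ℂ A} (hn : ∀ k, 2 ≤ n k) (hMU : ∀ k, MU (R k) (e k))
    (hR : ∀ k, R (k + 1) = relComm (R k) (e k)) (heN : ∀ k i j, e k i j ∈ N) (k : ℕ) :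
    ∃ (m : ℕ) (E : Fin m → Fin m → A), 2 ^ k ≤ m ∧ MU N E ∧
      ∀ i j, ∀ x ∈ R k, E i j * x = x * E i j := by
  induction k with
  | zero =>
    refine ⟨1, fun _ _ => 1, by simp, ?_, fun _ _ x _ => by rw [one_mul, mul_one]⟩
    refine ⟨fun _ _ => one_mem N, fun i j k l => ?_, fun _ _ => star_one _, by simp⟩
    rw [if_pos (Subsingleton.elim j k), one_mul]
  | succ k ih =>
    obtain ⟨m, E, hm, hE, hc⟩ := ih
    have h1 : MU (relComm N E) (e k) :=
      ⟨fun i j => (mem_relComm hE).2 ⟨heN k i j, fun a b => hc a b _ ((hMU k).mem i j)⟩,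
        (hMU k).mul, (hMU k).st, (hMU k).sum⟩
    refine ⟨m * n k, _, ?_, tg_reindex (hE.prod h1) finProdFinEquiv.symm, ?_⟩
    · rw [pow_succ]
      exact Nat.mul_le_mul hm (hn k)
    · intro i j x hx
      rw [hR k] at hx
      obtain ⟨hx1, hx2⟩ := (mem_relComm (hMU k)).1 hx
      simp only [prodMU]
      rw [mul_assoc, hx2, ← mul_assoc, hc _ _ _ hx1, mul_assoc]

omit [FinVN A] in
theorem tg_sum_mem {N : StarSubalgebra ℂ A} (hN : IsClosed (N : Set A)) {f : ℕ → A}
    (hf : ∀ k, f k ∈ N) : ∑' k, f k ∈ N := by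
  by_cases hs : Summable f
  · refine hN.mem_of_tendsto hs.hasSum (Eventually.of_forall (fun s => ?_))
    exact sum_mem (fun i _ => hf i)
  · rw [tsum_eq_zero_of_not_summable hs]
    exact zero_mem N

/-- Nested commuting matrix algebras `Q₁, Q₂, …` of `M` with `EE_{Q₁⋯Q_n}(s_j) → τ(s_j)` for a
dense sequence; `a₁ = ∑ 5^{-m} p_m` over all diagonal units of all `Q_n`,
`a₂ = ∑ δ_n Y_n`, `Y_n = ∑_{i,j} e_{i,j}` of `Q_n`. -/
theorem exists_two_gen {M : StarSubalgebra ℂ A} (h : IsFac M)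
    (hsep : ∃ s : ℕ → A, ∀ x : A, ∀ ε : ℝ, 0 < ε → ∃ n, n2 (x - s n) < ε) :
    ∃ a₁ ∈ M, ∃ a₂ ∈ M, IsSelfAdjoint a₁ ∧ IsSelfAdjoint a₂ ∧
      (∀ x ∈ M, a₁ * x = x * a₁ → a₂ * x = x * a₂ → ∃ c : ℂ, x = c • (1 : A)) ∧
      ∀ K : ℕ, ∃ n : ℕ, K ≤ n ∧ ∃ e : Fin n → Fin n → A,
        MU (StarAlgebra.adjoin ℂ ({a₁, a₂} : Set A)).topologicalClosure e := by
  classical
  obtain ⟨t, htM, ht⟩ := tg_dense M hsep
  obtain ⟨n, e, R, hn, hRM, hMU, hR, hq⟩ := tg_tower h t htM
  have hanti : ∀ k l, k ≤ l → R l ≤ R k := by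
    intro k l hkl
    induction l, hkl using Nat.le_induction with
    | base => exact le_rfl
    | succ l _ ih =>
      rw [hR l]
      exact (relComm_le _ _).trans ih
  have hcomm' : ∀ k l, k < l → ∀ i j a b, e k i j * e l a b = e l a b * e k i j := by
    intro k l hkl i j a b
    have h1 : e l a b ∈ R (k + 1) := hanti (k + 1) l hkl ((hMU l).mem a b)
    rw [hR k] at h1
    exact ((mem_relComm (hMU k)).1 h1).2 i j
  have hcomm : ∀ k l, k ≠ l → ∀ i j a b, e k i j * e l a b = e l a b * e k i j := by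
    intro k l hkl i j a b
    rcases lt_or_gt_of_ne hkl with h1 | h1
    · exact hcomm' k l h1 i j a b
    · exact (hcomm' l k h1 a b i j).symm
  have heM : ∀ k i j, e k i j ∈ M := fun k i j => hRM k ((hMU k).mem i j)
  have hMc : IsClosed (M : Set A) := h.closedM.isClosed
  -- enumeration of the diagonal units
  have : Nonempty (Σ k, Fin (n k)) := ⟨⟨0, ⟨0, by have := hn 0; omega⟩⟩⟩
  obtain ⟨φ, hφ⟩ := exists_surjective_nat (Σ k, Fin (n k))
  set p : ℕ → A := fun m => e (φ m).1 (φ m).2 (φ m).2 with hp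
  have hpp : ∀ m, IsStarProjection (p m) := fun m => (hMU _).proj _
  have hpc : ∀ a b, Commute (p a) (p b) := by
    have hgen : ∀ s s' : Σ k, Fin (n k), Commute (e s.1 s.2 s.2) (e s'.1 s'.2 s'.2) := by
      rintro ⟨k, i⟩ ⟨l, j⟩
      by_cases hkl : k = l
      · subst hkl
        show e k i i * e k j j = e k j j * e k i i
        rw [(hMU k).mul, (hMU k).mul]
        by_cases hij : i = j
        · subst hij; rfl
        · rw [if_neg hij, if_neg (Ne.symm hij)]
      · exact hcomm k l hkl i i j j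
    intro a b
    exact hgen (φ a) (φ b)
  set a₁ : A := ∑' m, ((1 / 5 : ℝ) ^ m) • p m with ha₁
  -- second generator
  set Y : ℕ → A := fun k => ∑ i, ∑ j, e k i j with hY
  set δ : ℕ → ℝ := fun k => (1 / 2 : ℝ) ^ k / (1 + ‖Y k‖) with hδ
  have hδpos : ∀ k, 0 < δ k := fun k => by
    have := norm_nonneg (Y k)
    positivity
  have hYs : ∀ k, star (Y k) = Y k := by
    intro k
    simp only [hY, star_sum, (hMU k).st]
    exact Finset.sum_comm
  set a₂ : A := ∑' k, δ k • Y k with ha₂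
  have hsum₂ : Summable (fun k => δ k • Y k) := by
    refine Summable.of_norm_bounded (g := fun m => (1 / 2 : ℝ) ^ m)
      (summable_geometric_of_lt_one (by norm_num) (by norm_num)) (fun k => ?_)
    rw [norm_smul, Real.norm_of_nonneg (hδpos k).le]
    have h1 := norm_nonneg (Y k)
    rw [hδ]
    simp only
    rw [div_mul_eq_mul_div, div_le_iff₀ (by positivity)]
    have : 0 ≤ (1 / 2 : ℝ) ^ k := by positivity
    nlinarith
  have hsum₁ : Summable (fun m => ((1 / 5 : ℝ) ^ m) • p m) :=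
    tg_summable (fun m => tg_norm_proj_le (hpp m))
  have hsa₁ : IsSelfAdjoint a₁ := by
    rw [IsSelfAdjoint, ha₁, tsum_star]
    congr 1
    ext m
    rw [star_smul, (hpp m).isSelfAdjoint.star_eq]
    simp
  have hsa₂ : IsSelfAdjoint a₂ := by
    rw [IsSelfAdjoint, ha₂, tsum_star]
    congr 1
    ext m
    rw [star_smul, hYs]
    simp
  have hsmul : ∀ (N : StarSubalgebra ℂ A) (c : ℝ) (x : A), x ∈ N → c • x ∈ N := by
    intro N c x hx
    rw [← Complex.coe_smul]
    exact N.smul_mem hx _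
  -- all units are in every closed star subalgebra containing the generators
  have hgen : ∀ N : StarSubalgebra ℂ A, IsClosed (N : Set A) → a₁ ∈ N → a₂ ∈ N →
      ∀ k i j, e k i j ∈ N := by
    intro N hN h1 h2
    have hd : ∀ k i, e k i i ∈ N := by
      intro k i
      obtain ⟨m, hm⟩ := hφ ⟨k, i⟩
      have := tg_extract_all hN p hpp hpc h1 m
      simp only [hp] at this
      rwa [hm] at this
    intro k i j
    by_cases hij : i = j
    · subst hij; exact hd k i
    · have e1 : e k i i * a₂ * e k j j = δ k • e k i j := by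
        rw [ha₂, ← hsum₂.tsum_mul_left, ← (hsum₂.mul_left _).tsum_mul_right, tsum_eq_single k]
        · rw [mul_smul_comm, smul_mul_assoc]
          congr 1
          simp only [hY, Finset.mul_sum, Finset.sum_mul]
          rw [Finset.sum_eq_single i, Finset.sum_eq_single j]
          · rw [(hMU k).mul, if_pos rfl, (hMU k).mul, if_pos rfl]
          · intro b _ hb
            rw [(hMU k).mul, if_pos rfl, (hMU k).mul, if_neg hb]
          · intro hb; exact absurd (Finset.mem_univ _) hb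
          · intro b _ hb
            refine Finset.sum_eq_zero (fun c _ => ?_)
            rw [(hMU k).mul, if_neg (Ne.symm hb), zero_mul]
          · intro hb; exact absurd (Finset.mem_univ _) hb
        · intro l hl
          rw [mul_smul_comm, smul_mul_assoc]
          have : e k i i * Y l * e k j j = 0 := by
            simp only [hY, Finset.mul_sum, Finset.sum_mul]
            refine Finset.sum_eq_zero (fun b _ => Finset.sum_eq_zero (fun c _ => ?_))
            rw [mul_assoc, ← hcomm k l (Ne.symm hl), ← mul_assoc, (hMU k).mul, if_neg hij, zero_mul]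
          rw [this, smul_zero]
      have e2 : e k i j = (δ k)⁻¹ • (e k i i * a₂ * e k j j) := by
        rw [e1, smul_smul, inv_mul_cancel₀ (hδpos k).ne', one_smul]
      rw [e2]
      exact hsmul N _ _ (mul_mem (mul_mem (hd k i) h2) (hd k j))
  refine ⟨a₁, ?_, a₂, ?_, hsa₁, hsa₂, ?_, ?_⟩
  · exact tg_sum_mem hMc (fun m => hsmul M _ _ (heM _ _ _))
  · exact tg_sum_mem hMc (fun m => hsmul M _ _ (sum_mem fun i _ => sum_mem fun j _ => heM _ _ _))
  · intro x hx h1 h2
    have hc1 : ∀ a : A, IsSelfAdjoint a → a * x = x * a →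
        a ∈ StarSubalgebra.centralizer ℂ ({x} : Set A) := by
      intro a ha hax
      rw [StarSubalgebra.mem_centralizer_iff]
      intro g hg
      rw [Set.mem_singleton_iff] at hg
      subst hg
      refine ⟨hax.symm, ?_⟩
      have := congrArg star hax
      rw [star_mul, star_mul, ha.star_eq] at this
      exact this
    have hclosed : IsClosed ((StarSubalgebra.centralizer ℂ ({x} : Set A) : StarSubalgebra ℂ A) : Set A) := by
      rw [StarSubalgebra.coe_centralizer]
      exact Set.isClosed_centralizer _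
    have hex := hgen _ hclosed (hc1 a₁ hsa₁ h1) (hc1 a₂ hsa₂ h2)
    have hx' : ∀ k i j, e k i j * x = x * e k i j := by
      intro k i j
      have := hex k i j
      rw [StarSubalgebra.mem_centralizer_iff] at this
      exact (this x (Set.mem_singleton _)).1.symm
    refine ⟨τ x, ?_⟩
    rw [← sub_eq_zero]
    apply eq_zero_of_n2
    refine le_antisymm ?_ (n2_nonneg _)
    refine le_of_forall_pos_le_add (fun ε hε => ?_)
    rw [zero_add]
    obtain ⟨j, hj⟩ := ht x hx (ε / 3) (by positivity)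
    obtain ⟨k, hk⟩ := exists_nat_one_div_lt (show (0 : ℝ) < ε / 3 by positivity)
    have h3 := hq x hx' j (max j k) (le_max_left _ _)
    have h4 : (1 : ℝ) / (((max j k : ℕ) : ℝ) + 1) ≤ 1 / ((k : ℝ) + 1) := by
      apply one_div_le_one_div_of_le (by positivity)
      have : (k : ℝ) ≤ ((max j k : ℕ) : ℝ) := by exact_mod_cast le_max_right _ _
      linarith
    have h5 : n2 (τ (t j) • (1 : A) - τ x • (1 : A)) ≤ n2 (x - t j) := by
      rw [← sub_smul, n2_smul, n2_one, mul_one, ← map_sub]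
      refine (norm_τ_le_n2 _).trans (le_of_eq (n2_sub_comm _ _))
    have h6 := n2_triangle x (τ (t j) • (1 : A)) (τ x • (1 : A))
    linarith
  · intro K
    have hN := hgen (StarAlgebra.adjoin ℂ ({a₁, a₂} : Set A)).topologicalClosure
      (StarSubalgebra.isClosed_topologicalClosure _)
      (StarSubalgebra.le_topologicalClosure _ (StarAlgebra.subset_adjoin ℂ _ (by simp)))
      (StarSubalgebra.le_topologicalClosure _ (StarAlgebra.subset_adjoin ℂ _ (by simp)))
    obtain ⟨m, E, hm, hE, -⟩ := tg_big hn hMU hR hN K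
    exact ⟨m, (Nat.lt_two_pow_self.le).trans hm, E, hE⟩

end Crest.Agent.GenII1
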