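import Crest.Agent.GenII1.Basic

/-! Words in one unitary; reduced words; freeness of a unitary from a subalgebra. -/

set_option autoImplicit false

namespace Crest.Agent.GenII1

open Filter Topology

variable {A : Type*} [CStarAlgebra A]

/-- `v` or `v⋆` -/
def pw (v : A) (b : Bool) : A := if b then v else star v

@[simp] theorem pw_true (v : A) : pw v true = v := rfl
@[simp] theorem pw_false (v : A) : pw v false = star v := rfl

/-- the word `s₀ v^{b₁} s₁ v^{b₂} s₂ ⋯` -/
def wd (v : A) : A → List (Bool × A) → A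
  | s, [] => s
  | s, (b, t) :: l => s * pw v b * wd v t l

variable [TracialC A]

/-- reduced words: the coefficient between `v^{b}` and `v^{b'}` with `b ≠ b'` has trace zero -/
def Rd (l : List (Bool × A)) : Prop := l.IsChain (fun x y => x.1 ≠ y.1 → τ x.2 = 0)

/-- reduced words `b₀ c^{ε₁} b₁ ⋯ c^{ε}` with coefficients in `B`, at least one letter, ending with
the letter `c^ε` -/
inductive RW (B : Subalgebra ℂ A) (c : A) : Bool → A → Prop
  | base (ε : Bool) (b : A) (hb : b ∈ B) : RW B c ε (b * pw c ε)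
  | same (ε : Bool) (y b : A) (hy : RW B c ε y) (hb : b ∈ B) : RW B c ε (y * b * pw c ε)
  | flip (ε : Bool) (y b : A) (hy : RW B c ε y) (hb : b ∈ B) (h0 : τ b = 0) :
      RW B c (!ε) (y * b * pw c (!ε))

/-- `c` is a Haar unitary free from the unital subalgebra `B` (for `τ`). -/
structure IsFree (B : Subalgebra ℂ A) (c : A) : Prop where
  hu : c ∈ unitary A
  zero : ∀ ε y b, RW B c ε y → b ∈ B → τ (y * b) = 0

/-- algebra generated by `B` and `g, g⋆` -/
def adj (B : Subalgebra ℂ A) (g : A) : Subalgebra ℂ A :=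
  Algebra.adjoin ℂ ((B : Set A) ∪ {g, star g})

/-- algebra generated by `B` and the `g i, (g i)⋆` with `i ∈ s` -/
def adjS (B : Subalgebra ℂ A) (g : ℕ → A) (s : Set ℕ) : Subalgebra ℂ A :=
  Algebra.adjoin ℂ ((B : Set A) ∪ {z | ∃ i ∈ s, z = g i ∨ z = star (g i)})

end Crest.Agent.GenII1
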